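import Vale.Agent.P237.Stmts

/-! The Fischer decomposition. -/

namespace Vale.Agent.P237

open MvPolynomial

namespace TFis

variable {n : ℕ}

/-- the Laplacian as a linear map -/
noncomputable def lapL (n : ℕ) : MP n →ₗ[ℝ] MP n := ⟨⟨lap, lap_add⟩, lap_smul⟩

theorem pd_r2 (i : Fin n) : pderiv i (r2 n) = 2 * X i := by
  simp only [r2, map_sum, Derivation.leibniz_pow, pderiv_X, Pi.single_apply]
  simp [Finset.sum_ite_eq']

theorem lap_r2 : lap (r2 n) = (2 * n : ℝ) • (1 : MP n) := by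
  have : ∀ i : Fin n, pderiv i (2 * X i : MP n) = 2 := fun i => by
    rw [two_mul, map_add, pderiv_X_self]; norm_num
  simp only [lap, pd_r2, this, Finset.sum_const, Finset.card_univ, Fintype.card_fin]
  rw [mul_comm, mul_smul, Nat.cast_smul_eq_nsmul, two_smul, one_add_one_eq_two]

theorem r2_hom : (r2 n).IsHomogeneous 2 :=
  IsHomogeneous.sum _ _ _ fun i _ => isHomogeneous_X_pow i 2

theorem lap_r2_mul {d : ℕ} {g : MP n} (hg : g.IsHomogeneous d) :
    lap (r2 n * g) = (2 * n + 4 * d : ℝ) • g + r2 n * lap g := by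
  have e := hg.sum_X_mul_pderiv
  rw [← Nat.cast_smul_eq_nsmul ℝ] at e
  rw [lap_mul, lap_r2]
  simp only [pd_r2, mul_assoc, ← Finset.mul_sum, e, smul_mul_assoc, one_mul]
  simp only [two_mul]
  module

theorem part1 (l k : ℕ) (h : MP n) (hh : HH l h) :
    lap (r2 n ^ (k + 1) * h) = (2 * ((k : ℝ) + 1) * (n + 2 * l + 2 * k)) • (r2 n ^ k * h) := by
  induction k with
  | zero =>
    rw [zero_add, pow_one, lap_r2_mul hh.1, hh.2, pow_zero, one_mul, mul_zero, add_zero]
    congr 1
    push_cast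
    ring
  | succ k ih =>
    rw [pow_succ' _ (k + 1), mul_assoc, lap_r2_mul ((r2_hom.pow (k + 1)).mul hh.1), ih,
      mul_smul_comm, ← mul_assoc, ← pow_succ', ← add_smul]
    congr 1
    push_cast
    ring

theorem lap_hom {m : ℕ} {p : MP n} (hp : p.IsHomogeneous (m + 2)) : (lap p).IsHomogeneous m :=
  IsHomogeneous.sum _ _ _ fun i _ => by simpa using (hp.pderiv (i := i)).pderiv (i := i)

theorem lap_low {m : ℕ} (hm : m < 2) {p : MP n} (hp : p.IsHomogeneous m) : lap p = 0 := by
  refine Finset.sum_eq_zero fun i _ => ?_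
  have h1 := (hp.pderiv (i := i)).totalDegree_le
  rw [totalDegree_eq_zero_iff_eq_C.1 (show (pderiv i p).totalDegree = 0 by omega), pderiv_C]

end TFis

open TFis

theorem fis : Fis := by
  intro n hn
  refine ⟨part1, fun m => ?_⟩
  induction m using Nat.strong_induction_on with
  | _ m ih =>
  intro p hp
  rcases lt_or_ge m 2 with hm | hm
  · refine ⟨fun k => if k = 0 then p else 0, fun k => ?_, ?_⟩
    · beta_reduce
      split_ifs with hk
      · rw [hk]; exact ⟨hp, lap_low hm hp⟩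
      · exact HH.zero _
    · rw [show m / 2 = 0 by omega]
      simp
  obtain ⟨m, rfl⟩ := Nat.exists_eq_add_of_le' hm
  obtain ⟨g, hg, e⟩ := ih m (by omega) _ (lap_hom hp)
  set c : ℕ → ℝ := fun k => 2 * ((k : ℝ) + 1) * (n + 2 * ((m - 2 * k : ℕ) : ℝ) + 2 * k) with hc
  have hc0 : ∀ k, c k ≠ 0 := fun k => by
    have : (0 : ℝ) < n := by exact_mod_cast hn
    simp only [hc]
    positivity
  set q := ∑ k ∈ Finset.range (m / 2 + 1), r2 n ^ (k + 1) * ((c k)⁻¹ • g k) with hq
  have hq1 : q.IsHomogeneous (m + 2) := IsHomogeneous.sum _ _ _ fun k hk => by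
    have h1 := (r2_hom.pow (k + 1)).mul ((hg k).smul (c k)⁻¹).1
    have h2 := Finset.mem_range.1 hk
    rwa [show 2 * (k + 1) + (m - 2 * k) = m + 2 by omega] at h1
  have hq2 : lapL n q = lapL n p := by
    rw [hq, map_sum]
    refine Eq.trans (Finset.sum_congr rfl fun k _ => ?_) e.symm
    rw [mul_smul_comm, map_smul]
    change (c k)⁻¹ • lap _ = _
    rw [part1 _ k _ (hg k), smul_smul, inv_mul_cancel₀ (hc0 k), one_smul]
  refine ⟨fun k => Nat.casesOn k (p - q) fun k => (c k)⁻¹ • g k, fun k => ?_, ?_⟩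
  · cases k with
    | zero =>
      refine ⟨hp.sub hq1, ?_⟩
      change lapL n (p - q) = 0
      rw [map_sub, hq2, sub_self]
    | succ k =>
      rw [show m + 2 - 2 * (k + 1) = m - 2 * k by omega]
      exact (hg k).smul _
  · rw [show (m + 2) / 2 + 1 = m / 2 + 1 + 1 by omega, Finset.sum_range_succ']
    change p = q + r2 n ^ 0 * (p - q)
    ring

end Vale.Agent.P237
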