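import Vale.Agent.P237.Stmts

/-! Integration by parts on the sphere. -/

namespace Vale.Agent.P237

open MeasureTheory Metric Real Set Filter
open scoped RealInnerProductSpace NNReal ENNReal Topology

namespace TIBP

variable {n : ℕ}

theorem norm_fderiv {x : E n} (hx : x ≠ 0) :
    ∃ L : E n →L[ℝ] ℝ, HasFDerivAt (fun y : E n => ‖y‖) L x ∧ ∀ v, L v = ⟪x, v⟫ * ‖x‖⁻¹ := by
  have h0 : 0 < ‖x‖ := norm_pos_iff.2 hx
  have h1 := (hasStrictFDerivAt_norm_sq x).hasFDerivAt.sqrt (pow_pos h0 2).ne'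
  simp only [sqrt_sq (norm_nonneg _)] at h1
  refine ⟨_, h1, fun v => ?_⟩
  simp only [smul_apply, innerSL_apply_apply, smul_eq_mul, nsmul_eq_mul]
  field_simp
  norm_num

end TIBP

open TIBP in
theorem ibp (h : Pol) : IBP := by
  intro n k G v hn hG hk
  have := nontriv hn
  obtain ⟨ψ, ψ', hcd, -, -, hl, hI⟩ := h n hn
  obtain ⟨⟨C, hC⟩, hs⟩ := hl G hG
  obtain ⟨c, hc, hI⟩ := hI k
  have h1 := (LipschitzWith.const (α := E n) (1 : ℝ)).integral_lineDeriv_mul_eq (μ := volume)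
    hC hs (-v)
  have hA : LL fun x : E n => ⟪x, v⟫ * ‖x‖⁻¹ * G x :=
    ((LL.inner v).mul (LL.norm.inv fun x hx => norm_ne_zero_iff.2 hx)).mul hG
  have h2 := hI (fun x => ⟪x, v⟫ * ‖x‖⁻¹ * G x) (fun x => fderiv ℝ G x v) hA.bm
    (hG.bm_fderiv (BM.const v)) (fun x hx t ht => by
      have : ‖x‖ ≠ 0 := norm_ne_zero_iff.2 hx
      simp only [hk x hx t ht, real_inner_smul_left, norm_smul, Real.norm_eq_abs, abs_of_pos ht]
      field_simp) (fun x hx t ht => by simp [hk.fderiv hx ht])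
  have h3 : ∫ x, (ψ' ‖x‖ * (⟪x, v⟫ * ‖x‖⁻¹ * G x) + ψ ‖x‖ * fderiv ℝ G x v) = 0 := by
    simp only [lineDeriv, deriv_const, zero_mul, integral_zero, neg_neg, mul_one] at h1
    rw [h1]
    refine integral_congr_ae ?_
    filter_upwards [hG.ae_diff hn, (volume : Measure (E n)).ae_ne 0] with x hd hx
    obtain ⟨L, hL, hLv⟩ := norm_fderiv hx
    have h4 := (((hcd.2 ‖x‖).comp_hasFDerivAt x hL).mul hd.hasFDerivAt).hasLineDerivAt v
    have h5 : lineDeriv ℝ (fun x => ψ ‖x‖ * G x) x v = _ := h4.lineDeriv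
    simp only [lineDeriv] at h5
    rw [h5]
    simp only [add_apply, smul_apply, smul_eq_mul, hLv, Function.comp]
    ring
  rw [h3, integral_sub (hG.bm_fderiv (BM.const v)).int (hA.bm.int.const_mul _),
    integral_const_mul] at h2
  have h6 := (mul_eq_zero.1 h2.symm).resolve_left hc.ne'
  have h7 : ∫ a, ⟪a, v⟫ * ‖a‖⁻¹ * G a ∂σ n = ∫ a, ⟪a, v⟫ * G a ∂σ n :=
    integral_congr_ae (σ_ae.mono fun a ha => by simp [ha])
  rw [h7] at h6
  linarith

end Vale.Agent.P237
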