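import Vale.Agent.P237.Stmts

/-! A radial bump function and polar coordinates for homogeneous functions. -/

namespace Vale.Agent.P237

open MeasureTheory Metric Real Set Filter
open scoped RealInnerProductSpace NNReal ENNReal Topology

namespace TPol

variable {n : ℕ}

theorem key (hn : 0 < n) {k : ℝ} {A : E n → ℝ} (hA : BM A) (hk : Hom k A) {φ : ℝ → ℝ}
    (hφ : IntegrableOn (fun r : ℝ => r ^ (n - 1) * (φ r * r ^ k)) (Ioi 0)) :
    Integrable (fun x => φ ‖x‖ * A x) ∧ ∫ x, φ ‖x‖ * A x =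
      (n * kappa n * ∫ r in Ioi (0 : ℝ), r ^ (n - 1) * (φ r * r ^ k)) * ∫ a, A a ∂σ n := by
  have := nontriv hn
  have h1 := (volume : Measure (E n)).measurePreserving_homeomorphUnitSphereProd
  rw [finrank_euclideanSpace_fin] at h1
  have hm : MeasurableSet ({0}ᶜ : Set (E n)) := (measurableSet_singleton _).compl
  have hemb := MeasurableEmbedding.subtype_coe (s := sphere (0 : E n) 1)
    isClosed_sphere.measurableSet
  set F : sphere (0 : E n) 1 × Ioi (0 : ℝ) → ℝ := fun p => A p.1.1 * (φ p.2.1 * p.2.1 ^ k) with hF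
  have h5 : ∀ x : ({0}ᶜ : Set (E n)), φ ‖x.1‖ * A x.1 = F (homeomorphUnitSphereProd (E n) x) := by
    intro x
    have hx0 : x.1 ≠ 0 := x.2
    have hx : 0 < ‖x.1‖ := norm_pos_iff.2 hx0
    have := hk (‖x.1‖⁻¹ • x.1) (smul_ne_zero (inv_ne_zero hx.ne') hx0) _ hx
    rw [smul_smul, mul_inv_cancel₀ hx.ne', one_smul] at this
    simp only [hF, homeomorphUnitSphereProd_apply_fst_coe, homeomorphUnitSphereProd_apply_snd_coe]
    rw [this]; ring
  have hw : Measurable fun r : Ioi (0 : ℝ) => Real.toNNReal (r.1 ^ (n - 1)) :=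
    (measurable_subtype_coe.pow_const _).real_toNNReal
  have hc : ∀ r ∈ Ioi (0 : ℝ), Real.toNNReal (r ^ (n - 1)) • (φ r * r ^ k) =
      r ^ (n - 1) * (φ r * r ^ k) := fun r hr => by
    rw [NNReal.smul_def, Real.coe_toNNReal _ (pow_nonneg hr.out.le _), smul_eq_mul]
  have hA1 : Integrable (fun a : sphere (0 : E n) 1 => A a.1) (volume : Measure (E n)).toSphere := by
    refine (hemb.integrable_map_iff (g := A)).1 ?_
    rw [map_toSphere hn]
    exact hA.int.smul_measure ENNReal.ofReal_ne_top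
  have hA2 : ∫ a : sphere (0 : E n) 1, A a.1 ∂(volume : Measure (E n)).toSphere =
      n * kappa n * ∫ a, A a ∂σ n := by
    rw [← hemb.integral_map, map_toSphere hn, integral_smul_measure,
      ENNReal.toReal_ofReal (nk_pos hn).le, smul_eq_mul]
  have hB1 : Integrable (fun r : Ioi (0 : ℝ) => φ r.1 * r.1 ^ k) (.volumeIoiPow (n - 1)) := by
    simp only [Measure.volumeIoiPow, ENNReal.ofReal]
    rw [integrable_withDensity_iff_integrable_smul hw]
    exact (integrableOn_iff_comap_subtypeVal measurableSet_Ioi).1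
      (hφ.congr_fun (fun r hr => (hc r hr).symm) measurableSet_Ioi)
  have hB2 : ∫ r : Ioi (0 : ℝ), φ r.1 * r.1 ^ k ∂(.volumeIoiPow (n - 1)) =
      ∫ r in Ioi (0 : ℝ), r ^ (n - 1) * (φ r * r ^ k) := by
    simp only [Measure.volumeIoiPow, ENNReal.ofReal]
    rw [integral_withDensity_eq_integral_smul hw,
      integral_subtype_comap measurableSet_Ioi
        fun r => Real.toNNReal (r ^ (n - 1)) • (φ r * r ^ k),
      setIntegral_congr_fun measurableSet_Ioi hc]
  constructor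
  · have h6 := (h1.integrable_comp_emb (Homeomorph.measurableEmbedding _) (g := F)).2
      (hA1.mul_prod hB1)
    have h7 : IntegrableOn (fun x => φ ‖x‖ * A x) ({0}ᶜ : Set (E n)) := by
      rw [integrableOn_iff_comap_subtypeVal hm]
      exact h6.congr (Eventually.of_forall fun x => (h5 x).symm)
    rwa [IntegrableOn, restrict_compl_singleton] at h7
  · have h3 : ∫ x, φ ‖x‖ * A x =
        ∫ x : ({0}ᶜ : Set (E n)), φ ‖x.1‖ * A x.1 ∂(volume.comap Subtype.val) := by
      rw [integral_subtype_comap hm fun x => φ ‖x‖ * A x, restrict_compl_singleton]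
    rw [h3, integral_congr_ae (Eventually.of_forall h5),
      h1.integral_comp (Homeomorph.measurableEmbedding _) F, hF,
      integral_prod_mul (fun a : sphere (0 : E n) 1 => A a.1)
        (fun r : Ioi (0 : ℝ) => φ r.1 * r.1 ^ k), hA2, hB2]
    ring

theorem intOn {φ : ℝ → ℝ} (hc : Continuous φ) (h0 : ∀ r, r ∉ Icc (1 : ℝ) 2 → φ r = 0) (m : ℕ)
    (s : ℝ) : IntegrableOn (fun r : ℝ => r ^ m * (φ r * r ^ s)) (Ioi 0) := by
  have h1 : IntegrableOn (fun r : ℝ => r ^ m * (φ r * r ^ s)) (Icc 1 2) := by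
    refine ContinuousOn.integrableOn_Icc ?_
    refine (continuousOn_pow m).mul (hc.continuousOn.mul ?_)
    exact continuousOn_id.rpow_const fun r hr => Or.inl (one_pos.trans_le hr.1).ne'
  exact h1.of_forall_diff_eq_zero measurableSet_Ioi fun r hr => by simp [h0 r hr.2]

theorem lip {g : E n → ℝ} (hg : LL g) (h1 : ∀ x, ‖x‖ ≤ 1 → g x = 0)
    (h2 : ∀ x, 2 ≤ ‖x‖ → g x = 0) : ∃ C, LipschitzWith C g := by
  have hl : LocallyLipschitz g := by
    intro x
    by_cases hx : x = 0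
    · refine ⟨0, closedBall 0 1, hx ▸ closedBall_mem_nhds _ one_pos, ?_⟩
      intro a ha b hb
      simp [h1 a (by simpa using ha), h1 b (by simpa using hb)]
    · exact hg x hx
  obtain ⟨K, hK⟩ := (hl.locallyLipschitzOn (s := closedBall (0 : E n) 3))
    |>.exists_lipschitzOnWith_of_compact (isCompact_closedBall _ _)
  obtain ⟨M, hM⟩ := (isCompact_closedBall (0 : E n) 3).exists_bound_of_continuousOn hK.continuousOn
  have aux : ∀ x y, 3 < ‖x‖ → dist (g x) (g y) ≤ max (K : ℝ) M * dist x y := by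
    intro x y hx
    have hM0 : (0 : ℝ) ≤ max (K : ℝ) M := K.2.trans (le_max_left _ _)
    rw [h2 x (by linarith)]
    rcases le_total 2 ‖y‖ with hy | hy
    · rw [h2 y hy, dist_self]; positivity
    · have h3 : 1 ≤ dist x y := by
        rw [dist_eq_norm]; linarith [norm_sub_norm_le x y]
      have h4 := hM y (by simp; linarith)
      rw [dist_zero_left]
      nlinarith [le_max_right (K : ℝ) M]
  refine ⟨(max (K : ℝ) M).toNNReal, LipschitzWith.of_dist_le' fun x y => ?_⟩
  rcases lt_or_ge 3 ‖x‖ with hx | hx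
  · exact aux x y hx
  rcases lt_or_ge 3 ‖y‖ with hy | hy
  · rw [dist_comm, dist_comm x]; exact aux y x hy
  exact (hK.dist_le_mul x (by simpa using hx) y (by simpa using hy)).trans
    (mul_le_mul_of_nonneg_right (le_max_left _ _) dist_nonneg)

theorem bump : ∃ ψ ψ' : ℝ → ℝ, CD ψ ψ' ∧ (∀ r, 0 ≤ ψ r) ∧ (∀ r, r ≤ 1 → ψ r = 0) ∧
    (∀ r, 2 ≤ r → ψ r = 0) ∧ (∀ r, r ∉ Icc (1 : ℝ) 2 → ψ' r = 0) ∧
    ∀ r ∈ Ioo (1 : ℝ) 2, 0 < ψ r := by
  let f : ContDiffBump (3 / 2 : ℝ) := ⟨1 / 4, 1 / 2, by norm_num, by norm_num⟩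
  have hf : ContDiff ℝ 1 f := f.contDiff
  have h1 : ∀ r, r ≤ 1 → f r = 0 := fun r hr => f.zero_of_le_dist (by
    rw [Real.dist_eq]; change 1 / 2 ≤ _; linarith [neg_le_abs (r - 3 / 2)])
  have h2 : ∀ r, 2 ≤ r → f r = 0 := fun r hr => f.zero_of_le_dist (by
    rw [Real.dist_eq]; change 1 / 2 ≤ _; linarith [le_abs_self (r - 3 / 2)])
  refine ⟨f, deriv f, ⟨hf.continuous_deriv_one, fun s =>
    (hf.differentiable one_ne_zero s).hasDerivAt⟩, fun r => f.nonneg, h1, h2, fun r hr => ?_,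
    fun r hr => f.pos_of_mem_ball ?_⟩
  · have : (f : ℝ → ℝ) =ᶠ[𝓝 r] fun _ => 0 := by
      rcases not_and_or.1 hr with h | h
      · filter_upwards [gt_mem_nhds (not_le.1 h)] with s hs using h1 s hs.le
      · filter_upwards [lt_mem_nhds (not_le.1 h)] with s hs using h2 s hs.le
    rw [this.deriv_eq, deriv_const]
  · rw [mem_ball, Real.dist_eq, abs_lt]
    change -(1 / 2) < _ ∧ _ < 1 / 2
    constructor <;> linarith [hr.1, hr.2]

end TPol

open TPol in
theorem pol : Pol := by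
  intro n hn
  obtain ⟨ψ, ψ', hcd, h0, h1, h2, h3, h4⟩ := bump
  have h5 : ∀ r, r ∉ Icc (1 : ℝ) 2 → ψ r = 0 := fun r hr => by
    rcases not_and_or.1 hr with h | h
    · exact h1 r (not_le.1 h).le
    · exact h2 r (not_le.1 h).le
  have hψ : Continuous ψ := hcd.contDiff.continuous
  refine ⟨ψ, ψ', hcd, h0, h1 0 zero_le_one, fun G hG => ⟨?_, ?_⟩, fun k => ?_⟩
  · exact lip ((LL.norm.comp_cd hcd).mul hG) (fun x hx => by simp [h1 _ hx])
      fun x hx => by simp [h2 _ hx]
  · refine HasCompactSupport.intro (isCompact_closedBall (0 : E n) 2) fun x hx => ?_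
    simp [h2 ‖x‖ (by simpa using (not_le.1 (mt mem_closedBall_zero_iff.2 hx)).le)]
  have i1 := intOn hcd.1 h3 (n - 1) k
  have i2 := intOn hψ h5 (n - 1) (k - 1)
  set I := ∫ r in Ioi (0 : ℝ), r ^ (n - 1) * (ψ r * r ^ (k - 1)) with hI
  have hpos : 0 < I := by
    rw [hI, setIntegral_pos_iff_support_of_nonneg_ae _ i2]
    · refine lt_of_lt_of_le (b := volume (Ioo (1 : ℝ) 2)) (by simp) (measure_mono fun r hr => ?_)
      have hr0 : 0 < r := one_pos.trans hr.1
      exact ⟨(mul_pos (pow_pos hr0 _) (mul_pos (h4 r hr) (rpow_pos_of_pos hr0 _))).ne', hr0⟩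
    · filter_upwards [ae_restrict_mem measurableSet_Ioi] with r hr
      exact mul_nonneg (pow_nonneg hr.out.le _) (mul_nonneg (h0 r) (rpow_nonneg hr.out.le _))
  have hibp : ∫ r in Ioi (0 : ℝ), r ^ (n - 1) * (ψ' r * r ^ k) = -(n + k - 1) * I := by
    have e := integral_Ioi_of_hasDerivAt_of_tendsto (a := 0) (m := 0)
      (f := fun r : ℝ => ψ r * r ^ (n + k - 1 : ℝ))
      (f' := fun r : ℝ => r ^ (n - 1) * (ψ' r * r ^ k) +
        (n + k - 1) * (r ^ (n - 1) * (ψ r * r ^ (k - 1)))) ?_ ?_ (i1.add (i2.const_mul _)) ?_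
    · rw [integral_add i1 (i2.const_mul _), integral_const_mul, h1 0 zero_le_one] at e
      linarith
    · refine ContinuousAt.continuousWithinAt (continuousAt_const (y := (0 : ℝ)) |>.congr ?_)
      filter_upwards [gt_mem_nhds (one_pos : (0 : ℝ) < 1)] with s hs
      simp [h1 s hs.le]
    · intro r hr
      have hr0 : 0 < r := hr
      have e1 : r ^ (n + k - 1 : ℝ) = r ^ (n - 1) * r ^ k := by
        rw [← rpow_natCast, ← rpow_add hr0, Nat.cast_pred hn]; ring_nf
      have e2 : r ^ (n + k - 1 - 1 : ℝ) = r ^ (n - 1) * r ^ (k - 1) := by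
        rw [← rpow_natCast, ← rpow_add hr0, Nat.cast_pred hn]; ring_nf
      refine ((hcd.2 r).mul (hasDerivAt_rpow_const (p := n + k - 1) (Or.inl hr0.ne'))).congr_deriv ?_
      rw [e1, e2]; ring
    · refine tendsto_const_nhds.congr' ?_
      filter_upwards [eventually_ge_atTop (2 : ℝ)] with s hs
      simp [h2 s hs]
  refine ⟨n * kappa n * I, mul_pos (nk_pos hn) hpos, fun A B hA hB hA' hB' => ?_⟩
  obtain ⟨a1, a2⟩ := key hn hA hA' i1
  obtain ⟨b1, b2⟩ := key hn hB hB' i2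
  rw [integral_add a1 b1, a2, b2, hibp, integral_sub hB.int (hA.int.const_mul _),
    integral_const_mul]
  ring

end Vale.Agent.P237
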