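import Vale.Agent.P237.Defs

/-! Petty projection conjecture: auxiliary definitions. -/

namespace Vale.Agent.P237

open MeasureTheory Metric Real Set
open scoped RealInnerProductSpace NNReal Topology

variable {n : ℕ}

/-- the uniform probability measure on the unit sphere, as a measure on the space -/
noncomputable def σ (n : ℕ) : Measure (E n) :=
  ((volume : Measure (E n)).toSphere univ)⁻¹ •
    ((volume : Measure (E n)).toSphere).map Subtype.val

/-- locally Lipschitz away from the origin -/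
def LL (G : E n → ℝ) : Prop := ∀ x, x ≠ 0 → ∃ C : ℝ≥0, ∃ U ∈ 𝓝 x, LipschitzOnWith C G U

/-- positively homogeneous of degree `k` away from the origin -/
def Hom (k : ℝ) (G : E n → ℝ) : Prop := ∀ x, x ≠ 0 → ∀ t : ℝ, 0 < t → G (t • x) = t ^ k * G x

/-- a gauge function -/
structure Gau (N : E n → ℝ) : Prop where
  add : ∀ x y, N (x + y) ≤ N x + N y
  smul : ∀ t : ℝ, 0 ≤ t → ∀ x, N (t • x) = t * N x
  low : ∃ c : ℝ, 0 < c ∧ ∀ x, c * ‖x‖ ≤ N x
  up : ∃ T : ℝ, ∀ x, N x ≤ T * ‖x‖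

/-- the mean of `|⟪a, v⟫|` over the sphere, for any unit vector `v` -/
noncomputable def c1 (n : ℕ) : ℝ := 2 * kappa (n - 1) / (n * kappa n)

abbrev MP (n : ℕ) := MvPolynomial (Fin n) ℝ

/-- a polynomial as a function -/
noncomputable def ev (p : MP n) (x : E n) : ℝ := MvPolynomial.eval (fun i => x i) p

noncomputable def lap (p : MP n) : MP n := ∑ i, MvPolynomial.pderiv i (MvPolynomial.pderiv i p)

/-- harmonic and homogeneous of degree `j` -/
def HH (j : ℕ) (p : MP n) : Prop := p.IsHomogeneous j ∧ lap p = 0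

noncomputable def r2 (n : ℕ) : MP n := ∑ i, MvPolynomial.X i ^ 2

/-- an orthogonal family of odd harmonics of degree at least three which, together with the
linear functions, spans the homogeneous polynomials of degree `m` on the sphere -/
structure HB (n m : ℕ) where
  L : ℕ
  deg : Fin L → ℕ
  P : Fin L → MP n
  hh : ∀ i, HH (deg i) (P i)
  odd : ∀ i, Odd (deg i)
  three : ∀ i, 3 ≤ deg i
  orth : ∀ i k, ∫ a, ev (P i) a * ev (P k) a ∂σ n = if i = k then 1 / (n : ℝ) else 0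
  span : ∀ p : MP n, p.IsHomogeneous m → ∃ (c : E n) (d : Fin L → ℝ), ∀ a, ‖a‖ = 1 →
    ev p a = ⟪c, a⟫ + ∑ i, d i * ev (P i) a

/-- the energy weights -/
noncomputable def th (n j : ℕ) : ℝ :=
  if j = 3 then (n : ℝ) + 1 else ((n : ℝ) + 1) / 15 * j * (j + n - 2)

/-- the strictness factor -/
noncomputable def η : ℝ := 1999 / 2000

namespace HB

variable {m : ℕ} (β : HB n m)

/-- the vector field with coefficients `y` -/
noncomputable def r (y : Fin β.L → E n) (a : E n) : E n := ∑ i, ev (β.P i) a • y i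

/-- its tangential divergence -/
noncomputable def dv (y : Fin β.L → E n) (a : E n) : ℝ :=
  ∑ i, (fderiv ℝ (ev (β.P i)) a (y i) - ((β.deg i : ℝ) + n - 1) * (ev (β.P i) a * ⟪y i, a⟫))

/-- its energy -/
noncomputable def En (y : Fin β.L → E n) : ℝ := ∑ i, th n (β.deg i) * ‖y i‖ ^ 2 / n

/-- a field with a linear part -/
noncomputable def W (w : Fin n ⊕ Fin β.L → E n) (a : E n) : E n :=
  ∑ k, a k • w (.inl k) + β.r (fun i => w (.inr i)) a

/-- the support function of the range of a field -/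
noncomputable def hW (w : Fin n ⊕ Fin β.L → E n) (ν : E n) : ℝ :=
  ⨆ b : sphere (0 : E n) 1, ⟪β.W w b, ν⟫

/-- the signature on the side of vector fields -/
noncomputable def gs : Fin n ⊕ Fin β.L → ℝ
  | .inl _ => 1
  | .inr i => -th n (β.deg i)

end HB

/-- weighted Gram matrix -/
noncomputable def gram {J : Type} [Fintype J] (g : J → ℝ) (q : J → E n) :
    Matrix (Fin n) (Fin n) ℝ := Matrix.of fun i k => ∑ j, g j * (q j i * q j k)

noncomputable def pair {J : Type} [Fintype J] (q w : J → E n) : ℝ := ∑ j, ⟪q j, w j⟫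

/-- matrix times vector -/
noncomputable def mv (A : Matrix (Fin n) (Fin n) ℝ) (x : E n) : E n :=
  WithLp.toLp 2 (A.mulVec x.ofLp)

/-- the matrix of the linear part -/
def lin {J : Type} (w : Fin n ⊕ J → E n) : Matrix (Fin n) (Fin n) ℝ :=
  Matrix.of fun i k => w (.inl k) i

/-- integral against the surface area measure of the unit ball of `N` -/
noncomputable def SA (N h : E n → ℝ) : ℝ := ∫ a, (N a)⁻¹ ^ n * h (gradient N a) ∂σ n

/-- the quadratic form with coefficients `B1, B2, B3` -/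
def qf (B1 B2 B3 x y : ℝ) : ℝ := B1 * x ^ 2 + 2 * B2 * x * y + B3 * y ^ 2

/-- the conditions under which the energy dominates the pointwise form -/
structure EOK (n : ℕ) (B1 B2 B3 b : ℝ) : Prop where
  pos : 0 < b
  le : b ≤ η * (n + 1)
  two : 0 ≤ (η * (n + 1) - b) * (n + 2) + n * (b - qf B1 B2 B3 1 2)
  high : ∀ k : ℕ, (k = 4 ∨ 6 ≤ k) → ∀ U V : ℝ,
    qf B1 B2 B3 (U + V) (-((k : ℝ) + n - 2) * U + k * V) ≤
      (η * th n (k - 1) - b) * ((2 * k + n - 2) / k) * U ^ 2 +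
      (η * th n (k + 1) - b) * ((2 * k + n - 2) / (k + n - 2)) * V ^ 2 + b * (U + V) ^ 2

/-- a function with mean zero over the sphere -/
def Zf (n : ℕ) (k k' : ℝ → ℝ) (y : ℝ) : ℝ := (1 - n * y) * k y + 2 * y * (1 - y) * k' y

/-- `f'` is the continuous derivative of `f` -/
def CD (f f' : ℝ → ℝ) : Prop := Continuous f' ∧ ∀ s, HasDerivAt f (f' s) s

/-- the dual certificate -/
def Cert (n : ℕ) (α T : ℝ) : Prop :=
  ∃ (w1 w2 Ψ χ φ k k' : ℝ → ℝ) (μ f0 ξ c11 c12 c22 B1 B2 B3 b : ℝ),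
    CD Ψ w1 ∧ CD φ χ ∧ CD k k' ∧ Continuous w2 ∧ EOK n B1 B2 B3 b ∧
    (∀ x y u v : ℝ, u * x + v * y ≤ qf B1 B2 B3 x y / 2 + qf c11 c12 c22 u v / 2) ∧
    ∀ s p y : ℝ, 0 < s → s ≤ T → 0 ≤ p → p ≤ T ^ 2 - s ^ 2 → 0 ≤ y → y ≤ 1 →
      T ^ 2 * y ≤ s ^ 2 → 0 ≤ w1 s + w2 s ∧ 0 ≤ φ s ∧
      (α ^ 2 - 1) / 2 ≤ (w1 s + w2 s) * (α * s - 1) -
        qf c11 c12 c22 ((w1 s + w2 s) * s - f0 - ξ * (n * y - 1)) (-(Ψ s - ξ * (n * y - 1) / 2)) / 2
        - w2 s ^ 2 * p / (2 * b) + χ s * p - (n - 1) * s * φ s + μ * (s⁻¹ ^ n - 1) - Zf n k k' y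

/-- an upper bound for the square of `n * c1 n` -/
noncomputable def t0sq (n : ℕ) : ℝ :=
  45 * ((n : ℝ) + 1) ^ 2 * ((n : ℝ) + 3) ^ 2 / (64 * ((n : ℝ) + 2) ^ 2 * ((n : ℝ) + 4))

/-- the multipliers of the kernels `t ^ m` -/
noncomputable def mu (n : ℕ) (M : ℕ → ℝ) : ℕ → ℕ → ℝ
  | m, 0 => M m
  | 0, _ + 1 => 0
  | m + 1, j + 1 => (m + 1) * mu n M m j / (n + j + m)

/-- the even moments: the mean of `⟪a, v⟫ ^ m` -/
noncomputable def mom (n : ℕ) : ℕ → ℝ
  | 0 => 1
  | 1 => 0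
  | m + 2 => (m + 1) * mom n m / (n + m)

/-- the absolute moments: the mean of `|⟪a, v⟫| ^ m` -/
noncomputable def amom (n : ℕ) : ℕ → ℝ
  | 0 => 1
  | 1 => c1 n
  | m + 2 => (m + 1) * amom n m / (n + m)

/-- the multipliers of the sign kernel, for odd `j` -/
noncomputable def sj (n : ℕ) : ℕ → ℝ
  | 0 => 0
  | 1 => c1 n
  | j + 2 => -(j : ℝ) * sj n j / (n + j)

end Vale.Agent.P237
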