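import Vale.Agent.P237.Chk

/-! Values of the checker's numbers and polynomials. -/

namespace Vale.Agent.P237

namespace Z

def v (a : Z) : ℝ := (a.p : ℝ) - a.m

@[simp] theorem v_mk (p m : ℕ) : (Z.mk p m).v = (p : ℝ) - m := rfl
@[simp] theorem v_add (a b : Z) : (a.add b).v = a.v + b.v := by simp [v, add]; ring
@[simp] theorem v_sub (a b : Z) : (a.sub b).v = a.v - b.v := by simp [v, sub]; ring
@[simp] theorem v_neg (a : Z) : a.neg.v = -a.v := by simp [v, neg]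
@[simp] theorem v_mul (a b : Z) : (a.mul b).v = a.v * b.v := by simp [v, mul]; ring
@[simp] theorem v_nm (k : ℕ) (a : Z) : (a.nm k).v = k * a.v := by simp [v, nm]; ring
@[simp] theorem v_o : o.v = 0 := by simp [v, o]

@[simp] theorem v_nrm (a : Z) : a.nrm.v = a.v := by
  simp only [v, nrm, Nat.sub_eq]
  rcases le_total a.p a.m with h | h
  · simp [Nat.sub_eq_zero_of_le h, Nat.cast_sub h]
  · simp [Nat.sub_eq_zero_of_le h, Nat.cast_sub h]

@[simp] theorem v_of (k : ℤ) : (of k).v = k := by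
  have := congrArg (Int.cast : ℤ → ℝ) (Int.toNat_sub_toNat_neg k)
  rw [Int.cast_sub, Int.cast_natCast, Int.cast_natCast] at this
  exact this

theorem v_dv (a : Z) {K : ℕ} (hK : 0 < K) : (a.dv K).v ≤ a.v / K := by
  have hK' : (0 : ℝ) < K := by exact_mod_cast hK
  have h1 : ((a.p / K : ℕ) : ℝ) ≤ a.p / K := Nat.cast_div_le
  have h2 : a.m ≤ (a.m + K.pred) / K * K := by
    have := Nat.div_add_mod (a.m + K.pred) K
    have := Nat.mod_lt (a.m + K.pred) hK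
    rw [Nat.pred_eq_sub_one] at *
    rw [mul_comm]; omega
  have h3 : (a.m : ℝ) / K ≤ ((a.m + K.pred) / K : ℕ) := by
    rw [div_le_iff₀ hK']; exact_mod_cast h2
  show ((a.p / K : ℕ) : ℝ) - ((a.m + K.pred) / K : ℕ) ≤ _
  rw [v, sub_div]; linarith

theorem nn_iff (a : Z) : a.nn = true ↔ 0 ≤ a.v := by simp [nn, v]

theorem v_int (a : Z) : (((a.p : ℤ) - a.m : ℤ) : ℝ) = a.v := by simp [v]

end Z

noncomputable def P3.ev (a : P3) (t : ℝ) : ℝ := a.c0.v + a.c1.v * t + a.c2.v * t ^ 2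

noncomputable def P5.ev (a : P5) (t : ℝ) : ℝ :=
  a.c0.v + a.c1.v * t + a.c2.v * t ^ 2 + a.c3.v * t ^ 3 + a.c4.v * t ^ 4

/-- the value in the Bernstein basis -/
noncomputable def P5.bv (a : P5) (t : ℝ) : ℝ :=
  a.c0.v * (1 - t) ^ 4 + 4 * a.c1.v * (t * (1 - t) ^ 3) + 6 * a.c2.v * (t ^ 2 * (1 - t) ^ 2) +
    4 * a.c3.v * (t ^ 3 * (1 - t)) + a.c4.v * t ^ 4

variable (t : ℝ)

@[simp] theorem P3.ev_mk (a b c : Z) : (P3.mk a b c).ev t = a.v + b.v * t + c.v * t ^ 2 := rfl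
@[simp] theorem P3.ev_add (a b : P3) : (a.add b).ev t = a.ev t + b.ev t := by
  simp [P3.ev, P3.add]; ring
@[simp] theorem P3.ev_sm (k : Z) (a : P3) : (a.sm k).ev t = k.v * a.ev t := by
  simp [P3.ev, P3.sm]; ring
@[simp] theorem P3.ev_nm (k : ℕ) (a : P3) : (a.nm k).ev t = k * a.ev t := by
  simp [P3.ev, P3.nm]; ring
@[simp] theorem P3.ev_mul (a b : P3) : (a.mul b).ev t = a.ev t * b.ev t := by
  simp [P3.ev, P5.ev, P3.mul]; ring
@[simp] theorem P3.ev_nrm (a : P3) : a.nrm.ev t = a.ev t := by simp [P3.ev, P3.nrm]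
@[simp] theorem ev_lin2 (a0 a1 b0 b1 : Z) :
    (lin2 a0 a1 b0 b1).ev t = (a0.v + a1.v * t) * (b0.v + b1.v * t) := by
  simp [lin2]; ring
@[simp] theorem P5.ev_add (a b : P5) : (a.add b).ev t = a.ev t + b.ev t := by
  simp [P5.ev, P5.add]; ring
@[simp] theorem P5.ev_add3 (a : P5) (b : P3) : (a.add3 b).ev t = a.ev t + b.ev t := by
  simp [P5.ev, P3.ev, P5.add3]; ring
@[simp] theorem P5.ev_nm (k : ℕ) (a : P5) : (a.nm k).ev t = k * a.ev t := by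
  simp [P5.ev, P5.nm]; ring
@[simp] theorem P5.ev_neg (a : P5) : a.neg.ev t = -a.ev t := by simp [P5.ev, P5.neg]; ring
@[simp] theorem P5.bv_add (a b : P5) : (a.add b).bv t = a.bv t + b.bv t := by
  simp [P5.bv, P5.add]; ring
@[simp] theorem P5.bv_sm (k : Z) (a : P5) : (a.sm k).bv t = k.v * a.bv t := by
  simp [P5.bv, P5.sm]; ring
@[simp] theorem P5.bv_nm (k : ℕ) (a : P5) : (a.nm k).bv t = k * a.bv t := by
  simp [P5.bv, P5.nm]; ring
@[simp] theorem P5.bv_all (k : Z) (a : P5) : (a.all k).bv t = a.bv t + k.v := by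
  simp [P5.bv, P5.all]; ring
@[simp] theorem P5.bv_tob (a : P5) : a.tob.bv t = 12 * a.ev t := by
  simp [P5.bv, P5.ev, P5.tob]; ring
@[simp] theorem P3.bv_tob (a : P3) : a.tob.bv t = 12 * a.ev t := by
  simp [P5.bv, P3.ev, P3.tob]; ring
theorem P5.bv_zero (a : P5) : a.bv 0 = a.c0.v := by simp [P5.bv]
theorem P5.bv_lft (a : P5) : a.lft.bv t = 16 * a.bv (t / 2) := by
  simp [P5.bv, P5.lft, P5.mid]; ring
theorem P5.bv_rgt (a : P5) : a.rgt.bv t = 16 * a.bv ((t + 1) / 2) := by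
  simp [P5.bv, P5.rgt, P5.mid]; ring

variable {t}

theorem P5.bv_mono {a : P5} {k0 k1 k2 k3 k4 : ℝ} (h0 : 0 ≤ t) (h1 : t ≤ 1) (e0 : k0 ≤ a.c0.v)
    (e1 : k1 ≤ a.c1.v) (e2 : k2 ≤ a.c2.v) (e3 : k3 ≤ a.c3.v) (e4 : k4 ≤ a.c4.v) :
    k0 * (1 - t) ^ 4 + 4 * k1 * (t * (1 - t) ^ 3) + 6 * k2 * (t ^ 2 * (1 - t) ^ 2) +
      4 * k3 * (t ^ 3 * (1 - t)) + k4 * t ^ 4 ≤ a.bv t := by
  have h2 : 0 ≤ 1 - t := by linarith
  unfold P5.bv
  gcongr

theorem P5.bv_dv (a : P5) {K : ℕ} (hK : 0 < K) (h0 : 0 ≤ t) (h1 : t ≤ 1) :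
    (a.dv K).bv t ≤ a.bv t / K := by
  have h2 : 0 ≤ 1 - t := by linarith
  have e : a.bv t / K = a.c0.v / K * (1 - t) ^ 4 + 4 * (a.c1.v / K) * (t * (1 - t) ^ 3) +
      6 * (a.c2.v / K) * (t ^ 2 * (1 - t) ^ 2) + 4 * (a.c3.v / K) * (t ^ 3 * (1 - t)) +
      a.c4.v / K * t ^ 4 := by rw [P5.bv]; ring
  rw [e, P5.bv]
  gcongr <;> exact Z.v_dv _ hK

theorem P5.pos_bv {a : P5} (h : a.pos = true) (h0 : 0 ≤ t) (h1 : t ≤ 1) : 0 ≤ a.bv t := by
  simp only [P5.pos, Bool.and_eq_true, Z.nn_iff] at h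
  simpa using P5.bv_mono h0 h1 h.1.1.1.1 h.1.1.1.2 h.1.1.2 h.1.2 h.2

theorem bern_bv : ∀ (d : ℕ) {a : P5} {t : ℝ}, bern d a = true → 0 ≤ t → t ≤ 1 → 0 ≤ a.bv t
  | 0, _, _, h, h0, h1 => P5.pos_bv h h0 h1
  | d + 1, a, t, h, h0, h1 => by
    simp only [bern, Bool.or_eq_true, Bool.and_eq_true] at h
    rcases h with h | h
    · exact P5.pos_bv h h0 h1
    rcases le_total t (1 / 2) with ht | ht
    · have := bern_bv d (t := 2 * t) h.1 (by linarith) (by linarith)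
      rw [P5.bv_lft, show 2 * t / 2 = t by ring] at this
      linarith
    · have := bern_bv d (t := 2 * t - 1) h.2 (by linarith) (by linarith)
      rw [P5.bv_rgt, show (2 * t - 1 + 1) / 2 = t by ring] at this
      linarith

theorem two_bv {b A1 A2 : P5} (h : two b A1 A2 = true) (h0 : 0 ≤ t) (h1 : t ≤ 1) :
    0 ≤ b.bv t + A1.bv t ∧ 0 ≤ b.bv t + A2.bv t := by
  simp only [two, Bool.and_eq_true] at h
  exact ⟨by simpa using bern_bv 5 h.1 h0 h1, by simpa using bern_bv 5 h.2 h0 h1⟩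

theorem four_bv {b A1 A2 PP : P5} (h : four b A1 A2 PP = true) (h0 : 0 ≤ t) (h1 : t ≤ 1) :
    (0 ≤ b.bv t + A1.bv t ∧ 0 ≤ b.bv t + A2.bv t) ∧
      0 ≤ b.bv t + PP.bv t + A1.bv t ∧ 0 ≤ b.bv t + PP.bv t + A2.bv t := by
  simp only [four, Bool.and_eq_true] at h
  exact ⟨two_bv h.1 h0 h1, by simpa using two_bv h.2 h0 h1⟩

theorem taylor_le (n : ℕ) {x : ℝ} (hx : -1 < x) :
    1 - n * x + n * (n + 1) / 2 * x ^ 2 - n * (n + 1) * (n + 2) / 6 * x ^ 3 ≤ (1 + x)⁻¹ ^ n := by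
  have h : 0 < 1 + x := by linarith
  induction n with
  | zero => simp
  | succ n ih =>
    rw [pow_succ _ n, ← div_eq_mul_inv, le_div_iff₀ h]
    refine le_trans ?_ ih
    push_cast
    have : 0 ≤ ((n : ℝ) + 1) * (n + 2) * (n + 3) / 6 * x ^ 4 := by positivity
    nlinarith [this]

end Vale.Agent.P237
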