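import Vale.Agent.P237.Chk

/-! Tables of hinge means. -/

namespace Vale.Agent.P237

def tab0 : ℕ → ℤ := tabOf []

def tab4 : ℕ → ℤ := tabOf
  [219225, 184924, 155625, 130298, 108308, 89209, 72665, 58391, 46155, 35759, 27032, 19808, 13955, 9312, 5761, 3166, 1389, 272, (-355)]

def tab5 : ℕ → ℤ := tabOf
  [168501, 137130, 111367, 89924, 72010, 57040, 44581, 34287, 25845, 19019, 13576, 9336, 6105, 3720, 2041, 923, 221, (-193), (-455)]

def tab6 : ℕ → ℤ := tabOf
  [135021, 106104, 83225, 64860, 50062, 38159, 28645, 21083, 15161, 10595, 7136, 4586, 2764, 1516, 690, 179, (-125), (-318), (-469)]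

end Vale.Agent.P237
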