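import Mathlib

/-! Petty projection conjecture: the definitions used in the statement. -/

namespace Vale.Agent.P237

open MeasureTheory Metric
open scoped RealInnerProductSpace

abbrev E (n : ℕ) := EuclideanSpace ℝ (Fin n)

/-- compact convex set with nonempty interior -/
def IsBody {n : ℕ} (K : Set (E n)) : Prop := IsCompact K ∧ Convex ℝ K ∧ (interior K).Nonempty

/-- `n`-dimensional volume -/
noncomputable def vol {n : ℕ} (K : Set (E n)) : ℝ := (volume K).toReal

/-- volume, inside the Euclidean space `V`, of the orthogonal projection of `K` onto `V` -/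
noncomputable def shadow {F : Type} [NormedAddCommGroup F] [InnerProductSpace ℝ F]
    [FiniteDimensional ℝ F] [MeasurableSpace F] [BorelSpace F] (V : Submodule ℝ F) (K : Set F) :
    ℝ :=
  (volume (V.orthogonalProjectionOnto '' K)).toReal

/-- `(n-1)`-dimensional volume of the projection of `K` onto the hyperplane orthogonal to `u` -/
noncomputable def projVol {n : ℕ} (K : Set (E n)) (u : E n) : ℝ := shadow (ℝ ∙ u)ᗮ K

/-- the projection body: the convex body with support function `projVol K` on unit vectors -/
def projBody {n : ℕ} (K : Set (E n)) : Set (E n) := {x | ∀ u, ‖u‖ = 1 → ⟪x, u⟫ ≤ projVol K u}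

/-- volume of the unit ball -/
noncomputable def kappa (m : ℕ) : ℝ := vol (closedBall (0 : E m) 1)

/-- the image of the unit ball under an invertible affine map -/
def IsEllipsoid {n : ℕ} (K : Set (E n)) : Prop :=
  ∃ (a : E n) (T : E n ≃L[ℝ] E n), K = (fun x => a + T x) '' closedBall 0 1

end Vale.Agent.P237
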