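import Vale.Agent.P237.Base

/-! Basic facts on the sphere measure; bounded measurable functions. -/

namespace Vale.Agent.P237

open MeasureTheory Metric Real Set
open scoped RealInnerProductSpace NNReal ENNReal Topology

variable {n : ℕ}

theorem kappa_pos (m : ℕ) : 0 < kappa m :=
  ENNReal.toReal_pos (measure_closedBall_pos _ _ one_pos).ne' measure_closedBall_lt_top.ne

theorem nontriv (hn : 0 < n) : Nontrivial (E n) := by
  have : Nonempty (Fin n) := ⟨⟨0, hn⟩⟩
  infer_instance

theorem toSphere_univ (hn : 0 < n) :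
    (volume : Measure (E n)).toSphere univ = ENNReal.ofReal (n * kappa n) := by
  have := nontriv hn
  rw [Measure.toSphere_apply_univ, finrank_euclideanSpace_fin, ENNReal.ofReal_mul (by positivity),
    kappa, vol, ENNReal.ofReal_toReal measure_closedBall_lt_top.ne, ENNReal.ofReal_natCast,
    Measure.addHaar_unitClosedBall_eq_addHaar_unitBall]

theorem nk_pos (hn : 0 < n) : 0 < n * kappa n := mul_pos (by exact_mod_cast hn) (kappa_pos n)

theorem map_toSphere (hn : 0 < n) :
    ((volume : Measure (E n)).toSphere).map Subtype.val = ENNReal.ofReal (n * kappa n) • σ n := by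
  rw [σ, toSphere_univ hn, smul_smul, ENNReal.mul_inv_cancel (ENNReal.ofReal_pos.2 (nk_pos hn)).ne'
    ENNReal.ofReal_ne_top, one_smul]

theorem σ_prob (hn : 0 < n) : IsProbabilityMeasure (σ n) := by
  constructor
  rw [σ, Measure.smul_apply, Measure.map_apply measurable_subtype_coe MeasurableSet.univ,
    preimage_univ, smul_eq_mul, toSphere_univ hn,
    ENNReal.inv_mul_cancel (ENNReal.ofReal_pos.2 (nk_pos hn)).ne' ENNReal.ofReal_ne_top]

instance σ_fin : IsFiniteMeasure (σ n) := by
  constructor
  rw [σ, Measure.smul_apply, Measure.map_apply measurable_subtype_coe MeasurableSet.univ,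
    preimage_univ, smul_eq_mul]
  exact (ENNReal.inv_mul_le_one _).trans_lt ENNReal.one_lt_top

theorem σ_ae : ∀ᵐ a ∂σ n, ‖a‖ = 1 := by
  refine Measure.ae_smul_measure ?_ _
  rw [ae_map_iff measurable_subtype_coe.aemeasurable
    (measurableSet_eq_fun measurable_norm measurable_const)]
  exact Filter.Eventually.of_forall fun a => by simp

/-- polar coordinates -/
theorem polar (hn : 0 < n) {f : E n → ℝ≥0∞} (hf : Measurable f) :
    ∫⁻ x, f x = ENNReal.ofReal (n * kappa n) *
      ∫⁻ a, (∫⁻ r in Ioi (0 : ℝ), ENNReal.ofReal (r ^ (n - 1)) * f (r • a)) ∂σ n := by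
  have := nontriv hn
  have h1 := (volume : Measure (E n)).measurePreserving_homeomorphUnitSphereProd
  rw [finrank_euclideanSpace_fin] at h1
  have hg : Measurable fun p : sphere (0 : E n) 1 × Ioi (0 : ℝ) => f (p.2.1 • p.1.1) :=
    hf.comp (by fun_prop)
  have h2 := h1.lintegral_comp hg
  have h3 : ∫⁻ x, f x = ∫⁻ x : ({0}ᶜ : Set (E n)), f x.1 ∂(volume.comap Subtype.val) := by
    rw [lintegral_subtype_comap (measurableSet_singleton _).compl, restrict_compl_singleton]
  have h4 : Measurable fun a : E n =>
      ∫⁻ r in Ioi (0 : ℝ), ENNReal.ofReal (r ^ (n - 1)) * f (r • a) :=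
    Measurable.lintegral_prod_right (f := fun (a : E n) (r : ℝ) =>
      ENNReal.ofReal (r ^ (n - 1)) * f (r • a))
      ((by fun_prop : Measurable fun p : E n × ℝ => ENNReal.ofReal (p.2 ^ (n - 1))).mul
        (hf.comp (by fun_prop : Measurable fun p : E n × ℝ => p.2 • p.1)))
  rw [← smul_eq_mul, ← lintegral_smul_measure, ← map_toSphere hn,
    lintegral_map h4 measurable_subtype_coe, h3]
  have h5 : ∀ x : ({0}ᶜ : Set (E n)), f x.1 =
      f ((homeomorphUnitSphereProd (E n) x).2.1 • (homeomorphUnitSphereProd (E n) x).1.1) := by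
    intro x
    have hx : ‖x.1‖ ≠ 0 := norm_ne_zero_iff.2 x.2
    simp [smul_smul, hx]
  rw [lintegral_congr h5, h2, lintegral_prod _ hg.aemeasurable]
  refine lintegral_congr fun a => ?_
  have h6 : Measurable fun y : Ioi (0 : ℝ) => f (y.1 • a.1) := hf.comp (by fun_prop)
  refine (lintegral_withDensity_eq_lintegral_mul _ (by fun_prop) h6).trans ?_
  rw [← lintegral_subtype_comap measurableSet_Ioi]
  rfl

/-- a property that holds almost everywhere and descends along rays holds on the sphere -/
theorem σ_ae_of (hn : 0 < n) {p : E n → Prop} (h : ∀ᵐ x, p x)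
    (hp : ∀ x, x ≠ 0 → ∀ t : ℝ, 0 < t → p (t • x) → p x) : ∀ᵐ a ∂σ n, p a := by
  obtain ⟨Z, hZ, hm, h0⟩ := exists_measurable_superset_of_null h
  have h1 := polar hn (f := Z.indicator 1) (measurable_one.indicator hm)
  rw [lintegral_indicator_one hm, h0] at h1
  have h2 := (mul_eq_zero.1 h1.symm).resolve_left (ENNReal.ofReal_pos.2 (nk_pos hn)).ne'
  rw [lintegral_eq_zero_iff (Measurable.lintegral_prod_right (f := fun (a : E n) (r : ℝ) =>
      ENNReal.ofReal (r ^ (n - 1)) * Z.indicator 1 (r • a))
      ((by fun_prop : Measurable fun p : E n × ℝ => ENNReal.ofReal (p.2 ^ (n - 1))).mul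
        ((measurable_one.indicator hm).comp
          (by fun_prop : Measurable fun p : E n × ℝ => p.2 • p.1))))] at h2
  filter_upwards [h2, σ_ae] with a ha h1a
  by_contra hna
  have ha0 : a ≠ 0 := by rintro rfl; simp at h1a
  have h3 : ∀ r ∈ Ioi (0 : ℝ), ENNReal.ofReal (r ^ (n - 1)) * Z.indicator 1 (r • a) =
      ENNReal.ofReal (r ^ (n - 1)) := fun r hr => by
    rw [indicator_of_mem (hZ fun h' => hna (hp a ha0 r hr h'))]; simp
  simp only [Pi.zero_apply] at ha
  rw [setLIntegral_congr_fun measurableSet_Ioi h3, setLIntegral_eq_zero_iff measurableSet_Ioi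
    (by fun_prop)] at ha
  have h4 : ∀ᵐ r : ℝ, r ∉ Ioi (0 : ℝ) := by
    filter_upwards [ha] with r hr h'
    exact absurd (ENNReal.ofReal_eq_zero.1 (hr h')) (not_le.2 (pow_pos h' _))
  have h5 : volume (Ioi (0 : ℝ)) = 0 := measure_eq_zero_iff_ae_notMem.2 h4
  simp at h5

theorem σ_ae_inner (hn : 0 < n) {v : E n} (hv : v ≠ 0) : ∀ᵐ a ∂σ n, ⟪a, v⟫ ≠ 0 := by
  refine σ_ae_of hn ?_ fun x _ t _ h h' => h (by rw [real_inner_smul_left, h', mul_zero])
  have h1 : ((ℝ ∙ v)ᗮ : Submodule ℝ (E n)) ≠ ⊤ := by
    intro h
    have : v ∈ (ℝ ∙ v)ᗮ := by rw [h]; trivial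
    rw [Submodule.mem_orthogonal_singleton_iff_inner_left, inner_self_eq_zero] at this
    exact hv this
  have h2 := Measure.addHaar_submodule (volume : Measure (E n)) _ h1
  rw [ae_iff]
  convert h2 using 2
  ext x
  simp [Submodule.mem_orthogonal_singleton_iff_inner_left]

/-- measurable and bounded on the sphere -/
def BM {F : Type} [NormedAddCommGroup F] [MeasurableSpace F] (f : E n → F) : Prop :=
  Measurable f ∧ ∃ C, ∀ a, ‖a‖ = 1 → ‖f a‖ ≤ C

namespace BM

variable {F : Type} [NormedAddCommGroup F] [MeasurableSpace F] [BorelSpace F]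

theorem int [SecondCountableTopology F] {f : E n → F} (h : BM f) : Integrable f (σ n) := by
  obtain ⟨C, hC⟩ := h.2
  exact Integrable.of_bound h.1.aestronglyMeasurable C (σ_ae.mono hC)

omit [BorelSpace F] in
theorem of_contOn {f : E n → F} (hm : Measurable f) (h : ContinuousOn f (sphere 0 1)) : BM f := by
  obtain ⟨C, hC⟩ := (isCompact_sphere (0 : E n) 1).exists_bound_of_continuousOn h
  exact ⟨hm, C, fun a ha => hC a (by simpa using ha)⟩

theorem of_cont {f : E n → F} (h : Continuous f) : BM f := of_contOn h.measurable h.continuousOn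

theorem const (c : F) : BM fun _ : E n => c := of_cont continuous_const

theorem comp {G : Type} [NormedAddCommGroup G] [MeasurableSpace G] [BorelSpace G] [ProperSpace F]
    {f : E n → F} (h : BM f) {g : F → G} (hg : Continuous g) : BM fun a => g (f a) := by
  obtain ⟨C, hC⟩ := h.2
  obtain ⟨D, hD⟩ := (isCompact_closedBall (0 : F) C).exists_bound_of_continuousOn hg.continuousOn
  exact ⟨hg.measurable.comp h.1, D, fun a ha => hD _ (by simpa using hC a ha)⟩

theorem comp2 {G H : Type} [NormedAddCommGroup G] [MeasurableSpace G] [BorelSpace G]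
    [ProperSpace F] [ProperSpace G] [NormedAddCommGroup H] [MeasurableSpace H] [BorelSpace H]
    {f : E n → F} {f' : E n → G} (h : BM f) (h' : BM f') {g : F × G → H} (hg : Continuous g) :
    BM fun a => g (f a, f' a) := by
  obtain ⟨C, hC⟩ := h.2
  obtain ⟨D, hD⟩ := h'.2
  have : BM fun a => (f a, f' a) :=
    ⟨h.1.prodMk h'.1, max C D, fun a ha => max_le_max (hC a ha) (hD a ha)⟩
  exact this.comp hg

variable [ProperSpace F]

theorem add {f g : E n → F} (h : BM f) (h' : BM g) : BM fun a => f a + g a :=
  h.comp2 h' continuous_add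

theorem sub {f g : E n → F} (h : BM f) (h' : BM g) : BM fun a => f a - g a :=
  h.comp2 h' continuous_sub

theorem neg {f : E n → F} (h : BM f) : BM fun a => -f a := h.comp continuous_neg

theorem norm {f : E n → F} (h : BM f) : BM fun a => ‖f a‖ := h.comp continuous_norm

theorem sum {ι : Type} (s : Finset ι) {f : ι → E n → F} (h : ∀ i ∈ s, BM (f i)) :
    BM fun a => ∑ i ∈ s, f i a := by
  classical
  induction s using Finset.induction_on with
  | empty => simpa using const (0 : F)
  | insert i s hi ih =>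
    simp only [Finset.sum_insert hi]
    exact (h i (by simp)).add (ih fun j hj => h j (by simp [hj]))

theorem smul [NormedSpace ℝ F] {f : E n → ℝ} {g : E n → F} (h : BM f) (h' : BM g) :
    BM fun a => f a • g a := h.comp2 h' continuous_smul

theorem mul {f g : E n → ℝ} (h : BM f) (h' : BM g) : BM fun a => f a * g a :=
  h.comp2 h' continuous_mul

theorem pow {f : E n → ℝ} (h : BM f) (k : ℕ) : BM fun a => f a ^ k := h.comp (continuous_pow k)

theorem abs {f : E n → ℝ} (h : BM f) : BM fun a => |f a| := h.comp continuous_abs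

theorem div_const {f : E n → ℝ} (h : BM f) (c : ℝ) : BM fun a => f a / c :=
  h.comp (continuous_id.div_const c)

theorem inner {f g : E n → E n} (h : BM f) (h' : BM g) : BM fun a => ⟪f a, g a⟫ :=
  h.comp2 (g := fun p => ⟪p.1, p.2⟫) h' continuous_inner

theorem id : BM fun a : E n => a := of_cont continuous_id

theorem coord (i : Fin n) : BM fun a : E n => a i := of_cont (by fun_prop)

theorem sign {f : E n → ℝ} (h : Measurable f) : BM fun a => (SignType.sign (f a) : ℝ) := by
  refine ⟨?_, 1, fun a _ => ?_⟩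
  · have : (fun a => (SignType.sign (f a) : ℝ)) =
        fun a => if 0 < f a then 1 else if f a < 0 then -1 else 0 := by
      funext a; rw [sign_apply]; split_ifs <;> simp
    rw [this]
    exact Measurable.ite (measurableSet_lt measurable_const h) measurable_const
      (Measurable.ite (measurableSet_lt h measurable_const) measurable_const measurable_const)
  · simp only [sign_apply]; split_ifs <;> simp

end BM

end Vale.Agent.P237
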