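import Vale.Agent.P237.Lib1

/-! Locally Lipschitz functions, homogeneous functions, gauges. -/

namespace Vale.Agent.P237

open MeasureTheory Metric Real Set Filter
open scoped RealInnerProductSpace NNReal ENNReal Topology

variable {n : ℕ}

namespace LL

theorem of_lip {G : E n → ℝ} {C : ℝ≥0} (h : LipschitzWith C G) : LL G :=
  fun _ _ => ⟨C, univ, univ_mem, h.lipschitzOnWith⟩

theorem of_cd {G : E n → ℝ} (h : ∀ x, x ≠ 0 → ContDiffAt ℝ 1 G x) : LL G :=
  fun x hx => (h x hx).exists_lipschitzOnWith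

theorem contAt {G : E n → ℝ} (h : LL G) {x : E n} (hx : x ≠ 0) : ContinuousAt G x := by
  obtain ⟨C, U, hU, hC⟩ := h x hx
  exact hC.continuousOn.continuousAt hU

theorem meas {G : E n → ℝ} (h : LL G) : Measurable G :=
  measurable_of_continuousOn_compl_singleton 0 fun _ hx => (h.contAt hx).continuousWithinAt

theorem bm {G : E n → ℝ} (h : LL G) : BM G :=
  BM.of_contOn h.meas fun x hx => (h.contAt (by rintro rfl; simp at hx)).continuousWithinAt

theorem comp2 {F G : E n → ℝ} (hF : LL F) (hG : LL G) {g : ℝ × ℝ → ℝ}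
    (hg : ∀ x, x ≠ 0 → ContDiffAt ℝ 1 g (F x, G x)) : LL fun x => g (F x, G x) := by
  intro x hx
  obtain ⟨C, U, hU, hC⟩ := hF x hx
  obtain ⟨D, V, hV, hD⟩ := hG x hx
  obtain ⟨K, W, hW, hK⟩ := (hg x hx).exists_lipschitzOnWith
  have hc : ContinuousAt (fun x => (F x, G x)) x := (hF.contAt hx).prodMk (hG.contAt hx)
  refine ⟨K * max C D, U ∩ V ∩ (fun x => (F x, G x)) ⁻¹' W,
    inter_mem (inter_mem hU hV) (hc hW), ?_⟩
  exact hK.comp ((hC.mono fun _ h => h.1.1).prodMk (hD.mono fun _ h => h.1.2)) fun _ h => h.2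

theorem comp {F : E n → ℝ} (hF : LL F) {g : ℝ → ℝ} (hg : ∀ x, x ≠ 0 → ContDiffAt ℝ 1 g (F x)) :
    LL fun x => g (F x) :=
  hF.comp2 hF (g := fun p => g p.1) fun x hx => (hg x hx).comp (F x, F x) contDiffAt_fst

theorem const (c : ℝ) : LL fun _ : E n => c := of_cd fun _ _ => contDiffAt_const

theorem add {F G : E n → ℝ} (hF : LL F) (hG : LL G) : LL fun x => F x + G x :=
  hF.comp2 hG (g := fun p => p.1 + p.2) fun _ _ => by fun_prop

theorem sub {F G : E n → ℝ} (hF : LL F) (hG : LL G) : LL fun x => F x - G x :=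
  hF.comp2 hG (g := fun p => p.1 - p.2) fun _ _ => by fun_prop

theorem mul {F G : E n → ℝ} (hF : LL F) (hG : LL G) : LL fun x => F x * G x :=
  hF.comp2 hG (g := fun p => p.1 * p.2) fun _ _ => by fun_prop

theorem pow {F : E n → ℝ} (hF : LL F) (k : ℕ) : LL fun x => F x ^ k :=
  hF.comp (g := fun s => s ^ k) fun _ _ => by fun_prop

theorem inv {F : E n → ℝ} (hF : LL F) (h : ∀ x, x ≠ 0 → F x ≠ 0) : LL fun x => (F x)⁻¹ :=
  hF.comp (g := fun s => s⁻¹) fun x hx => contDiffAt_inv ℝ (h x hx)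

theorem norm : LL fun x : E n => ‖x‖ := of_lip lipschitzWith_one_norm

theorem inner (v : E n) : LL fun x : E n => ⟪x, v⟫ :=
  of_cd fun _ _ => contDiffAt_id.inner ℝ contDiffAt_const

theorem abs {F : E n → ℝ} (hF : LL F) : LL fun x => |F x| := by
  intro x hx
  obtain ⟨C, U, hU, hC⟩ := hF x hx
  exact ⟨1 * C, U, hU, (lipschitzWith_one_norm (E := ℝ)).comp_lipschitzOnWith hC⟩

theorem sum {ι : Type} (s : Finset ι) {f : ι → E n → ℝ} (h : ∀ i ∈ s, LL (f i)) :
    LL fun a => ∑ i ∈ s, f i a := by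
  classical
  induction s using Finset.induction_on with
  | empty => simpa using const 0
  | insert i s hi ih =>
    simp only [Finset.sum_insert hi]
    exact (h i (by simp)).add (ih fun j hj => h j (by simp [hj]))

/-- the derivative is bounded on the sphere -/
theorem fderiv_bdd {G : E n → ℝ} (h : LL G) : ∃ C, ∀ a, ‖a‖ = 1 → ‖fderiv ℝ G a‖ ≤ C := by
  have : ∀ x ∈ sphere (0 : E n) 1, ∃ U ∈ 𝓝[sphere 0 1] x, ∃ C, ∀ a ∈ U, ‖fderiv ℝ G a‖ ≤ C := by
    intro x hx
    obtain ⟨C, U, hU, hC⟩ := h x (by rintro rfl; simp at hx)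
    refine ⟨interior U, mem_nhdsWithin_of_mem_nhds (interior_mem_nhds.2 hU), C, fun a ha => ?_⟩
    exact norm_fderiv_le_of_lipschitzOn ℝ (mem_interior_iff_mem_nhds.1 ha) hC
  obtain ⟨C, hC⟩ := (isCompact_sphere (0 : E n) 1).induction_on
    (p := fun U => ∃ C, ∀ a ∈ U, ‖fderiv ℝ G a‖ ≤ C) ⟨0, by simp⟩
    (fun _ _ hst ⟨C, hC⟩ => ⟨C, fun a ha => hC a (hst ha)⟩)
    (fun _ _ ⟨C, hC⟩ ⟨D, hD⟩ => ⟨max C D, fun a ha => ha.elim
      (fun h => (hC a h).trans (le_max_left _ _)) fun h => (hD a h).trans (le_max_right _ _)⟩) this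
  exact ⟨C, fun a ha => hC a (by simpa using ha)⟩

theorem bm_gradient {G : E n → ℝ} (h : LL G) : BM (gradient G) := by
  obtain ⟨C, hC⟩ := h.fderiv_bdd
  exact ⟨(InnerProductSpace.toDual ℝ (E n)).symm.continuous.measurable.comp
    (measurable_fderiv ℝ G), C, fun a ha => by simpa [gradient] using hC a ha⟩

end LL

theorem fderiv_eq_inner (G : E n → ℝ) (a v : E n) : fderiv ℝ G a v = ⟪gradient G a, v⟫ := by
  simp [gradient]

theorem LL.bm_fderiv {G : E n → ℝ} (h : LL G) {v : E n → E n} (hv : BM v) :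
    BM fun a => fderiv ℝ G a (v a) := by
  simpa only [fderiv_eq_inner] using h.bm_gradient.inner hv

theorem CD.contDiff {f f' : ℝ → ℝ} (h : CD f f') : ContDiff ℝ 1 f := by
  rw [contDiff_one_iff_deriv]
  exact ⟨fun s => (h.2 s).differentiableAt, by
    rw [show deriv f = f' from funext fun s => (h.2 s).deriv]; exact h.1⟩

theorem LL.comp_cd {F : E n → ℝ} (hF : LL F) {f f' : ℝ → ℝ} (h : CD f f') : LL fun x => f (F x) :=
  hF.comp fun _ _ => h.contDiff.contDiffAt

theorem LL.ae_diff {G : E n → ℝ} (h : LL G) (hn : 0 < n) : ∀ᵐ x, DifferentiableAt ℝ G x := by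
  have := nontriv hn
  choose! C U hU hC using h
  obtain ⟨s, hs, hc, hcov⟩ := TopologicalSpace.countable_cover_nhdsWithin
    (s := ({0}ᶜ : Set (E n))) (f := fun x => interior (U x))
    fun x hx => mem_nhdsWithin_of_mem_nhds (interior_mem_nhds.2 (hU x hx))
  have h1 : ∀ x ∈ s, ∀ᵐ y, y ∈ interior (U x) → DifferentiableAt ℝ G y := fun x hx => by
    filter_upwards [((hC x (hs hx)).mono interior_subset).ae_differentiableWithinAt_of_mem]
      with y hy hy' using (hy hy').differentiableAt (isOpen_interior.mem_nhds hy')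
  filter_upwards [(ae_ball_iff hc).2 h1, (volume : Measure (E n)).ae_ne 0] with y hy hy0
  obtain ⟨x, hx, hyx⟩ := mem_iUnion₂.1 (hcov hy0)
  exact hy x hx hyx

theorem Hom.eventually {k : ℝ} {G : E n → ℝ} (h : Hom k G) {x : E n} (hx : x ≠ 0) {t : ℝ}
    (ht : 0 < t) : (fun y => G (t • y)) =ᶠ[𝓝 x] fun y => t ^ k * G y := by
  filter_upwards [isOpen_ne.mem_nhds hx] with y hy using h y hy t ht

theorem Hom.diff_of {k : ℝ} {G : E n → ℝ} (h : Hom k G) {x : E n} (hx : x ≠ 0) {t : ℝ}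
    (ht : 0 < t) (hd : DifferentiableAt ℝ G (t • x)) : DifferentiableAt ℝ G x := by
  have h1 : DifferentiableAt ℝ (fun y => G (t • y)) x := hd.comp x (by fun_prop)
  have h2 := ((h.eventually hx ht).differentiableAt_iff.1 h1).const_mul (t ^ k)⁻¹
  simpa [← mul_assoc, inv_mul_cancel₀ (rpow_pos_of_pos ht k).ne'] using h2

theorem LL.σ_diff {k : ℝ} {G : E n → ℝ} (h : LL G) (h' : Hom k G) (hn : 0 < n) :
    ∀ᵐ a ∂σ n, DifferentiableAt ℝ G a :=
  σ_ae_of hn (h.ae_diff hn) fun _ hx _ ht => h'.diff_of hx ht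

/-- the derivative of a homogeneous function is homogeneous -/
theorem Hom.fderiv {k : ℝ} {G : E n → ℝ} (h : Hom k G) {x : E n} (hx : x ≠ 0) {t : ℝ}
    (ht : 0 < t) : fderiv ℝ G (t • x) = t ^ (k - 1) • fderiv ℝ G x := by
  have h1 := (h.eventually hx ht).fderiv_eq (𝕜 := ℝ)
  rw [fderiv_comp_smul] at h1
  have h2 : _root_.fderiv ℝ (fun y => t ^ k * G y) x = t ^ k • _root_.fderiv ℝ G x :=
    congrFun (fderiv_const_smul_field (𝕜 := ℝ) (f := G) (t ^ k)) x
  rw [h2] at h1
  rw [rpow_sub_one ht.ne', div_eq_inv_mul, mul_smul, ← h1, smul_smul, inv_mul_cancel₀ ht.ne',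
    one_smul]

/-- Euler's identity -/
theorem Hom.euler {k : ℝ} {G : E n → ℝ} (h : Hom k G) {x : E n} (hx : x ≠ 0)
    (hd : DifferentiableAt ℝ G x) : _root_.fderiv ℝ G x x = k * G x := by
  have h1 : HasDerivAt (fun t : ℝ => G (t • x)) (_root_.fderiv ℝ G x x) 1 := by
    have : HasDerivAt (fun t : ℝ => t • x) x 1 := by simpa using (hasDerivAt_id (1 : ℝ)).smul_const x
    exact HasFDerivAt.comp_hasDerivAt 1 (by simpa using hd.hasFDerivAt) this
  have h2 : HasDerivAt (fun t : ℝ => t ^ k * G x) (k * G x) 1 := by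
    simpa using (hasDerivAt_rpow_const (x := 1) (p := k) (Or.inl one_ne_zero)).mul_const (G x)
  refine h1.unique (h2.congr_of_eventuallyEq ?_)
  filter_upwards [lt_mem_nhds (one_pos : (0 : ℝ) < 1)] with t ht using h x hx t ht

namespace Gau

variable {N : E n → ℝ} (h : Gau N)
include h

theorem zero : N 0 = 0 := by simpa using h.smul 0 le_rfl 0

theorem nonneg (x : E n) : 0 ≤ N x := by
  obtain ⟨c, hc, h1⟩ := h.low
  exact (by positivity : 0 ≤ c * ‖x‖).trans (h1 x)

theorem pos {x : E n} (hx : x ≠ 0) : 0 < N x := by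
  obtain ⟨c, hc, h1⟩ := h.low
  exact (mul_pos hc (norm_pos_iff.2 hx)).trans_le (h1 x)

theorem pos1 {x : E n} (hx : ‖x‖ = 1) : 0 < N x := h.pos (by rintro rfl; simp at hx)

theorem lip : ∃ C, LipschitzWith C N := by
  obtain ⟨T, hT⟩ := h.up
  refine ⟨T.toNNReal, LipschitzWith.of_le_add_mul' T fun x y => ?_⟩
  have := h.add y (x - y)
  rw [add_sub_cancel] at this
  exact this.trans (by rw [dist_eq_norm]; linarith [hT (x - y)])

theorem cont : Continuous N := h.lip.choose_spec.continuous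

theorem ll : LL N := LL.of_lip h.lip.choose_spec

theorem hom : Hom 1 N := fun x _ t ht => by rw [h.smul t ht.le, rpow_one]

theorem bm : BM N := h.ll.bm

theorem bm_inv : BM fun a => (N a)⁻¹ := (h.ll.inv fun _ hx => (h.pos hx).ne').bm

theorem σ_diff (hn : 0 < n) : ∀ᵐ a ∂σ n, DifferentiableAt ℝ N a := h.ll.σ_diff h.hom hn

/-- the gradient is a subgradient; also true where the gradient is the junk value zero -/
theorem grad_le (a x : E n) : ⟪gradient N a, x⟫ ≤ N x := by
  by_cases hd : DifferentiableAt ℝ N a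
  · rw [← fderiv_eq_inner]
    have h1 : HasDerivAt (fun t : ℝ => N (a + t • x)) (fderiv ℝ N a x) 0 := by
      have : HasDerivAt (fun t : ℝ => a + t • x) x 0 := by
        simpa using ((hasDerivAt_id (0 : ℝ)).smul_const x).const_add a
      exact HasFDerivAt.comp_hasDerivAt 0 (by simpa using hd.hasFDerivAt) this
    refine le_of_tendsto h1.tendsto_slope_zero_right ?_
    filter_upwards [self_mem_nhdsWithin] with t ht
    have ht : 0 < t := ht
    have := h.add a (t • x)
    rw [h.smul t ht.le] at this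
    simp only [zero_add, zero_smul, add_zero, smul_eq_mul]
    rw [inv_mul_le_iff₀ ht]
    linarith
  · simp [gradient_eq_zero_of_not_differentiableAt hd, h.nonneg]

theorem grad_self {a : E n} (ha : a ≠ 0) (hd : DifferentiableAt ℝ N a) :
    ⟪gradient N a, a⟫ = N a := by
  rw [← fderiv_eq_inner, h.hom.euler ha hd, one_mul]

theorem grad_norm {T : ℝ} (h0 : 0 ≤ T) (hT : ∀ x, N x ≤ T * ‖x‖) (a : E n) :
    ‖gradient N a‖ ≤ T := by
  have h1 := (h.grad_le a (gradient N a)).trans (hT _)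
  rw [real_inner_self_eq_norm_sq] at h1
  nlinarith [norm_nonneg (gradient N a)]

theorem bm_grad : BM (gradient N) := h.ll.bm_gradient

theorem grad_smul {x : E n} (hx : x ≠ 0) {t : ℝ} (ht : 0 < t) :
    gradient N (t • x) = gradient N x := by
  simp [gradient, h.hom.fderiv hx ht]

theorem int_SA {g : E n → ℝ} (hg : Continuous g) :
    Integrable (fun a => (N a)⁻¹ ^ n * g (gradient N a)) (σ n) :=
  ((h.bm_inv.pow n).mul (h.bm_grad.comp hg)).int

end Gau

end Vale.Agent.P237
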