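import Vale.Agent.P237.Lib2

/-! Polynomials as functions. -/

namespace Vale.Agent.P237

open MeasureTheory Metric Real Set Filter MvPolynomial
open scoped RealInnerProductSpace NNReal ENNReal Topology

variable {n : ℕ}

@[simp] theorem ev_add (p q : MP n) (x : E n) : ev (p + q) x = ev p x + ev q x := by simp [ev]
@[simp] theorem ev_sub (p q : MP n) (x : E n) : ev (p - q) x = ev p x - ev q x := by simp [ev]
@[simp] theorem ev_neg (p : MP n) (x : E n) : ev (-p) x = -ev p x := by simp [ev]
@[simp] theorem ev_mul (p q : MP n) (x : E n) : ev (p * q) x = ev p x * ev q x := by simp [ev]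
@[simp] theorem ev_pow (p : MP n) (k : ℕ) (x : E n) : ev (p ^ k) x = ev p x ^ k := by simp [ev]
@[simp] theorem ev_C (c : ℝ) (x : E n) : ev (C c) x = c := by simp [ev]
@[simp] theorem ev_X (i : Fin n) (x : E n) : ev (X i) x = x i := by simp [ev]
@[simp] theorem ev_zero (x : E n) : ev 0 x = 0 := by simp [ev]
@[simp] theorem ev_one (x : E n) : ev 1 x = 1 := by simp [ev]
@[simp] theorem ev_smul (c : ℝ) (p : MP n) (x : E n) : ev (c • p) x = c * ev p x := by simp [ev]
@[simp] theorem ev_sum {ι : Type} (s : Finset ι) (p : ι → MP n) (x : E n) :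
    ev (∑ i ∈ s, p i) x = ∑ i ∈ s, ev (p i) x := by simp [ev]

theorem ev_r2 (x : E n) : ev (r2 n) x = ‖x‖ ^ 2 := by
  simp [r2, EuclideanSpace.norm_sq_eq]

theorem inner_eq_sum (x y : E n) : ⟪x, y⟫ = ∑ i, x i * y i := by
  simp [PiLp.inner_apply, mul_comm]

theorem ev_contDiff (p : MP n) : ContDiff ℝ 1 (ev p) := by
  induction p using MvPolynomial.induction_on with
  | C c => simpa [funext (ev_C c)] using contDiff_const
  | add p q hp hq => simpa [funext (ev_add p q)] using hp.add hq
  | mul_X p i hp =>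
    rw [funext (ev_mul p (X i)), funext (ev_X i)]
    exact hp.mul (by fun_prop)

theorem ev_cont (p : MP n) : Continuous (ev p) := (ev_contDiff p).continuous

theorem ev_diff (p : MP n) : Differentiable ℝ (ev p) := (ev_contDiff p).differentiable one_ne_zero

theorem ev_ll (p : MP n) : LL (ev p) := LL.of_cd fun _ _ => (ev_contDiff p).contDiffAt

theorem ev_bm (p : MP n) : BM (ev p) := BM.of_cont (ev_cont p)

theorem ev_fderiv (p : MP n) (x v : E n) :
    fderiv ℝ (ev p) x v = ∑ i, ev (pderiv i p) x * v i := by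
  induction p using MvPolynomial.induction_on with
  | C c => simp [funext (ev_C c)]
  | add p q hp hq =>
    rw [funext (ev_add p q), fderiv_fun_add (ev_diff p x) (ev_diff q x)]
    simp [hp, hq, add_mul, Finset.sum_add_distrib]
  | mul_X p i hp =>
    rw [funext (ev_mul p (X i)), fderiv_fun_mul (ev_diff p x) (ev_diff _ x)]
    have : fderiv ℝ (ev (X i : MP n)) x v = v i := by
      rw [funext (ev_X i)]
      exact congrArg (fun L => L v) (EuclideanSpace.proj (𝕜 := ℝ) i).fderiv
    simp only [add_apply, smul_apply, this, hp,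
      smul_eq_mul, ev_X, Derivation.leibniz, pderiv_X, ev_add, ev_mul, add_mul,
      Finset.sum_add_distrib, Finset.mul_sum, mul_assoc]
    congr 1
    rw [Finset.sum_eq_single i (fun j _ hj => by simp [Pi.single_eq_of_ne' hj]) (by simp)]
    simp

theorem ev_fderiv_single (p : MP n) (x : E n) (i : Fin n) :
    fderiv ℝ (ev p) x (EuclideanSpace.single i 1) = ev (pderiv i p) x := by
  rw [ev_fderiv, Finset.sum_eq_single i (fun j _ hj => by simp [hj]) (by simp)]
  simp

theorem ev_hom {p : MP n} {j : ℕ} (h : p.IsHomogeneous j) (t : ℝ) (x : E n) :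
    ev p (t • x) = t ^ j * ev p x := by
  simp only [ev, eval_eq', Finset.mul_sum, PiLp.smul_apply, smul_eq_mul, mul_pow,
    Finset.prod_mul_distrib, Finset.prod_pow_eq_pow_sum]
  refine Finset.sum_congr rfl fun d hd => ?_
  have : ∑ i, d i = j := by
    rw [← h (mem_support_iff.1 hd), Finsupp.weight_apply, Finsupp.sum_fintype _ _ (by simp)]
    simp
  rw [this]; ring

theorem ev_Hom {p : MP n} {j : ℕ} (h : p.IsHomogeneous j) : Hom j (ev p) :=
  fun x _ t _ => by rw [ev_hom h, rpow_natCast]

theorem ev_euler {p : MP n} {j : ℕ} (h : p.IsHomogeneous j) (x : E n) :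
    ∑ i, x i * ev (pderiv i p) x = j * ev p x := by
  have := congrArg (fun q => ev q x) h.sum_X_mul_pderiv
  rw [← Nat.cast_smul_eq_nsmul ℝ] at this
  simpa only [ev_sum, ev_mul, ev_X, ev_smul] using this

theorem lap_pderiv (i : Fin n) (p : MP n) : lap (pderiv i p) = pderiv i (lap p) := by
  have hc : ∀ (i j : Fin n) (p : MP n), pderiv i (pderiv j p) = pderiv j (pderiv i p) := by
    intro i j p
    induction p using MvPolynomial.induction_on with
    | C c => simp
    | add p q hp hq => simp [hp, hq]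
    | mul_X p k hp =>
      simp only [Derivation.leibniz, pderiv_X, smul_eq_mul, map_add, hp, Pi.single_apply]
      split_ifs <;> simp <;> ring
  simp only [lap, map_sum]
  exact Finset.sum_congr rfl fun k _ => by rw [hc k i, hc k i]

theorem HH.pderiv {j : ℕ} {p : MP n} (h : HH (j + 1) p) (i : Fin n) : HH j (pderiv i p) :=
  ⟨by simpa using h.1.pderiv (i := i), by rw [lap_pderiv, h.2, map_zero]⟩

theorem HH.zero (j : ℕ) : HH j (0 : MP n) := ⟨isHomogeneous_zero _ _ _, by simp [lap]⟩

theorem lap_add (p q : MP n) : lap (p + q) = lap p + lap q := by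
  simp [lap, Finset.sum_add_distrib]

theorem lap_smul (c : ℝ) (p : MP n) : lap (c • p) = c • lap p := by
  simp [lap, Finset.smul_sum]

theorem HH.add {j : ℕ} {p q : MP n} (h : HH j p) (h' : HH j q) : HH j (p + q) :=
  ⟨h.1.add h'.1, by rw [lap_add, h.2, h'.2, add_zero]⟩

theorem HH.smul {j : ℕ} {p : MP n} (h : HH j p) (c : ℝ) : HH j (c • p) :=
  ⟨(homogeneousSubmodule _ _ j).smul_mem c h.1, by rw [lap_smul, h.2, smul_zero]⟩

theorem HH.sum {ι : Type} {j : ℕ} (s : Finset ι) {p : ι → MP n} (h : ∀ i ∈ s, HH j (p i)) :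
    HH j (∑ i ∈ s, p i) :=
  Finset.sum_induction _ (HH j) (fun _ _ => HH.add) (HH.zero j) h

theorem HH.X (i : Fin n) : HH 1 (X i : MP n) :=
  ⟨isHomogeneous_X _ _, by
    simp only [lap, pderiv_X, Pi.single_apply]
    exact Finset.sum_eq_zero fun k _ => by split_ifs <;> simp⟩

theorem HH.one : HH 0 (1 : MP n) := ⟨isHomogeneous_one _ _, by simp [lap]⟩

namespace HB

variable {m : ℕ} (β : HB n m)

theorem r_cont (y : Fin β.L → E n) : Continuous (β.r y) :=
  continuous_finsetSum _ fun _ _ => (ev_cont _).smul continuous_const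

theorem W_cont (w : Fin n ⊕ Fin β.L → E n) : Continuous (β.W w) :=
  (continuous_finsetSum _ fun k _ => by fun_prop).add (β.r_cont _)

theorem r_neg (y : Fin β.L → E n) (a : E n) : β.r y (-a) = -β.r y a := by
  simp only [r, ← Finset.sum_neg_distrib]
  refine Finset.sum_congr rfl fun i _ => ?_
  rw [← neg_one_smul ℝ a, ev_hom (β.hh i).1, (β.odd i).neg_one_pow]
  simp

theorem W_neg (w : Fin n ⊕ Fin β.L → E n) (a : E n) : β.W w (-a) = -β.W w a := by
  simp [W, β.r_neg, add_comm]

theorem dv_cont (y : Fin β.L → E n) : Continuous (β.dv y) := by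
  unfold dv
  simp only [ev_fderiv]
  have := fun p : MP n => ev_cont p
  fun_prop

theorem W_eq (w : Fin n ⊕ Fin β.L → E n) (a : E n) :
    β.W w a = mv (lin w) a + β.r (fun i => w (.inr i)) a := by
  rw [W]
  congr 1
  ext i
  simp [mv, lin, Matrix.mulVec, dotProduct, mul_comm]

end HB

end Vale.Agent.P237
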