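import Vale.Agent.P237.Lib3
import Vale.Agent.P074.PLd

/-! Matrices acting on vectors, the midpoint Brunn-Minkowski inequality. -/

namespace Vale.Agent.P237

open MeasureTheory Metric Real Set Filter MvPolynomial Matrix
open scoped RealInnerProductSpace NNReal ENNReal Topology Pointwise

variable {n : ℕ}

theorem lap_mul (p q : MP n) :
    lap (p * q) = lap p * q + 2 * ∑ i, pderiv i p * pderiv i q + p * lap q := by
  simp only [lap, Derivation.leibniz, smul_eq_mul, map_add, Finset.sum_mul, Finset.mul_sum,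
    ← Finset.sum_add_distrib]
  exact Finset.sum_congr rfl fun i _ => by ring

/-- `mv A` as a continuous linear map -/
noncomputable def mvL (A : Matrix (Fin n) (Fin n) ℝ) : E n →L[ℝ] E n :=
  LinearMap.toContinuousLinearMap (toEuclideanLin A)

theorem mvL_apply (A : Matrix (Fin n) (Fin n) ℝ) (x : E n) : mvL A x = mv A x := rfl

theorem mv_apply (A : Matrix (Fin n) (Fin n) ℝ) (x : E n) (i : Fin n) :
    mv A x i = ∑ k, A i k * x k := rfl

theorem mv_cont (A : Matrix (Fin n) (Fin n) ℝ) : Continuous (mv A) := (mvL A).continuous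

theorem mv_add (A : Matrix (Fin n) (Fin n) ℝ) (x y : E n) : mv A (x + y) = mv A x + mv A y :=
  (mvL A).map_add x y

theorem mv_sub (A : Matrix (Fin n) (Fin n) ℝ) (x y : E n) : mv A (x - y) = mv A x - mv A y :=
  (mvL A).map_sub x y

theorem mv_neg (A : Matrix (Fin n) (Fin n) ℝ) (x : E n) : mv A (-x) = -mv A x :=
  (mvL A).map_neg x

theorem mv_smul (A : Matrix (Fin n) (Fin n) ℝ) (t : ℝ) (x : E n) : mv A (t • x) = t • mv A x :=
  (mvL A).map_smul t x

theorem mv_sum {ι : Type} (A : Matrix (Fin n) (Fin n) ℝ) (s : Finset ι) (x : ι → E n) :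
    mv A (∑ i ∈ s, x i) = ∑ i ∈ s, mv A (x i) := map_sum (mvL A) x s

theorem smul_mv (A : Matrix (Fin n) (Fin n) ℝ) (t : ℝ) (x : E n) : mv (t • A) x = t • mv A x := by
  ext i; simp [mv_apply, Finset.mul_sum, mul_assoc]

theorem mv_mul (A B : Matrix (Fin n) (Fin n) ℝ) (x : E n) : mv (A * B) x = mv A (mv B x) := by
  simp [mv]

theorem mv_one (x : E n) : mv 1 x = x := by simp [mv]

theorem mv_inv_mv {A : Matrix (Fin n) (Fin n) ℝ} (h : A.det ≠ 0) (x : E n) :
    mv A⁻¹ (mv A x) = x := by rw [← mv_mul, nonsing_inv_mul _ h.isUnit, mv_one]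

theorem mv_mv_inv {A : Matrix (Fin n) (Fin n) ℝ} (h : A.det ≠ 0) (x : E n) :
    mv A (mv A⁻¹ x) = x := by rw [← mv_mul, mul_nonsing_inv _ h.isUnit, mv_one]

theorem inner_mv (A : Matrix (Fin n) (Fin n) ℝ) (x y : E n) : ⟪mv A x, y⟫ = ⟪x, mv Aᵀ y⟫ := by
  simp only [inner_eq_sum, mv_apply, transpose_apply, Finset.sum_mul, Finset.mul_sum]
  rw [Finset.sum_comm]
  exact Finset.sum_congr rfl fun _ _ => Finset.sum_congr rfl fun _ _ => by ring

theorem vol_mv (A : Matrix (Fin n) (Fin n) ℝ) (X : Set (E n)) :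
    vol (mv A '' X) = |A.det| * vol X := by
  have h := Measure.addHaar_image_linearMap (volume : Measure (E n)) (toEuclideanLin A) X
  have h2 : LinearMap.det (toEuclideanLin A) = A.det := by
    rw [toEuclideanLin_eq_toLin_orthonormal, LinearMap.det_toLin]
  rw [h2] at h
  rw [vol, vol, show mv A '' X = toEuclideanLin A '' X from rfl, h, ENNReal.toReal_mul,
    ENNReal.toReal_ofReal (abs_nonneg _)]

theorem vol_nonneg (X : Set (E n)) : 0 ≤ vol X := ENNReal.toReal_nonneg

theorem vol_mono {X Y : Set (E n)} (h : X ⊆ Y) (hY : IsCompact Y) : vol X ≤ vol Y :=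
  ENNReal.toReal_mono hY.measure_lt_top.ne (measure_mono h)

theorem vol_smul {t : ℝ} (ht : 0 ≤ t) (X : Set (E n)) : vol (t • X) = t ^ n * vol X := by
  rw [vol, vol, Measure.addHaar_smul_of_nonneg _ ht, finrank_euclideanSpace_fin,
    ENNReal.toReal_mul, ENNReal.toReal_ofReal (pow_nonneg ht _)]

theorem vol_translate (x : E n) (X : Set (E n)) : vol ((fun y => x + y) '' X) = vol X := by
  rw [vol, vol, image_add_left, measure_preimage_add]

theorem vol_closedBall (x : E n) {r : ℝ} (hr : 0 ≤ r) :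
    vol (closedBall x r) = r ^ n * kappa n := by
  rw [vol, kappa, vol, Measure.addHaar_closedBall' _ _ hr, finrank_euclideanSpace_fin,
    ENNReal.toReal_mul, ENNReal.toReal_ofReal (pow_nonneg hr _)]

theorem IsBody.vol_pos {K : Set (E n)} (h : IsBody K) : 0 < vol K :=
  ENNReal.toReal_pos (Measure.measure_pos_of_nonempty_interior _ h.2.2).ne' h.1.measure_lt_top.ne

theorem c1_pos (hn : 0 < n) : 0 < c1 n :=
  div_pos (mul_pos two_pos (kappa_pos _)) (nk_pos hn)

theorem th_ge (hn : 2 ≤ n) {j : ℕ} (h : Odd j) (h3 : 3 ≤ j) : (n : ℝ) + 1 ≤ th n j := by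
  unfold th
  split_ifs with h4
  · exact le_rfl
  · have h5 : (5 : ℝ) ≤ j := by
      obtain ⟨k, rfl⟩ := h
      exact_mod_cast (by omega : 5 ≤ 2 * k + 1)
    have h6 : (2 : ℝ) ≤ n := by exact_mod_cast hn
    have : 15 ≤ (j : ℝ) * (j + n - 2) := by nlinarith
    nlinarith

/-- the unit ball of a gauge -/
def Kb (N : E n → ℝ) : Set (E n) := {x | N x ≤ 1}

/-- the normalised volume of the unit ball of a gauge -/
noncomputable def VN (N : E n → ℝ) : ℝ := ∫ a, (N a)⁻¹ ^ n ∂σ n

/-- the Minkowski combination `(1 - t) K + t M` -/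
def mix (t : ℝ) (K M : Set (E n)) : Set (E n) := {z | ∃ x ∈ K, ∃ y ∈ M, z = (1 - t) • x + t • y}

/-- the sum of `K` and a segment in direction `u` -/
def stretch (K : Set (E n)) (u : E n) (a b : ℝ) : Set (E n) :=
  {z | ∃ x ∈ K, ∃ t ∈ Icc a b, z = x + t • u}

/-- the part of `K` with height between `a` and `b` -/
def slab (K : Set (E n)) (u : E n) (a b : ℝ) : Set (E n) := {x | x ∈ K ∧ a ≤ ⟪x, u⟫ ∧ ⟪x, u⟫ ≤ b}

/-- the part of `K` with height at most `b` -/
def below (K : Set (E n)) (u : E n) (b : ℝ) : Set (E n) := {x | x ∈ K ∧ ⟪x, u⟫ ≤ b}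

/-- a round cylinder with axis `u` -/
def cyl (u : E n) (a b r : ℝ) : Set (E n) :=
  {x | a ≤ ⟪x, u⟫ ∧ ⟪x, u⟫ ≤ b ∧ ‖x - ⟪x, u⟫ • u‖ ≤ r}

theorem mix_compact (t : ℝ) {K M : Set (E n)} (hK : IsCompact K) (hM : IsCompact M) :
    IsCompact (mix t K M) := by
  convert (hK.prod hM).image (f := fun p => (1 - t) • p.1 + t • p.2) (by fun_prop) using 1
  ext z
  simp only [mix, mem_ofPred_eq, mem_image, mem_prod, Prod.exists]
  exact ⟨fun ⟨x, hx, y, hy, h⟩ => ⟨x, y, ⟨hx, hy⟩, h.symm⟩,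
    fun ⟨x, y, ⟨hx, hy⟩, h⟩ => ⟨x, hx, y, hy, h.symm⟩⟩

theorem mix_convex (t : ℝ) {K M : Set (E n)} (hK : Convex ℝ K) (hM : Convex ℝ M) :
    Convex ℝ (mix t K M) := by
  rintro _ ⟨x, hx, y, hy, rfl⟩ _ ⟨x', hx', y', hy', rfl⟩ a b ha hb hab
  exact ⟨_, hK hx hx' ha hb hab, _, hM hy hy' ha hb hab, by module⟩

theorem stretch_compact {K : Set (E n)} (hK : IsCompact K) (u : E n) (a b : ℝ) :
    IsCompact (stretch K u a b) := by
  convert (hK.prod (isCompact_Icc (a := a) (b := b))).image (f := fun p => p.1 + p.2 • u)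
    (by fun_prop) using 1
  ext z
  simp only [stretch, mem_ofPred_eq, mem_image, mem_prod, Prod.exists]
  exact ⟨fun ⟨x, hx, y, hy, h⟩ => ⟨x, y, ⟨hx, hy⟩, h.symm⟩,
    fun ⟨x, y, ⟨hx, hy⟩, h⟩ => ⟨x, hx, y, hy, h.symm⟩⟩

theorem slab_compact {K : Set (E n)} (hK : IsCompact K) (u : E n) (a b : ℝ) :
    IsCompact (slab K u a b) :=
  hK.inter_right (t := {x | a ≤ ⟪x, u⟫} ∩ {x | ⟪x, u⟫ ≤ b})
    ((isClosed_le continuous_const (by fun_prop)).inter
      (isClosed_le (by fun_prop) continuous_const))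

theorem below_compact {K : Set (E n)} (hK : IsCompact K) (u : E n) (b : ℝ) :
    IsCompact (below K u b) :=
  hK.inter_right (t := {x | ⟪x, u⟫ ≤ b}) (isClosed_le (by fun_prop) continuous_const)

/-- midpoint Brunn-Minkowski inequality -/
theorem bm_mid {A B C : Set (E n)} (hA : IsCompact A) (hB : IsCompact B) (hC : IsCompact C)
    (h : ∀ x ∈ A, ∀ y ∈ B, (1 / 2 : ℝ) • (x + y) ∈ C) : vol A * vol B ≤ vol C ^ 2 := by
  have ht : volume A * volume B ≠ ⊤ :=
    ENNReal.mul_ne_top hA.measure_lt_top.ne hB.measure_lt_top.ne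
  have hA := hA.measurableSet
  have hB := hB.measurableSet
  have hC' := hC.measurableSet
  have h1 := P074.fourFn_euclid n (A.indicator 1) (B.indicator 1) (A.indicator 1) (fun _ => 0)
    (C.indicator 1) (measurable_one.indicator hA) (measurable_one.indicator hB)
    (measurable_one.indicator hA) measurable_const (measurable_one.indicator hC') (fun x y => by
      by_cases hx : x ∈ A
      · by_cases hy : y ∈ B
        · simp only [Set.indicator_of_mem hx, Set.indicator_of_mem hy,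
            Set.indicator_of_mem (h x hx y hy)]
          simp
        · simp [Set.indicator_of_notMem hy]
      · simp [Set.indicator_of_notMem hx])
  simp only [lintegral_indicator_one hA, lintegral_indicator_one hB, lintegral_indicator_one hC',
    lintegral_const, zero_mul, mul_zero, add_zero] at h1
  have h2 : volume A * volume B ≤ volume C ^ 2 := by
    set P := volume A * volume B with hP
    by_cases h0 : P = 0
    · rw [h0]; exact zero_le
    have e : P = P ^ (1 / 2 : ℝ) * P ^ (1 / 2 : ℝ) := by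
      rw [← ENNReal.rpow_add _ _ h0 ht]; norm_num
    have h2 : P ^ (1 / 2 : ℝ) ≤ volume C := by
      have h3 : P ^ (1 / 2 : ℝ) * P ^ (1 / 2 : ℝ) ≤ P ^ (1 / 2 : ℝ) * volume C := e ▸ h1
      exact (ENNReal.mul_le_mul_iff_right (by simp [h0, ht]) (by simp [h0, ht])).1 h3
    rw [e, sq]
    exact mul_le_mul' h2 h2
  have h3 := ENNReal.toReal_mono (ENNReal.pow_ne_top hC.measure_lt_top.ne) h2
  rwa [ENNReal.toReal_mul, ENNReal.toReal_pow] at h3

theorem bm_mix {A B : Set (E n)} (hA : IsCompact A) (hB : IsCompact B) :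
    vol A * vol B ≤ vol (mix (1 / 2) A B) ^ 2 :=
  bm_mid hA hB (mix_compact _ hA hB) fun x hx y hy => ⟨x, hx, y, hy, by module⟩

end Vale.Agent.P237
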