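import Vale.Agent.P237.Stmts

/-! Convex bodies and gauges. -/

namespace Vale.Agent.P237

open MeasureTheory Metric Real Set Filter
open scoped RealInnerProductSpace NNReal ENNReal Topology

namespace TBr

variable {n : ℕ}

theorem gau {K : Set (E n)} (hK : IsCompact K) (hc : Convex ℝ K) (h0 : K ∈ 𝓝 0) :
    Gau (gauge K) := by
  have ha : Absorbent ℝ K := absorbent_nhds_zero h0
  obtain ⟨R, hR, hKR⟩ := hK.isBounded.subset_closedBall_lt 0 0
  obtain ⟨r, hr, hKr⟩ := Metric.mem_nhds_iff.1 h0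
  refine ⟨gauge_add_le hc ha, fun t ht x => gauge_smul_of_nonneg ht x,
    ⟨R⁻¹, inv_pos.2 hR, fun x => ?_⟩, ⟨r⁻¹, fun x => ?_⟩⟩
  · rw [inv_mul_eq_div]
    exact le_gauge_of_subset_closedBall ha hR.le hKR
  · rw [le_inv_mul_iff₀ hr]
    exact mul_gauge_le_norm hKr

theorem VN_pos (hn : 0 < n) {N : E n → ℝ} (hN : Gau N) : 0 < VN N := by
  have := σ_prob hn
  rw [VN, integral_pos_iff_support_of_nonneg (fun a => pow_nonneg (inv_nonneg.2 (hN.nonneg a)) _)
    (hN.bm_inv.pow n).int]
  have h1 : ∀ᵐ a ∂σ n, a ∈ Function.support fun a => (N a)⁻¹ ^ n :=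
    σ_ae.mono fun a ha => pow_ne_zero _ (inv_ne_zero (hN.pos1 ha).ne')
  rw [measure_congr (s := Function.support fun a => (N a)⁻¹ ^ n) (eventuallyEq_univ.2 h1)]
  simp

end TBr

open TBr in
theorem br (h : Star) : Br := by
  intro n hn
  refine ⟨fun K hK hc h0 => ?_, fun N hN => ?_⟩
  · have h1 := mem_interior_iff_mem_nhds.1 h0
    refine ⟨gau hK hc h1, ?_, fun hs x => gauge_neg hs x⟩
    ext x
    change gauge K x ≤ 1 ↔ _
    rw [gauge_le_one_iff_mem_closure hc h1, hK.isClosed.closure_eq]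
  · have hcl : IsClosed (Kb N) := isClosed_le hN.cont continuous_const
    have hK : IsCompact (Kb N) := by
      obtain ⟨c, hc, h1⟩ := hN.low
      refine (isCompact_closedBall (0 : E n) c⁻¹).of_isClosed_subset hcl fun x hx => ?_
      rw [mem_closedBall_zero_iff, ← mul_one c⁻¹, le_inv_mul_iff₀ hc]
      exact (h1 x).trans hx
    obtain ⟨h1, h2⟩ := h n (Kb N) (fun a => (N a)⁻¹) hn hK hN.bm_inv
      fun a _ => inv_nonneg.2 (hN.nonneg a)
    refine ⟨hK, fun x hx y hy a b ha hb hab => ?_, ?_, le_antisymm (h1 ?_) (h2 ?_), VN_pos hn hN⟩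
    · have hx : N x ≤ 1 := hx
      have hy : N y ≤ 1 := hy
      change N _ ≤ 1
      refine (hN.add _ _).trans ?_
      rw [hN.smul a ha, hN.smul b hb]
      nlinarith
    · rw [mem_interior_iff_mem_nhds]
      exact (hN.cont.continuousAt.eventually_lt continuousAt_const
        (show N 0 < 1 by rw [hN.zero]; exact zero_lt_one)).mono fun x hx => hx.le
    · filter_upwards [σ_ae] with a ha r hr hx
      have hx : N (r • a) ≤ 1 := hx
      rw [hN.smul r hr.le] at hx
      rwa [← one_div, le_div_iff₀ (hN.pos1 ha)]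
    · filter_upwards [σ_ae] with a ha r hr hx
      change N (r • a) ≤ 1
      rw [hN.smul r hr.le]
      rw [← one_div, lt_div_iff₀ (hN.pos1 ha)] at hx
      exact hx.le

end Vale.Agent.P237
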