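import Vale.Agent.P237.TIBP

/-! The spherical form of the convexity inequality. -/

namespace Vale.Agent.P237

open MeasureTheory Metric Real Set Filter
open scoped RealInnerProductSpace NNReal ENNReal Topology

theorem cvx (h : Pol) (h0 : CVX0) : CVX := by
  intro n N F hn hN hF hk hF0
  have := nontriv hn
  obtain ⟨ψ, ψ', hcd, hp, hz, hl, hI⟩ := h n hn
  obtain ⟨⟨C, hC⟩, hs⟩ := hl F hF
  obtain ⟨c, hc, hI⟩ := hI 0
  have h1 := h0 n N _ C hN hC hs fun x => by
    by_cases hx : x = 0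
    · simp [hx, hz]
    · exact mul_nonneg (hp _) (hF0 x hx)
  have hA : LL fun x : E n => N x * ‖x‖⁻¹ * F x :=
    (hN.ll.mul (LL.norm.inv fun x hx => norm_ne_zero_iff.2 hx)).mul hF
  have hB := hF.bm_fderiv hN.bm_grad
  have h2 := hI (fun x => N x * ‖x‖⁻¹ * F x) (fun x => fderiv ℝ F x (gradient N x)) hA.bm hB
    (fun x hx t ht => by
      have : ‖x‖ ≠ 0 := norm_ne_zero_iff.2 hx
      simp only [hk x hx t ht, hN.smul t ht.le, norm_smul, Real.norm_eq_abs, abs_of_pos ht]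
      field_simp) (fun x hx t ht => by simp [hk.fderiv hx ht, hN.grad_smul hx ht])
  have h3 : ∫ x, fderiv ℝ (fun x => ψ ‖x‖ * F x) x (gradient N x) =
      ∫ x, (ψ' ‖x‖ * (N x * ‖x‖⁻¹ * F x) + ψ ‖x‖ * fderiv ℝ F x (gradient N x)) := by
    refine integral_congr_ae ?_
    filter_upwards [hF.ae_diff hn, hN.ll.ae_diff hn, (volume : Measure (E n)).ae_ne 0]
      with x hd hd' hx
    obtain ⟨L, hL, hLv⟩ := TIBP.norm_fderiv hx
    have h4 : fderiv ℝ (fun x => ψ ‖x‖ * F x) x = _ :=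
      (((hcd.2 ‖x‖).comp_hasFDerivAt x hL).mul hd.hasFDerivAt).fderiv
    rw [h4]
    simp only [add_apply, smul_apply, smul_eq_mul, hLv, Function.comp]
    rw [real_inner_comm, hN.grad_self hx hd']
    ring
  rw [h3, h2, integral_sub hB.int (hA.bm.int.const_mul _), integral_const_mul] at h1
  have h6 := nonpos_of_mul_nonpos_right h1 hc
  have h7 : ∫ a, N a * ‖a‖⁻¹ * F a ∂σ n = ∫ a, F a * N a ∂σ n :=
    integral_congr_ae (σ_ae.mono fun a ha => by simp [ha, mul_comm])
  rw [h7] at h6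
  simp only [add_zero] at h6
  linarith

end Vale.Agent.P237
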