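import Vale.Agent.P237.Stmts

/-! The Laplacian of a convex function is nonnegative. -/

namespace Vale.Agent.P237

open MeasureTheory Metric Real Set Filter
open scoped RealInnerProductSpace NNReal ENNReal Topology

namespace TCVX0

variable {n : ℕ} {N g : E n → ℝ} {C : ℝ≥0}

theorem step (hN : Gau N) (hg : Continuous g) (hs : HasCompactSupport g) (h0 : ∀ x, 0 ≤ g x)
    (w : E n) : ∫ x, (g (x + w) - g x) * (N (x + w) - N x) ≤ 0 := by
  have hc := hN.cont
  have i1 : Integrable fun x => g x * (N x - N (x - w)) :=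
    Continuous.integrable_of_hasCompactSupport (by fun_prop) hs.mul_right
  have i2 : Integrable fun x => g x * (N (x + w) - N x) :=
    Continuous.integrable_of_hasCompactSupport (by fun_prop) hs.mul_right
  have i3 := i1.comp_add_right w
  have e := integral_add_right_eq_self (μ := volume) (fun x => g x * (N x - N (x - w))) w
  simp only [add_sub_cancel_right] at i3 e
  simp only [sub_mul]
  rw [integral_sub i3 i2, e, ← integral_sub i1 i2]
  refine integral_nonpos fun x => ?_
  have h1 := hN.add (x + w) (x - w)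
  rw [show x + w + (x - w) = (2 : ℝ) • x by module, hN.smul 2 zero_le_two] at h1
  simp only [Pi.zero_apply]
  nlinarith [h0 x]

theorem slope {f : E n → ℝ} {x : E n} (hd : DifferentiableAt ℝ f x) (e : E n) :
    Tendsto (fun t : ℝ => t⁻¹ * (f (x + t • e) - f x)) (𝓝[>] 0) (𝓝 (fderiv ℝ f x e)) :=
  (hd.hasFDerivAt.hasLineDerivAt e).tendsto_slope_zero_right

theorem slope_le {f : E n → ℝ} {L : ℝ≥0} (hf : LipschitzWith L f) (x e : E n) {t : ℝ}
    (ht : 0 < t) : ‖t⁻¹ * (f (x + t • e) - f x)‖ ≤ L * ‖e‖ := by
  have := hf.norm_sub_le (x + t • e) x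
  rw [add_sub_cancel_left, norm_smul, Real.norm_of_nonneg ht.le] at this
  rw [norm_mul, norm_inv, Real.norm_of_nonneg ht.le, inv_mul_le_iff₀ ht]
  linarith

theorem dir (hN : Gau N) (hg : LipschitzWith C g) (hs : HasCompactSupport g) (h0 : ∀ x, 0 ≤ g x)
    (e : E n) : ∫ x, fderiv ℝ g x e * fderiv ℝ N x e ≤ 0 := by
  obtain ⟨L, hL⟩ := hN.lip
  obtain ⟨R, hR⟩ := hs.isCompact.isBounded.subset_closedBall 0
  have hc := hN.cont
  have hc' := hg.continuous
  have hz : ∀ x, R < ‖x‖ → g x = 0 := fun x hx =>
    image_eq_zero_of_notMem_tsupport fun h => by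
      have := hR h
      rw [mem_closedBall_zero_iff] at this
      linarith
  have T : Tendsto (fun t : ℝ => ∫ x, (t⁻¹ * (g (x + t • e) - g x)) *
      (t⁻¹ * (N (x + t • e) - N x))) (𝓝[>] 0) (𝓝 (∫ x, fderiv ℝ g x e * fderiv ℝ N x e)) := by
    refine tendsto_integral_filter_of_dominated_convergence
      ((closedBall (0 : E n) (R + ‖e‖)).indicator fun _ => (C * ‖e‖) * (L * ‖e‖)) ?_ ?_ ?_ ?_
    · exact Eventually.of_forall fun t => Continuous.aestronglyMeasurable (by fun_prop)
    · filter_upwards [Ioo_mem_nhdsGT (zero_lt_one' ℝ)] with t ht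
      refine Eventually.of_forall fun x => ?_
      by_cases hx : x ∈ closedBall (0 : E n) (R + ‖e‖)
      · rw [indicator_of_mem hx, norm_mul]
        exact mul_le_mul (slope_le hg x e ht.1) (slope_le hL x e ht.1) (norm_nonneg _)
          (by positivity)
      · rw [indicator_of_notMem hx]
        rw [mem_closedBall_zero_iff, not_le] at hx
        have h1 : ‖x‖ ≤ ‖x + t • e‖ + ‖t • e‖ := by simpa using norm_sub_le (x + t • e) (t • e)
        rw [norm_smul, Real.norm_of_nonneg ht.1.le] at h1
        rw [hz x (by linarith [norm_nonneg e]),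
          hz (x + t • e) (by nlinarith [norm_nonneg e, ht.2])]
        simp
    · exact (integrable_indicator_iff measurableSet_closedBall).2
        (integrableOn_const measure_closedBall_lt_top.ne)
    · filter_upwards [hg.ae_differentiableAt (μ := volume), hL.ae_differentiableAt (μ := volume)]
        with x h1 h2 using (slope h1 e).mul (slope h2 e)
  refine le_of_tendsto' T fun t => ?_
  have e1 : ∀ x, (t⁻¹ * (g (x + t • e) - g x)) * (t⁻¹ * (N (x + t • e) - N x)) =
      t⁻¹ ^ 2 * ((g (x + t • e) - g x) * (N (x + t • e) - N x)) := fun x => by ring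
  simp only [e1]
  rw [integral_const_mul]
  exact mul_nonpos_of_nonneg_of_nonpos (sq_nonneg _) (step hN hc' hs h0 _)

theorem dir_int (hN : Gau N) (hg : LipschitzWith C g) (hs : HasCompactSupport g) (e : E n) :
    Integrable fun x => fderiv ℝ g x e * fderiv ℝ N x e := by
  obtain ⟨L, hL⟩ := hN.lip
  have h1 : HasCompactSupport fun x => fderiv ℝ g x e * fderiv ℝ N x e :=
    (hs.fderiv_apply ℝ e).mul_right
  rw [← integrableOn_iff_integrable_of_support_subset (subset_tsupport _)]
  refine Measure.integrableOn_of_bounded (M := (C * ‖e‖) * (L * ‖e‖))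
    h1.isCompact.measure_lt_top.ne
    ((measurable_fderiv_apply_const ℝ g e).mul
      (measurable_fderiv_apply_const ℝ N e)).aestronglyMeasurable
    (Eventually.of_forall fun x => ?_)
  rw [norm_mul]
  exact mul_le_mul ((fderiv ℝ g x).le_of_opNorm_le (norm_fderiv_le_of_lipschitz ℝ hg) e)
    ((fderiv ℝ N x).le_of_opNorm_le (norm_fderiv_le_of_lipschitz ℝ hL) e) (norm_nonneg _)
    (by positivity)

end TCVX0

open TCVX0 in
theorem cvx0 : CVX0 := by
  intro n N g C hN hg hs h0
  have e1 : ∀ x, fderiv ℝ g x (gradient N x) = ∑ i, fderiv ℝ g x (EuclideanSpace.single i 1) *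
      fderiv ℝ N x (EuclideanSpace.single i 1) := fun x => by
    simp only [fderiv_eq_inner, EuclideanSpace.inner_single_right]
    rw [inner_eq_sum]
    simp
  simp only [e1]
  rw [integral_finsetSum _ fun i _ => dir_int hN hg hs _]
  exact Finset.sum_nonpos fun i _ => dir hN hg hs h0 _

end Vale.Agent.P237
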