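import Vale.Agent.P237.Stmts

/-! The main chain of inequalities. -/

namespace Vale.Agent.P237

open MeasureTheory Metric Real Set Matrix Filter
open scoped RealInnerProductSpace Topology

theorem eta_pos : 0 < η := by norm_num [η]

theorem eta_lt : η < 1 := by norm_num [η]

theorem gram_mv {n : ℕ} {J : Type} [Fintype J] (g g' : J → ℝ) (A : Matrix (Fin n) (Fin n) ℝ)
    (q : J → E n) :
    gram g (fun j => g' j • mv A (q j)) = A * gram (fun j => g j * g' j ^ 2) q * Aᵀ := by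
  ext i k
  simp only [gram, of_apply, PiLp.smul_apply, smul_eq_mul, mv_apply, mul_apply, transpose_apply,
    Finset.mul_sum, Finset.sum_mul]
  rw [Finset.sum_comm]
  refine Finset.sum_congr rfl fun l _ => ?_
  rw [Finset.sum_comm]
  refine Finset.sum_congr rfl fun l' _ => Finset.sum_congr rfl fun j _ => by ring

/-- the determinant bound for a field with values in a symmetric convex set -/
theorem det_le (h3 : LA3) (h4 : VD) {n m : ℕ} (β : HB n m) (w : Fin n ⊕ Fin β.L → E n)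
    {M : Set (E n)} (hn : 4 ≤ n) (h1 : IsCompact M) (h2 : Convex ℝ M) (hs : ∀ x ∈ M, -x ∈ M)
    (hW : ∀ a, ‖a‖ = 1 → β.W w a ∈ M) (hp : (gram β.gs w).PosDef) :
    (gram β.gs w).det ≤ (vol M / kappa n) ^ 2 := by
  obtain ⟨e1, e2, e3, e4⟩ := h3 n m β w (by omega) hp
  refine e4.trans (le_trans ?_ (h4 n m β w M hn h1 h2 hs hW e1 e3))
  have := eta_lt
  gcongr
  nlinarith

theorem core1 (h1 : HBex) (h2 : HS) (h3 : MM) (h4 : Core0) (h5 : LA1) (h6 : LA3) (h7 : VD)
    (h8 : PBf) (h9 : Br) : Core1 := by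
  intro n m N hn hm hN
  obtain ⟨β⟩ := h1 n m (by omega) hm
  obtain ⟨s1, q0, s2, s3⟩ := h2 n m β N (by omega) hN
  obtain ⟨q, t1, t2, t3⟩ := h3 n _ _ _ q0 s1 s2 s3
  obtain ⟨c, y, u1, u2, u3⟩ := h4 n m β N q hn hm hN t1
  set G := gram (fun j => (β.gs j)⁻¹) q with hG
  have hm1 : (1 : ℝ) ≤ m := by exact_mod_cast hm.pos
  have hn1 : (4 : ℝ) ≤ n := by exact_mod_cast hn
  have hθ : 0 < n * kappa (n - 1) * ((m : ℝ) / (n + m - 1)) :=
    mul_pos (mul_pos (by linarith) (kappa_pos _)) (div_pos (by linarith) (by linarith))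
  have hc : 0 < c := hθ.trans_le u1
  obtain ⟨v1, v2⟩ := h5 n _ _ (t2.smul (pow_pos hc 2)) u3
  obtain ⟨p1, p2, p3, -⟩ := h8 n (Kb N) ((h9 n (by omega)).2 N hN).1
  have v3 := det_le h6 h7 β y hn p1 p2 p3 u2 v1
  have hw : gram β.gs (fun j => (β.gs j)⁻¹ • mv G⁻¹ (q j)) = G⁻¹ := by
    have : (fun j => β.gs j * (β.gs j)⁻¹ ^ 2) = fun j => (β.gs j)⁻¹ := by
      funext j
      by_cases h : β.gs j = 0
      · simp [h]
      · field_simp
    rw [gram_mv, this, ← hG, nonsing_inv_mul _ t2.det_pos.ne'.isUnit, one_mul,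
      ← conjTranspose_eq_transpose_of_trivial, t2.inv.isHermitian.eq]
  refine ⟨β, _, by rw [hw]; exact t2.inv, t3, ?_⟩
  rw [hw, det_nonsing_inv, Ring.inverse_eq_inv', ← div_eq_inv_mul, le_div_iff₀ t2.det_pos]
  refine le_trans ?_ (v2.trans v3)
  rw [det_smul, Fintype.card_fin, ← pow_mul]
  exact mul_le_mul_of_nonneg_right (pow_le_pow_left₀ hθ.le u1 _) t2.det_pos.le

theorem core2 (h1 : HW) (h2 : LA3) (h3 : VD) (h4 : MinkH) (h5 : Br) : Core2 := by
  intro n m β N w hn hN hp hS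
  have H := h1 n m β (by omega)
  obtain ⟨e1, -, e3, -⟩ := h2 n m β w (by omega) hp
  have v1 := h3 n m β w _ hn (H.cpt w) (H.cvx w) (H.symm w) (fun a ha ν => H.le w a ν ha) e1 e3
  have v2 := (h4 n N _ _ (by omega) hN (H.cpt w) (H.cont w) (H.nonneg w) fun x hx => hx).2
  have hV := ((h5 n (by omega)).2 N hN).2.2.2.2
  have h0 : 0 ≤ SA N (β.hW w) := integral_nonneg fun a =>
    mul_nonneg (pow_nonneg (inv_nonneg.2 (hN.nonneg a)) _) (H.nonneg w _)
  have h6 : 0 ≤ vol (β.MW w) / kappa n := div_nonneg (vol_nonneg _) (kappa_pos _).le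
  calc _ ≤ VN N ^ (2 * (n - 1)) * (vol (β.MW w) / kappa n) ^ 2 := by gcongr
    _ = (VN N ^ (n - 1) * (vol (β.MW w) / kappa n)) ^ 2 := by rw [mul_pow, ← pow_mul, mul_comm 2]
    _ ≤ ((n : ℝ) ^ n) ^ 2 := by
        gcongr
        exact v2.trans (pow_le_pow_left₀ h0 hS n)
    _ = _ := by rw [← pow_mul, mul_comm]

theorem theta_tendsto (n : ℕ) :
    Tendsto (fun k : ℕ => ((2 * k + 1 : ℕ) : ℝ) / (n + (2 * k + 1 : ℕ) - 1)) atTop (𝓝 1) := by
  have h1 : Tendsto (fun k : ℕ => (n : ℝ) + 2 * k) atTop atTop :=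
    tendsto_atTop_add_const_left _ _ (tendsto_natCast_atTop_atTop.const_mul_atTop two_pos)
  have h2 := (h1.const_div_atTop (1 - n : ℝ)).const_add 1
  rw [add_zero] at h2
  refine h2.congr' ?_
  filter_upwards [h1.eventually_gt_atTop 0] with k hk
  push_cast
  rw [show (n : ℝ) + (2 * k + 1) - 1 = n + 2 * k by ring]
  field_simp
  ring

theorem mi (h1 : Core1) (h2 : Core2) (h3 : LA3) (h5 : Br) : MI := by
  intro n N hn hN
  have hV := ((h5 n (by omega)).2 N hN).2.2.2.2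
  have hn1 : (4 : ℝ) ≤ n := by exact_mod_cast hn
  have hk := kappa_pos n
  have hk' := kappa_pos (n - 1)
  have key : ∀ k : ℕ, (kappa (n - 1) * (((2 * k + 1 : ℕ) : ℝ) / (n + (2 * k + 1 : ℕ) - 1))) ^ n *
      VN N ^ (n - 1) * kappa n ≤ vol (projBody (Kb N)) := by
    intro k
    obtain ⟨β, w, e1, e2, e3⟩ := h1 n (2 * k + 1) N hn ⟨k, rfl⟩ hN
    have e4 := h2 n _ β N w hn hN e1 e2
    obtain ⟨-, f2, f3, f4⟩ := h3 n _ β w (by omega) e1
    have f5 : (gram β.gs w).det ≤ (lin w).det ^ 2 * (1 - η * β.en w) ^ n := by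
      refine f4.trans ?_
      have := eta_lt
      gcongr
      nlinarith
    set θ : ℝ := ((2 * k + 1 : ℕ) : ℝ) / (n + (2 * k + 1 : ℕ) - 1)
    set P := vol (projBody (Kb N)) / kappa n with hP
    have g1 : (n : ℝ) ^ (2 * n) * ((kappa (n - 1) * θ) ^ n * VN N ^ (n - 1)) ^ 2 ≤
        (n : ℝ) ^ (2 * n) * P ^ 2 :=
      calc _ = VN N ^ (2 * (n - 1)) * (n * kappa (n - 1) * θ) ^ (2 * n) := by
            simp only [mul_pow, ← pow_mul, mul_comm 2]; ring
        _ ≤ VN N ^ (2 * (n - 1)) * ((lin w).det ^ 2 * (1 - η * β.en w) ^ n * P ^ 2) := by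
            gcongr
            exact e3.trans (by gcongr)
        _ ≤ _ := by rw [← mul_assoc]; gcongr
    have g2 := le_of_mul_le_mul_left g1 (by positivity)
    have g3 := le_of_sq_le_sq g2 (div_nonneg (vol_nonneg _) hk.le)
    rwa [hP, le_div_iff₀ hk] at g3
  have := ((((theta_tendsto n).const_mul (kappa (n - 1))).pow n).mul_const
    (VN N ^ (n - 1))).mul_const (kappa n)
  rw [mul_one] at this
  exact le_of_tendsto' this key

end Vale.Agent.P237
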