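import Vale.Agent.P237.Stmts

/-! The vector field with values in the projection body. -/

namespace Vale.Agent.P237

open MeasureTheory Metric Real Set MvPolynomial Matrix
open scoped RealInnerProductSpace NNReal ENNReal Topology Pointwise

namespace TCore0

variable {n : ℕ}

theorem gram_psd {J : Type} [Fintype J] {g : J → ℝ} (hg : ∀ j, 0 ≤ g j) (q : J → E n) :
    (gram g q).PosSemidef := by
  have h : gram g q = ∑ j, g j • vecMulVec (q j).ofLp (star (q j).ofLp) := by
    ext i k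
    simp [gram, Matrix.sum_apply, vecMulVec_apply]
  rw [h]
  exact posSemidef_sum _ fun j _ => (posSemidef_vecMulVec_self_star _).smul (hg j)

theorem SA_mono {N g h : E n → ℝ} (hN : Gau N) (hg : Continuous g) (hh : Continuous h)
    (hle : ∀ ν, g ν ≤ h ν) : SA N g ≤ SA N h :=
  integral_mono (hN.int_SA hg) (hN.int_SA hh) fun a =>
    mul_le_mul_of_nonneg_left (hle _) (pow_nonneg (inv_nonneg.2 (hN.nonneg a)) _)

variable {m : ℕ} (β : HB n m)

/-- rescaling of a family -/
noncomputable def sc (s : ℝ) (sg : Fin β.L → ℝ) (q : Fin n ⊕ Fin β.L → E n) :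
    Fin n ⊕ Fin β.L → E n
  | .inl k => s • q (.inl k)
  | .inr i => sg i • q (.inr i)

/-- the test family -/
noncomputable def tw (s : ℝ) (sg : Fin β.L → ℝ) (a u : E n) : Fin n ⊕ Fin β.L → E n
  | .inl k => (n * s * a k) • u
  | .inr i => (n * sg i * ev (β.P i) a) • u

theorem W_tw (s : ℝ) (sg : Fin β.L → ℝ) (a u b ν : E n) :
    ⟪β.W (tw β s sg a u) b, ν⟫ =
      n * (s * ⟪a, b⟫ + ∑ i, sg i * (ev (β.P i) a * ev (β.P i) b)) * ⟪u, ν⟫ := by
  simp only [HB.W, HB.r, tw, inner_add_left, sum_inner, real_inner_smul_left]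
  rw [inner_eq_sum a b]
  simp only [mul_add, add_mul, Finset.mul_sum, Finset.sum_mul]
  refine congrArg₂ (· + ·) ?_ ?_ <;> exact Finset.sum_congr rfl fun i _ => by ring

theorem W_sc (d s : ℝ) (sg : Fin β.L → ℝ) (q : Fin n ⊕ Fin β.L → E n) (a u : E n) :
    n * ⟪β.W (sc β (d * s) (fun i => d * sg i) q) a, u⟫ = d * pair q (tw β s sg a u) := by
  simp only [HB.W, HB.r, tw, sc, pair, Fintype.sum_sum_type, inner_add_left, sum_inner,
    real_inner_smul_left, real_inner_smul_right]
  simp only [mul_add, Finset.mul_sum]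
  refine congrArg₂ (· + ·) ?_ ?_ <;> exact Finset.sum_congr rfl fun i _ => by ring

/-- the weights of the difference of the two Gram matrices -/
noncomputable def gd (d s : ℝ) (sg : Fin β.L → ℝ) : Fin n ⊕ Fin β.L → ℝ
  | .inl _ => 0
  | .inr i => d ^ 2 * (s ^ 2 * (th n (β.deg i))⁻¹ - th n (β.deg i) * sg i ^ 2)

theorem gram_sc (d s : ℝ) (sg : Fin β.L → ℝ) (q : Fin n ⊕ Fin β.L → E n) :
    gram β.gs (sc β (d * s) (fun i => d * sg i) q) - (d * s) ^ 2 • gram (fun j => (β.gs j)⁻¹) q =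
      gram (gd β d s sg) q := by
  ext i k
  simp only [gram, Matrix.sub_apply, Matrix.smul_apply, Matrix.of_apply, smul_eq_mul,
    Finset.mul_sum, ← Finset.sum_sub_distrib]
  refine Finset.sum_congr rfl fun j _ => ?_
  rcases j with j | j
  · simp only [HB.gs, sc, gd, PiLp.smul_apply, smul_eq_mul]
    ring
  · simp only [HB.gs, sc, gd, PiLp.smul_apply, smul_eq_mul, inv_neg]
    ring

end TCore0

theorem core0 (h1 : KS) (h2 : HW) (h3 : F1) : Core0 := by
  intro n m β N q hn hm hN hq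
  have hn0 : 0 < n := by omega
  have hn' : (0 : ℝ) < n := by exact_mod_cast hn0
  have hk := kappa_pos n
  obtain ⟨s, sg, hs, hsg, hker⟩ := h1 n m β hn hm
  have hW := h2 n m β hn0
  refine ⟨(n : ℝ) ^ 2 * kappa n / 2 * s,
    TCore0.sc β ((n : ℝ) ^ 2 * kappa n / 2 * s) (fun i => (n : ℝ) ^ 2 * kappa n / 2 * sg i) q,
    ?_, fun a ha u hu => ?_, ?_⟩
  · refine le_trans (le_of_eq ?_) (mul_le_mul_of_nonneg_left hs (by positivity))
    rw [c1, ← mul_assoc]
    congr 1
    field_simp
  · have e1 := TCore0.W_sc β ((n : ℝ) ^ 2 * kappa n / 2) s sg q a u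
    have e2 : SA N (β.hW (TCore0.tw β s sg a u)) ≤ SA N fun ν => |⟪u, ν⟫| := by
      refine TCore0.SA_mono hN (hW.cont _) (by fun_prop) fun ν => hW.lub _ _ _ fun b hb => ?_
      rw [TCore0.W_tw]
      refine (le_abs_self _).trans ?_
      rw [abs_mul]
      exact mul_le_of_le_one_left (abs_nonneg _) (hker a b ha hb)
    have e3 := ((hq _).trans e2).trans (h3 n N u hn0 hN hu)
    have e4 := mul_le_mul_of_nonneg_left e3 (by positivity : 0 ≤ (n : ℝ) ^ 2 * kappa n / 2)
    have e5 : (n : ℝ) ^ 2 * kappa n / 2 * (2 * projVol (Kb N) u / (n * kappa n)) =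
        n * projVol (Kb N) u := by field_simp
    rw [← e1, e5] at e4
    exact le_of_mul_le_mul_left e4 hn'
  · rw [TCore0.gram_sc]
    refine TCore0.gram_psd (fun j => ?_) q
    rcases j with j | j
    · exact le_rfl
    · have t1 := th_ge (n := n) (by omega) (β.odd j) (β.three j)
      have t0 : 0 < th n (β.deg j) := by linarith
      have t2 : (th n (β.deg j) * |sg j|) ^ 2 ≤ s ^ 2 :=
        pow_le_pow_left₀ (by positivity) (hsg j) 2
      rw [mul_pow, sq_abs] at t2
      refine mul_nonneg (sq_nonneg _) (sub_nonneg.2 ?_)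
      rw [← div_eq_mul_inv, le_div_iff₀ t0]
      linarith

end Vale.Agent.P237
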