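import Vale.Agent.P237.Stmts

/-! Volumes of stretched bodies and of bodies inside a strip. -/

namespace Vale.Agent.P237

open MeasureTheory Metric Real Set
open scoped RealInnerProductSpace NNReal ENNReal Topology Pointwise

namespace TCylStr

variable {n : ℕ}

/-- the fibre of a set over a point -/
def fib (K : Set (E n)) (u y : E n) : Set ℝ := {t | y + t • u ∈ K}

theorem vol_eq (h : Fub) {K : Set (E n)} (hK : MeasurableSet K) {u : E n} (hu : ‖u‖ = 1) :
    volume K = ∫⁻ y : (ℝ ∙ u)ᗮ, volume (fib K u y.1) := by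
  rw [← lintegral_indicator_one hK, h n u _ hu (measurable_one.indicator hK)]
  refine lintegral_congr fun y => ?_
  have hm : MeasurableSet (fib K u y.1) :=
    (by fun_prop : Measurable fun t : ℝ => y.1 + t • u) hK
  rw [← lintegral_indicator_one hm]
  rfl

theorem inner_fib {u : E n} (hu : ‖u‖ = 1) (y : (ℝ ∙ u)ᗮ) (t : ℝ) : ⟪y.1 + t • u, u⟫ = t := by
  rw [inner_add_left, real_inner_smul_left, real_inner_self_eq_norm_sq, hu,
    Submodule.mem_orthogonal_singleton_iff_inner_left.1 y.2]
  ring

theorem fib_compact {K : Set (E n)} (hK : IsCompact K) {u : E n} (hu : ‖u‖ = 1)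
    (y : (ℝ ∙ u)ᗮ) : IsCompact (fib K u y.1) := by
  have hc : IsClosed (fib K u y.1) :=
    hK.isClosed.preimage (by fun_prop : Continuous fun t : ℝ => y.1 + t • u)
  refine (hK.image (by fun_prop : Continuous fun x : E n => ⟪x, u⟫)).of_isClosed_subset hc ?_
  intro t ht
  exact ⟨_, ht, inner_fib hu y t⟩

theorem fib_convex {K : Set (E n)} (hK : Convex ℝ K) (u y : E n) : Convex ℝ (fib K u y) := by
  intro s hs t ht a b ha hb hab
  have := hK hs ht ha hb hab
  have e : y + (a • s + b • t) • u = a • (y + s • u) + b • (y + t • u) := by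
    simp only [smul_eq_mul, add_smul, smul_add, smul_smul]
    rw [add_add_add_comm, ← add_smul a b y, hab, one_smul]
  exact (show y + (a • s + b • t) • u ∈ K from e ▸ this)

theorem proj_fib {u : E n} (y : (ℝ ∙ u)ᗮ) (t : ℝ) :
    (ℝ ∙ u)ᗮ.orthogonalProjectionOnto (y.1 + t • u) = y := by
  rw [map_add, map_smul, Submodule.orthogonalProjectionOnto_mem_subspace_eq_self,
    Submodule.orthogonalProjectionOnto_orthogonalComplement_singleton_eq_zero,
    smul_zero, add_zero]

theorem fib_nonempty {K : Set (E n)} {u : E n} (y : (ℝ ∙ u)ᗮ) :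
    (fib K u y.1).Nonempty ↔ y ∈ (ℝ ∙ u)ᗮ.orthogonalProjectionOnto '' K := by
  constructor
  · rintro ⟨t, ht⟩
    exact ⟨_, ht, proj_fib y t⟩
  · rintro ⟨x, hx, rfl⟩
    have h1 := Submodule.sub_starProjection_mem_orthogonal (K := (ℝ ∙ u)ᗮ) x
    rw [Submodule.orthogonal_orthogonal, Submodule.mem_span_singleton] at h1
    obtain ⟨t, ht⟩ := h1
    refine ⟨t, ?_⟩
    change (ℝ ∙ u)ᗮ.starProjection x + t • u ∈ K
    rw [ht, add_sub_cancel]
    exact hx

theorem mem_fib_stretch {K : Set (E n)} {u y : E n} {a b s : ℝ} :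
    s ∈ fib (stretch K u a b) u y ↔ ∃ t ∈ Icc a b, s - t ∈ fib K u y := by
  constructor
  · rintro ⟨x, hx, t, ht, e⟩
    refine ⟨t, ht, ?_⟩
    change y + (s - t) • u ∈ K
    rw [sub_smul, ← add_sub_assoc, e, add_sub_cancel_right]
    exact hx
  · rintro ⟨t, ht, h⟩
    refine ⟨_, h, t, ht, ?_⟩
    rw [sub_smul]
    abel

theorem fib_stretch {K : Set (E n)} (hK : IsCompact K) (hc : Convex ℝ K) {u : E n} (hu : ‖u‖ = 1)
    {a b : ℝ} (hab : a ≤ b) (y : (ℝ ∙ u)ᗮ) :
    volume (fib (stretch K u a b) u y.1) = volume (fib K u y.1) +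
      ((ℝ ∙ u)ᗮ.orthogonalProjectionOnto '' K).indicator (fun _ => ENNReal.ofReal (b - a)) y := by
  by_cases hy : y ∈ (ℝ ∙ u)ᗮ.orthogonalProjectionOnto '' K
  · rw [indicator_of_mem hy]
    have hne := (fib_nonempty y).2 hy
    obtain ⟨p, q, hpq⟩ : ∃ p q, fib K u y.1 = Icc p q :=
      ⟨_, _, eq_Icc_of_connected_compact ((fib_convex hc u y.1).isConnected hne)
        (fib_compact hK hu y)⟩
    rw [hpq, nonempty_Icc] at hne
    have e : fib (stretch K u a b) u y.1 = Icc (p + a) (q + b) := by
      ext s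
      rw [mem_fib_stretch, hpq]
      constructor
      · rintro ⟨t, ht, hs⟩
        exact ⟨by linarith [ht.1, hs.1], by linarith [ht.2, hs.2]⟩
      · intro hs
        rcases le_total (s - a) q with h | h
        · exact ⟨a, ⟨le_rfl, hab⟩, by linarith [hs.1], h⟩
        · exact ⟨s - q, ⟨by linarith, by linarith [hs.2]⟩, by linarith, by linarith⟩
    rw [e, hpq, Real.volume_Icc, Real.volume_Icc,
      ← ENNReal.ofReal_add (sub_nonneg.2 hne) (sub_nonneg.2 hab)]
    congr 1
    ring
  · have he : fib K u y.1 = ∅ := not_nonempty_iff_eq_empty.1 fun h => hy ((fib_nonempty y).1 h)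
    have e : fib (stretch K u a b) u y.1 = ∅ := by
      ext s
      rw [mem_fib_stretch, he]
      simp
    rw [indicator_of_notMem hy, e, he, add_zero]

theorem proj_compact {K : Set (E n)} (hK : IsCompact K) (u : E n) :
    IsCompact ((ℝ ∙ u)ᗮ.orthogonalProjectionOnto '' K) :=
  hK.image (ℝ ∙ u)ᗮ.orthogonalProjectionOnto.continuous

end TCylStr

open TCylStr

theorem cyl_ (h : Fub) : Cyl := by
  intro n K u a b hu hK hc hab
  have hP := proj_compact hK u
  have e : volume (stretch K u a b) = volume K +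
      ENNReal.ofReal (b - a) * volume ((ℝ ∙ u)ᗮ.orthogonalProjectionOnto '' K) := by
    rw [vol_eq h (stretch_compact hK u a b).measurableSet hu, vol_eq h hK.measurableSet hu,
      ← lintegral_indicator_const hP.measurableSet,
      ← lintegral_add_right _ (measurable_const.indicator hP.measurableSet)]
    exact lintegral_congr fun y => fib_stretch hK hc hu hab y
  unfold vol projVol shadow
  rw [e, ENNReal.toReal_add hK.measure_lt_top.ne
    (ENNReal.mul_ne_top ENNReal.ofReal_ne_top hP.measure_lt_top.ne), ENNReal.toReal_mul,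
    ENNReal.toReal_ofReal (sub_nonneg.2 hab)]

theorem str (h : Fub) : Str := by
  intro n K u a b hu hK hab hs
  have hP := proj_compact hK u
  have e : volume K ≤
      ENNReal.ofReal (b - a) * volume ((ℝ ∙ u)ᗮ.orthogonalProjectionOnto '' K) := by
    rw [vol_eq h hK.measurableSet hu, ← lintegral_indicator_const hP.measurableSet]
    refine lintegral_mono fun y => ?_
    by_cases hy : y ∈ (ℝ ∙ u)ᗮ.orthogonalProjectionOnto '' K
    · simp only [indicator_of_mem hy]
      rw [← Real.volume_Icc]
      refine measure_mono fun t ht => ?_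
      have := hs _ ht
      rwa [inner_fib hu y t] at this
    · have he : fib K u y.1 = ∅ := not_nonempty_iff_eq_empty.1 fun h => hy ((fib_nonempty y).1 h)
      simp only [he, measure_empty, zero_le]
  unfold vol projVol shadow
  rw [← ENNReal.toReal_ofReal (sub_nonneg.2 hab), ← ENNReal.toReal_mul]
  exact ENNReal.toReal_mono (ENNReal.mul_ne_top ENNReal.ofReal_ne_top hP.measure_lt_top.ne) e

end Vale.Agent.P237
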