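import Vale.Agent.P237.Stmts

/-! The energy inequality. -/

namespace Vale.Agent.P237

open MeasureTheory Metric Real Set MvPolynomial
open scoped RealInnerProductSpace

namespace TEN

variable {n : ℕ}

theorem orth (h2 : PI) (hn : 2 ≤ n) (s : Finset ℕ) {p q : ℕ → MP n}
    (hp : ∀ k ∈ s, HH (2 * k) (p k)) (hq : ∀ k ∈ s, HH (2 * k) (q k)) :
    ∫ a, ev (∑ k ∈ s, p k) a * ev (∑ k ∈ s, q k) a ∂σ n =
      ∑ k ∈ s, ∫ a, ev (p k) a * ev (q k) a ∂σ n := by
  simp only [ev_sum, Finset.sum_mul_sum]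
  rw [integral_finsetSum _ fun k _ =>
    (BM.sum _ fun l _ => (ev_bm (p k)).mul (ev_bm (q l))).int]
  refine Finset.sum_congr rfl fun k hk => ?_
  rw [integral_finsetSum _ fun l _ => ((ev_bm (p k)).mul (ev_bm (q l))).int]
  exact Finset.sum_eq_single k (fun l hl h =>
    (h2 n hn).2.1 _ _ _ _ (hp k hk) (hq l hl) (by omega)) fun h => absurd hk h

theorem split (B1 B2 B3 b : ℝ) (p q : MP n) :
    ∫ a, (qf B1 B2 B3 (ev p a) (ev q a) - b * ev p a ^ 2) ∂σ n =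
      (B1 - b) * ∫ a, ev p a * ev p a ∂σ n + 2 * B2 * ∫ a, ev p a * ev q a ∂σ n +
        B3 * ∫ a, ev q a * ev q a ∂σ n := by
  have i := fun (c : ℝ) (p q : MP n) => (((ev_bm p).mul (ev_bm q)).int).const_mul c
  have j : Integrable (fun a => (B1 - b) * (ev p a * ev p a) + 2 * B2 * (ev p a * ev q a))
    (σ n) := (i _ p p).add (i _ p q)
  rw [← integral_const_mul, ← integral_const_mul, ← integral_const_mul,
    ← integral_add (i _ p p) (i _ p q), ← integral_add j (i _ q q)]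
  refine integral_congr_ae (Filter.Eventually.of_forall fun a => ?_)
  simp only [qf]
  ring

theorem qsum (h2 : PI) (hn : 2 ≤ n) (B1 B2 B3 b : ℝ) (s : Finset ℕ) {p q : ℕ → MP n}
    (hp : ∀ k ∈ s, HH (2 * k) (p k)) (hq : ∀ k ∈ s, HH (2 * k) (q k)) :
    ∫ a, (qf B1 B2 B3 (ev (∑ k ∈ s, p k) a) (ev (∑ k ∈ s, q k) a) -
      b * ev (∑ k ∈ s, p k) a ^ 2) ∂σ n =
      ∑ k ∈ s, ∫ a, (qf B1 B2 B3 (ev (p k) a) (ev (q k) a) - b * ev (p k) a ^ 2) ∂σ n := by
  simp only [split]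
  rw [orth h2 hn s hp hp, orth h2 hn s hp hq, orth h2 hn s hq hq]
  simp only [Finset.sum_add_distrib, Finset.mul_sum]

theorem bm (B1 B2 B3 b : ℝ) {f g : E n → ℝ} (hf : Continuous f) (hg : Continuous g) :
    BM fun a => qf B1 B2 B3 (f a) (g a) - b * f a ^ 2 :=
  BM.of_cont (by unfold qf; fun_prop)

theorem le (B1 B2 B3 b c d : ℝ) (p q U V : MP n)
    (h : ∀ a, qf B1 B2 B3 (ev p a) (ev q a) - b * ev p a ^ 2 ≤ c * ev U a ^ 2 + d * ev V a ^ 2) :
    ∫ a, (qf B1 B2 B3 (ev p a) (ev q a) - b * ev p a ^ 2) ∂σ n ≤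
      c * ∫ a, ev U a ^ 2 ∂σ n + d * ∫ a, ev V a ^ 2 ∂σ n := by
  have i := fun (c : ℝ) (p : MP n) => (((ev_bm p).pow 2).int).const_mul c
  rw [← integral_const_mul, ← integral_const_mul, ← integral_add (i _ U) (i _ V)]
  exact integral_mono (bm _ _ _ _ (ev_cont p) (ev_cont q)).int ((i _ U).add (i _ V)) h

theorem tele {f A B : ℕ → ℝ} (h1 : f 1 ≤ B 1) (h : ∀ k, 1 ≤ k → f (k + 1) ≤ A k + B (k + 1))
    (J : ℕ) : ∑ k ∈ Finset.Icc 1 (J + 1), f k ≤ ∑ k ∈ Finset.Icc 1 J, (A k + B k) + B (J + 1) := by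
  induction J with
  | zero => simpa using h1
  | succ J ih =>
    rw [Finset.sum_Icc_succ_top (by omega), Finset.sum_Icc_succ_top (f := fun k => A k + B k)
      (by omega)]
    linarith [h (J + 1) (by omega)]

end TEN

open TEN in
theorem en (h1 : EN2) (h2 : PI) : EN := by
  intro n m β y B1 B2 B3 b hn hE
  obtain ⟨J, U, V, e, hH, hU, hV, hs, hr, hEn, he⟩ := h1 n m β y hn
  have n2 : (2 : ℝ) ≤ n := by exact_mod_cast hn
  let p : ℕ → MP n := fun k => U k + V k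
  let q : ℕ → MP n := fun k => (-(((2 * k : ℕ) : ℝ) + n - 2)) • U k + ((2 * k : ℕ) : ℝ) • V k
  have hq := qsum h2 hn B1 B2 B3 b (Finset.Icc 1 (J + 1)) (p := p) (q := q)
    (fun k hk => (hH k (Finset.mem_Icc.1 hk).1).1.add (hH k (Finset.mem_Icc.1 hk).1).2)
    fun k hk => ((hH k (Finset.mem_Icc.1 hk).1).1.smul _).add
      ((hH k (Finset.mem_Icc.1 hk).1).2.smul _)
  have e1 : ∫ a, (qf B1 B2 B3 ⟪β.r y a, a⟫ (β.dv y a) +
      b * (‖β.r y a‖ ^ 2 - ⟪β.r y a, a⟫ ^ 2)) ∂σ n =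
      ∫ a, (qf B1 B2 B3 (ev (∑ k ∈ Finset.Icc 1 (J + 1), p k) a)
        (ev (∑ k ∈ Finset.Icc 1 (J + 1), q k) a) -
          b * ev (∑ k ∈ Finset.Icc 1 (J + 1), p k) a ^ 2) ∂σ n +
        b * ∫ a, ‖β.r y a‖ ^ 2 ∂σ n := by
    rw [← integral_const_mul, ← integral_add (bm _ _ _ _ (ev_cont _) (ev_cont _)).int
      ((((BM.of_cont (β.r_cont y)).norm.pow 2).int).const_mul b)]
    refine integral_congr_ae (σ_ae.mono fun a ha => ?_)
    simp only [(hs a ha).1, (hs a ha).2, p, q, ev_sum, ev_add, ev_smul]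
    ring
  have t := tele
    (f := fun k => ∫ a, (qf B1 B2 B3 (ev (p k) a) (ev (q k) a) - b * ev (p k) a ^ 2) ∂σ n)
    (A := fun k => (η * th n (2 * k + 1) - b) * ((4 * k + n + 2) / (2 * k + 2)) *
      ∫ a, ev (U (k + 1)) a ^ 2 ∂σ n)
    (B := fun k => (η * th n (2 * k + 1) - b) * ((4 * k + n - 2) / (2 * k + n - 2)) *
      ∫ a, ev (V k) a ^ 2 ∂σ n) (by
      refine (le B1 B2 B3 b 0 _ _ _ 0 (V 1) fun a => ?_).trans_eq (by rw [zero_mul, zero_add])
      have h := hE.two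
      have h3 : qf B1 B2 B3 1 2 - b ≤ (η * (n + 1) - b) * ((n + 2) / n) := by
        rw [← mul_div_assoc, le_div_iff₀ (by linarith)]
        linarith
      have h4 := mul_le_mul_of_nonneg_right h3 (sq_nonneg (ev (V 1) a))
      simp only [p, q, hU, th, qf, ev_add, ev_smul, ev_zero] at h4 ⊢
      norm_num
      rw [show (4 + n - 2 : ℝ) = n + 2 by ring]
      linarith)
    (fun k hk => by
      refine le B1 B2 B3 b _ _ _ _ _ _ fun a => ?_
      have h := hE.high (2 * (k + 1)) (by omega) (ev (U (k + 1)) a) (ev (V (k + 1)) a)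
      rw [show 2 * (k + 1) - 1 = 2 * k + 1 by omega] at h
      simp only [p, q, ev_add, ev_smul]
      have e2 : (4 * k + n + 2 : ℝ) / (2 * k + 2) =
          (2 * ((2 * (k + 1) : ℕ) : ℝ) + n - 2) / ((2 * (k + 1) : ℕ) : ℝ) := by
        push_cast
        congr 1 <;> ring
      have e3 : (4 * ((k + 1 : ℕ) : ℝ) + n - 2) / (2 * ((k + 1 : ℕ) : ℝ) + n - 2) =
          (2 * ((2 * (k + 1) : ℕ) : ℝ) + n - 2) / (((2 * (k + 1) : ℕ) : ℝ) + n - 2) := by
        push_cast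
        congr 1
        ring
      rw [e2, e3]
      linarith) J
  simp only [hV, ev_zero, ne_eq, OfNat.ofNat_ne_zero, not_false_eq_true, zero_pow, integral_zero,
    mul_zero, add_zero] at t
  rw [e1, hq, hr, hEn, Finset.mul_sum, Finset.mul_sum, ← le_sub_iff_add_le,
    ← Finset.sum_sub_distrib]
  refine t.trans (Finset.sum_le_sum fun k hk => ?_)
  have k1 := (Finset.mem_Icc.1 hk).1
  have h0 : 0 ≤ η * th n (2 * k + 1) - b := by
    have := th_ge hn (j := 2 * k + 1) (odd_two_mul_add_one k) (by omega)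
    have h5 := hE.le
    unfold η at *
    linarith
  have := mul_le_mul_of_nonneg_left (he k k1) h0
  linarith

end Vale.Agent.P237
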