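import Vale.Agent.P237.Stmts

/-! Bessel's inequality for a field of harmonics of one degree. -/

namespace Vale.Agent.P237

open MeasureTheory Metric Real Set MvPolynomial
open scoped RealInnerProductSpace

namespace TEN1

variable {n : ℕ}

/-- the mean over the sphere -/
noncomputable def I (n : ℕ) : MP n →ₗ[ℝ] ℝ where
  toFun p := ∫ a, ev p a ∂σ n
  map_add' p q := by
    simp only [ev_add]
    exact integral_add (ev_bm p).int (ev_bm q).int
  map_smul' c p := by
    simp only [ev_smul, integral_const_mul, RingHom.id_apply, smul_eq_mul]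

theorem I_apply (p : MP n) : I n p = ∫ a, ev p a ∂σ n := rfl

theorem I_congr {p q : MP n} (h : ∀ a, ‖a‖ = 1 → ev p a = ev q a) : I n p = I n q :=
  integral_congr_ae (σ_ae.mono h)

theorem alg {R A D x : Fin n → ℝ} {U V L M : ℝ} (s t c : ℝ) (h1 : ∑ i, R i * x i = U + V)
    (h2 : ∑ i, x i * A i = M * U) (h3 : ∑ i, x i * x i = 1) (h4 : ∑ i, x i * D i = L * V) :
    0 ≤ ∑ i, R i ^ 2 - 2 * s * ∑ i, R i * A i + (2 * s * t * M - 2 * t) * (U * V) +
      2 * t * c * ∑ i, R i * D i + s ^ 2 * ∑ i, A i * A i - 2 * s * t * c * ∑ i, A i * D i +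
      (t ^ 2 - 2 * t ^ 2 * c * L - 2 * t) * (V * V) + t ^ 2 * c ^ 2 * ∑ i, D i * D i := by
  have e : ∑ i, (R i - s * A i - t * (x i * V - c * D i)) ^ 2 =
      ∑ i, R i ^ 2 - 2 * s * ∑ i, R i * A i - 2 * t * V * ∑ i, R i * x i +
      2 * t * c * ∑ i, R i * D i + s ^ 2 * ∑ i, A i * A i + 2 * s * t * V * ∑ i, x i * A i -
      2 * s * t * c * ∑ i, A i * D i + t ^ 2 * V ^ 2 * ∑ i, x i * x i -
      2 * t ^ 2 * c * V * ∑ i, x i * D i + t ^ 2 * c ^ 2 * ∑ i, D i * D i := by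
    simp only [Finset.mul_sum, ← Finset.sum_add_distrib, ← Finset.sum_sub_distrib]
    exact Finset.sum_congr rfl fun i _ => by ring
  rw [h1, h2, h3, h4] at e
  have := Finset.sum_nonneg fun i (_ : i ∈ Finset.univ) =>
    sq_nonneg (R i - s * A i - t * (x i * V - c * D i))
  linarith

theorem lap_X_mul (i : Fin n) {p : MP n} (h : lap p = 0) : lap (X i * p) = (2 : ℝ) • pderiv i p := by
  rw [lap_mul, h, (HH.X i).2, Finset.sum_eq_single i
    (fun k _ hk => by simp [pderiv_X, Pi.single_eq_of_ne' hk]) (by simp)]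
  simp [two_smul, two_mul]

theorem lap_sum {ι : Type} (s : Finset ι) (p : ι → MP n) :
    lap (∑ i ∈ s, p i) = ∑ i ∈ s, lap (p i) := by
  simp only [lap, map_sum]
  exact Finset.sum_comm

theorem r2_hom : (r2 n).IsHomogeneous 2 :=
  IsHomogeneous.sum _ _ _ fun i _ => by simpa using (isHomogeneous_X ℝ i).pow 2

end TEN1

open TEN1 in
theorem en1 (h1 : PI) (h2 : Fis) : EN1 := by
  intro n l R hn hl hR
  obtain ⟨p1, p2, p3, -⟩ := h1 n hn
  obtain ⟨l, rfl⟩ : ∃ k, l = k + 1 := ⟨l - 1, by omega⟩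
  have hn' : (2 : ℝ) ≤ n := by exact_mod_cast hn
  have hl' : (0 : ℝ) ≤ l := l.cast_nonneg
  set δ : MP n := ∑ i, pderiv i (R i) with hδ
  have hd : HH (l + 1) δ := HH.sum _ fun i _ => (hR i).pderiv i
  set w : ℝ := n + 2 * (l + 1 : ℕ) with hw
  have hw0 : 0 < w := by positivity
  set V : MP n := w⁻¹ • δ with hV
  have hV1 : HH (l + 1) V := hd.smul _
  have hV2 : δ = w • V := by rw [hV, smul_smul, mul_inv_cancel₀ hw0.ne', one_smul]
  set U : MP n := ∑ i, X i * R i + (-1 : ℝ) • (r2 n * V) with hU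
  have hU1 : HH (l + 1 + 2) U := by
    constructor
    · refine IsHomogeneous.add (IsHomogeneous.sum _ _ _ fun i _ => ?_)
        ((homogeneousSubmodule _ _ _).smul_mem _ ?_)
      · rw [show l + 1 + 2 = 1 + (l + 1 + 1) by omega]
        exact (isHomogeneous_X ℝ i).mul (hR i).1
      · rw [add_comm]
        exact r2_hom.mul hV1.1
    · have e := (h2 n (by omega)).1 (l + 1) 0 V hV1
      simp only [zero_add, pow_one, pow_zero, one_mul, Nat.cast_zero, mul_zero, add_zero,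
        mul_one] at e
      rw [hU, lap_add, lap_smul, e, lap_sum]
      simp only [lap_X_mul _ (hR _).2, ← Finset.smul_sum]
      rw [← hδ, hV2, ← hw]
      module
  have hs : ∀ a : E n, ‖a‖ = 1 → ∑ i, ev (R i) a * a i = ev U a + ev V a := fun a ha => by
    simp [hU, ev_r2, ha, mul_comm]
  refine ⟨U, V, hU1, hV1, hs, fun a => by rw [← ev_sum, ← hδ, hV2, ev_smul], ?_⟩
  clear_value U V δ
  have o : ∀ {j k : ℕ} {p q : MP n}, HH j p → HH k q → j ≠ k → I n (p * q) = 0 :=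
    fun hp hq hjk => by simpa only [I_apply, ev_mul] using p2 _ _ _ _ hp hq hjk
  have g : ∀ {j : ℕ} {p : MP n}, HH j p →
      I n (∑ i, pderiv i p * pderiv i p) = j * (n + 2 * j - 2) * I n (p * p) :=
    fun hp => by simpa only [I_apply, ev_mul, ev_sum] using p3 _ _ _ hp hp
  have oUV := o hU1 hV1 (by omega)
  have a1 : I n (∑ i, R i * pderiv i U) = (w + 2) * I n (U * U) := by
    have e : ∀ i, I n (pderiv i (R i * U)) = (w + 2) * I n (X i * (R i * U)) := fun i => by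
      have := p1 _ _ i ((hR i).1.mul hU1.1)
      simp only [I_apply, ev_mul, ev_X] at this ⊢
      rw [this, hw]
      push_cast
      ring
    have e1 := Finset.sum_congr (s₁ := Finset.univ) rfl fun i _ => e i
    rw [← Finset.mul_sum, ← map_sum, ← map_sum] at e1
    have e2 : I n (∑ i, X i * (R i * U)) = I n (U * U + U * V) := I_congr fun a ha => by
      simp only [ev_sum, ev_mul, ev_add, ev_X, ← mul_add, ← hs a ha, Finset.mul_sum]
      exact Finset.sum_congr rfl fun i _ => by ring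
    have e3 : ∑ i, pderiv i (R i * U) = ∑ i, R i * pderiv i U + U * δ := by
      simp only [hδ, Derivation.leibniz, smul_eq_mul, Finset.sum_add_distrib, Finset.mul_sum]
    rw [e2, e3, map_add, map_add, oUV, o hU1 hd (by omega)] at e1
    simpa using e1
  have a2 : I n (∑ i, R i * pderiv i V) = 0 := by
    rw [map_sum]
    exact Finset.sum_eq_zero fun i _ => o (hR i) (hV1.pderiv i) (by omega)
  have a3 : I n (∑ i, pderiv i U * pderiv i V) = 0 := by
    rw [map_sum]
    exact Finset.sum_eq_zero fun i _ =>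
      o (HH.pderiv (j := l + 1 + 1) hU1 i) (hV1.pderiv i) (by omega)
  set s : ℝ := ((l : ℝ) + 3)⁻¹ with hs'
  set c : ℝ := ((n : ℝ) + 2 * l)⁻¹ with hc
  set t : ℝ := ((n : ℝ) + 2 * l) / (n + l - 1) with ht
  have key : 0 ≤ I n (∑ i, R i ^ 2 - (2 * s) • ∑ i, R i * pderiv i U +
      (2 * s * t * (l + 1 + 2 : ℕ) - 2 * t) • (U * V) + (2 * t * c) • ∑ i, R i * pderiv i V +
      s ^ 2 • ∑ i, pderiv i U * pderiv i U - (2 * s * t * c) • ∑ i, pderiv i U * pderiv i V +
      (t ^ 2 - 2 * t ^ 2 * c * (l + 1 : ℕ) - 2 * t) • (V * V) +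
      (t ^ 2 * c ^ 2) • ∑ i, pderiv i V * pderiv i V) := by
    refine integral_nonneg_of_ae (σ_ae.mono fun a ha => ?_)
    simp only [Pi.zero_apply, ev_add, ev_sub, ev_smul, ev_sum, ev_mul, ev_pow]
    exact alg s t c (hs a ha) (ev_euler hU1.1 a)
      (by rw [← inner_eq_sum, real_inner_self_eq_norm_sq, ha, one_pow]) (ev_euler hV1.1 a)
  simp only [map_add, map_sub, map_smul, a1, a2, a3, oUV, g hU1, g hV1, smul_eq_mul] at key
  have b1 : I n (∑ i, R i ^ 2) = ∫ a, ∑ i, ev (R i) a ^ 2 ∂σ n := by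
    simp only [I_apply, ev_sum, ev_pow]
  have b2 : ∀ p : MP n, I n (p * p) = ∫ a, ev p a ^ 2 ∂σ n := fun p => by
    simp only [I_apply, ev_mul, sq]
  rw [← b1, ← b2, ← b2]
  generalize I n (U * U) = x at key ⊢
  generalize I n (V * V) = y at key ⊢
  have h3 : (0 : ℝ) < n + l - 1 := by linarith
  have c1 : (2 * (l + 1 : ℕ) + n + 2 : ℝ) / ((l + 1 : ℕ) + 2) =
      2 * s * (w + 2) - s ^ 2 * ((l + 1 + 2 : ℕ) * (n + 2 * (l + 1 + 2 : ℕ) - 2)) := by
    rw [hs', hw]
    push_cast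
    field_simp
    ring
  have c2 : (2 * (l + 1 : ℕ) + n - 2 : ℝ) / ((l + 1 : ℕ) + n - 2) =
      -(t ^ 2 - 2 * t ^ 2 * c * (l + 1 : ℕ) - 2 * t) -
        t ^ 2 * c ^ 2 * ((l + 1 : ℕ) * (n + 2 * (l + 1 : ℕ) - 2)) := by
    rw [ht, hc]
    push_cast
    rw [show (l : ℝ) + 1 + n - 2 = n + l - 1 by ring]
    field_simp
    ring
  rw [c1, c2]
  linarith

end Vale.Agent.P237
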