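import Vale.Agent.P237.Stmts

/-! The decomposition of a field of harmonics by degrees. -/

namespace Vale.Agent.P237

open MeasureTheory Metric Real Set MvPolynomial
open scoped RealInnerProductSpace

namespace TEN2

variable {n m : ℕ} (β : HB n m) (y : Fin β.L → E n)

theorem sq_int (S : Finset (Fin β.L)) (c : Fin β.L → ℝ) :
    ∫ a, (∑ q ∈ S, c q * ev (β.P q) a) ^ 2 ∂σ n = ∑ q ∈ S, c q ^ 2 / n := by
  have e : ∀ a, (∑ q ∈ S, c q * ev (β.P q) a) ^ 2 =
      ∑ q ∈ S, ∑ q' ∈ S, c q * c q' * (ev (β.P q) a * ev (β.P q') a) := by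
    intro a
    rw [sq, Finset.sum_mul_sum]
    exact Finset.sum_congr rfl fun q _ => Finset.sum_congr rfl fun q' _ => by ring
  have hi : ∀ q q', Integrable (fun a => c q * c q' * (ev (β.P q) a * ev (β.P q') a)) (σ n) :=
    fun q q' => (((ev_bm _).mul (ev_bm _)).int).const_mul _
  simp only [e]
  rw [integral_finsetSum _ fun q _ => integrable_finsetSum _ fun q' _ => hi q q']
  refine Finset.sum_congr rfl fun q hq => ?_
  rw [integral_finsetSum _ fun q' _ => hi q q']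
  simp only [integral_const_mul, β.orth, mul_ite, mul_zero]
  rw [Finset.sum_ite_eq, if_pos hq]
  ring

theorem sum_int (S : Finset (Fin β.L)) :
    ∫ a, ∑ i, (∑ q ∈ S, y q i * ev (β.P q) a) ^ 2 ∂σ n = ∑ q ∈ S, ‖y q‖ ^ 2 / n := by
  rw [integral_finsetSum _ fun i _ =>
    ((BM.sum S fun q _ => (BM.const (y q i)).mul (ev_bm _)).pow 2).int]
  simp only [sq_int β S]
  rw [Finset.sum_comm]
  refine Finset.sum_congr rfl fun q _ => ?_
  rw [EuclideanSpace.real_norm_sq_eq, Finset.sum_div]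

/-- the indices of degree `2 k + 1` -/
def S (k : ℕ) : Finset (Fin β.L) := Finset.univ.filter fun q => β.deg q / 2 = k

theorem deg_eq {k : ℕ} {q : Fin β.L} (h : q ∈ S β k) : β.deg q = 2 * k + 1 := by
  have h1 := (Finset.mem_filter.1 h).2
  obtain ⟨j, hj⟩ := β.odd q
  omega

theorem fib (f : Fin β.L → ℝ) :
    ∑ q, f q = ∑ k ∈ Finset.Icc 1 (Finset.univ.sup β.deg), ∑ q ∈ S β k, f q := by
  refine (Finset.sum_fiberwise_of_maps_to (fun q _ => ?_) f).symm
  have h1 := β.three q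
  have h2 : β.deg q ≤ Finset.univ.sup β.deg := Finset.le_sup (Finset.mem_univ q)
  rw [Finset.mem_Icc]
  omega

theorem shift (a b : ℕ → ℝ) (J : ℕ) : ∑ k ∈ Finset.Icc 1 (J + 1), (a (k - 1) + b k) =
    a 0 + ∑ k ∈ Finset.Icc 1 J, (a k + b k) + b (J + 1) := by
  induction J with
  | zero => simp
  | succ J ih =>
    rw [Finset.sum_Icc_succ_top (by omega), ih, Finset.sum_Icc_succ_top (by omega : 1 ≤ J + 1),
      Nat.add_sub_cancel]
    ring

theorem step (h1 : EN1) (hn : 2 ≤ n) {k : ℕ} (hk : 1 ≤ k) :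
    ∃ U V : MP n, HH (2 * k + 2) U ∧ HH (2 * k) V ∧
      (∀ a : E n, ‖a‖ = 1 → ∑ q ∈ S β k, ev (β.P q) a * ⟪y q, a⟫ = ev U a + ev V a ∧
        ∑ q ∈ S β k, (fderiv ℝ (ev (β.P q)) a (y q) -
          ((β.deg q : ℝ) + n - 1) * (ev (β.P q) a * ⟪y q, a⟫)) =
          -(2 * k + n) * ev U a + 2 * k * ev V a) ∧
      (4 * k + n + 2) / (2 * k + 2) * ∫ a, ev U a ^ 2 ∂σ n +
        (4 * k + n - 2) / (2 * k + n - 2) * ∫ a, ev V a ^ 2 ∂σ n ≤
        ∑ q ∈ S β k, ‖y q‖ ^ 2 / n := by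
  obtain ⟨U, V, hU, hV, h2, h3, h4⟩ := h1 n (2 * k) (fun i => ∑ q ∈ S β k, y q i • β.P q) hn
    (by omega) fun i => HH.sum _ fun q hq => (deg_eq β hq ▸ β.hh q).smul _
  simp only [map_sum, Derivation.map_smul, ev_sum, ev_smul] at h2 h3 h4
  refine ⟨U, V, hU, hV, fun a ha => ?_, ?_⟩
  · have e1 : ∑ q ∈ S β k, ev (β.P q) a * ⟪y q, a⟫ = ev U a + ev V a := by
      rw [← h2 a ha]
      simp only [inner_eq_sum, Finset.mul_sum, Finset.sum_mul]
      rw [Finset.sum_comm]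
      exact Finset.sum_congr rfl fun i _ => Finset.sum_congr rfl fun q _ => by ring
    refine ⟨e1, ?_⟩
    have e2 : ∑ q ∈ S β k, fderiv ℝ (ev (β.P q)) a (y q) = (n + 2 * ((2 * k : ℕ) : ℝ)) * ev V a := by
      rw [← h3 a]
      simp only [ev_fderiv]
      rw [Finset.sum_comm]
      exact Finset.sum_congr rfl fun i _ => Finset.sum_congr rfl fun q _ => by ring
    have e3 : ∑ q ∈ S β k, ((β.deg q : ℝ) + n - 1) * (ev (β.P q) a * ⟪y q, a⟫) =
        (2 * k + n) * (ev U a + ev V a) := by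
      rw [← e1, Finset.mul_sum]
      refine Finset.sum_congr rfl fun q hq => ?_
      rw [deg_eq β hq]
      push_cast
      ring
    rw [Finset.sum_sub_distrib, e2, e3]
    push_cast
    ring
  · rw [sum_int β y] at h4
    have e : (2 : ℝ) * ((2 * k : ℕ) : ℝ) = 4 * k := by push_cast; ring
    rw [e] at h4
    push_cast at h4
    exact h4

end TEN2

open TEN2 in
theorem en2 (h1 : EN1) : EN2 := by
  intro n m β y hn
  obtain ⟨J, hJ⟩ : ∃ J, J = Finset.univ.sup β.deg := ⟨_, rfl⟩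
  have hf : ∀ f : Fin β.L → ℝ, ∑ q, f q = ∑ k ∈ Finset.Icc 1 J, ∑ q ∈ S β k, f q :=
    fun f => hJ ▸ fib β f
  have key : ∀ k : ℕ, ∃ U V : MP n, HH (2 * k + 2) U ∧ HH (2 * k) V ∧
      (k ∉ Finset.Icc 1 J → U = 0 ∧ V = 0) ∧
      (k ∈ Finset.Icc 1 J → ∀ a : E n, ‖a‖ = 1 →
        ∑ q ∈ S β k, ev (β.P q) a * ⟪y q, a⟫ = ev U a + ev V a ∧
        ∑ q ∈ S β k, (fderiv ℝ (ev (β.P q)) a (y q) -
          ((β.deg q : ℝ) + n - 1) * (ev (β.P q) a * ⟪y q, a⟫)) =
          -(2 * k + n) * ev U a + 2 * k * ev V a) ∧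
      (4 * k + n + 2) / (2 * k + 2) * ∫ a, ev U a ^ 2 ∂σ n +
        (4 * k + n - 2) / (2 * k + n - 2) * ∫ a, ev V a ^ 2 ∂σ n ≤
        ∑ q ∈ S β k, ‖y q‖ ^ 2 / n := by
    intro k
    by_cases hk : k ∈ Finset.Icc 1 J
    · obtain ⟨U, V, a1, a2, a3, a4⟩ := step β y h1 hn (Finset.mem_Icc.1 hk).1
      exact ⟨U, V, a1, a2, fun h => absurd hk h, fun _ => a3, a4⟩
    · refine ⟨0, 0, HH.zero _, HH.zero _, fun _ => ⟨rfl, rfl⟩, fun h => absurd h hk, ?_⟩
      simp only [ev_zero, ne_eq, OfNat.ofNat_ne_zero, not_false_eq_true, zero_pow, integral_zero,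
        mul_zero, add_zero]
      positivity
  choose U V k1 k2 k3 k4 k5 using key
  have u0 : U 0 = 0 := (k3 0 (by simp)).1
  have v0 : V (J + 1) = 0 := (k3 (J + 1) (by simp)).2
  refine ⟨J, fun k => U (k - 1), V, fun k => ∑ q ∈ S β k, ‖y q‖ ^ 2 / n, fun k hk => ⟨?_, k2 k⟩,
    u0, v0, fun a ha => ⟨?_, ?_⟩, ?_, ?_, fun k _ => k5 k⟩
  · have := k1 (k - 1)
    rwa [show 2 * (k - 1) + 2 = 2 * k by omega] at this
  · rw [shift (fun k => ev (U k) a) (fun k => ev (V k) a), u0, v0, ev_zero, zero_add, add_zero,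
      HB.r, sum_inner]
    simp only [real_inner_smul_left]
    rw [hf]
    exact Finset.sum_congr rfl fun k hk => (k4 k hk a ha).1
  · have e := shift (fun k => -(2 * k + n) * ev (U k) a) (fun k => 2 * k * ev (V k) a) J
    rw [u0, v0, ev_zero, mul_zero, mul_zero, zero_add, add_zero] at e
    rw [HB.dv, hf, Finset.sum_congr rfl fun k hk => (k4 k hk a ha).2, ← e]
    refine Finset.sum_congr rfl fun k hk => ?_
    have := (Finset.mem_Icc.1 hk).1
    push_cast [Nat.cast_sub this]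
    ring
  · rw [← hf, ← sum_int β y]
    refine integral_congr_ae (Filter.Eventually.of_forall fun a => ?_)
    simp only [EuclideanSpace.real_norm_sq_eq, HB.r, WithLp.ofLp_sum, Finset.sum_apply,
      PiLp.smul_apply, smul_eq_mul, mul_comm]
  · rw [HB.En, hf]
    refine Finset.sum_congr rfl fun k _ => ?_
    rw [Finset.mul_sum]
    refine Finset.sum_congr rfl fun q hq => ?_
    rw [deg_eq β hq, mul_div_assoc]

end Vale.Agent.P237
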