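import Vale.Agent.P237.Stmts

/-! The projection body of an ellipsoid. -/

namespace Vale.Agent.P237

open MeasureTheory Metric Real Set Matrix
open scoped RealInnerProductSpace

namespace TEll

variable {n : ℕ}

theorem exists_mat (T : E n ≃L[ℝ] E n) :
    ∃ A : Matrix (Fin n) (Fin n) ℝ, A.det ≠ 0 ∧ ∀ x, mv A x = T x := by
  refine ⟨toEuclideanLin.symm (T.toLinearEquiv : E n →ₗ[ℝ] E n), ?_, fun x => ?_⟩
  · have h2 : ∀ A : Matrix (Fin n) (Fin n) ℝ, LinearMap.det (toEuclideanLin A) = A.det := fun A => by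
      rw [toEuclideanLin_eq_toLin_orthonormal, LinearMap.det_toLin]
    rw [← h2, LinearEquiv.apply_symm_apply]
    exact T.toLinearEquiv.isUnit_det'.ne_zero
  · change toEuclideanLin (toEuclideanLin.symm (T.toLinearEquiv : E n →ₗ[ℝ] E n)) x = T x
    rw [LinearEquiv.apply_symm_apply]
    rfl

theorem mv_zero (A : Matrix (Fin n) (Fin n) ℝ) : mv A 0 = 0 := (mvL A).map_zero

theorem stretch_eq (a : E n) (A : Matrix (Fin n) (Fin n) ℝ) (X : Set (E n)) (u' : E n) {s : ℝ}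
    (hs : 0 < s) :
    stretch ((fun y => a + y) '' (mv A '' X)) (s • mv A u') 0 1 =
      (fun y => a + y) '' (mv A '' stretch X u' 0 s) := by
  ext z
  constructor
  · rintro ⟨_, ⟨_, ⟨x, hx, rfl⟩, rfl⟩, t, ht, rfl⟩
    refine ⟨_, ⟨_, ⟨x, hx, t * s, ⟨mul_nonneg ht.1 hs.le, ?_⟩, rfl⟩, rfl⟩, ?_⟩
    · exact mul_le_of_le_one_left hs.le ht.2
    · simp only [mv_add, mv_smul, smul_smul, add_assoc]
  · rintro ⟨_, ⟨_, ⟨x, hx, t, ht, rfl⟩, rfl⟩, rfl⟩
    refine ⟨_, ⟨_, ⟨x, hx, rfl⟩, rfl⟩, t / s, ⟨div_nonneg ht.1 hs.le, (div_le_one hs).2 ht.2⟩, ?_⟩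
    simp only [mv_add, mv_smul, smul_smul, add_assoc, div_mul_cancel₀ t hs.ne']

theorem projVol_eq (h1 : Cyl) (h2 : PB) (a : E n) {A : Matrix (Fin n) (Fin n) ℝ} (hA : A.det ≠ 0)
    {u : E n} (hu : ‖u‖ = 1) :
    projVol ((fun y => a + y) '' (mv A '' closedBall 0 1)) u =
      |A.det| * kappa (n - 1) * ‖mv A⁻¹ u‖ := by
  have hne : mv A⁻¹ u ≠ 0 := fun h => by
    have := mv_mv_inv hA u
    rw [h, mv_zero] at this
    rw [← this, norm_zero] at hu
    exact zero_ne_one hu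
  have hs : 0 < ‖mv A⁻¹ u‖ := norm_pos_iff.2 hne
  have hu' : ‖‖mv A⁻¹ u‖⁻¹ • mv A⁻¹ u‖ = 1 := by
    rw [norm_smul, norm_inv, norm_norm, inv_mul_cancel₀ hs.ne']
  have e : ‖mv A⁻¹ u‖ • mv A (‖mv A⁻¹ u‖⁻¹ • mv A⁻¹ u) = u := by
    rw [mv_smul, mv_mv_inv hA, smul_smul, mul_inv_cancel₀ hs.ne', one_smul]
  have hc : IsCompact ((fun y => a + y) '' (mv A '' closedBall (0 : E n) 1)) :=
    ((isCompact_closedBall _ _).image (mv_cont A)).image (continuous_const_add a)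
  have hv : Convex ℝ ((fun y => a + y) '' (mv A '' closedBall (0 : E n) 1)) :=
    ((convex_closedBall (0 : E n) 1).linear_image (mvL A).toLinearMap).translate a
  have c1 := h1 n _ u 0 1 hu hc hv zero_le_one
  have c2 := h1 n _ _ 0 _ hu' (isCompact_closedBall (0 : E n) 1) (convex_closedBall _ _) hs.le
  have c3 := stretch_eq a A (closedBall 0 1) (‖mv A⁻¹ u‖⁻¹ • mv A⁻¹ u) hs
  rw [e] at c3
  rw [c3, vol_translate, vol_translate, vol_mv, vol_mv, c2, (h2 n _ hu').1] at c1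
  linarith

theorem body_eq {A : Matrix (Fin n) (Fin n) ℝ} (hA : A.det ≠ 0) {c : ℝ} (hc : 0 ≤ c) :
    {x : E n | ∀ u, ‖u‖ = 1 → ⟪x, u⟫ ≤ c * ‖mv A⁻¹ u‖} = mv Aᵀ⁻¹ '' closedBall 0 c := by
  have hA' : Aᵀ.det ≠ 0 := by rwa [det_transpose]
  ext x
  constructor
  · intro hx
    refine ⟨mv Aᵀ x, mem_closedBall_zero_iff.2 ?_, mv_inv_mv hA' x⟩
    by_cases hy : mv Aᵀ x = 0
    · rw [hy, norm_zero]; exact hc
    have hw : mv A (mv Aᵀ x) ≠ 0 := fun h => hy (by rw [← mv_inv_mv hA (mv Aᵀ x), h, mv_zero])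
    have hs : 0 < ‖mv A (mv Aᵀ x)‖ := norm_pos_iff.2 hw
    have hy' : 0 < ‖mv Aᵀ x‖ := norm_pos_iff.2 hy
    have h := hx (‖mv A (mv Aᵀ x)‖⁻¹ • mv A (mv Aᵀ x))
      (by rw [norm_smul, norm_inv, norm_norm, inv_mul_cancel₀ hs.ne'])
    rw [mv_smul, mv_inv_mv hA, real_inner_smul_right, real_inner_comm, inner_mv,
      real_inner_self_eq_norm_mul_norm, norm_smul, norm_inv, norm_norm, mul_left_comm c] at h
    exact le_of_mul_le_mul_right (le_of_mul_le_mul_left h (inv_pos.2 hs)) hy'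
  · rintro ⟨y, hy, rfl⟩ u _
    rw [inner_mv, transpose_nonsing_inv, transpose_transpose]
    exact (real_inner_le_norm _ _).trans
      (mul_le_mul_of_nonneg_right (mem_closedBall_zero_iff.1 hy) (norm_nonneg _))

end TEll

open TEll in
theorem ell (h1 : Cyl) (h2 : PB) : Ell := by
  rintro n K hn ⟨a, T, rfl⟩
  obtain ⟨A, hA, hT⟩ := exists_mat T
  have e : (fun x => a + T x) '' closedBall (0 : E n) 1 =
      (fun y => a + y) '' (mv A '' closedBall 0 1) := by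
    rw [image_image]
    simp only [hT]
  have hc : 0 ≤ |A.det| * kappa (n - 1) := mul_nonneg (abs_nonneg _) (kappa_pos _).le
  have e2 : projBody ((fun y => a + y) '' (mv A '' closedBall 0 1)) =
      mv Aᵀ⁻¹ '' closedBall 0 (|A.det| * kappa (n - 1)) := by
    rw [← body_eq hA hc]
    ext x
    exact forall_congr' fun u => forall_congr' fun hu => by rw [projVol_eq h1 h2 a hA hu]
  rw [e, e2, vol_translate, vol_mv, vol_mv, vol_closedBall _ hc, vol_closedBall _ zero_le_one,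
    det_nonsing_inv, det_transpose, Ring.inverse_eq_inv', abs_inv]
  obtain ⟨m, rfl⟩ : ∃ m, n = m + 1 := ⟨n - 1, by omega⟩
  have hd : |A.det| ≠ 0 := abs_ne_zero.2 hA
  have hk := (kappa_pos (m + 1)).ne'
  rw [Nat.add_sub_cancel, one_pow, one_mul, mul_div_cancel_right₀ _ hk]
  field_simp
  ring

end Vale.Agent.P237
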