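import Vale.Agent.P237.Stmts

namespace Vale.Agent.P237

open MeasureTheory Metric Real Set
open scoped RealInnerProductSpace

theorem eqB (h3 : EqB3) (h4 : EqB4) : EqB := by
  intro n K ρ hρ hK hconv hvol hmix
  have hsp := h3 n K ρ hρ hK hconv hvol hmix
  have hv : 0 < vol K := by
    rw [hvol, vol_closedBall _ hρ.le]
    exact mul_pos (pow_pos hρ n) (kappa_pos n)
  have hne : K.Nonempty := by
    rcases K.eq_empty_or_nonempty with h | h
    · rw [h] at hv; simp [vol] at hv
    · exact h
  set x0 : E n := (vol K)⁻¹ • ∫ x in K, x with hx0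
  have hint : IntegrableOn (fun x : E n => x) K := continuous_id.continuousOn.integrableOn_compact hK
  have key : ∀ (u : E n) (c : ℝ), ‖u‖ = 1 → (∀ x ∈ K, ⟪x, u⟫ ≤ c) → ⟪x0, u⟫ ≤ c - ρ := by
    intro u c hu hc
    have h := h4 n K ρ u c hρ hK hvol hsp hu hc
    simp only [real_inner_comm u] at h
    rw [integral_inner hint u] at h
    rw [hx0, real_inner_smul_left, real_inner_comm, inv_mul_le_iff₀ hv, mul_comm]
    exact h
  have hsub : closedBall x0 ρ ⊆ K := by
    intro z hz
    by_contra hzK
    obtain ⟨f, c, hf, hc⟩ := geometric_hahn_banach_closed_point hconv hK.isClosed hzK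
    obtain ⟨ν, rfl⟩ := (InnerProductSpace.toDual ℝ (E n)).surjective f
    simp only [InnerProductSpace.toDual_apply_apply] at hf hc
    have hν : ν ≠ 0 := by
      rintro rfl
      obtain ⟨a, ha⟩ := hne
      have := hf a ha
      rw [inner_zero_left] at this hc
      linarith
    have hν' : 0 < ‖ν‖ := norm_pos_iff.2 hν
    have h1 := key (‖ν‖⁻¹ • ν) (‖ν‖⁻¹ * c)
      (by rw [norm_smul, norm_inv, norm_norm, inv_mul_cancel₀ hν'.ne']) fun x hx => by
        rw [inner_smul_right, real_inner_comm]
        exact mul_le_mul_of_nonneg_left (hf x hx).le (inv_nonneg.2 hν'.le)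
    rw [inner_smul_right, real_inner_comm] at h1
    have h2 : ⟪ν, z - x0⟫ ≤ ‖ν‖ * ρ :=
      (real_inner_le_norm _ _).trans (mul_le_mul_of_nonneg_left (mem_closedBall_iff_norm.1 hz) hν'.le)
    rw [inner_sub_right] at h2
    have h5 := mul_le_mul_of_nonneg_left h1 hν'.le
    rw [mul_sub, ← mul_assoc, ← mul_assoc, mul_inv_cancel₀ hν'.ne', one_mul, one_mul] at h5
    linarith
  refine ⟨x0, Subset.antisymm ?_ hsub⟩
  have hvol' : volume K = volume (closedBall x0 ρ) := by
    have : vol K = vol (closedBall x0 ρ) := by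
      rw [hvol, vol_closedBall _ hρ.le, vol_closedBall _ hρ.le]
    exact (ENNReal.toReal_eq_toReal_iff' hK.measure_lt_top.ne measure_closedBall_lt_top.ne).1 this
  have hnull : volume (K \ closedBall x0 ρ) = 0 := by
    rw [measure_sdiff hsub measurableSet_closedBall.nullMeasurableSet
      measure_closedBall_lt_top.ne, hvol', tsub_self]
  have hemp : interior K \ closedBall x0 ρ = ∅ :=
    (isOpen_interior.sdiff isClosed_closedBall).eq_empty_of_measure_zero
      (measure_mono_null (sdiff_subset_sdiff_left interior_subset) hnull)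
  have hin : (interior K).Nonempty :=
    ⟨x0, interior_maximal (ball_subset_closedBall.trans hsub) isOpen_ball (mem_ball_self hρ)⟩
  calc K ⊆ closure K := subset_closure
    _ = closure (interior K) := (hconv.closure_interior_eq_closure_of_nonempty_interior hin).symm
    _ ⊆ closedBall x0 ρ := closure_minimal (sdiff_eq_empty.1 hemp) isClosed_closedBall

end Vale.Agent.P237
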