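import Vale.Agent.P237.Stmts

/-! Strict Brunn-Minkowski gain for thin slabs of a ball. -/

namespace Vale.Agent.P237

open MeasureTheory Metric Real Set
open scoped RealInnerProductSpace NNReal Topology

namespace TEqB1

theorem pyth {n : ℕ} (u x : E n) (hu : ‖u‖ = 1) :
    ‖x - ⟪x, u⟫ • u‖ ^ 2 = ‖x‖ ^ 2 - ⟪x, u⟫ ^ 2 := by
  rw [norm_sub_sq_real, inner_smul_right, norm_smul, hu, Real.norm_eq_abs, mul_one, sq_abs]
  ring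

theorem exists_q (m : ℕ) {θ : ℝ} (h1 : θ < 1) :
    ∃ q : ℝ, 1 < q ∧ 4 * θ * q ^ m < (1 + θ) ^ 2 := by
  have hc : ContinuousAt (fun q : ℝ => 4 * θ * q ^ m) 1 := by fun_prop
  have h0 : 4 * θ * (1 : ℝ) ^ m < (1 + θ) ^ 2 := by
    rw [one_pow]; nlinarith [sq_pos_of_pos (sub_pos.2 h1)]
  have he : ∀ᶠ q in 𝓝 (1 : ℝ), 4 * θ * q ^ m < (1 + θ) ^ 2 :=
    hc.eventually (gt_mem_nhds h0)
  have he' : ∀ᶠ q in 𝓝[>] (1 : ℝ), 4 * θ * q ^ m < (1 + θ) ^ 2 := he.filter_mono nhdsWithin_le_nhds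
  obtain ⟨q, hq1, hq2⟩ := (he'.and self_mem_nhdsWithin).exists
  exact ⟨q, hq2, hq1⟩

theorem sq_close {ρ' z1 z2 δ t : ℝ} (h1 : -ρ' ≤ z1) (h2 : z2 ≤ ρ') (hδ : z2 - z1 ≤ δ)
    (ht1 : z1 ≤ t) (ht2 : t ≤ z2) : |t ^ 2 - z1 ^ 2| ≤ 2 * ρ' * δ := by
  have e : t ^ 2 - z1 ^ 2 = (t - z1) * (t + z1) := by ring
  have a1 : |t - z1| ≤ δ := by rw [abs_of_nonneg (by linarith)]; linarith
  have a2 : |t + z1| ≤ 2 * ρ' := abs_le.2 ⟨by linarith, by linarith⟩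
  rw [e, abs_mul, mul_comm (2 * ρ')]
  exact mul_le_mul a1 a2 (abs_nonneg _) ((abs_nonneg _).trans a1)

theorem final {V c Z P M θ w Q : ℝ} (hV : 0 < V) (hθ : 0 < θ) (hθ1 : θ < 1) (hQ : 0 < Q)
    (hZ : 0 ≤ Z) (hq : 4 * θ * Q < (1 + θ) ^ 2) (hc : θ * V ≤ Q * c)
    (hbm : V * c ≤ Z ^ 2) (hs : Z ≤ θ * w * P) (hM : Z + (1 - θ) * w / 2 * P ≤ M) : V < M := by
  have h1 : (1 + θ) * Z ≤ 2 * θ * M := by
    have : (1 - θ) * Z ≤ (1 - θ) * (θ * w * P) :=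
      mul_le_mul_of_nonneg_left hs (by linarith)
    have h2 : 2 * θ * (Z + (1 - θ) * w / 2 * P) ≤ 2 * θ * M :=
      mul_le_mul_of_nonneg_left hM (by linarith)
    nlinarith
  by_contra hlt
  have hMV : M ≤ V := not_lt.1 hlt
  have h2 : (1 + θ) * Z ≤ 2 * θ * V :=
    h1.trans (mul_le_mul_of_nonneg_left hMV (by linarith))
  have h3 : ((1 + θ) * Z) ^ 2 ≤ (2 * θ * V) ^ 2 :=
    pow_le_pow_left₀ (by positivity) h2 2
  have h4 : θ * V ^ 2 ≤ Q * Z ^ 2 := by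
    have a1 : V * (θ * V) ≤ V * (Q * c) := mul_le_mul_of_nonneg_left hc hV.le
    have a2 : Q * (V * c) ≤ Q * Z ^ 2 := mul_le_mul_of_nonneg_left hbm hQ.le
    nlinarith
  have h5 : (1 + θ) ^ 2 * (θ * V ^ 2) ≤ (1 + θ) ^ 2 * (Q * Z ^ 2) :=
    mul_le_mul_of_nonneg_left h4 (by positivity)
  have h6 : Q * ((1 + θ) * Z) ^ 2 ≤ Q * (2 * θ * V) ^ 2 := mul_le_mul_of_nonneg_left h3 hQ.le
  have h7 : 4 * θ * Q * (θ * V ^ 2) < (1 + θ) ^ 2 * (θ * V ^ 2) :=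
    mul_lt_mul_of_pos_right hq (by positivity)
  nlinarith

end TEqB1

open TEqB1 in
theorem eqB1 (h1 : Cyl) (h2 : Str) (h3 : PB) : EqB1 := by
  intro n ρ ρ' θ hρ' hρ hθ hθ1
  obtain ⟨q, hq1, hq⟩ := exists_q (n - 1) hθ1
  have ha : 0 < ρ ^ 2 - ρ' ^ 2 := by nlinarith
  have hq2 : 0 < q ^ 2 - 1 := by nlinarith
  obtain ⟨δ, hδ0, hδ⟩ : ∃ δ : ℝ, 0 < δ ∧
      2 * ρ' * δ * (1 + q ^ 2) = (q ^ 2 - 1) * (ρ ^ 2 - ρ' ^ 2) :=
    ⟨(q ^ 2 - 1) * (ρ ^ 2 - ρ' ^ 2) / (2 * ρ' * (1 + q ^ 2)), by positivity, by field_simp⟩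
  refine ⟨δ, hδ0, ?_⟩
  intro u z1 z2 s X hu hz1 hz hz2 hzδ hX hXc hXs hXV
  have hz1sq : z1 ^ 2 ≤ ρ' ^ 2 := sq_le_sq' hz1 (by linarith)
  have hd0 : 0 < 2 * ρ' * δ := by positivity
  have hpos : 0 < ρ ^ 2 - z1 ^ 2 - 2 * ρ' * δ := by
    have : 2 * ρ' * δ < ρ ^ 2 - ρ' ^ 2 := by
      by_contra hh
      have hh' := not_lt.1 hh
      nlinarith
    linarith
  obtain ⟨r, hr0, hr⟩ : ∃ r : ℝ, 0 < r ∧ r ^ 2 = ρ ^ 2 - z1 ^ 2 - 2 * ρ' * δ :=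
    ⟨√(ρ ^ 2 - z1 ^ 2 - 2 * ρ' * δ), Real.sqrt_pos.2 hpos, Real.sq_sqrt hpos.le⟩
  have hqr : ρ ^ 2 - z1 ^ 2 + 2 * ρ' * δ ≤ (q * r) ^ 2 := by
    rw [mul_pow, hr]
    have : (q ^ 2 - 1) * (ρ ^ 2 - ρ' ^ 2) ≤ (q ^ 2 - 1) * (ρ ^ 2 - z1 ^ 2) :=
      mul_le_mul_of_nonneg_left (by linarith) hq2.le
    nlinarith
  have hρ0 : 0 < ρ := hρ'.trans hρ
  have hin : cyl u z1 z2 r ⊆ slab (closedBall 0 ρ) u z1 z2 := by
    rintro x ⟨a1, a2, a3⟩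
    refine ⟨?_, a1, a2⟩
    rw [mem_closedBall_zero_iff]
    have b1 := pyth u x hu
    have b2 := (abs_le.1 (sq_close hz1 hz2 hzδ a1 a2)).2
    have b3 : ‖x - ⟪x, u⟫ • u‖ ^ 2 ≤ r ^ 2 := pow_le_pow_left₀ (norm_nonneg _) a3 2
    exact abs_le_of_sq_le_sq' (by linarith) hρ0.le |>.2
  have hout : slab (closedBall 0 ρ) u z1 z2 ⊆ cyl u z1 z2 (q * r) := by
    rintro x ⟨a0, a1, a2⟩
    refine ⟨a1, a2, ?_⟩
    rw [mem_closedBall_zero_iff] at a0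
    have b1 := pyth u x hu
    have b2 := (abs_le.1 (sq_close hz1 hz2 hzδ a1 a2)).1
    have b3 : ‖x‖ ^ 2 ≤ ρ ^ 2 := pow_le_pow_left₀ (norm_nonneg _) a0 2
    exact abs_le_of_sq_le_sq' (by linarith) (by positivity) |>.2
  have hS : IsCompact (slab (closedBall (0 : E n) ρ) u z1 z2) :=
    slab_compact (isCompact_closedBall _ _) u z1 z2
  obtain ⟨-, hPB⟩ := h3 n u hu
  have hw : 0 < z2 - z1 := sub_pos.2 hz
  have hκ := kappa_pos (n - 1)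
  obtain ⟨-, -, v1⟩ := hPB z1 z2 r hz.le hr0.le
  obtain ⟨k2, -, v2⟩ := hPB z1 z2 (q * r) hz.le (by positivity)
  have hθw : 0 < θ * (z2 - z1) := by positivity
  obtain ⟨k3, c3, v3⟩ := hPB z1 (z1 + θ * (z2 - z1)) r (by linarith) hr0.le
  have hV : 0 < vol X := by
    rw [hXV]
    refine lt_of_lt_of_le ?_ (vol_mono hin hS)
    rw [v1]; positivity
  have hc : θ * vol X ≤ q ^ (n - 1) * vol (cyl u z1 (z1 + θ * (z2 - z1)) r) := by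
    have := vol_mono hout k2
    rw [← hXV, v2, mul_pow] at this
    rw [v3]
    have t2 := mul_le_mul_of_nonneg_left this hθ.le
    refine t2.trans (le_of_eq ?_)
    ring
  have hZk := mix_compact (1 / 2) hX k3
  have hZc := mix_convex (1 / 2) hXc c3
  have huu : ⟪u, u⟫ = 1 := by rw [real_inner_self_eq_norm_sq, hu]; norm_num
  have hs := h2 n _ u ((s + z1) / 2) ((s + z1) / 2 + θ * (z2 - z1)) hu hZk (by linarith) (by
    rintro z ⟨x, hx, y, ⟨b1, b2, -⟩, rfl⟩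
    obtain ⟨a1, a2⟩ := hXs x hx
    rw [inner_add_left, real_inner_smul_left, real_inner_smul_left]
    constructor <;> linarith)
  have hw2 : 0 ≤ (1 - θ) * (z2 - z1) / 2 := by
    have : 0 < 1 - θ := by linarith
    positivity
  have hcy := h1 n _ u 0 ((1 - θ) * (z2 - z1) / 2) hu hZk hZc hw2
  have hsub : stretch (mix (1 / 2) X (cyl u z1 (z1 + θ * (z2 - z1)) r)) u 0
      ((1 - θ) * (z2 - z1) / 2) ⊆ mix (1 / 2) X (slab (closedBall 0 ρ) u z1 z2) := by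
    rintro z ⟨z', ⟨x, hx, y, ⟨b1, b2, b3⟩, rfl⟩, t, ⟨t1, t2⟩, rfl⟩
    refine ⟨x, hx, y + (2 * t) • u, hin ?_, ?_⟩
    · have e : ⟪y + (2 * t) • u, u⟫ = ⟪y, u⟫ + 2 * t := by
        rw [inner_add_left, real_inner_smul_left, huu, mul_one]
      refine ⟨by rw [e]; linarith, by rw [e]; linarith, ?_⟩
      have e2 : y + (2 * t) • u - ⟪y + (2 * t) • u, u⟫ • u = y - ⟪y, u⟫ • u := by
        rw [e, add_smul]; abel
      rw [e2]; exact b3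
    · rw [smul_add, smul_smul, add_assoc]
      have : (1 / 2 : ℝ) * (2 * t) = t := by ring
      rw [this]
  have hM := vol_mono hsub (mix_compact (1 / 2) hX hS)
  rw [hcy, sub_zero] at hM
  rw [add_sub_cancel_left] at hs
  exact final hV hθ hθ1 (by positivity) (vol_nonneg _) hq hc (bm_mix hX k3) hs hM

end Vale.Agent.P237
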