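import Vale.Agent.P237.Stmts

/-! Slabs and distribution functions. -/

namespace Vale.Agent.P237

open MeasureTheory Metric Real Set Filter
open scoped RealInnerProductSpace NNReal ENNReal Topology

namespace TEqB2Qt

variable {n : ℕ}

theorem hyp_null {u : E n} (hu : ‖u‖ = 1) (c : ℝ) : volume {x : E n | ⟪x, u⟫ = c} = 0 := by
  have h0 : u ≠ 0 := by rintro rfl; simp at hu
  have h1 : (ℝ ∙ u)ᗮ ≠ ⊤ := by
    intro h
    have h2 : u ∈ (ℝ ∙ u)ᗮ := h ▸ Submodule.mem_top
    rw [Submodule.mem_orthogonal_singleton_iff_inner_left] at h2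
    exact h0 (inner_self_eq_zero.1 h2)
  have h2 := Measure.addHaar_submodule (volume : Measure (E n)) _ h1
  have h3 : {x : E n | ⟪x, u⟫ = c} = (fun x => -(c • u) + x) ⁻¹' ((ℝ ∙ u)ᗮ : Submodule ℝ (E n)) := by
    ext x
    simp only [mem_ofPred_eq, mem_preimage, SetLike.mem_coe,
      Submodule.mem_orthogonal_singleton_iff_inner_left, inner_add_left, inner_neg_left,
      real_inner_smul_left, real_inner_self_eq_norm_sq, hu]
    constructor <;> intro h <;> linarith
  rw [h3, measure_preimage_add, h2]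

/-- the part of `K` with height at least `a` -/
def above (K : Set (E n)) (u : E n) (a : ℝ) : Set (E n) := {x | x ∈ K ∧ a ≤ ⟪x, u⟫}

theorem above_compact {K : Set (E n)} (hK : IsCompact K) (u : E n) (a : ℝ) :
    IsCompact (above K u a) :=
  hK.inter_right (t := {x | a ≤ ⟪x, u⟫}) (isClosed_le continuous_const (by fun_prop))

theorem split {K : Set (E n)} (hK : IsCompact K) {u : E n} (hu : ‖u‖ = 1) (a : ℝ) :
    vol K = vol (below K u a) + vol (above K u a) := by
  have h1 : K = below K u a ∪ above K u a := by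
    ext x
    refine ⟨fun h => (le_total ⟪x, u⟫ a).imp (fun h' => ⟨h, h'⟩) fun h' => ⟨h, h'⟩, ?_⟩
    rintro (h | h) <;> exact h.1
  have h2 : AEDisjoint volume (below K u a) (above K u a) :=
    measure_mono_null (fun x hx => le_antisymm hx.1.2 hx.2.2) (hyp_null hu a)
  have h3 := measure_union₀ (above_compact hK u a).measurableSet.nullMeasurableSet h2
  rw [← h1] at h3
  rw [vol, h3, ENNReal.toReal_add (below_compact hK u a).measure_lt_top.ne
    (above_compact hK u a).measure_lt_top.ne]
  rfl

theorem split2 {K : Set (E n)} (hK : IsCompact K) {u : E n} (hu : ‖u‖ = 1) {a b : ℝ}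
    (hab : a ≤ b) : vol (below K u b) = vol (below K u a) + vol (slab K u a b) := by
  rw [split (below_compact hK u b) hu a]
  have h1 : below (below K u b) u a = below K u a := by
    ext x
    exact ⟨fun h => ⟨h.1.1, h.2⟩, fun h => ⟨⟨h.1, h.2.trans hab⟩, h.2⟩⟩
  have h2 : above (below K u b) u a = slab K u a b := by
    ext x
    exact ⟨fun h => ⟨h.1.1, h.2, h.1.2⟩, fun h => ⟨⟨h.1, h.2.2⟩, h.2.1⟩⟩
  rw [h1, h2]

theorem le_mix {A B : Set (E n)} (hA : IsCompact A) (hB : IsCompact B) (h : vol A = vol B) :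
    vol A ≤ vol (mix (1 / 2) A B) := by
  have h1 := bm_mix hA hB
  rw [← h, ← sq] at h1
  exact le_of_sq_le_sq h1 (vol_nonneg _)

theorem inner_mix (x y u : E n) :
    ⟪(1 - 1 / 2 : ℝ) • x + (1 / 2 : ℝ) • y, u⟫ = (⟪x, u⟫ + ⟪y, u⟫) / 2 := by
  rw [inner_add_left, real_inner_smul_left, real_inner_smul_left]; ring

theorem cont_below {K : Set (E n)} (hK : IsCompact K) {u : E n} (hu : ‖u‖ = 1) :
    Continuous fun g => vol (below K u g) := by
  have e : ∀ g, vol (below K u g) = ∫ x, (below K u g).indicator (1 : E n → ℝ) x := fun g =>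
    (integral_indicator_one (below_compact hK u g).measurableSet).symm
  simp only [e]
  refine continuous_iff_continuousAt.2 fun g0 => ?_
  refine continuousAt_of_dominated (bound := K.indicator 1) ?_ ?_ ?_ ?_
  · exact Eventually.of_forall fun g =>
      (measurable_one.indicator (below_compact hK u g).measurableSet).aestronglyMeasurable
  · refine Eventually.of_forall fun g => Eventually.of_forall fun x => ?_
    by_cases hx : x ∈ below K u g
    · simp [indicator_of_mem hx, indicator_of_mem hx.1]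
    · rw [indicator_of_notMem hx, norm_zero]
      exact indicator_nonneg (fun _ _ => zero_le_one) x
  · exact (integrable_indicator_iff hK.measurableSet).2
      (integrableOn_const hK.measure_lt_top.ne)
  · have h0 : ∀ᵐ x : E n, ⟪x, u⟫ ≠ g0 := compl_mem_ae_iff.2 (hyp_null hu g0)
    filter_upwards [h0] with x hx
    rcases lt_or_gt_of_ne hx with h | h
    · refine (continuousAt_const (y := K.indicator (1 : E n → ℝ) x)).congr ?_
      filter_upwards [lt_mem_nhds h] with g hg
      by_cases hxK : x ∈ K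
      · rw [indicator_of_mem hxK, indicator_of_mem (show x ∈ below K u g from ⟨hxK, hg.le⟩)]
      · rw [indicator_of_notMem hxK, indicator_of_notMem (fun h' : x ∈ below K u g => hxK h'.1)]
    · refine (continuousAt_const (y := (0 : ℝ))).congr ?_
      filter_upwards [gt_mem_nhds h] with g hg
      rw [indicator_of_notMem (fun h' : x ∈ below K u g => absurd h'.2 (not_le.2 hg))]

end TEqB2Qt

open TEqB2Qt

theorem eqB2 : EqB2 := by
  intro n K B u g1 g2 z1 z2 hu hK hB hv hm hg hz h1 h2
  have hM := mix_compact (1 / 2) hK hB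
  have k1 := split hK hu g2
  have k2 := split2 hK hu hg
  have b1 := split hB hu z2
  have b2 := split2 hB hu hz
  have m1 := split hM hu ((g2 + z2) / 2)
  have m2 := split2 hM hu (show (g1 + z1) / 2 ≤ (g2 + z2) / 2 by linarith)
  have l1 := le_mix (below_compact hK u g1) (below_compact hB u z1) h1
  have l3 := le_mix (above_compact hK u g2) (above_compact hB u z2) (by linarith)
  have s1 : vol (mix (1 / 2) (below K u g1) (below B u z1)) ≤
      vol (below (mix (1 / 2) K B) u ((g1 + z1) / 2)) := by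
    refine vol_mono ?_ (below_compact hM _ _)
    rintro _ ⟨x, hx, y, hy, rfl⟩
    refine ⟨⟨x, hx.1, y, hy.1, rfl⟩, ?_⟩
    rw [inner_mix]; linarith [hx.2, hy.2]
  have s2 : vol (mix (1 / 2) (slab K u g1 g2) (slab B u z1 z2)) ≤
      vol (slab (mix (1 / 2) K B) u ((g1 + z1) / 2) ((g2 + z2) / 2)) := by
    refine vol_mono ?_ (slab_compact hM _ _ _)
    rintro _ ⟨x, hx, y, hy, rfl⟩
    refine ⟨⟨x, hx.1, y, hy.1, rfl⟩, ?_⟩
    rw [inner_mix]
    constructor <;> linarith [hx.2.1, hy.2.1, hx.2.2, hy.2.2]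
  have s3 : vol (mix (1 / 2) (above K u g2) (above B u z2)) ≤
      vol (above (mix (1 / 2) K B) u ((g2 + z2) / 2)) := by
    refine vol_mono ?_ (above_compact hM _ _)
    rintro _ ⟨x, hx, y, hy, rfl⟩
    refine ⟨⟨x, hx.1, y, hy.1, rfl⟩, ?_⟩
    rw [inner_mix]; linarith [hx.2, hy.2]
  constructor <;> linarith

theorem qt : Qt := by
  intro n u hu
  refine ⟨fun K c hK h0 hc => ?_, fun ρ z1 z2 h1 h2 h3 => ?_⟩
  · obtain ⟨R, hR⟩ := hK.isBounded.exists_norm_le
    have hb : ∀ x ∈ K, |⟪x, u⟫| ≤ R := fun x hx =>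
      (abs_real_inner_le_norm x u).trans (by rw [hu, mul_one]; exact hR x hx)
    have e1 : below K u (-R - 1) = ∅ :=
      eq_empty_of_forall_notMem fun x hx => by linarith [hx.2, (abs_le.1 (hb x hx.1)).1]
    have e2 : below K u R = K :=
      Subset.antisymm (fun x hx => hx.1) fun x hx => ⟨hx, (abs_le.1 (hb x hx)).2⟩
    refine mem_range_of_exists_le_of_exists_ge (cont_below hK hu) ⟨-R - 1, ?_⟩ ⟨R, ?_⟩
    · simp only [e1, vol, measure_empty, ENNReal.toReal_zero]; exact h0
    · simp only [e2]; exact hc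
  · have hB := isCompact_closedBall (0 : E n) ρ
    rw [split2 hB hu h2.le, lt_add_iff_pos_right]
    refine ENNReal.toReal_pos ?_ (slab_compact hB u z1 z2).measure_lt_top.ne
    have ho : IsOpen (ball (0 : E n) ρ ∩ ({x | z1 < ⟪x, u⟫} ∩ {x | ⟪x, u⟫ < z2})) :=
      isOpen_ball.inter ((isOpen_lt continuous_const (by fun_prop)).inter
        (isOpen_lt (by fun_prop) continuous_const))
    have hi : ⟪((z1 + z2) / 2) • u, u⟫ = (z1 + z2) / 2 := by
      rw [real_inner_smul_left, real_inner_self_eq_norm_sq, hu]; ring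
    have hp := ho.measure_pos volume ⟨((z1 + z2) / 2) • u, by
      rw [mem_ball_zero_iff, norm_smul, hu, mul_one, Real.norm_eq_abs, abs_lt]
      constructor <;> linarith, by
      simp only [mem_inter_iff, mem_ofPred_eq, hi]
      constructor <;> linarith⟩
    refine (hp.trans_le (measure_mono fun x hx => ?_)).ne'
    exact ⟨ball_subset_closedBall hx.1, le_of_lt hx.2.1, le_of_lt hx.2.2⟩

end Vale.Agent.P237
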