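import Vale.Agent.P237.Stmts

/-! Equality in the midpoint inequality forces the body to be as spread out as the ball. -/

namespace Vale.Agent.P237

open MeasureTheory Metric Real Set
open scoped RealInnerProductSpace

namespace TEqB3

theorem slab_convex {n : ℕ} {K : Set (E n)} (hK : Convex ℝ K) (u : E n) (a b : ℝ) :
    Convex ℝ (slab K u a b) := by
  rintro x ⟨hx, h1, h2⟩ y ⟨hy, h3, h4⟩ s t hs ht hst
  refine ⟨hK hx hy hs ht hst, ?_⟩
  rw [inner_add_left, real_inner_smul_left, real_inner_smul_left]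
  exact convex_Icc a b ⟨h1, h2⟩ ⟨h3, h4⟩ hs ht hst

end TEqB3

theorem eqB3 (h1 : EqB1) (h2 : EqB2) (h3 : Qt) : EqB3 := by
  intro n K ρ hρ hK hc hv hm u g1 g2 z1 z2 hu hz1 hz hz2 e1 e2
  have hB : IsCompact (closedBall (0 : E n) ρ) := isCompact_closedBall _ _
  obtain ⟨ρ', hρ'⟩ : ∃ ρ', ρ' = max (-z1) z2 := ⟨_, rfl⟩
  have r1 : -z1 ≤ ρ' := hρ' ▸ le_max_left _ _
  have r2 : z2 ≤ ρ' := hρ' ▸ le_max_right _ _
  have r3 : ρ' < ρ := hρ' ▸ max_lt (by linarith) hz2
  have main : ∀ θ : ℝ, 0 < θ → θ < 1 → θ * (z2 - z1) ≤ g2 - g1 := by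
    intro θ hθ hθ1
    obtain ⟨δ, hδ, H⟩ := h1 n ρ ρ' θ (by linarith) r3 hθ hθ1
    have step : ∀ g1 g2 z1 z2 : ℝ, -ρ' ≤ z1 → z1 < z2 → z2 ≤ ρ' → z2 - z1 ≤ δ →
        vol (below K u g1) = vol (below (closedBall 0 ρ) u z1) →
        vol (below K u g2) = vol (below (closedBall 0 ρ) u z2) → θ * (z2 - z1) ≤ g2 - g1 := by
      intro g1 g2 z1 z2 a1 a2 a3 a4 e1 e2
      have hg : g1 ≤ g2 := by
        by_contra hg
        have b1 := (h3 n u hu).2 ρ z1 z2 (by linarith) a2 (by linarith)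
        have b2 : vol (below K u g2) ≤ vol (below K u g1) :=
          vol_mono (fun x hx => ⟨hx.1, hx.2.trans (not_le.1 hg).le⟩) (below_compact hK u g1)
        linarith
      obtain ⟨b1, b2⟩ := h2 n K _ u g1 g2 z1 z2 hu hK hB hv hm hg a2.le e1 e2
      by_contra hlt
      exact absurd (H u z1 z2 g1 _ hu a1 a2 a3 a4 (slab_compact hK u g1 g2)
        (TEqB3.slab_convex hc u g1 g2) (fun x hx => ⟨hx.2.1, by linarith [hx.2.2]⟩) b1)
        (not_lt.2 b2)
    have ind : ∀ (k : ℕ) (g1 z1 : ℝ), -ρ' ≤ z1 → z1 < z2 → z2 - z1 ≤ k * δ →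
        vol (below K u g1) = vol (below (closedBall 0 ρ) u z1) → θ * (z2 - z1) ≤ g2 - g1 := by
      intro k
      induction k with
      | zero => intro g1 z1 _ a2 a3; simp at a3; linarith
      | succ k ih =>
        intro g1 z1 a1 a2 a3 e1
        by_cases h : z2 - z1 ≤ δ
        · exact step g1 g2 z1 z2 a1 a2 r2 h e1 e2
        obtain ⟨g, hg⟩ := (h3 n u hu).1 K (vol (below (closedBall 0 ρ) u (z1 + δ))) hK
          (vol_nonneg _) (hv ▸ vol_mono (fun x hx => hx.1) hB)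
        push_cast at a3
        have b1 := step g1 g z1 (z1 + δ) a1 (by linarith) (by linarith) (by linarith) e1 hg
        have b2 := ih g (z1 + δ) (by linarith) (by linarith) (by linarith) hg
        linarith
    obtain ⟨k, hk⟩ := exists_nat_ge ((z2 - z1) / δ)
    exact ind k g1 z1 (by linarith) hz ((div_le_iff₀ hδ).1 hk) e1
  by_contra hlt
  have a0 := main (1 / 2) (by norm_num) (by norm_num)
  have a1 : (g2 - g1) / (z2 - z1) < 1 := by rw [div_lt_one (by linarith)]; linarith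
  obtain ⟨θ, b1, b2⟩ := exists_between a1
  have b3 : 0 < (g2 - g1) / (z2 - z1) := div_pos (by linarith) (by linarith)
  rw [div_lt_iff₀ (by linarith)] at b1
  linarith [main θ (by nlinarith) b2]

end Vale.Agent.P237
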