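import Vale.Agent.P237.Stmts

/-! Petty projection conjecture: the first moment of a spread out set. -/

namespace Vale.Agent.P237

open MeasureTheory Metric Real Set
open scoped RealInnerProductSpace NNReal Topology

namespace TEqB4

theorem key (h : Qt) {n : ℕ} {K : Set (E n)} {ρ c : ℝ} {u : E n} (hK : IsCompact K)
    (hv : vol K = vol (closedBall (0 : E n) ρ)) (hS : Spread K ρ) (hu : ‖u‖ = 1)
    (hc : ∀ x ∈ K, ⟪x, u⟫ ≤ c) {t : ℝ} (t0 : 0 < t) (t1 : t < 2 * ρ) :
    vol (below (closedBall 0 ρ) u (ρ - t)) ≤ vol (below K u (c - t)) := by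
  obtain ⟨h1, h2⟩ := h n u hu
  have b : ∀ z, vol (below (closedBall 0 ρ) u z) ≤ vol K := fun z =>
    (vol_mono (fun _ hx => hx.1) (isCompact_closedBall _ _)).trans_eq hv.symm
  obtain ⟨g, hg⟩ := h1 K _ hK (vol_nonneg _) (b (ρ - t))
  have h3 : g ≤ c - t := by
    by_contra hn
    push Not at hn
    obtain ⟨z, z1, z2⟩ := exists_between (max_lt (show ρ - t < ρ by linarith)
      (show ρ - t + c - g < ρ by linarith))
    rw [max_lt_iff] at z1
    obtain ⟨g', hg'⟩ := h1 K _ hK (vol_nonneg _) (b z)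
    have h4 := hS u g g' (ρ - t) z hu (by linarith) z1.1 z2 hg hg'
    obtain ⟨z', z3, z4⟩ := exists_between z2
    have h5 := (h2 ρ z z' (by linarith) z3 z4).trans_le (b z')
    rw [← hg'] at h5
    exact h5.not_ge (vol_mono (fun x hx => ⟨hx, (hc x hx).trans (by linarith)⟩)
      (below_compact hK u g'))
  rw [← hg]
  exact vol_mono (fun x hx => ⟨hx.1, hx.2.trans h3⟩) (below_compact hK u _)

theorem sub_int {n : ℕ} {K : Set (E n)} (hK : IsCompact K) (u : E n) (c : ℝ) :
    ∫ x in K, (c - ⟪x, u⟫) = c * vol K - ∫ x in K, ⟪x, u⟫ := by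
  rw [integral_sub (continuousOn_const.integrableOn_compact hK)
    ((by fun_prop : Continuous fun x : E n => ⟪x, u⟫).continuousOn.integrableOn_compact hK),
    setIntegral_const, smul_eq_mul, mul_comm]
  rfl

theorem odd_int {n : ℕ} (u : E n) (ρ : ℝ) : ∫ x in closedBall (0 : E n) ρ, ⟪x, u⟫ = 0 := by
  have h := integral_neg_eq_self ((closedBall (0 : E n) ρ).indicator fun x => ⟪x, u⟫) volume
  have e : ∀ x : E n, (closedBall (0 : E n) ρ).indicator (fun x => ⟪x, u⟫) (-x) =
      -(closedBall (0 : E n) ρ).indicator (fun x => ⟪x, u⟫) x := fun x => by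
    by_cases hx : ‖x‖ ≤ ρ <;> simp [indicator, hx]
  simp only [e, integral_neg, integral_indicator measurableSet_closedBall] at h
  linarith

end TEqB4

open TEqB4 in
theorem eqB4 (h : Qt) : EqB4 := by
  intro n K ρ u c hρ hK hv hS hu hc
  have hB := isCompact_closedBall (0 : E n) ρ
  have ci : ∀ c : ℝ, Continuous fun x : E n => c - ⟪x, u⟫ := fun c => by fun_prop
  have ab : ∀ x ∈ closedBall (0 : E n) ρ, |⟪x, u⟫| ≤ ρ := fun x hx => by
    have := abs_real_inner_le_norm x u
    rw [hu, mul_one] at this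
    exact this.trans (mem_closedBall_zero_iff.1 hx)
  have p1 : 0 ≤ᵐ[volume.restrict (closedBall (0 : E n) ρ)] fun x => ρ - ⟪x, u⟫ :=
    (ae_restrict_mem hB.measurableSet).mono fun x hx => sub_nonneg.2 (abs_le.1 (ab x hx)).2
  have p2 : 0 ≤ᵐ[volume.restrict K] fun x => c - ⟪x, u⟫ :=
    (ae_restrict_mem hK.measurableSet).mono fun x hx => sub_nonneg.2 (hc x hx)
  have H : ∫ x in closedBall (0 : E n) ρ, (ρ - ⟪x, u⟫) ≤ ∫ x in K, (c - ⟪x, u⟫) := by
    rw [← ENNReal.ofReal_le_ofReal_iff (integral_nonneg_of_ae p2),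
      ofReal_integral_eq_lintegral_ofReal ((ci ρ).continuousOn.integrableOn_compact hB) p1,
      ofReal_integral_eq_lintegral_ofReal ((ci c).continuousOn.integrableOn_compact hK) p2,
      lintegral_eq_lintegral_meas_lt _ p1 (ci ρ).aemeasurable,
      lintegral_eq_lintegral_meas_le _ p2 (ci c).aemeasurable]
    refine setLIntegral_mono' measurableSet_Ioi fun t ht => ?_
    rw [Measure.restrict_apply' hB.measurableSet, Measure.restrict_apply' hK.measurableSet]
    rcases lt_or_ge t (2 * ρ) with h1 | h1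
    · refine (measure_mono (t := below (closedBall 0 ρ) u (ρ - t)) fun x hx =>
        ⟨hx.2, by linarith [show t < ρ - ⟪x, u⟫ from hx.1]⟩).trans (le_trans
        ((ENNReal.toReal_le_toReal (below_compact hB u _).measure_lt_top.ne
          (below_compact hK u _).measure_lt_top.ne).1 (key h hK hv hS hu hc ht h1))
        (measure_mono fun x hx => ⟨show t ≤ c - ⟪x, u⟫ by linarith [hx.2], hx.1⟩))
    · rw [eq_empty_of_forall_notMem (s := _ ∩ closedBall (0 : E n) ρ) fun x hx => by
        linarith [show t < ρ - ⟪x, u⟫ from hx.1, (abs_le.1 (ab x hx.2)).1], measure_empty]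
      exact zero_le
  rw [sub_int hB, sub_int hK, odd_int, ← hv] at H
  linarith

end Vale.Agent.P237
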