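import Vale.Agent.P237.Stmts

/-! Near equality in the main chain gives almost optimal ellipsoids. -/

namespace Vale.Agent.P237

open MeasureTheory Metric Real Set Matrix
open scoped RealInnerProductSpace

namespace TEqC2

theorem num {n : ℕ} (hn : 0 < n) {k θ G D e W Q : ℝ} (hk : 0 < k) (θ0 : 0 ≤ θ) (θ1 : θ ≤ 1)
    (e0 : 0 ≤ e) (e1 : e ≤ 1) (W0 : 0 < W) (Q0 : 0 ≤ Q) (hQ : Q ≤ k ^ n * W)
    (h1 : (n * k * θ) ^ (2 * n) ≤ G * Q ^ 2) (h2 : G ≤ D ^ 2 * (1 - e) ^ n)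
    (h3 : W ^ 2 * (D ^ 2 * (1 - η * e) ^ n) ≤ (n : ℝ) ^ (2 * n)) :
    e ≤ 2000 * (1 - θ ^ 2) ∧ (n * θ) ^ n ≤ |D| * W := by
  have n0 : (0 : ℝ) < n := by exact_mod_cast hn
  have e2 : 0 ≤ 1 - e := by linarith
  have e3 : 0 ≤ 1 - η * e := by unfold η; linarith
  have h4 : (n * θ) ^ (2 * n) ≤ D ^ 2 * (1 - e) ^ n * W ^ 2 := by
    have h5 : G * Q ^ 2 ≤ D ^ 2 * (1 - e) ^ n * (k ^ n * W) ^ 2 :=
      mul_le_mul h2 (pow_le_pow_left₀ Q0 hQ 2) (by positivity) (by positivity)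
    have h6 : (n * θ) ^ (2 * n) * k ^ (2 * n) ≤ D ^ 2 * (1 - e) ^ n * W ^ 2 * k ^ (2 * n) := by
      refine le_trans (le_of_eq ?_) ((h1.trans h5).trans (le_of_eq ?_))
      · rw [← mul_pow]; congr 1; ring
      · ring
    exact le_of_mul_le_mul_right h6 (by positivity)
  constructor
  · have h5 : (θ ^ 2 * (1 - η * e)) ^ n * (n : ℝ) ^ (2 * n) ≤ (1 - e) ^ n * (n : ℝ) ^ (2 * n) := by
      calc (θ ^ 2 * (1 - η * e)) ^ n * (n : ℝ) ^ (2 * n)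
          = (n * θ) ^ (2 * n) * (1 - η * e) ^ n := by rw [mul_pow, mul_pow, ← pow_mul]; ring
        _ ≤ D ^ 2 * (1 - e) ^ n * W ^ 2 * (1 - η * e) ^ n :=
            mul_le_mul_of_nonneg_right h4 (by positivity)
        _ = (1 - e) ^ n * (W ^ 2 * (D ^ 2 * (1 - η * e) ^ n)) := by ring
        _ ≤ (1 - e) ^ n * (n : ℝ) ^ (2 * n) := mul_le_mul_of_nonneg_left h3 (by positivity)
    have h6 := (pow_le_pow_iff_left₀ (by positivity) e2 hn.ne').1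
      (le_of_mul_le_mul_right h5 (by positivity))
    have h7 : θ ^ 2 ≤ 1 := pow_le_one₀ θ0 θ1
    unfold η at h6
    nlinarith [mul_le_mul_of_nonneg_right h7 e0]
  · have h5 : ((n * θ) ^ n) ^ 2 ≤ (|D| * W) ^ 2 := by
      rw [← pow_mul, mul_comm n 2, mul_pow |D|, sq_abs]
      refine h4.trans (mul_le_mul_of_nonneg_right ?_ (by positivity))
      exact mul_le_of_le_one_right (by positivity) (pow_le_one₀ e2 (by linarith))
    exact (pow_le_pow_iff_left₀ (by positivity) (by positivity) two_ne_zero).1 h5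

theorem exists_m (n : ℕ) (hn : 1 ≤ n) {γ : ℝ} (hγ : 0 < γ) : ∃ m : ℕ, Odd m ∧
    0 < (m : ℝ) / (n + m - 1) ∧ (m : ℝ) / (n + m - 1) ≤ 1 ∧ 1 - γ ≤ (m : ℝ) / (n + m - 1) := by
  obtain ⟨k, hk⟩ := exists_nat_ge (n / γ)
  have n1 : (1 : ℝ) ≤ n := by exact_mod_cast hn
  have k0 : (0 : ℝ) ≤ k := Nat.cast_nonneg k
  have h1 : (n : ℝ) ≤ k * γ := (div_le_iff₀ hγ).1 hk
  refine ⟨2 * k + 1, odd_two_mul_add_one k, ?_⟩
  push_cast
  have h2 : (0 : ℝ) < n + (2 * k + 1) - 1 := by linarith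
  refine ⟨by positivity, (div_le_one h2).2 (by linarith), (le_div_iff₀ h2).2 ?_⟩
  nlinarith

theorem SA_mono {n : ℕ} {N f g : E n → ℝ} (hN : Gau N) (hf : Continuous f) (hg : Continuous g)
    (h : ∀ ν, f ν ≤ g ν) : SA N f ≤ SA N g :=
  integral_mono (hN.int_SA hf) (hN.int_SA hg) fun a =>
    mul_le_mul_of_nonneg_left (h _) (pow_nonneg (inv_nonneg.2 (hN.nonneg a)) _)

theorem SA_mul {n : ℕ} (N f : E n → ℝ) (t : ℝ) : SA N (fun ν => t * f ν) = t * SA N f := by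
  unfold SA
  rw [← integral_const_mul]
  exact integral_congr_ae (Filter.Eventually.of_forall fun a => by ring)

theorem SA_nonneg {n : ℕ} {N f : E n → ℝ} (hN : Gau N) (h : ∀ ν, 0 ≤ f ν) : 0 ≤ SA N f :=
  integral_nonneg fun a => mul_nonneg (pow_nonneg (inv_nonneg.2 (hN.nonneg a)) _) (h _)

theorem mv_field {n m : ℕ} (β : HB n m) (w : Fin n ⊕ Fin β.L → E n) (h : (lin w).det ≠ 0)
    (b : E n) : mv (lin w) (b + β.r (fun i => mv (lin w)⁻¹ (w (.inr i))) b) = β.W w b := by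
  rw [β.W_eq, mv_add]
  congr 1
  unfold HB.r
  rw [mv_sum]
  exact Finset.sum_congr rfl fun i _ => by rw [mv_smul, mv_mv_inv h]

end TEqC2

theorem eqC2 (h1 : Core1) (h2 : Core2) (h3 : LA3) (h4 : EqC1) (h5 : HW) (h6 : Br) : EqC2 := by
  intro n N δ hn hN hδ hP
  have hn0 : 0 < n := by omega
  have n0 : (0 : ℝ) < n := by exact_mod_cast hn0
  have n4 : (4 : ℝ) ≤ n := by exact_mod_cast hn
  obtain ⟨d, hd⟩ : ∃ d : ℝ, d = δ / (2 * n * (1 + δ)) := ⟨_, rfl⟩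
  have d0 : 0 < d := by rw [hd]; positivity
  have d1 : d < 1 := by
    rw [hd, div_lt_one (by positivity)]
    nlinarith
  have d2 : 1 ≤ (1 + δ) * (1 - d) ^ (2 * n) := by
    have a1 := one_add_mul_le_pow (a := -d) (by linarith) (2 * n)
    have a2 : (1 + δ) * (1 + ((2 * n : ℕ) : ℝ) * -d) = 1 := by
      rw [hd]; push_cast; field_simp; ring
    rw [← sub_eq_add_neg] at a1
    exact a2.symm.le.trans (mul_le_mul_of_nonneg_left a1 (by positivity))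
  obtain ⟨ε, ε0, hε⟩ := h4 n d (by omega) d0
  obtain ⟨m, hm, θ0, θ1, θ2⟩ := TEqC2.exists_m n hn0 (γ := min d (ε / 4000))
    (lt_min d0 (by positivity))
  obtain ⟨β, w, hw, hS, hc⟩ := h1 n m N hn hm hN
  have hc2 := h2 n m β N w hn hN hw hS
  obtain ⟨D0, e0, e1, hG⟩ := h3 n m β w (by omega) hw
  have V0 : 0 < VN N := ((h6 n hn0).2 N hN).2.2.2.2
  have W0 : 0 < VN N ^ (n - 1) := pow_pos V0 _
  generalize (m : ℝ) / (n + m - 1) = θ at θ0 θ1 θ2 hc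
  rw [mul_comm 2 (n - 1), pow_mul] at hc2
  obtain ⟨a1, a2⟩ := TEqC2.num hn0 (kappa_pos (n - 1)) θ0.le θ1 e0 e1 W0
    (div_nonneg (vol_nonneg _) (kappa_pos n).le) ((div_le_iff₀ (kappa_pos n)).2 hP) hc hG hc2
  have a3 : β.en w ≤ ε := by
    have := min_le_right d (ε / 4000)
    nlinarith [sq_nonneg (1 - θ)]
  have a4 : 1 - d ≤ θ := by linarith [min_le_left d (ε / 4000)]
  have H := h5 n m β hn0
  have a5 : ∀ ν, (1 - d) * ‖mv (lin w)ᵀ ν‖ ≤ β.hW w ν := fun ν =>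
    hε m β _ _ _ a3 fun b hb => by
      rw [← inner_mv, TEqC2.mv_field β w D0]
      exact H.le w b ν hb
  have a6 : (1 - d) * SA N (fun ν => ‖mv (lin w)ᵀ ν‖) ≤ n := by
    rw [← TEqC2.SA_mul]
    exact (TEqC2.SA_mono hN (continuous_const.mul (mv_cont _).norm) (H.cont w) a5).trans hS
  have S0 : 0 ≤ SA N fun ν => ‖mv (lin w)ᵀ ν‖ := TEqC2.SA_nonneg hN fun _ => norm_nonneg _
  have D1 : 0 < |(lin w).det| := abs_pos.2 D0
  obtain ⟨t, t0, ht⟩ : ∃ t : ℝ, 0 < t ∧ t ^ n = |(lin w).det|⁻¹ :=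
    ⟨|(lin w).det|⁻¹ ^ (n : ℝ)⁻¹, by positivity,
      Real.rpow_inv_natCast_pow (by positivity) hn0.ne'⟩
  refine ⟨t • (lin w)ᵀ, ?_, ?_⟩
  · rw [det_smul, det_transpose, Fintype.card_fin, abs_mul, ht, abs_of_pos (by positivity),
      inv_mul_cancel₀ D1.ne']
  · have b1 : (fun ν => ‖mv (t • (lin w)ᵀ) ν‖) = fun ν => t * ‖mv (lin w)ᵀ ν‖ := by
      funext ν
      rw [smul_mv, norm_smul, Real.norm_eq_abs, abs_of_pos t0]
    rw [b1, TEqC2.SA_mul, mul_pow, ht, inv_mul_le_iff₀ D1]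
    generalize SA N (fun ν => ‖mv (lin w)ᵀ ν‖) = S at a6 S0
    have d3 : 0 < 1 - d := by linarith
    have b2 : ((1 - d) * S * (1 - d)) ^ n ≤ (n * θ) ^ n :=
      pow_le_pow_left₀ (by positivity) (mul_le_mul a6 a4 d3.le n0.le) n
    have b3 : ((1 - d) * S * (1 - d)) ^ n = (1 - d) ^ (2 * n) * S ^ n := by
      rw [mul_pow, mul_pow, two_mul, pow_add]; ring
    calc S ^ n ≤ (1 + δ) * (1 - d) ^ (2 * n) * S ^ n := le_mul_of_one_le_left (by positivity) d2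
      _ = (1 + δ) * ((1 - d) * S * (1 - d)) ^ n := by rw [b3]; ring
      _ ≤ (1 + δ) * (|(lin w).det| * VN N ^ (n - 1)) :=
          mul_le_mul_of_nonneg_left (b2.trans a2) (by positivity)
      _ = |(lin w).det| * ((1 + δ) * VN N ^ (n - 1)) := by ring

end Vale.Agent.P237
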