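import Vale.Agent.P237.Stmts

/-! Existence of a minimising volume preserving matrix. -/

namespace Vale.Agent.P237

open MeasureTheory Metric Real Set Filter Matrix
open scoped RealInnerProductSpace NNReal ENNReal Topology

namespace TEqC3

variable {n : ℕ} {N : E n → ℝ}

theorem coer (h1 : Q0) (hn : 0 < n) (hN : Gau N) {c : ℝ} (hc : 0 < c) (hl : ∀ x, c * ‖x‖ ≤ N x)
    (A : Matrix (Fin n) (Fin n) ℝ) (i k : Fin n) (s : ℝ) (hs : |s| = 1) :
    s * A i k / n * VN N ≤ c⁻¹ * SA N fun ν => ‖mv A ν‖ := by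
  have h := h1 n N (Aᵀ * single i k s) hn hN
  rw [trace_mul_single, transpose_apply, MulOpposite.smul_eq_mul_unop, MulOpposite.unop_op,
    mul_comm (A i k)] at h
  rw [← h, SA, ← integral_const_mul]
  refine integral_mono_ae ((hN.bm_inv.pow _).mul (hN.bm_grad.inner (BM.of_cont (mv_cont _)))).int
    ((hN.int_SA (mv_cont A).norm).const_mul _) ?_
  filter_upwards [σ_ae] with a ha
  have N0 := hN.pos1 ha
  have e1 : ‖mv (single i k s) a‖ ≤ 1 := by
    have : mv (single i k s) a = EuclideanSpace.single i (s * a k) := by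
      ext j
      simp [mv, single_mulVec, Function.update_apply]
    rw [this, PiLp.norm_single, norm_mul, Real.norm_eq_abs, hs, one_mul, ← ha]
    exact PiLp.norm_apply_le a k
  have e2 : ⟪gradient N a, mv (Aᵀ * single i k s) a⟫ ≤ ‖mv A (gradient N a)‖ := by
    rw [mv_mul, ← inner_mv]
    exact (real_inner_le_norm _ _).trans (mul_le_of_le_one_right (norm_nonneg _) e1)
  have e3 : (N a)⁻¹ ≤ c⁻¹ := inv_anti₀ hc (by simpa [ha] using hl a)
  calc _ ≤ (N a)⁻¹ ^ (n + 1) * ‖mv A (gradient N a)‖ := by gcongr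
    _ = (N a)⁻¹ * ((N a)⁻¹ ^ n * ‖mv A (gradient N a)‖) := by ring
    _ ≤ _ := by gcongr

theorem cont (hN : Gau N) {S : Set (Matrix (Fin n) (Fin n) ℝ)} (hS : IsCompact S) :
    ContinuousOn (fun A => SA N fun ν => ‖mv A ν‖) S := by
  have hc : Continuous fun p : Matrix (Fin n) (Fin n) ℝ × E n => mv p.1 p.2 :=
    (PiLp.continuous_toLp 2 _).comp
      (continuous_fst.matrix_mulVec ((PiLp.continuous_ofLp 2 _).comp continuous_snd))
  obtain ⟨-, T, hT⟩ := hN.bm_grad
  obtain ⟨C, hC⟩ := (hS.prod (isCompact_closedBall (0 : E n) T)).exists_bound_of_continuousOn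
    hc.continuousOn
  have : FirstCountableTopology (Matrix (Fin n) (Fin n) ℝ) :=
    inferInstanceAs (FirstCountableTopology (Fin n → Fin n → ℝ))
  refine continuousOn_of_dominated (bound := fun a => (N a)⁻¹ ^ n * C)
    (fun A _ => (hN.int_SA (mv_cont A).norm).aestronglyMeasurable) (fun A hA => ?_)
    ((hN.bm_inv.pow n).mul (BM.const C)).int (ae_of_all _ fun a => ?_)
  · filter_upwards [σ_ae] with a ha
    have N0 := hN.pos1 ha
    rw [Real.norm_of_nonneg (by positivity)]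
    exact mul_le_mul_of_nonneg_left
      (hC (A, gradient N a) ⟨hA, mem_closedBall_zero_iff.2 (hT a ha)⟩) (by positivity)
  · exact (continuous_const.mul
      (hc.comp (continuous_id.prodMk continuous_const)).norm).continuousOn

end TEqC3

open TEqC3 in
theorem eqC3 (h1 : Q0) (h2 : Br) : EqC3 := by
  intro n N c hn hN h
  obtain ⟨c₀, c0, hl⟩ := hN.low
  have V0 := ((h2 n hn).2 N hN).2.2.2.2
  have n0 : (0 : ℝ) < n := Nat.cast_pos.2 hn
  obtain ⟨R, hR⟩ : ∃ R, R = c₀⁻¹ * (1 + 2 * |c|) / VN N * n := ⟨_, rfl⟩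
  have hS : IsCompact ((univ.pi fun _ => univ.pi fun _ => Icc (-R) R :
      Set (Matrix (Fin n) (Fin n) ℝ)) ∩ {A | |Matrix.det A| = 1}) :=
    (isCompact_univ_pi fun _ => isCompact_univ_pi fun _ => isCompact_Icc).inter_right
      (isClosed_eq continuous_id.matrix_det.abs continuous_const)
  have hm : ∀ δ : ℝ, 0 < δ → δ ≤ 1 → ∃ A ∈ ((univ.pi fun _ => univ.pi fun _ => Icc (-R) R :
      Set (Matrix (Fin n) (Fin n) ℝ)) ∩ {A | |Matrix.det A| = 1}),
      SA N (fun ν => ‖mv A ν‖) ^ n ≤ c + δ * |c| := by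
    intro δ d0 d1
    obtain ⟨A, hA, hA'⟩ := h δ d0
    have a1 : SA N (fun ν => ‖mv A ν‖) ^ n ≤ c + δ * |c| := by
      linarith [mul_le_mul_of_nonneg_left (le_abs_self c) d0.le]
    refine ⟨A, ⟨fun i _ k _ => ?_, hA⟩, a1⟩
    have a2 : SA N (fun ν => ‖mv A ν‖) ≤ 1 + 2 * |c| := by
      rcases le_total (SA N fun ν => ‖mv A ν‖) 1 with g | g
      · linarith [abs_nonneg c]
      · linarith [le_self_pow₀ g hn.ne', le_abs_self c,
          mul_le_of_le_one_left (abs_nonneg c) d1]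
    have a3 : ∀ s : ℝ, |s| = 1 → s * A i k ≤ R := fun s hs => by
      rw [hR, ← div_le_iff₀ n0, le_div_iff₀ V0]
      exact (coer h1 hn hN c0 hl A i k s hs).trans (by gcongr)
    exact ⟨by linarith [a3 (-1) (by simp)], by linarith [a3 1 (by simp)]⟩
  obtain ⟨A, hA, hmin⟩ := hS.exists_isMinOn (by
    obtain ⟨A, hA, -⟩ := hm 1 one_pos le_rfl
    exact ⟨A, hA⟩) ((cont hN hS).pow n)
  refine ⟨A, hA.2, le_of_forall_pos_le_add fun ε hε => ?_⟩
  have p0 : 0 < |c| + 1 := by positivity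
  obtain ⟨B, hB, hB'⟩ := hm (min 1 (ε / (|c| + 1))) (by positivity) (min_le_left _ _)
  refine (hmin hB).trans (hB'.trans (add_le_add_right ?_ _))
  calc _ ≤ ε / (|c| + 1) * (|c| + 1) := by gcongr; exacts [min_le_right _ _, by linarith]
    _ = ε := div_mul_cancel₀ _ p0.ne'

end Vale.Agent.P237
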