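import Vale.Agent.P237.Stmts

/-! Petty projection conjecture: equality in the Minkowski inequality gives an ellipsoid. -/

namespace Vale.Agent.P237

open MeasureTheory Metric Real Set Matrix
open scoped RealInnerProductSpace NNReal Topology

namespace TEqD

variable {n : ℕ}

theorem mix_mv (A : Matrix (Fin n) (Fin n) ℝ) (t : ℝ) (K M : Set (E n)) :
    mix t (mv A '' K) (mv A '' M) = mv A '' mix t K M := by
  ext z
  constructor
  · rintro ⟨_, ⟨x, hx, rfl⟩, _, ⟨y, hy, rfl⟩, rfl⟩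
    exact ⟨_, ⟨x, hx, y, hy, rfl⟩, by rw [mv_add, mv_smul, mv_smul]⟩
  · rintro ⟨_, ⟨x, hx, y, hy, rfl⟩, rfl⟩
    exact ⟨_, ⟨x, hx, rfl⟩, _, ⟨y, hy, rfl⟩, by rw [mv_add, mv_smul, mv_smul]⟩

theorem image_inv {A : Matrix (Fin n) (Fin n) ℝ} (h : A.det ≠ 0) (K : Set (E n)) :
    mv A⁻¹ '' (mv A '' K) = K := by
  rw [image_image]; simp only [mv_inv_mv h, image_id']

theorem image_inv' {A : Matrix (Fin n) (Fin n) ℝ} (h : A.det ≠ 0) (K : Set (E n)) :
    mv A '' (mv A⁻¹ '' K) = K := by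
  rw [image_image]; simp only [mv_mv_inv h, image_id']

theorem ell {A : Matrix (Fin n) (Fin n) ℝ} (h : A.det ≠ 0) (x : E n) {ρ : ℝ} (hρ : 0 < ρ) :
    IsEllipsoid (mv A '' closedBall x ρ) := by
  refine ⟨mv A x, ContinuousLinearEquiv.equivOfInverse (ρ • mvL A) (ρ⁻¹ • mvL A⁻¹)
    (fun z => ?_) (fun z => ?_), ?_⟩
  · simp [mvL_apply, mv_inv_mv h, smul_smul, hρ.ne']
  · simp [mvL_apply, mv_mv_inv h, smul_smul, hρ.ne']
  · ext z
    constructor
    · rintro ⟨y, hy, rfl⟩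
      refine ⟨ρ⁻¹ • (y - x), ?_, ?_⟩
      · rw [mem_closedBall_iff_norm] at hy
        rw [mem_closedBall_zero_iff, norm_smul, norm_inv, Real.norm_of_nonneg hρ.le,
          inv_mul_le_iff₀ hρ, mul_one]
        exact hy
      · simp [mvL_apply, mv_sub, smul_smul, hρ.ne']
    · rintro ⟨y, hy, rfl⟩
      refine ⟨x + ρ • y, ?_, ?_⟩
      · rw [mem_closedBall_zero_iff] at hy
        rw [mem_closedBall_iff_norm, add_sub_cancel_left, norm_smul, Real.norm_of_nonneg hρ.le]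
        nlinarith
      · simp [mvL_apply, mv_smul, mv_add]

end TEqD

theorem eqD (h1 : MinkH) (h2 : EqB) (h3 : Br) : EqD := by
  intro n N A hn hN hA hS
  obtain ⟨hc, hcv, -, hvol, hV⟩ := (h3 n hn).2 N hN
  obtain ⟨ρ, hρ, hρn⟩ : ∃ ρ : ℝ, 0 < ρ ∧ ρ ^ n = VN N :=
    ⟨VN N ^ ((n : ℝ)⁻¹), rpow_pos_of_pos hV _, rpow_inv_natCast_pow hV.le hn.ne'⟩
  have hdet : |Aᵀ.det| = 1 := by rw [det_transpose, hA]
  have hd0 : Aᵀ.det ≠ 0 := fun h => by rw [h] at hdet; simp at hdet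
  have hdi : |(Aᵀ⁻¹).det| = 1 := by
    rw [det_nonsing_inv, Ring.inverse_eq_inv', abs_inv, hdet, inv_one]
  have hSA : SA N (fun ν => ρ * ‖mv A ν‖) = ρ * SA N (fun ν => ‖mv A ν‖) := by
    unfold SA
    rw [← integral_const_mul]
    exact integral_congr_ae (Filter.Eventually.of_forall fun a => by ring)
  have hle : SA N (fun ν => ρ * ‖mv A ν‖) ≤ VN N := by
    refine le_of_pow_le_pow_left₀ hn.ne' hV.le ?_
    rw [hSA, mul_pow, hρn]
    calc VN N * SA N (fun ν => ‖mv A ν‖) ^ n ≤ VN N * VN N ^ (n - 1) := by gcongr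
      _ = VN N ^ n := mul_pow_sub_one hn.ne' _
  have hm := (h1 n N (fun ν => ρ * ‖mv A ν‖) (mv Aᵀ '' closedBall 0 ρ) hn hN
    ((isCompact_closedBall _ _).image (mv_cont _)) (continuous_const.mul (mv_cont A).norm)
    (fun ν => by positivity) (by
      rintro _ ⟨y, hy, rfl⟩ ν
      rw [inner_mv, transpose_transpose]
      refine (real_inner_le_norm _ _).trans ?_
      have := mem_closedBall_zero_iff.1 hy
      gcongr)).1 (1 / 2) (by norm_num) (by norm_num)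
  have hm2 : vol (mix (1 / 2) (Kb N) (mv Aᵀ '' closedBall 0 ρ)) ≤ vol (Kb N) := by
    refine hm.trans (mul_le_of_le_one_right (vol_nonneg _) (exp_le_one_iff.2 ?_))
    have : SA N (fun ν => ρ * ‖mv A ν‖) / VN N ≤ 1 := (div_le_one hV).2 hle
    have hn0 : (0 : ℝ) ≤ n := Nat.cast_nonneg n
    nlinarith
  have hK : vol (mv Aᵀ⁻¹ '' Kb N) = vol (Kb N) := by rw [vol_mv, hdi, one_mul]
  obtain ⟨x, hx⟩ := h2 n (mv Aᵀ⁻¹ '' Kb N) ρ hρ (hc.image (mv_cont _))
    (hcv.linear_image (mvL Aᵀ⁻¹).toLinearMap) (by rw [hK, vol_closedBall _ hρ.le, hρn, hvol, mul_comm])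
    (by
      rw [hK, ← TEqD.image_inv hd0 (closedBall 0 ρ), TEqD.mix_mv, vol_mv, hdi, one_mul]
      exact hm2)
  rw [← TEqD.image_inv' hd0 (Kb N), hx]
  exact TEqD.ell hd0 x hρ

end Vale.Agent.P237
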