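import Vale.Agent.P237.Stmts

/-! Petty projection conjecture: one half of Cauchy's projection formula. -/

namespace Vale.Agent.P237

open MeasureTheory Metric Real Set Filter
open scoped RealInnerProductSpace NNReal ENNReal Topology Pointwise

namespace TF1

variable {n : ℕ}

/-- the smaller of the two perturbed gauges -/
noncomputable def mm (N : E n → ℝ) (u : E n) (δ : ℝ) (a : E n) : ℝ :=
  min (N (a + (δ * N a) • u)) (N (a + (-(δ * N a)) • u))

theorem abs_le_T {N : E n → ℝ} (h : Gau N) {T : ℝ} (hT : ∀ x, N x ≤ T * ‖x‖) {u : E n}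
    (hu : ‖u‖ = 1) (a : E n) (s : ℝ) : |N a - N (a + s • u)| ≤ T * |s| := by
  have h1 := h.add a (s • u)
  have h2 := h.add (a + s • u) (-(s • u))
  have h3 := hT (s • u)
  have h4 := hT (-(s • u))
  rw [add_neg_cancel_right] at h2
  rw [norm_neg] at h4
  rw [norm_smul, hu, mul_one, Real.norm_eq_abs] at h3 h4
  rw [abs_le]
  constructor <;> linarith

theorem mm_abs {N : E n → ℝ} (h : Gau N) {T : ℝ} (hT : ∀ x, N x ≤ T * ‖x‖) {u : E n}
    (hu : ‖u‖ = 1) {δ : ℝ} (hδ : 0 ≤ δ) (a : E n) : |N a - mm N u δ a| ≤ T * (δ * N a) := by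
  have h0 : 0 ≤ δ * N a := mul_nonneg hδ (h.nonneg a)
  have h1 := abs_le_T h hT hu a (δ * N a)
  have h2 := abs_le_T h hT hu a (-(δ * N a))
  rw [abs_neg] at h2
  rw [abs_of_nonneg h0] at h1 h2
  unfold mm
  rcases min_choice (N (a + (δ * N a) • u)) (N (a + (-(δ * N a)) • u)) with h3 | h3 <;> rw [h3]
  exacts [h1, h2]

theorem mm_cont {N : E n → ℝ} (h : Gau N) (u : E n) (δ : ℝ) : Continuous (mm N u δ) := by
  have := h.cont
  unfold mm
  fun_prop

theorem tangent {x m : ℝ} (hx : 0 < x) (hm : 0 < m) (k : ℕ) :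
    x⁻¹ ^ k + k * (x⁻¹ ^ k * x⁻¹ * (x - m)) ≤ m⁻¹ ^ k := by
  have h1 : 1 + (k : ℝ) * (x / m - 1) ≤ (1 + (x / m - 1)) ^ k :=
    one_add_mul_le_pow (by have := div_pos hx hm; linarith) k
  have h2 : x⁻¹ * (x - m) ≤ x / m - 1 := by
    have e1 : x / m - 1 - x⁻¹ * (x - m) = (x - m) ^ 2 / (x * m) := by field_simp
    have : 0 ≤ (x - m) ^ 2 / (x * m) := by positivity
    linarith
  have h3 : m⁻¹ ^ k = x⁻¹ ^ k * (1 + (x / m - 1)) ^ k := by
    rw [← mul_pow]; congr 1; field_simp; ring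
  have h4 : 0 < x⁻¹ ^ k := by positivity
  have h5 : (k : ℝ) * (x⁻¹ * (x - m)) ≤ k * (x / m - 1) :=
    mul_le_mul_of_nonneg_left h2 (Nat.cast_nonneg k)
  rw [h3]
  nlinarith

theorem slope_lim {N : E n → ℝ} {a : E n} (hd : DifferentiableAt ℝ N a) (v : E n) :
    Tendsto (fun δ : ℝ => (N a - N (a + δ • v)) / δ) (𝓝[>] 0) (𝓝 (-fderiv ℝ N a v)) := by
  have h1 : HasDerivAt (fun t : ℝ => N (a + t • v)) (fderiv ℝ N a v) 0 := by
    have : HasDerivAt (fun t : ℝ => a + t • v) v 0 := by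
      simpa using ((hasDerivAt_id (0 : ℝ)).smul_const v).const_add a
    exact HasFDerivAt.comp_hasDerivAt 0 (by simpa using hd.hasFDerivAt) this
  have h2 := h1.tendsto_slope_zero_right.neg
  refine h2.congr fun δ => ?_
  simp only [zero_add, zero_smul, add_zero, smul_eq_mul]
  ring

theorem mm_lim {N : E n → ℝ} (h : Gau N) {a : E n} (hd : DifferentiableAt ℝ N a) (u : E n) :
    Tendsto (fun δ : ℝ => (N a - mm N u δ a) / δ) (𝓝[>] 0)
      (𝓝 (N a * |⟪u, gradient N a⟫|)) := by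
  have h1 := (slope_lim hd (N a • u)).max (slope_lim hd (-(N a • u)))
  have e1 : max (-fderiv ℝ N a (N a • u)) (-fderiv ℝ N a (-(N a • u)))
      = N a * |⟪u, gradient N a⟫| := by
    rw [map_neg, neg_neg, max_comm, ← abs_eq_max_neg, map_smul, smul_eq_mul, abs_mul,
      abs_of_nonneg (h.nonneg a), fderiv_eq_inner, real_inner_comm]
  rw [e1] at h1
  refine h1.congr' ?_
  filter_upwards [self_mem_nhdsWithin] with δ hδ
  have hδ : 0 < δ := hδ
  rw [max_div_div_right hδ.le, max_sub_sub_left]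
  unfold mm
  rw [smul_neg, smul_smul, neg_smul]

theorem step (h1 : Star) (h2 : Cyl) (h3 : Br) {N : E n → ℝ} {u : E n} (hn : 0 < n) (h : Gau N)
    (hu : ‖u‖ = 1) {T : ℝ} (hT : ∀ x, N x ≤ T * ‖x‖) {δ : ℝ} (hδ : 0 < δ) (hδT : T * δ < 1) :
    n * kappa n * ∫ a, (N a)⁻¹ ^ n * (N a)⁻¹ * ((N a - mm N u δ a) / δ) ∂σ n ≤
      2 * projVol (Kb N) u / (1 - T * δ) := by
  obtain ⟨hK, hc, -, hv, -⟩ := (h3 n hn).2 N h
  have hq : 0 < 1 - T * δ := by linarith
  have hlow : ∀ a, N a * (1 - T * δ) ≤ mm N u δ a := fun a => by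
    have := (abs_le.1 (mm_abs h hT hu hδ.le a)).2
    nlinarith
  have hpos : ∀ a, ‖a‖ = 1 → 0 < mm N u δ a := fun a ha =>
    (mul_pos (h.pos1 ha) hq).trans_le (hlow a)
  have hBM : BM fun a => (mm N u δ a)⁻¹ :=
    BM.of_contOn (mm_cont h u δ).measurable.inv
      ((mm_cont h u δ).continuousOn.inv₀ fun a ha => (hpos a (by simpa using ha)).ne')
  set ε : ℝ := δ / (1 - T * δ) with hε
  have hε0 : 0 < ε := div_pos hδ hq
  have hS := (h1 n (stretch (Kb N) u (-ε) ε) _ hn (stretch_compact hK u _ _) hBM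
    (fun a ha => (inv_pos.2 (hpos a ha)).le)).2 ?_
  · rw [h2 n _ u _ _ hu hK hc (by linarith), hv] at hS
    have hB : BM fun a => (N a)⁻¹ ^ n * (N a)⁻¹ * (N a - mm N u δ a) :=
      ((h.bm_inv.pow n).mul h.bm_inv).mul (h.bm.sub (BM.of_cont (mm_cont h u δ)))
    have h4 : VN N + n * ∫ a, (N a)⁻¹ ^ n * (N a)⁻¹ * (N a - mm N u δ a) ∂σ n ≤
        ∫ a, (mm N u δ a)⁻¹ ^ n ∂σ n := by
      rw [VN, ← integral_const_mul, ← integral_add (h.bm_inv.pow n).int (hB.int.const_mul _)]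
      refine integral_mono_ae ((h.bm_inv.pow n).int.add (hB.int.const_mul _)) (hBM.pow n).int ?_
      filter_upwards [σ_ae] with a ha
      exact tangent (h.pos1 ha) (hpos a ha) n
    have h5 : ∫ a, (N a)⁻¹ ^ n * (N a)⁻¹ * ((N a - mm N u δ a) / δ) ∂σ n =
        (∫ a, (N a)⁻¹ ^ n * (N a)⁻¹ * (N a - mm N u δ a) ∂σ n) / δ := by
      rw [← integral_div]
      exact integral_congr_ae (Eventually.of_forall fun a => by ring)
    have h6 := mul_le_mul_of_nonneg_left h4 (kappa_pos n).le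
    have h7 : 2 * projVol (Kb N) u / (1 - T * δ) = (ε - -ε) * projVol (Kb N) u / δ := by
      rw [hε]; field_simp; ring
    rw [h5, h7, ← mul_div_assoc]
    refine div_le_div_of_nonneg_right ?_ hδ.le
    linarith
  · filter_upwards [σ_ae] with a ha r hr hrR
    have hm := hpos a ha
    have hr1 : r * mm N u δ a ≤ 1 := by
      rw [lt_inv_comm₀ hr hm] at hrR
      have := mul_lt_mul_of_pos_left hrR hr
      rw [mul_inv_cancel₀ hr.ne'] at this
      exact this.le
    have hr2 : r * (δ * N a) ≤ ε := by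
      rw [hε, le_div_iff₀ hq]
      have := mul_le_mul_of_nonneg_left (hlow a) hr.le
      nlinarith
    have hr3 : 0 ≤ r * (δ * N a) := mul_nonneg hr.le (mul_nonneg hδ.le (h.nonneg a))
    unfold mm at hr1
    rcases min_choice (N (a + (δ * N a) • u)) (N (a + (-(δ * N a)) • u)) with h8 | h8
    · rw [h8, ← h.smul r hr.le] at hr1
      exact ⟨_, hr1, -(r * (δ * N a)), ⟨by linarith, by linarith⟩, by module⟩
    · rw [h8, ← h.smul r hr.le] at hr1
      exact ⟨_, hr1, r * (δ * N a), ⟨by linarith, by linarith⟩, by module⟩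

end TF1

open TF1 in
theorem f1 (h1 : Star) (h2 : Cyl) (h3 : Br) : F1 := by
  intro n N u hn h hu
  obtain ⟨T, hT⟩ := h.up
  have hlim : Tendsto
      (fun δ : ℝ => ∫ a, (N a)⁻¹ ^ n * (N a)⁻¹ * ((N a - mm N u δ a) / δ) ∂σ n) (𝓝[>] 0)
      (𝓝 (SA N fun ν => |⟪u, ν⟫|)) := by
    refine tendsto_integral_filter_of_dominated_convergence (fun a => (N a)⁻¹ ^ n * T) ?_ ?_
      ((h.bm_inv.pow n).int.mul_const T) ?_
    · refine Eventually.of_forall fun δ => ?_
      exact (((h.bm_inv.pow n).mul h.bm_inv).mul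
        ((h.bm.sub (BM.of_cont (mm_cont h u δ))).div_const δ)).1.aestronglyMeasurable
    · filter_upwards [self_mem_nhdsWithin] with δ hδ
      have hδ : 0 < δ := hδ
      filter_upwards [σ_ae] with a ha
      have h4 := h.pos1 ha
      have h5 := mm_abs h hT hu hδ.le a
      rw [Real.norm_eq_abs, abs_mul, abs_div, abs_of_pos hδ,
        abs_of_pos (by positivity : 0 < (N a)⁻¹ ^ n * (N a)⁻¹), mul_assoc]
      refine mul_le_mul_of_nonneg_left ?_ (by positivity)
      rw [inv_mul_le_iff₀ h4, div_le_iff₀ hδ]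
      linarith
    · filter_upwards [σ_ae, h.σ_diff hn] with a ha hd
      have h4 := h.pos1 ha
      have h5 := (mm_lim h hd u).const_mul ((N a)⁻¹ ^ n * (N a)⁻¹)
      rwa [mul_assoc, ← mul_assoc (N a)⁻¹, inv_mul_cancel₀ h4.ne', one_mul] at h5
  have hc : Tendsto (fun δ : ℝ => T * δ) (𝓝[>] 0) (𝓝 0) := by
    have : Tendsto (fun δ : ℝ => T * δ) (𝓝 0) (𝓝 (T * 0)) :=
      (continuous_const.mul continuous_id).tendsto 0
    rw [mul_zero] at this
    exact this.mono_left nhdsWithin_le_nhds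
  have hR : Tendsto (fun δ : ℝ => 2 * projVol (Kb N) u / (1 - T * δ)) (𝓝[>] 0)
      (𝓝 (2 * projVol (Kb N) u / (1 - 0))) :=
    tendsto_const_nhds.div (tendsto_const_nhds.sub hc) (by norm_num)
  have hle := le_of_tendsto_of_tendsto (hlim.const_mul (n * kappa n)) hR (by
    filter_upwards [self_mem_nhdsWithin, hc.eventually (gt_mem_nhds one_pos)] with δ hδ hδT
    exact step h1 h2 h3 hn h hu hT hδ hδT)
  rw [le_div_iff₀ (nk_pos hn)]
  rw [sub_zero, div_one] at hle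
  linarith

end Vale.Agent.P237
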