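import Vale.Agent.P237.Stmts

/-! First order expansion of the volume of a Minkowski combination. -/

namespace Vale.Agent.P237

open MeasureTheory Metric Real Set
open scoped RealInnerProductSpace

namespace TF2

theorem pow_le (n : ℕ) {Z : ℝ} (hZ : 0 ≤ Z) : ∃ C : ℝ, 0 ≤ C ∧ ∀ t z : ℝ, 0 ≤ t → t ≤ 1 →
    |z| ≤ Z → |(1 + t * z) ^ n - (1 + n * (t * z))| ≤ C * t ^ 2 := by
  induction n with
  | zero => exact ⟨0, le_rfl, fun t z _ _ _ => by simp⟩
  | succ n ih =>
    obtain ⟨C, hC, h⟩ := ih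
    refine ⟨C * (1 + Z) + n * Z ^ 2, by positivity, fun t z h0 h1 hz => ?_⟩
    have e : (1 + t * z) ^ (n + 1) - (1 + ((n + 1 : ℕ) : ℝ) * (t * z)) =
        ((1 + t * z) ^ n - (1 + n * (t * z))) * (1 + t * z) + n * (t * z) ^ 2 := by
      push_cast; ring
    have h2 : |1 + t * z| ≤ 1 + Z := by
      refine (abs_add_le _ _).trans ?_
      rw [abs_one, abs_mul, abs_of_nonneg h0]
      nlinarith [abs_nonneg z]
    have h3 : |(n : ℝ) * (t * z) ^ 2| ≤ n * Z ^ 2 * t ^ 2 := by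
      rw [abs_of_nonneg (by positivity), mul_pow, ← sq_abs z]
      have : |z| ^ 2 ≤ Z ^ 2 := pow_le_pow_left₀ (abs_nonneg z) hz 2
      calc (n : ℝ) * (t ^ 2 * |z| ^ 2) ≤ n * (t ^ 2 * Z ^ 2) := by gcongr
        _ = _ := by ring
    rw [e]
    refine (abs_add_le _ _).trans ?_
    rw [abs_mul]
    have h4 : |(1 + t * z) ^ n - (1 + n * (t * z))| * |1 + t * z| ≤ C * t ^ 2 * (1 + Z) :=
      mul_le_mul (h t z h0 h1 hz) h2 (abs_nonneg _) (by positivity)
    nlinarith

end TF2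

theorem f2 (h : Star) (h3 : Br) : F2 := by
  intro n N g M hn hN hM hg hg0 hMg
  have := σ_prob hn
  have hK := ((h3 n hn).2 N hN).1
  have bz : BM fun a => g (gradient N a) - 1 := (hN.bm_grad.comp hg).sub (BM.const 1)
  obtain ⟨Z, hZ⟩ := bz.2
  obtain ⟨C, hC, hp⟩ := TF2.pow_le n (le_max_right Z 0)
  refine ⟨C * VN N, fun t h0 h1 => ?_⟩
  have bR : BM fun a => (N a)⁻¹ * (1 + t * (g (gradient N a) - 1)) :=
    hN.bm_inv.mul ((BM.const 1).add ((BM.const t).mul bz))
  have hs := (h n (mix t (Kb N) M) _ hn (mix_compact t hK hM) bR (fun a ha => by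
    have := hN.pos1 ha
    have := hg0 (gradient N a)
    have : 0 ≤ 1 + t * (g (gradient N a) - 1) := by nlinarith
    positivity)).1 (by
    filter_upwards [σ_ae (n := n), hN.σ_diff hn] with a ha hd r hr hX
    obtain ⟨x, hx, y, hy, e⟩ := hX
    have hp := hN.pos1 ha
    have e1 : r * N a = ⟪gradient N a, r • a⟫ := by
      rw [inner_smul_right, hN.grad_self (by rintro rfl; simp at ha) hd]
    have e2 : ⟪gradient N a, x⟫ ≤ 1 := (hN.grad_le a x).trans hx
    have e3 : ⟪gradient N a, y⟫ ≤ g (gradient N a) := by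
      rw [real_inner_comm]; exact hMg y hy _
    rw [e, inner_add_right, inner_smul_right, inner_smul_right] at e1
    rw [inv_mul_eq_div, le_div_iff₀ hp, e1]
    nlinarith)
  refine hs.trans (mul_le_mul_of_nonneg_left ?_ (kappa_pos n).le)
  have i1 : Integrable (fun a => (N a)⁻¹ ^ n) (σ n) := (hN.bm_inv.pow n).int
  have i2 : Integrable (fun a => (N a)⁻¹ ^ n * g (gradient N a)) (σ n) :=
    ((hN.bm_inv.pow n).mul (hN.bm_grad.comp hg)).int
  have e : VN N + t * (n * (SA N g - VN N)) + C * VN N * t ^ 2 =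
      ∫ a, ((1 - t * n + C * t ^ 2) * (N a)⁻¹ ^ n +
        t * n * ((N a)⁻¹ ^ n * g (gradient N a))) ∂σ n := by
    rw [integral_add (i1.const_mul _) (i2.const_mul _), integral_const_mul, integral_const_mul]
    simp only [VN, SA]
    ring
  rw [e]
  refine integral_mono_ae (bR.pow n).int ((i1.const_mul _).add (i2.const_mul _)) ?_
  filter_upwards [σ_ae (n := n)] with a ha
  have hp0 : 0 ≤ (N a)⁻¹ ^ n := pow_nonneg (inv_nonneg.2 (hN.nonneg a)) n
  have h5 := hp t (g (gradient N a) - 1) h0 h1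
    (((Real.norm_eq_abs _).symm.le.trans (hZ a ha)).trans (le_max_left _ _))
  have h6 := (abs_le.1 h5).2
  rw [mul_pow]
  nlinarith [mul_le_mul_of_nonneg_left h6 hp0]

end Vale.Agent.P237
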