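import Vale.Agent.P237.Stmts

/-! The Funk-Hecke formula for the kernels `t ^ m`. -/

namespace Vale.Agent.P237

open MeasureTheory Metric Real Set Filter MvPolynomial
open scoped RealInnerProductSpace NNReal ENNReal Topology

namespace TFH1

variable {n : ℕ}

theorem der (a e : E n) (m : ℕ) (i : Fin n) :
    fderiv ℝ (fun e : E n => ⟪e, a⟫ ^ m) e (EuclideanSpace.single i 1) =
      m * a i * ⟪e, a⟫ ^ (m - 1) := by
  have h0 : HasFDerivAt (fun e : E n => ⟪e, a⟫) (innerSL ℝ a) e := by
    have : (fun e : E n => ⟪e, a⟫) = innerSL ℝ a := funext fun e => by simp [real_inner_comm]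
    rw [this]
    exact (innerSL ℝ a).hasFDerivAt
  rw [(h0.pow m).fderiv]
  simp [EuclideanSpace.inner_single_right]
  ring

theorem step (h1 : FHs) {j : ℕ} {p : MP n} (a : E n) (hn : 2 ≤ n) (hp : HH (j + 1) p) (m : ℕ) :
    ((n : ℝ) + m + j - 1) * (j + 1) * ∫ e, ⟪e, a⟫ ^ m * ev p e ∂σ n =
      m * ∑ i, a i * ∫ e, ⟪e, a⟫ ^ (m - 1) * ev (pderiv i p) e ∂σ n := by
  have hl : LL fun e : E n => ⟪e, a⟫ ^ m := LL.of_cd fun _ _ =>
    ((contDiff_id.inner ℝ contDiff_const).pow m).contDiffAt
  have hh : Hom m fun e : E n => ⟪e, a⟫ ^ m := fun x _ t _ => by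
    simp only [real_inner_smul_left, mul_pow, rpow_natCast]
  have := h1 n (j + 1) m _ p (by omega) hl hh hp
  simp only [der, mul_assoc, integral_const_mul] at this
  rw [Finset.mul_sum, ← this]
  push_cast
  ring

end TFH1

theorem fh1 (h1 : FHs) (h2 : Mom) : FH1 := by
  intro n j
  induction j with
  | zero =>
    intro m p a hn hp ha
    have hc : ∀ x, ev p x = ev p 0 := fun x => by simpa using (ev_hom hp.1 0 x).symm
    have hm : mu n (mom n) m 0 = mom n m := by cases m <;> rfl
    simp only [hc]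
    rw [integral_mul_const, (h2 n hn).1 m a ha, hm]
  | succ j ih =>
    intro m p a hn hp ha
    have hs := TFH1.step h1 a hn hp m
    have h2n : (2 : ℝ) ≤ n := by exact_mod_cast hn
    have hj : (0 : ℝ) ≤ j := Nat.cast_nonneg j
    have hm : (0 : ℝ) ≤ m := Nat.cast_nonneg m
    have hne : ((n : ℝ) + m + j - 1) * (j + 1) ≠ 0 := mul_ne_zero (by linarith) (by linarith)
    refine mul_left_cancel₀ hne ?_
    rw [hs]
    cases m with
    | zero => simp [mu]
    | succ m =>
      have he := ev_euler hp.1 a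
      have e2 : ∑ i, a i * ∫ e, ⟪e, a⟫ ^ (m + 1 - 1) * ev (pderiv i p) e ∂σ n =
          mu n (mom n) m j * ∑ i, a i * ev (pderiv i p) a := by
        rw [Finset.mul_sum]
        refine Finset.sum_congr rfl fun i _ => ?_
        rw [Nat.add_sub_cancel, ih m _ a hn (hp.pderiv i) ha]
        ring
      have hm' : (0 : ℝ) ≤ m := Nat.cast_nonneg m
      have hd : (n : ℝ) + j + m ≠ 0 := by linarith
      rw [e2, he, mu]
      push_cast
      field_simp
      ring

end Vale.Agent.P237
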