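import Vale.Agent.P237.Stmts

/-! The Funk-Hecke formula for the sign kernel. -/

namespace Vale.Agent.P237

open MeasureTheory Metric Real Set MvPolynomial
open scoped RealInnerProductSpace

namespace TFH2

variable {n : ℕ} {a : E n}

theorem d_inner (a e : E n) : HasFDerivAt (fun x : E n => ⟪x, a⟫) (innerSL ℝ a) e := by
  simp only [real_inner_comm a]
  exact (innerSL ℝ a).hasFDerivAt

theorem d_abs {e : E n} (h : ⟪e, a⟫ ≠ 0) :
    HasFDerivAt (fun x : E n => |⟪x, a⟫|) ((SignType.sign ⟪e, a⟫ : ℝ) • innerSL ℝ a) e := by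
  have := (hasDerivAt_abs h).comp_hasFDerivAt e (d_inner a e)
  exact this

theorem in_single (a : E n) (i : Fin n) : ⟪a, EuclideanSpace.single i (1 : ℝ)⟫ = a i := by
  rw [EuclideanSpace.inner_single_right]; simp

theorem hom_abs (a : E n) : Hom 1 fun x : E n => |⟪x, a⟫| := fun x _ t ht => by
  simp only [real_inner_smul_left, abs_mul, abs_of_pos ht, rpow_one]

theorem bm_sign (a : E n) : BM fun e : E n => (SignType.sign ⟪e, a⟫ : ℝ) :=
  BM.sign (LL.inner a).meas

/-- the first reduction -/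
theorem red (h0 : IBP) (h1 : FHs) (hn : 0 < n) {j : ℕ} {p : MP n} (hp : HH j p) (ha : ‖a‖ = 1) :
    j * ∫ e, (SignType.sign ⟪e, a⟫ : ℝ) * ev p e ∂σ n =
      (2 - j) * ∑ i, a i * ∫ e, |⟪e, a⟫| * ev (pderiv i p) e ∂σ n := by
  have ha0 : a ≠ 0 := by rintro rfl; simp at ha
  have hA := (LL.inner a).abs
  have e1 := h0 n (j + 1) (fun e => |⟪e, a⟫| * ev p e) a hn (hA.mul (ev_ll p))
    fun x hx t ht => by
      simp only [hom_abs a x hx t ht, ev_Hom hp.1 x hx t ht, rpow_add ht]; ring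
  have e2 := h1 n j 2 (fun e => ⟪e, a⟫ * |⟪e, a⟫|) p hn ((LL.inner a).mul hA)
    (fun x hx t ht => by
      simp only [real_inner_smul_left, abs_mul, abs_of_pos ht, rpow_two]; ring) hp
  have f1 : ∫ e, fderiv ℝ (fun e => |⟪e, a⟫| * ev p e) e a ∂σ n =
      ∫ e, (SignType.sign ⟪e, a⟫ : ℝ) * ev p e ∂σ n +
        ∑ i, a i * ∫ e, |⟪e, a⟫| * ev (pderiv i p) e ∂σ n := by
    simp only [← integral_const_mul]
    rw [← integral_finsetSum _ fun i _ => (hA.bm.mul (ev_bm _)).int.const_mul _,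
      ← integral_add ((bm_sign a).mul (ev_bm p)).int
        (integrable_finsetSum _ fun i _ => (hA.bm.mul (ev_bm _)).int.const_mul _)]
    refine integral_congr_ae ((σ_ae_inner hn ha0).mono fun e he => ?_)
    have h3 : fderiv ℝ (fun e => |⟪e, a⟫| * ev p e) e = _ :=
      ((d_abs he).mul (ev_diff p e).hasFDerivAt).fderiv
    simp only [h3, add_apply, smul_apply, smul_eq_mul, innerSL_apply_apply,
      real_inner_self_eq_norm_sq, ha, ev_fderiv, Finset.mul_sum]
    rw [add_comm]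
    congr 1
    · ring
    · exact Finset.sum_congr rfl fun i _ => by ring
  have f2 : ∀ i, ∫ e, fderiv ℝ (fun e => ⟪e, a⟫ * |⟪e, a⟫|) e (EuclideanSpace.single i 1) *
      ev (pderiv i p) e ∂σ n = 2 * (a i * ∫ e, |⟪e, a⟫| * ev (pderiv i p) e ∂σ n) := fun i => by
    simp only [← integral_const_mul]
    refine integral_congr_ae ((σ_ae_inner hn ha0).mono fun e he => ?_)
    have h3 : fderiv ℝ (fun e => ⟪e, a⟫ * |⟪e, a⟫|) e = _ := ((d_inner a e).mul (d_abs he)).fderiv
    simp only [h3, add_apply, smul_apply, smul_eq_mul, innerSL_apply_apply, in_single,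
      ← mul_assoc, self_mul_sign]
    ring
  simp only [f2, ← Finset.mul_sum, mul_assoc] at e2
  rw [f1] at e1
  linear_combination j * e1 + e2

/-- the second reduction -/
theorem red2 (h1 : FHs) (hn : 0 < n) {j : ℕ} {q : MP n} (hq : HH (j + 1) q) (ha : ‖a‖ = 1) {c : ℝ}
    (ih : ∀ p, HH j p → ∫ e, (SignType.sign ⟪e, a⟫ : ℝ) * ev p e ∂σ n = c * ev p a) :
    ∫ e, |⟪e, a⟫| * ev q e ∂σ n = c * ev q a / (n + j) := by
  have ha0 : a ≠ 0 := by rintro rfl; simp at ha
  have e2 := h1 n (j + 1) 1 _ q hn (LL.inner a).abs (hom_abs a) hq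
  have f2 : ∀ i, ∫ e, fderiv ℝ (fun e => |⟪e, a⟫|) e (EuclideanSpace.single i 1) *
      ev (pderiv i q) e ∂σ n = c * (a i * ev (pderiv i q) a) := fun i => by
    rw [mul_left_comm, ← ih _ (hq.pderiv i), ← integral_const_mul]
    refine integral_congr_ae ((σ_ae_inner hn ha0).mono fun e he => ?_)
    simp only [(d_abs he).fderiv, smul_apply, smul_eq_mul, innerSL_apply_apply, in_single]
    ring
  simp only [f2, ← Finset.mul_sum, ev_euler hq.1] at e2
  have hn' : (0 : ℝ) < n := by exact_mod_cast hn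
  have hj : (0 : ℝ) < j + 1 := by positivity
  rw [eq_div_iff (by positivity)]
  push_cast at e2
  refine mul_left_cancel₀ hj.ne' ?_
  linear_combination e2

end TFH2

open TFH2 in
theorem fh2 (h0 : IBP) (h1 : FHs) (h2 : Kap) : FH2 := by
  intro n j p a hn hj hp ha
  have hn0 : 0 < n := by omega
  obtain ⟨k, rfl⟩ := hj
  induction k generalizing p with
  | zero =>
    have e1 := red h0 h1 hn0 hp ha
    have e2 : ∀ i e, ev (pderiv i p) e = ev (pderiv i p) a := fun i e => by
      have h3 := ev_hom (HH.pderiv (j := 0) hp i).1 0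
      simp only [zero_smul, pow_zero, one_mul] at h3
      rw [← h3 e, h3 a]
    have e3 : ∀ i, a i * ∫ e, |⟪e, a⟫| * ev (pderiv i p) e ∂σ n =
        c1 n * (a i * ev (pderiv i p) a) := fun i => by
      simp only [e2 i]
      rw [integral_mul_const, h2 n a hn ha]
      ring
    simp only [e3, ← Finset.mul_sum, ev_euler hp.1] at e1
    norm_num at e1
    simpa [sj] using e1
  | succ k ih =>
    have e1 := red h0 h1 hn0 hp ha
    have e3 : ∀ i, a i * ∫ e, |⟪e, a⟫| * ev (pderiv i p) e ∂σ n =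
        sj n (2 * k + 1) / (n + (2 * k + 1 : ℕ)) * (a i * ev (pderiv i p) a) := fun i => by
      rw [red2 h1 hn0 (j := 2 * k + 1) (HH.pderiv (j := 2 * k + 1 + 1) hp i) ha ih]
      ring
    simp only [e3, ← Finset.mul_sum, ev_euler hp.1] at e1
    rw [show 2 * (k + 1) + 1 = 2 * k + 1 + 2 from rfl, sj]
    refine mul_left_cancel₀ (a := ((2 * (k + 1) + 1 : ℕ) : ℝ)) (by positivity) ?_
    rw [e1]
    push_cast
    ring

end Vale.Agent.P237
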