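import Vale.Agent.P237.Stmts

/-! The step of the Funk-Hecke recursions. -/

namespace Vale.Agent.P237

open MeasureTheory Metric Real Set MvPolynomial
open scoped RealInnerProductSpace NNReal ENNReal Topology

theorem fhs (h : IBP) : FHs := by
  intro n j k F p hn hF hk hp
  rcases j with _ | j
  · have h0 : p = C (coeff 0 p) :=
      totalDegree_eq_zero_iff_eq_C.1 ((totalDegree_zero_iff_isHomogeneous _).2 hp.1)
    rw [h0]
    simp
  have hd := hF.σ_diff hk hn
  have b1 : ∀ i : Fin n, Integrable
      (fun e => fderiv ℝ F e (EuclideanSpace.single i 1) * ev (pderiv i p) e) (σ n) := fun i =>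
    ((hF.bm_fderiv (BM.const _)).mul (ev_bm _)).int
  have b2 : ∀ i : Fin n, Integrable (fun e => F e * ev (pderiv i (pderiv i p)) e) (σ n) := fun i =>
    (hF.bm.mul (ev_bm _)).int
  have b3 : ∀ i : Fin n, Integrable (fun e => e i * (F e * ev (pderiv i p) e)) (σ n) := fun i =>
    ((BM.coord i).mul (hF.bm.mul (ev_bm _))).int
  have key : ∀ i : Fin n,
      ∫ e, fderiv ℝ F e (EuclideanSpace.single i 1) * ev (pderiv i p) e ∂σ n +
        ∫ e, F e * ev (pderiv i (pderiv i p)) e ∂σ n =
      (n + (k + j) - 1) * ∫ e, e i * (F e * ev (pderiv i p) e) ∂σ n := by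
    intro i
    have hH : Hom (k + j) fun e => F e * ev (pderiv i p) e := by
      intro x hx t ht
      simp only [hk x hx t ht, ev_hom (hp.pderiv i).1, rpow_add ht, rpow_natCast]
      ring
    have h1 := h n (k + j) _ (EuclideanSpace.single i 1) hn (hF.mul (ev_ll (pderiv i p))) hH
    simp only [EuclideanSpace.inner_single_right, conj_trivial, one_mul] at h1
    rw [← h1, ← integral_add (b1 i) (b2 i)]
    refine integral_congr_ae (hd.mono fun e he => ?_)
    simp only
    rw [fderiv_fun_mul he (ev_diff _ e)]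
    simp only [add_apply, smul_apply, smul_eq_mul, ev_fderiv_single]
    ring
  have h2 : ∑ i : Fin n, ∫ e, F e * ev (pderiv i (pderiv i p)) e ∂σ n = 0 := by
    rw [← integral_finsetSum _ fun i _ => b2 i]
    simp only [← Finset.mul_sum, ← ev_sum]
    rw [show ∑ i : Fin n, pderiv i (pderiv i p) = 0 from hp.2]
    simp
  have h3 : ∑ i : Fin n, ∫ e, e i * (F e * ev (pderiv i p) e) ∂σ n =
      ((j + 1 : ℕ) : ℝ) * ∫ e, F e * ev p e ∂σ n := by
    rw [← integral_finsetSum _ fun i _ => b3 i, ← integral_const_mul]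
    refine integral_congr_ae (ae_of_all _ fun e => ?_)
    simp only [mul_left_comm _ (F e), ← Finset.mul_sum, ev_euler hp.1]
  have h4 := Finset.sum_congr rfl fun i (_ : i ∈ Finset.univ) => key i
  rw [Finset.sum_add_distrib, h2, add_zero, ← Finset.mul_sum, h3] at h4
  rw [h4]
  push_cast
  ring

end Vale.Agent.P237
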