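import Vale.Agent.P237.Stmts

/-! The final reduction. -/

namespace Vale.Agent.P237

open MeasureTheory Metric Real Set

theorem final (h1 : MI) (h2 : EqC2) (h3 : EqC3) (h4 : EqD) (h5 : Ell) (h6 : Br) (h7 : PBf)
    (n : ℕ) (hn : 4 ≤ n) (K : Set (E n)) (hK : IsBody K) :
    kappa (n - 1) ^ n * kappa n ^ (2 - (n : ℤ)) * vol K ^ (n - 1) ≤ vol (projBody K) ∧
      (vol (projBody K) = kappa (n - 1) ^ n * kappa n ^ (2 - (n : ℤ)) * vol K ^ (n - 1) ↔
        IsEllipsoid K) := by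
  have hk := kappa_pos n
  have e0 : kappa (n - 1) ^ n * kappa n ^ (2 - (n : ℤ)) * vol K ^ (n - 1) =
      kappa (n - 1) ^ n * (vol K / kappa n) ^ (n - 1) * kappa n := by
    obtain ⟨m, rfl⟩ : ∃ m, n = m + 1 := ⟨n - 1, by omega⟩
    rw [show (2 : ℤ) - ((m + 1 : ℕ) : ℤ) = 1 - (m : ℤ) by push_cast; ring, zpow_sub₀ hk.ne',
      zpow_natCast, zpow_one, Nat.add_sub_cancel, div_pow]
    ring
  rw [e0]
  obtain ⟨x, hx⟩ := hK.2.2
  set K' := (fun y => -x + y) '' K with hK'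
  have c1 : IsCompact K' := hK.1.image (by fun_prop)
  have c2 : Convex ℝ K' := hK.2.1.translate _
  have c3 : 0 ∈ interior K' := by
    have := (Homeomorph.addLeft (-x)).image_interior K
    rw [hK', show (fun y => -x + y) = Homeomorph.addLeft (-x) from rfl, ← this]
    exact ⟨x, hx, by simp⟩
  obtain ⟨g1, g2, -⟩ := (h6 n (by omega)).1 K' c1 c2 c3
  have e1 : projBody K = projBody (Kb (gauge K')) := by rw [g2, hK', (h7 n K hK.1).2.2.2]
  have e2 : vol K / kappa n = VN (gauge K') := by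
    rw [div_eq_iff hk.ne', mul_comm, ← ((h6 n (by omega)).2 _ g1).2.2.2.1, g2, hK', vol_translate]
  refine ⟨by rw [e1, e2]; exact h1 n _ hn g1, fun h => ?_, h5 n K (by omega)⟩
  rw [e1, e2] at h
  obtain ⟨A, hA, hA'⟩ := h3 n _ _ (by omega) g1 fun δ hδ => h2 n _ δ hn g1 hδ h.le
  obtain ⟨a, T, hT⟩ := h4 n _ A (by omega) g1 hA hA'
  refine ⟨x + a, T, ?_⟩
  have : K = (fun y => x + y) '' K' := by rw [hK', image_image]; simp
  rw [this, ← g2, hT, image_image]
  simp only [add_assoc]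

end Vale.Agent.P237
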