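import Vale.Agent.P237.Stmts

/-! Fubini along a direction. -/

namespace Vale.Agent.P237

open MeasureTheory Metric Real Set
open scoped RealInnerProductSpace NNReal ENNReal Topology

theorem fub : Fub := by
  intro n u f hu hf
  have h1 := (LinearIsometryEquiv.toSpanUnitSingleton (𝕜 := ℝ) u hu).measurePreserving.prod
    (MeasurePreserving.id (volume : Measure (ℝ ∙ u)ᗮ))
  have h2 := WithLp.volume_preserving_toLp (ℝ ∙ u) (ℝ ∙ u)ᗮ
  have h3 := (ℝ ∙ u).orthogonalDecomposition.symm.measurePreserving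
  have h4 : MeasurePreserving (fun p : ℝ × (ℝ ∙ u)ᗮ => p.2.1 + p.1 • u)
      ((volume : Measure ℝ).prod volume) volume := by
    have h5 := h3.comp (h2.comp h1)
    have e : (fun p : ℝ × (ℝ ∙ u)ᗮ => p.2.1 + p.1 • u) =
        (ℝ ∙ u).orthogonalDecomposition.symm ∘ WithLp.toLp 2 ∘
          Prod.map (LinearIsometryEquiv.toSpanUnitSingleton (𝕜 := ℝ) u hu) id := by
      funext p
      exact add_comm _ _
    rw [e]
    exact h5
  rw [← h4.lintegral_comp hf]
  exact lintegral_prod_symm _ (hf.comp h4.measurable).aemeasurable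

end Vale.Agent.P237
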