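import Vale.Agent.P237.Stmts

/-! Existence of orthogonal families of odd harmonics. -/

namespace Vale.Agent.P237

open MeasureTheory Metric Real Set MvPolynomial
open scoped RealInnerProductSpace

namespace THBex

theorem lin {n : ℕ} {p : MP n} (h : HH 1 p) : ∃ c : E n, ∀ a, ev p a = ⟪c, a⟫ := by
  refine ⟨WithLp.toLp 2 fun i => ev (pderiv i p) 0, fun a => ?_⟩
  have h1 := ev_euler h.1 a
  rw [Nat.cast_one, one_mul] at h1
  rw [← h1, inner_eq_sum]
  refine Finset.sum_congr rfl fun i _ => ?_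
  have h2 := ev_hom (HH.pderiv (j := 0) h i).1 0 a
  rw [zero_smul, pow_zero, one_mul] at h2
  rw [mul_comm, ← h2]

end THBex

theorem hbex (h1 : Fis) (h2 : ONB) (h3 : PI) : HBex := by
  classical
  rintro n m hn ⟨M, rfl⟩
  have hn0 : 0 < n := by omega
  choose L P hP hO hS using fun j => h2 n j hn0
  let T := Σ k : Fin M, Fin (L (2 * M + 1 - 2 * k))
  let e := Fintype.equivFin T
  have horth : ∀ s t : T, ∫ a, ev (P _ s.2) a * ev (P _ t.2) a ∂σ n =
      if s = t then 1 / (n : ℝ) else 0 := by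
    rintro ⟨k, i⟩ ⟨l, j⟩
    by_cases hkl : k = l
    · subst hkl
      rw [hO]
      simp only [T, Sigma.mk.injEq, heq_eq_eq, true_and]
    · rw [if_neg fun h => hkl (congrArg Sigma.fst h)]
      refine (h3 n hn).2.1 _ _ _ _ (hP _ _) (hP _ _) fun h => hkl (Fin.ext ?_)
      have := k.2
      have := l.2
      simp only at h
      omega
  refine ⟨⟨Fintype.card T, fun i => 2 * M + 1 - 2 * (e.symm i).1, fun i => P _ (e.symm i).2,
    fun i => hP _ _, fun i => ⟨M - (e.symm i).1, ?_⟩, fun i => ?_, fun i k => ?_, fun p hp => ?_⟩⟩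
  · have := (e.symm i).1.2
    omega
  · have := (e.symm i).1.2
    omega
  · rw [horth]
    simp only [e.symm.apply_eq_iff_eq]
  · obtain ⟨h, hh, hp'⟩ := (h1 n hn0).2 _ p hp
    choose d hd using fun k : Fin M => hS _ _ (hh k)
    have h4 : HH 1 (h M) := by
      have := hh M
      rwa [show 2 * M + 1 - 2 * M = 1 by omega] at this
    obtain ⟨c, hc⟩ := THBex.lin h4
    refine ⟨c, fun i => d (e.symm i).1 (e.symm i).2, fun a ha => ?_⟩
    rw [e.symm.sum_comp fun t : T => d t.1 t.2 * ev (P _ t.2) a, hp',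
      show (2 * M + 1) / 2 = M by omega, Finset.sum_range_succ, ev_add, ev_sum, add_comm,
      Finset.sum_range, Fintype.sum_sigma]
    simp only [ev_mul, ev_pow, ev_r2, ha, one_pow, one_mul, hc]
    congr 1
    refine Finset.sum_congr rfl fun k _ => ?_
    rw [hd k, ev_sum]
    simp only [ev_smul]

end Vale.Agent.P237
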