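import Vale.Agent.P237.Stmts

/-! Orthogonality relations for the vector fields. -/

namespace Vale.Agent.P237

open MeasureTheory Metric Real Set MvPolynomial
open scoped RealInnerProductSpace

namespace THBf

variable {n : ℕ}

/-- a linear form as a polynomial -/
noncomputable def lf (v : E n) : MP n := ∑ k, v k • X k

theorem lf_hh (v : E n) : HH 1 (lf v) := HH.sum _ fun k _ => (HH.X k).smul _

theorem ev_lf (v a : E n) : ev (lf v) a = ⟪a, v⟫ := by
  simp [lf, inner_eq_sum, mul_comm]

theorem orth1 (h : PI) (hn : 2 ≤ n) {j : ℕ} {p : MP n} (hp : HH j p) (hj : j ≠ 1) (v : E n) :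
    ∫ a, ev p a * ⟪a, v⟫ ∂σ n = 0 := by
  simpa only [ev_lf] using (h n hn).2.1 j 1 p _ hp (lf_hh v) hj

theorem orth0 (h : PI) (hn : 2 ≤ n) {j : ℕ} {p : MP n} (hp : HH j p) (hj : j ≠ 0) :
    ∫ a, ev p a ∂σ n = 0 := by
  simpa only [ev_one, mul_one] using (h n hn).2.1 j 0 p _ hp HH.one hj

end THBf

open THBf in
theorem hbf (h : PI) : HBf := by
  intro n m β y hn
  have h3 := β.three
  have hb : ∀ v : E n, BM fun a => ⟪a, v⟫ := fun v => (LL.inner v).bm
  have e : ∀ a u, ⟪β.r y a, u⟫ = ∑ i, ⟪y i, u⟫ * ev (β.P i) a := fun a u => by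
    simp only [HB.r, sum_inner, real_inner_smul_left, mul_comm]
  have h5 : ∫ a, ‖β.r y a‖ ^ 2 ∂σ n = ∑ i, ‖y i‖ ^ 2 / n := by
    have e2 : ∀ a, ‖β.r y a‖ ^ 2 = ∑ i, ∑ k, ⟪y i, y k⟫ * (ev (β.P i) a * ev (β.P k) a) :=
      fun a => by
        rw [← real_inner_self_eq_norm_sq, e]
        refine Finset.sum_congr rfl fun i _ => ?_
        rw [real_inner_comm, e, Finset.sum_mul]
        exact Finset.sum_congr rfl fun k _ => by rw [real_inner_comm]; ring
    simp only [e2]
    rw [integral_finsetSum _ fun i _ => integrable_finsetSum _ fun k _ =>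
      ((ev_bm _).mul (ev_bm _)).int.const_mul _]
    refine Finset.sum_congr rfl fun i _ => ?_
    rw [integral_finsetSum _ fun k _ => ((ev_bm _).mul (ev_bm _)).int.const_mul _]
    simp only [integral_const_mul, β.orth]
    simp [div_eq_mul_inv]
  refine ⟨fun u v => ?_, fun u => ?_, fun u => ?_, ?_, h5, ?_⟩
  · simp only [e, Finset.sum_mul, mul_assoc]
    rw [integral_finsetSum _ fun i _ => ((ev_bm _).mul (hb v)).int.const_mul _]
    exact Finset.sum_eq_zero fun i _ => by
      rw [integral_const_mul, orth1 h hn (β.hh i) (by have := h3 i; omega), mul_zero]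
  · simp only [e]
    rw [integral_finsetSum _ fun i _ => (ev_bm _).int.const_mul _]
    exact Finset.sum_eq_zero fun i _ => by
      rw [integral_const_mul, orth0 h hn (β.hh i) (by have := h3 i; omega), mul_zero]
  · simpa only [ev_lf] using orth0 h hn (lf_hh u) one_ne_zero
  · have e3 : ∀ a, ⟪β.r y a, a⟫ = ∑ i, ev (β.P i) a * ⟪a, y i⟫ := fun a => by
      rw [e]
      exact Finset.sum_congr rfl fun i _ => by rw [real_inner_comm, mul_comm]
    simp only [e3]
    rw [integral_finsetSum _ fun i _ => ((ev_bm _).mul (hb _)).int]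
    exact Finset.sum_eq_zero fun i _ => orth1 h hn (β.hh i) (by have := h3 i; omega) _
  · rw [h5, HB.En]
    refine Finset.sum_le_sum fun i _ => div_le_div_of_nonneg_right ?_ (Nat.cast_nonneg _)
    have := th_ge hn (β.odd i) (h3 i)
    exact le_mul_of_one_le_left (sq_nonneg _) (by linarith [n.cast_nonneg (α := ℝ)])

end Vale.Agent.P237
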