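import Vale.Agent.P237.Stmts

/-! The functional on fields is sublinear and has a nondegenerate linear minorant. -/

namespace Vale.Agent.P237

open MeasureTheory Metric Real Set MvPolynomial Matrix
open scoped RealInnerProductSpace NNReal ENNReal Topology

namespace THS

variable {n m : ℕ}

theorem low (h3 : HBf) (h4 : PI) {β : HB n m} (hn : 2 ≤ n) (H : HWs β)
    (w : Fin n ⊕ Fin β.L → E n) (ν : E n) {x : E n} (hx : ‖x‖ ≤ 1) :
    ⟪mv (lin w) x, ν⟫ / n ≤ β.hW w ν := by
  have := σ_prob (n := n) (by omega)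
  obtain ⟨a1, a2, a3, -⟩ := h3 n m β (fun i => w (.inr i)) hn
  have a4 := (h4 n hn).2.2.2 x (mv (lin w)ᵀ ν)
  have bi : ∀ u : E n, BM fun b : E n => ⟪b, u⟫ := fun u => BM.id.inner (BM.const u)
  have br : BM fun b : E n => ⟪β.r (fun i => w (.inr i)) b, ν⟫ :=
    (BM.of_cont (β.r_cont _)).inner (BM.const ν)
  have e1 : ∫ b, (⟪b, mv (lin w)ᵀ ν⟫ + ⟪β.r (fun i => w (.inr i)) b, ν⟫ +
      (⟪b, x⟫ * ⟪b, mv (lin w)ᵀ ν⟫ + ⟪β.r (fun i => w (.inr i)) b, ν⟫ * ⟪b, x⟫)) ∂σ n =
      ⟪mv (lin w) x, ν⟫ / n := by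
    rw [integral_add ((bi _).add br).int (((bi _).mul (bi _)).add (br.mul (bi _))).int,
      integral_add (bi _).int br.int, integral_add ((bi _).mul (bi _)).int (br.mul (bi _)).int,
      a1, a2, a3, a4, inner_mv]
    ring
  have e2 : ∫ b, (β.hW w ν + β.hW w ν * ⟪b, x⟫) ∂σ n = β.hW w ν := by
    rw [integral_add (integrable_const _) ((bi x).int.const_mul _), integral_const_mul, a3]
    simp
  rw [← e1, ← e2]
  refine integral_mono_ae (((bi _).add br).add (((bi _).mul (bi _)).add (br.mul (bi _)))).int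
    ((BM.const _).add ((BM.const _).mul (bi x))).int (σ_ae.mono fun b hb => ?_)
  have h1 := H.le w b ν hb
  rw [β.W_eq, inner_add_left, inner_mv] at h1
  have h2 : -1 ≤ ⟪b, x⟫ := by
    have h5 := abs_real_inner_le_norm b x
    rw [hb, one_mul] at h5
    linarith [(abs_le.1 h5).1]
  have h6 := mul_le_mul_of_nonneg_left h1 (by linarith : 0 ≤ 1 + ⟪b, x⟫)
  dsimp only
  linarith

end THS

theorem hs (h1 : HW) (h2 : Q0) (h3 : HBf) (h4 : PI) (h5 : Br) : HS := by
  classical
  intro n m β N hn hN
  have hn0 : 0 < n := by omega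
  have hnr : (0 : ℝ) < n := by exact_mod_cast hn0
  have H := h1 n m β hn0
  have hp : ∀ a : E n, 0 ≤ (N a)⁻¹ ^ n := fun a => pow_nonneg (inv_nonneg.2 (hN.nonneg a)) n
  have hi : ∀ w, Integrable (fun a => (N a)⁻¹ ^ n * β.hW w (gradient N a)) (σ n) :=
    fun w => hN.int_SA (H.cont w)
  refine ⟨⟨fun w w' => ?_, fun t ht w => ?_, ?_⟩, ?_⟩
  · simp only [SA]
    rw [← integral_add (hi w) (hi w')]
    refine integral_mono (hi _) ((hi w).add (hi w')) fun a => ?_
    dsimp only
    rw [← mul_add]
    exact mul_le_mul_of_nonneg_left (H.add w w' _) (hp a)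
  · simp only [SA, H.smul t w _ ht]
    rw [← integral_const_mul]
    exact integral_congr_ae (ae_of_all _ fun a => by ring)
  · obtain ⟨C, -, hC⟩ := H.bdd
    refine ⟨C * SA N fun ν => ‖ν‖, fun w => ?_⟩
    simp only [SA]
    rw [mul_right_comm, ← integral_const_mul]
    refine integral_mono (hi _) ((hN.int_SA continuous_norm).const_mul _) fun a => ?_
    have := mul_le_mul_of_nonneg_left (hC w (gradient N a)) (hp a)
    dsimp only
    linarith
  · obtain ⟨c, hc, hl⟩ := hN.low
    have hV : 0 < VN N := ((h5 n hn0).2 N hN).2.2.2.2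
    have hκ : 0 < c / n * (VN N / n) := by positivity
    refine ⟨Sum.elim (fun k => (c / n * (VN N / n)) • EuclideanSpace.single k 1) fun _ => 0,
      fun w => ?_, ?_⟩
    · have e1 : pair (Sum.elim (fun k => (c / n * (VN N / n)) • EuclideanSpace.single k 1)
          fun _ => 0) w = c / n * ((lin w).trace / n * VN N) := by
        simp only [pair, Fintype.sum_sum_type, Sum.elim_inl, Sum.elim_inr, inner_zero_left,
          Finset.sum_const_zero, add_zero, real_inner_smul_left,
          EuclideanSpace.inner_single_left, ← Finset.mul_sum, Matrix.trace, Matrix.diag, lin,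
          Matrix.of_apply, map_one, one_mul]
        ring
      rw [e1, ← h2 n N (lin w) hn0 hN, ← integral_const_mul]
      refine integral_mono_ae (((hN.bm_inv.pow (n + 1)).mul
        (hN.bm_grad.inner (BM.of_cont (mv_cont _)))).int.const_mul _) (hi w)
        (σ_ae.mono fun a ha => ?_)
      have hNa := hN.pos1 ha
      have hx : ‖(c * (N a)⁻¹) • a‖ ≤ 1 := by
        have := hl a
        rw [ha, mul_one] at this
        rw [norm_smul, ha, mul_one, Real.norm_of_nonneg (by positivity), ← div_eq_mul_inv]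
        exact (div_le_one hNa).2 this
      have h6 := mul_le_mul_of_nonneg_left (THS.low h3 h4 hn H w (gradient N a) hx) (hp a)
      rw [mv_smul, real_inner_smul_left, real_inner_comm] at h6
      refine le_trans (le_of_eq ?_) h6
      ring
    · have e2 : gram (fun j => (β.gs j)⁻¹) (Sum.elim
          (fun k => (c / n * (VN N / n)) • EuclideanSpace.single k (1 : ℝ)) fun _ => 0) =
          Matrix.diagonal fun _ => (c / n * (VN N / n)) ^ 2 := by
        ext i k
        simp only [gram, Matrix.of_apply, Fintype.sum_sum_type, Sum.elim_inl, Sum.elim_inr,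
          HB.gs, inv_one, one_mul, PiLp.zero_apply, mul_zero, Finset.sum_const_zero, add_zero,
          PiLp.smul_apply, smul_eq_mul, Matrix.diagonal_apply]
        rw [Finset.sum_eq_single i (fun l _ hl => by simp [hl.symm]) (by simp)]
        by_cases hik : i = k
        · simp [hik, sq]
        · simp [hik, Ne.symm hik]
      rw [e2]
      exact Matrix.PosDef.diagonal fun _ => pow_pos hκ 2

end Vale.Agent.P237
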