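import Vale.Agent.P237.Stmts

/-! The support function of the range of a field. -/

namespace Vale.Agent.P237

open MeasureTheory Metric Real Set
open scoped RealInnerProductSpace NNReal ENNReal Topology Pointwise

namespace THW

variable {n m : ℕ} (β : HB n m)

theorem W_add (w w' : Fin n ⊕ Fin β.L → E n) (a : E n) :
    β.W (w + w') a = β.W w a + β.W w' a := by
  simp only [HB.W, HB.r, Pi.add_apply, smul_add, Finset.sum_add_distrib]
  abel

theorem W_smul (t : ℝ) (w : Fin n ⊕ Fin β.L → E n) (a : E n) :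
    β.W (t • w) a = t • β.W w a := by
  simp only [HB.W, HB.r, Pi.smul_apply, smul_add, Finset.smul_sum, smul_comm t]

theorem W_bd : ∃ C : ℝ, 0 ≤ C ∧ ∀ w b, ‖b‖ = 1 → ‖β.W w b‖ ≤ C * ‖w‖ := by
  choose c hc using fun i => (ev_bm (β.P i)).2
  refine ⟨n + ∑ i, |c i|, by positivity, fun w b hb => ?_⟩
  rw [add_mul]
  refine (norm_add_le _ _).trans (add_le_add ?_ ?_)
  · refine (norm_sum_le _ _).trans ?_
    have h1 : ∀ k : Fin n, ‖b k • w (.inl k)‖ ≤ ‖w‖ := fun k => by
      rw [norm_smul]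
      refine (mul_le_mul ((PiLp.norm_apply_le b k).trans hb.le) (norm_le_pi_norm w _)
        (norm_nonneg _) zero_le_one).trans (one_mul _).le
    refine (Finset.sum_le_sum fun k _ => h1 k).trans ?_
    simp
  · rw [Finset.sum_mul]
    refine (norm_sum_le _ _).trans (Finset.sum_le_sum fun i _ => ?_)
    rw [norm_smul]
    exact mul_le_mul ((hc i b hb).trans (le_abs_self _)) (norm_le_pi_norm w _) (norm_nonneg _)
      (abs_nonneg _)

theorem le (w : Fin n ⊕ Fin β.L → E n) (b ν : E n) (hb : ‖b‖ = 1) :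
    ⟪β.W w b, ν⟫ ≤ β.hW w ν := by
  obtain ⟨C, -, hC⟩ := W_bd β
  refine le_ciSup (f := fun b : sphere (0 : E n) 1 => ⟪β.W w b, ν⟫) ⟨C * ‖w‖ * ‖ν‖, ?_⟩
    ⟨b, mem_sphere_zero_iff_norm.2 hb⟩
  rintro _ ⟨a, rfl⟩
  exact (real_inner_le_norm _ _).trans
    (mul_le_mul_of_nonneg_right (hC w a (mem_sphere_zero_iff_norm.1 a.2)) (norm_nonneg _))

theorem lub (hn : 0 < n) (w : Fin n ⊕ Fin β.L → E n) (ν : E n) (c : ℝ)
    (h : ∀ b, ‖b‖ = 1 → ⟪β.W w b, ν⟫ ≤ c) : β.hW w ν ≤ c := by
  have : Nonempty (sphere (0 : E n) 1) :=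
    ⟨⟨EuclideanSpace.single ⟨0, hn⟩ 1, mem_sphere_zero_iff_norm.2 (by simp)⟩⟩
  exact ciSup_le fun b => h b (mem_sphere_zero_iff_norm.1 b.2)

theorem neg_le (hn : 0 < n) (w : Fin n ⊕ Fin β.L → E n) (ν : E n) : β.hW w (-ν) ≤ β.hW w ν := by
  refine lub β hn w _ _ fun b hb => ?_
  have h1 := le β w (-b) ν (by rwa [norm_neg])
  rwa [β.W_neg, inner_neg_left, ← inner_neg_right] at h1

end THW
open THW

theorem hw : HW := by
  intro n m β hn
  obtain ⟨C, hC0, hC⟩ := W_bd β
  have hb : ∀ w ν, β.hW w ν ≤ C * ‖w‖ * ‖ν‖ := fun w ν => lub β hn w ν _ fun b hb =>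
    (real_inner_le_norm _ _).trans (mul_le_mul_of_nonneg_right (hC w b hb) (norm_nonneg _))
  refine ⟨le β, lub β hn, fun w => ?_, fun w ν => ?_, fun w w' ν => ?_, fun t w ν ht => ?_,
    ⟨C, hC0, hb⟩, fun w => ?_, fun w => ?_, fun w x hx ν => ?_⟩
  · refine (LipschitzWith.of_le_add_mul' (C * ‖w‖) fun ν ν' => lub β hn w ν _
      fun b hb => ?_).continuous
    have h1 := le β w b ν' hb
    have h2 := (real_inner_le_norm (β.W w b) (ν - ν')).trans
      (mul_le_mul_of_nonneg_right (hC w b hb) (norm_nonneg _))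
    rw [inner_sub_right] at h2
    rw [dist_eq_norm]
    linarith
  · have h0 : ‖(EuclideanSpace.single ⟨0, hn⟩ 1 : E n)‖ = 1 := by simp
    have h1 := le β w _ ν h0
    have h2 := (le β w _ (-ν) h0).trans (neg_le β hn w ν)
    rw [inner_neg_right] at h2
    linarith
  · refine lub β hn _ _ _ fun b hb => ?_
    rw [W_add, inner_add_left]
    exact add_le_add (le β w b ν hb) (le β w' b ν hb)
  · simp only [HB.hW, W_smul, real_inner_smul_left]
    exact (Real.mul_iSup_of_nonneg ht _).symm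
  · refine isCompact_of_isClosed_isBounded ?_ ?_
    · simp only [HB.MW, ofPred_forall]
      exact isClosed_iInter fun ν => isClosed_le (by fun_prop) continuous_const
    · refine (isBounded_closedBall (x := (0 : E n)) (r := C * ‖w‖)).subset fun x hx => ?_
      have h1 := (hx x).trans (hb w x)
      rw [real_inner_self_eq_norm_mul_norm] at h1
      rw [mem_closedBall_zero_iff]
      rcases (norm_nonneg x).eq_or_lt with h | h
      · rw [← h]
        positivity
      · exact le_of_mul_le_mul_right h1 h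
  · intro x hx y hy a b ha hb hab ν
    rw [inner_add_left, real_inner_smul_left, real_inner_smul_left]
    have h1 := mul_le_mul_of_nonneg_left (hx ν) ha
    have h2 := mul_le_mul_of_nonneg_left (hy ν) hb
    calc a * ⟪x, ν⟫ + b * ⟪y, ν⟫ ≤ (a + b) * β.hW w ν := by linarith
      _ = β.hW w ν := by rw [hab, one_mul]
  · rw [inner_neg_left, ← inner_neg_right]
    exact (hx (-ν)).trans (neg_le β hn w ν)

end Vale.Agent.P237
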