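import Vale.Agent.P237.Stmts

/-! Integration by parts against the field of harmonics; a vanishing second moment. -/

namespace Vale.Agent.P237

open MeasureTheory Metric Real Set Filter
open scoped RealInnerProductSpace NNReal ENNReal Topology

namespace TIBrXI

variable {n : ℕ}

theorem one_term (h : IBP) (hn : 0 < n) {F : E n → ℝ} (hF : LL F) (h0 : Hom 0 F) {p : MP n}
    {j : ℕ} (hp : p.IsHomogeneous j) (v : E n) :
    ∫ a, ev p a * fderiv ℝ F a v ∂σ n =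
      -∫ a, F a * (fderiv ℝ (ev p) a v - ((j : ℝ) + n - 1) * (ev p a * ⟪v, a⟫)) ∂σ n := by
  have hG : LL fun x => F x * ev p x := hF.mul (ev_ll p)
  have hk : Hom j fun x => F x * ev p x := fun x hx t ht => by
    show F (t • x) * ev p (t • x) = t ^ (j : ℝ) * (F x * ev p x)
    rw [h0 x hx t ht, ev_Hom hp x hx t ht, rpow_zero]; ring
  have h1 := h n j _ v hn hG hk
  have b1 : BM fun a => ev p a * fderiv ℝ F a v := (ev_bm p).mul (hF.bm_fderiv (BM.const v))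
  have b2 : BM fun a => F a * fderiv ℝ (ev p) a v :=
    hF.bm.mul ((ev_ll p).bm_fderiv (BM.const v))
  have b3 : BM fun a => ⟪a, v⟫ * (F a * ev p a) := (LL.inner v).bm.mul hG.bm
  have h2 : ∫ a, fderiv ℝ (fun x => F x * ev p x) a v ∂σ n =
      ∫ a, (ev p a * fderiv ℝ F a v + F a * fderiv ℝ (ev p) a v) ∂σ n := by
    refine integral_congr_ae ?_
    filter_upwards [hF.σ_diff h0 hn] with a ha
    rw [fderiv_fun_mul ha (ev_diff p a)]
    simp only [add_apply, smul_apply, smul_eq_mul]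
    ring
  have h3 : ∫ a, F a * (fderiv ℝ (ev p) a v - ((j : ℝ) + n - 1) * (ev p a * ⟪v, a⟫)) ∂σ n =
      ∫ a, (F a * fderiv ℝ (ev p) a v - ((n : ℝ) + j - 1) * (⟪a, v⟫ * (F a * ev p a))) ∂σ n := by
    refine integral_congr_ae (Eventually.of_forall fun a => ?_)
    simp only [real_inner_comm a v]
    ring
  rw [h2, integral_add b1.int b2.int] at h1
  rw [h3, integral_sub b2.int (b3.int.const_mul _), integral_const_mul]
  linarith

theorem sq_fderiv (v : E n) {a : E n} (ha : ‖a‖ = 1) (w : E n) :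
    fderiv ℝ (fun x : E n => ⟪x, v⟫ ^ 2 * (‖x‖ ^ 2)⁻¹) a w =
      2 * (⟪w, v⟫ * ⟪a, v⟫) - 2 * (⟪a, v⟫ ^ 2 * ⟪w, a⟫) := by
  have h1 : HasFDerivAt (fun x : E n => ⟪x, v⟫) (innerSL ℝ v) a := by
    have := (innerSL ℝ v).hasFDerivAt (x := a)
    refine this.congr_of_eventuallyEq (Eventually.of_forall fun x => ?_)
    simp only [innerSL_apply_apply]
    exact real_inner_comm v x
  have h2 := (hasStrictFDerivAt_norm_sq a).hasFDerivAt
  have h3 : ‖a‖ ^ 2 ≠ 0 := by rw [ha]; norm_num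
  have h4 := (hasDerivAt_inv h3).comp_hasFDerivAt a h2
  have h5 := ((h1.pow 2).mul h4).fderiv
  have h6 : fderiv ℝ (fun x : E n => ⟪x, v⟫ ^ 2 * (‖x‖ ^ 2)⁻¹) a = _ := h5
  rw [h6]
  simp only [add_apply, smul_apply, smul_eq_mul, innerSL_apply_apply, Function.comp, ha,
    nsmul_eq_mul, real_inner_comm w v, real_inner_comm w a]
  norm_num
  ring

end TIBrXI

open TIBrXI in
theorem ibr (h : IBP) : IBr := by
  intro n m β y F hn hF h0
  have e1 : ∀ a, fderiv ℝ F a (β.r y a) = ∑ i, ev (β.P i) a * fderiv ℝ F a (y i) := fun a => by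
    simp only [HB.r, map_sum, map_smul, smul_eq_mul]
  have e2 : ∀ a, F a * β.dv y a = ∑ i, F a * (fderiv ℝ (ev (β.P i)) a (y i) -
      ((β.deg i : ℝ) + n - 1) * (ev (β.P i) a * ⟪y i, a⟫)) := fun a => by
    rw [HB.dv, Finset.mul_sum]
  simp only [e1, e2]
  rw [integral_finsetSum _ fun i _ => ((ev_bm _).mul (hF.bm_fderiv (BM.const (y i)))).int,
    integral_finsetSum _ fun i _ => (hF.bm.mul (((ev_ll _).bm_fderiv (BM.const (y i))).sub
      ((BM.const _).mul ((ev_bm _).mul ((BM.const (y i)).inner BM.id))))).int,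
    ← Finset.sum_neg_distrib]
  exact Finset.sum_congr rfl fun i _ => one_term h hn hF h0 (β.hh i).1 (y i)

open TIBrXI in
theorem xi (h1 : IBr) (h2 : HBf) : XI := by
  intro n m β y v hn
  have hn0 : 0 < n := by omega
  obtain ⟨a1, -, -, a4, -⟩ := h2 n m β y hn
  have c1 := h1 n m β y (fun _ => 1) hn0 (LL.const 1) fun x _ t _ => by simp
  have hF : LL fun x : E n => ⟪x, v⟫ ^ 2 * (‖x‖ ^ 2)⁻¹ :=
    ((LL.inner v).pow 2).mul ((LL.norm.pow 2).inv fun x hx => pow_ne_zero 2 (norm_ne_zero_iff.2 hx))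
  have c2 := h1 n m β y _ hn0 hF fun x hx t ht => by
    have : ‖x‖ ≠ 0 := norm_ne_zero_iff.2 hx
    simp only [real_inner_smul_left, norm_smul, Real.norm_eq_abs, abs_of_pos ht, rpow_zero]
    field_simp
  have br : BM (β.r y) := BM.of_cont (β.r_cont y)
  have bd : BM (β.dv y) := BM.of_cont (β.dv_cont y)
  have bt : BM fun a : E n => ⟪a, v⟫ := (LL.inner v).bm
  have b1 : BM fun a => ⟪β.r y a, v⟫ * ⟪a, v⟫ := (br.inner (BM.const v)).mul bt
  have b2 : BM fun a => ⟪β.r y a, a⟫ := br.inner BM.id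
  have b3 : BM fun a => ⟪a, v⟫ ^ 2 * ⟪β.r y a, a⟫ := (bt.pow 2).mul b2
  have b4 : BM fun a => ⟪a, v⟫ ^ 2 * β.dv y a := (bt.pow 2).mul bd
  have e1 : ∫ a, fderiv ℝ (fun x : E n => ⟪x, v⟫ ^ 2 * (‖x‖ ^ 2)⁻¹) a (β.r y a) ∂σ n =
      ∫ a, (2 * (⟪β.r y a, v⟫ * ⟪a, v⟫) - 2 * (⟪a, v⟫ ^ 2 * ⟪β.r y a, a⟫)) ∂σ n :=
    integral_congr_ae (σ_ae.mono fun a ha => sq_fderiv v ha _)
  have e2 : ∫ a, ⟪a, v⟫ ^ 2 * (‖a‖ ^ 2)⁻¹ * β.dv y a ∂σ n = ∫ a, ⟪a, v⟫ ^ 2 * β.dv y a ∂σ n :=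
    integral_congr_ae (σ_ae.mono fun a ha => by simp [ha])
  rw [e1, e2, integral_sub (b1.int.const_mul _) (b3.int.const_mul _), integral_const_mul,
    integral_const_mul, a1 v v] at c2
  simp only [fderiv_fun_const, Pi.zero_apply, zero_apply, integral_zero, one_mul] at c1
  have e3 : ∫ a, (n * ⟪a, v⟫ ^ 2 - 1) * (⟪β.r y a, a⟫ - β.dv y a / 2) ∂σ n =
      ∫ a, ((n * (⟪a, v⟫ ^ 2 * ⟪β.r y a, a⟫) - n / 2 * (⟪a, v⟫ ^ 2 * β.dv y a)) -
        (⟪β.r y a, a⟫ - 1 / 2 * β.dv y a)) ∂σ n :=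
    integral_congr_ae (Eventually.of_forall fun a => by ring)
  have i1 : Integrable (fun a => n * (⟪a, v⟫ ^ 2 * ⟪β.r y a, a⟫) - n / 2 * (⟪a, v⟫ ^ 2 * β.dv y a))
      (σ n) := (b3.int.const_mul _).sub (b4.int.const_mul _)
  have i2 : Integrable (fun a => ⟪β.r y a, a⟫ - 1 / 2 * β.dv y a) (σ n) :=
    b2.int.sub (bd.int.const_mul _)
  rw [e3, integral_sub i1 i2, integral_sub (b3.int.const_mul _) (b4.int.const_mul _),
    integral_sub b2.int (bd.int.const_mul _), integral_const_mul, integral_const_mul,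
    integral_const_mul, a4]
  have e4 : ∫ a, β.dv y a ∂σ n = 0 := by linarith
  have e5 : ∫ a, ⟪a, v⟫ ^ 2 * β.dv y a ∂σ n = 2 * ∫ a, ⟪a, v⟫ ^ 2 * ⟪β.r y a, a⟫ ∂σ n := by
    linarith
  rw [e4, e5]
  ring

end Vale.Agent.P237
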