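import Vale.Agent.P237.Stmts

/-! Arithmetic of the multipliers. -/

namespace Vale.Agent.P237

open Real

namespace TKSn

variable {n : ℕ}

theorem sj_step (n j : ℕ) : |sj n (j + 2)| = j * |sj n j| / (n + j) := by
  rw [sj, abs_div, abs_mul, abs_neg, Nat.abs_cast, abs_of_nonneg (by positivity : (0 : ℝ) ≤ n + j)]

theorem five (hn : 4 ≤ n) (k : ℕ) : th n (2 * k + 5) * |sj n (2 * k + 5)| ≤ c1 n := by
  have h4 : (4 : ℝ) ≤ n := by exact_mod_cast hn
  have hc := c1_pos (n := n) (by omega)
  induction k with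
  | zero =>
    rw [show 2 * 0 + 5 = 3 + 2 from rfl, sj_step, show 3 = 1 + 2 from rfl, sj_step, th,
      if_neg (by norm_num), sj, abs_of_pos hc]
    refine le_of_eq ?_
    push_cast
    have : (5 : ℝ) + n - 2 = n + 3 := by ring
    norm_num
    rw [this]
    field_simp
    norm_num
  | succ k ih =>
    rw [show 2 * (k + 1) + 5 = 2 * k + 5 + 2 by ring, sj_step]
    refine le_trans ?_ ih
    rw [th, th, if_neg (by omega), if_neg (by omega)]
    have h0 := abs_nonneg (sj n (2 * k + 5))
    generalize |sj n (2 * k + 5)| = s at h0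
    have hk : (0 : ℝ) ≤ k := k.cast_nonneg
    push_cast
    have e : ((n : ℝ) + 1) / 15 * (2 * k + 5 + 2) * (2 * k + 5 + 2 + n - 2) *
        ((2 * k + 5) * s / (n + (2 * k + 5))) =
        ((n : ℝ) + 1) / 15 * (2 * k + 5) * s * (2 * k + 5 + 2) := by
      field_simp
      ring
    rw [e, mul_right_comm _ (2 * k + 5 + n - 2 : ℝ) s]
    exact mul_le_mul_of_nonneg_left (by linarith) (by positivity)

theorem mom_nonneg (n : ℕ) : ∀ m, 0 ≤ mom n m
  | 0 => zero_le_one
  | 1 => le_rfl
  | m + 2 => by
    have := mom_nonneg n m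
    rw [mom]
    positivity

theorem mu_rec (hn : 0 < n) (j : ℕ) : ∀ m : ℕ,
    ((n : ℝ) + m + j) * mu n (mom n) m (j + 2) = (m - j) * mu n (mom n) m j := by
  have h0 : (0 : ℝ) < n := by exact_mod_cast hn
  induction j with
  | zero =>
    intro m
    match m with
    | 0 => simp [mu]
    | 1 => simp [mu, mom]
    | m + 2 =>
      simp only [mu, mom]
      push_cast
      field_simp
      ring
  | succ j ih =>
    intro m
    match m with
    | 0 => simp [mu]
    | m + 1 =>
      have h1 := ih m
      have h2 : mu n (mom n) m (j + 2) = (m - j) * mu n (mom n) m j / (n + m + j) := by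
        rw [← h1]; field_simp
      rw [mu, mu, h2]
      push_cast
      field_simp
      ring

theorem mu_step (hn : 0 < n) (m j : ℕ) : |mu n (mom n) m (j + 2)| ≤ |mu n (mom n) m j| := by
  have h0 : (0 : ℝ) < n := by exact_mod_cast hn
  have h1 := congrArg abs (mu_rec hn j m)
  have h2 : (0 : ℝ) < n + m + j := by positivity
  rw [abs_mul, abs_mul, abs_of_pos h2] at h1
  refine le_of_mul_le_mul_left (h1.le.trans ?_) h2
  refine mul_le_mul_of_nonneg_right (abs_le.2 ⟨?_, ?_⟩) (abs_nonneg _)
  · linarith [m.cast_nonneg (α := ℝ)]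
  · linarith [j.cast_nonneg (α := ℝ)]

theorem mu_one (n m : ℕ) : 0 ≤ mu n (mom n) m 1 := by
  match m with
  | 0 => simp [mu]
  | m + 1 =>
    have := mom_nonneg n m
    simp only [mu]
    positivity

end TKSn

open TKSn in
theorem ksn : KSn := by
  intro n hn
  refine ⟨fun j hj h3 => ?_, fun m j _ hj => ?_⟩
  · obtain ⟨k, rfl⟩ := hj
    rcases Nat.lt_or_ge k 2 with h | h
    · obtain rfl : k = 1 := by omega
      rw [show 2 * 1 + 1 = 1 + 2 from rfl, sj_step, th, if_pos rfl, sj,
        abs_of_pos (c1_pos (by omega))]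
      refine le_of_eq ?_
      push_cast
      field_simp
    · obtain ⟨l, rfl⟩ := Nat.exists_eq_add_of_le' h
      exact five hn l
  · obtain ⟨k, rfl⟩ := hj
    induction k with
    | zero => exact (abs_of_nonneg (mu_one n m)).le
    | succ k ih => exact (mu_step (by omega) m (2 * k + 1)).trans ih

end Vale.Agent.P237
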