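import Vale.Agent.P237.Stmts

/-! The mean of the absolute value of a coordinate over the sphere. -/

namespace Vale.Agent.P237

open MeasureTheory Metric Real Set
open scoped RealInnerProductSpace ENNReal

namespace TKap

theorem lint {g : ℝ → ℝ} (hg : Continuous g) {a b : ℝ} (hab : a ≤ b)
    (h0 : ∀ r ∈ Ioc a b, 0 ≤ g r) :
    ∫⁻ r in Ioc a b, ENNReal.ofReal (g r) = ENNReal.ofReal (∫ r in a..b, g r) := by
  rw [intervalIntegral.integral_of_le hab, ofReal_integral_eq_lintegral_ofReal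
    (hg.integrableOn_Icc.mono_set Ioc_subset_Icc_self)
    ((ae_restrict_iff' measurableSet_Ioc).2 (Filter.Eventually.of_forall h0))]

theorem lint1 {g : ℝ → ℝ} (hg : Continuous g) {G : ℝ → ℝ≥0∞} (h0 : ∀ r ∈ Ioc (0 : ℝ) 1, 0 ≤ g r)
    (h1 : ∀ r ∈ Ioc (0 : ℝ) 1, G r = ENNReal.ofReal (g r)) (h2 : ∀ r, 1 < r → G r = 0) :
    ∫⁻ r in Ioi (0 : ℝ), G r = ENNReal.ofReal (∫ r in (0 : ℝ)..1, g r) := by
  rw [← Ioc_union_Ioi_eq_Ioi zero_le_one, lintegral_union measurableSet_Ioi
    (Ioc_disjoint_Ioi le_rfl), setLIntegral_congr_fun measurableSet_Ioc h1,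
    setLIntegral_congr_fun measurableSet_Ioi (g := fun _ => 0) h2, lintegral_zero, add_zero,
    lint hg zero_le_one h0]

theorem abs_int {s : ℝ} (hs : 0 ≤ s) : ∫ t in (-s)..s, |t| = s ^ 2 := by
  rw [← intervalIntegral.integral_add_adjacent_intervals (b := 0)
    (continuous_abs.intervalIntegrable _ _) (continuous_abs.intervalIntegrable _ _),
    intervalIntegral.integral_congr (g := fun t => -t) (a := -s) fun t ht => by
      rw [uIcc_of_le (neg_nonpos.2 hs)] at ht
      exact abs_of_nonpos ht.2,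
    intervalIntegral.integral_congr (g := fun t => t) (a := 0) fun t ht => by
      rw [uIcc_of_le hs] at ht
      exact abs_of_nonneg ht.1, intervalIntegral.integral_neg, integral_id, integral_id]
  ring

theorem line (c : ℝ) :
    ∫⁻ t : ℝ, {t : ℝ | t ^ 2 ≤ c}.indicator (fun t => ENNReal.ofReal |t|) t = ENNReal.ofReal c := by
  rcases lt_or_ge c 0 with hc | hc
  · have h1 : {t : ℝ | t ^ 2 ≤ c} = ∅ :=
      eq_empty_of_forall_notMem fun t ht => (hc.trans_le (sq_nonneg t)).not_ge ht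
    rw [h1, indicator_empty, lintegral_zero, ENNReal.ofReal_of_nonpos hc.le]
  · have h1 : {t : ℝ | t ^ 2 ≤ c} = Icc (-√c) √c := by
      ext t
      rw [mem_ofPred_eq, mem_Icc, ← abs_le, Real.sq_le hc, abs_le]
    rw [h1, lintegral_indicator measurableSet_Icc, ← restrict_Ioc_eq_restrict_Icc,
      lint continuous_abs (neg_le_self (sqrt_nonneg c)) fun r _ => abs_nonneg r,
      abs_int (sqrt_nonneg c), sq_sqrt hc]

theorem cap (m : ℕ) : ∫⁻ z : E (m + 1), ENNReal.ofReal (1 - ‖z‖ ^ 2) =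
    ENNReal.ofReal (2 * kappa (m + 1) / (m + 3)) := by
  have := σ_prob (n := m + 1) m.succ_pos
  have h1 : ∀ᵐ a ∂σ (m + 1), ∫⁻ r in Ioi (0 : ℝ), ENNReal.ofReal (r ^ (m + 1 - 1)) *
      ENNReal.ofReal (1 - ‖r • a‖ ^ 2) = ENNReal.ofReal (1 / (m + 1) - 1 / (m + 3)) := by
    filter_upwards [σ_ae] with a ha
    rw [lint1 (g := fun r => r ^ m - r ^ (m + 2)) (by fun_prop) (fun r hr => ?_) (fun r hr => ?_)
      fun r hr => ?_]
    · rw [intervalIntegral.integral_sub ((continuous_pow _).intervalIntegrable _ _)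
        ((continuous_pow _).intervalIntegrable _ _), integral_pow, integral_pow]
      congr 1
      push_cast
      ring
    · exact sub_nonneg.2 (pow_le_pow_of_le_one hr.1.le hr.2 (by omega))
    · rw [norm_smul, ha, mul_one, Real.norm_eq_abs, sq_abs,
        ← ENNReal.ofReal_mul (pow_nonneg hr.1.le _)]
      congr 1
      simp only [Nat.add_sub_cancel]
      ring
    · rw [norm_smul, ha, mul_one, Real.norm_eq_abs, sq_abs,
        ENNReal.ofReal_of_nonpos (p := 1 - r ^ 2) (by nlinarith), mul_zero]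
  rw [polar m.succ_pos (by fun_prop), lintegral_congr_ae h1, lintegral_const, measure_univ,
    mul_one, ← ENNReal.ofReal_mul (nk_pos m.succ_pos).le]
  congr 1
  push_cast
  field_simp
  ring

theorem ball_int (h : Fub) (m : ℕ) {v : E (m + 2)} (hv : ‖v‖ = 1) :
    ∫⁻ x, (closedBall (0 : E (m + 2)) 1).indicator (fun x => ENNReal.ofReal |⟪x, v⟫|) x =
      ENNReal.ofReal (2 * kappa (m + 1) / (m + 3)) := by
  have hv0 : v ≠ 0 := norm_ne_zero_iff.1 (hv.trans_ne one_ne_zero)
  have : Fact (Module.finrank ℝ (E (m + 2)) = m + 1 + 1) := ⟨finrank_euclideanSpace_fin⟩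
  have h1 := (OrthonormalBasis.fromOrthogonalSpanSingleton (m + 1) hv0).repr.measurePreserving
  rw [h _ v _ hv (Measurable.indicator (by fun_prop) measurableSet_closedBall), ← cap,
    ← h1.lintegral_comp (by fun_prop)]
  refine lintegral_congr fun y => ?_
  rw [LinearIsometryEquiv.norm_map, ← line]
  refine lintegral_congr fun t => ?_
  have h2 : ⟪y.1, v⟫ = 0 := Submodule.mem_orthogonal_singleton_iff_inner_left.1 y.2
  have h3 : ‖y.1 + t • v‖ ^ 2 = ‖y‖ ^ 2 + t ^ 2 := by
    rw [norm_add_sq_real, inner_smul_right, h2, norm_smul, hv, Real.norm_eq_abs, mul_one, sq_abs,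
      Submodule.coe_norm]
    ring
  have h4 : ⟪y.1 + t • v, v⟫ = t := by
    rw [inner_add_left, h2, real_inner_smul_left, real_inner_self_eq_norm_sq, hv]
    ring
  have h5 : y.1 + t • v ∈ closedBall (0 : E (m + 2)) 1 ↔ t ∈ {t : ℝ | t ^ 2 ≤ 1 - ‖y‖ ^ 2} := by
    rw [mem_closedBall_zero_iff, mem_ofPred_eq, ← sq_le_one_iff₀ (norm_nonneg _), h3,
      le_sub_iff_add_le']
  by_cases h6 : t ∈ {t : ℝ | t ^ 2 ≤ 1 - ‖y‖ ^ 2}
  · rw [indicator_of_mem h6, indicator_of_mem (h5.2 h6), h4]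
  · rw [indicator_of_notMem h6, indicator_of_notMem fun h7 => h6 (h5.1 h7)]

theorem ball_pol (m : ℕ) (v : E (m + 2)) :
    ∫⁻ x, (closedBall (0 : E (m + 2)) 1).indicator (fun x => ENNReal.ofReal |⟪x, v⟫|) x =
      ENNReal.ofReal ((m + 2 : ℕ) * kappa (m + 2) * ((∫ a, |⟪a, v⟫| ∂σ (m + 2)) / (m + 3))) := by
  have h1 : ∀ᵐ a ∂σ (m + 2), ∫⁻ r in Ioi (0 : ℝ), ENNReal.ofReal (r ^ (m + 2 - 1)) *
      (closedBall (0 : E (m + 2)) 1).indicator (fun x => ENNReal.ofReal |⟪x, v⟫|) (r • a) =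
        ENNReal.ofReal (|⟪a, v⟫| / (m + 3)) := by
    filter_upwards [σ_ae] with a ha
    rw [lint1 (g := fun r => r ^ (m + 2) * |⟪a, v⟫|) (by fun_prop) (fun r hr => ?_)
      (fun r hr => ?_) fun r hr => ?_]
    · rw [intervalIntegral.integral_mul_const, integral_pow]
      congr 1
      push_cast
      ring
    · exact mul_nonneg (pow_nonneg hr.1.le _) (abs_nonneg _)
    · rw [indicator_of_mem (by
        rw [mem_closedBall_zero_iff, norm_smul, ha, mul_one, Real.norm_of_nonneg hr.1.le]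
        exact hr.2), ← ENNReal.ofReal_mul (pow_nonneg hr.1.le _), real_inner_smul_left, abs_mul,
        abs_of_pos hr.1, show m + 2 - 1 = m + 1 from rfl]
      congr 1
      ring
    · rw [indicator_of_notMem (by
        rw [mem_closedBall_zero_iff, norm_smul, ha, mul_one,
          Real.norm_of_nonneg (zero_le_one.trans hr.le)]
        exact hr.not_ge), mul_zero]
  rw [polar (m + 1).succ_pos (Measurable.indicator (by fun_prop) measurableSet_closedBall),
    lintegral_congr_ae h1, ← ofReal_integral_eq_lintegral_ofReal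
      (BM.of_cont (by fun_prop)).int (Filter.Eventually.of_forall fun a => by positivity),
    ← ENNReal.ofReal_mul (nk_pos (m + 1).succ_pos).le, integral_div]

end TKap

theorem kap (h : Fub) : Kap := by
  intro n v hn hv
  obtain ⟨m, rfl⟩ := Nat.exists_eq_add_of_le' hn
  have h1 := (TKap.ball_pol m v).symm.trans (TKap.ball_int h m hv)
  have h2 := nk_pos (m + 1).succ_pos
  have h3 := kappa_pos (m + 1)
  have h4 : 0 ≤ ∫ a, |⟪a, v⟫| ∂σ (m + 2) := integral_nonneg fun a => abs_nonneg _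
  rw [ENNReal.ofReal_eq_ofReal_iff (by positivity) (by positivity), ← mul_div_assoc,
    div_left_inj' (by positivity)] at h1
  rw [c1, eq_div_iff h2.ne', mul_comm]
  exact h1

end Vale.Agent.P237
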