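import Vale.Agent.P237.Stmts

namespace Vale.Agent.P237

open MeasureTheory Metric Real Set MvPolynomial Matrix
open scoped RealInnerProductSpace NNReal ENNReal Topology Pointwise

namespace TLA12

theorem one_le_det {n : ℕ} {S : Matrix (Fin n) (Fin n) ℝ} (hS : S.PosSemidef) :
    1 ≤ (1 + S).det := by
  have h : (1 + S).IsHermitian := isHermitian_one.add hS.1
  rw [h.det_eq_prod_eigenvalues]
  refine Finset.one_le_prod fun i _ => ?_
  have h1 := hS.dotProduct_mulVec_nonneg (h.eigenvectorBasis i)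
  have h2 : star (h.eigenvectorBasis i).1 ⬝ᵥ (h.eigenvectorBasis i).1 = 1 := by
    have := real_inner_self_eq_norm_sq (h.eigenvectorBasis i)
    rw [h.eigenvectorBasis.orthonormal.1 i, EuclideanSpace.inner_eq_star_dotProduct,
      dotProduct_comm] at this
    simpa using this
  rw [h.eigenvalues_eq, add_mulVec, one_mulVec, dotProduct_add, h2]
  simpa using h1

open scoped MatrixOrder in
theorem exists_root {n : ℕ} {A : Matrix (Fin n) (Fin n) ℝ} (hA : A.PosSemidef) :
    ∃ C : Matrix (Fin n) (Fin n) ℝ, A = Cᴴ * C := by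
  obtain ⟨C, hC⟩ := CStarAlgebra.nonneg_iff_eq_star_mul_self.mp hA.nonneg
  exact ⟨C, hC⟩

end TLA12

theorem la1 : LA1 := by
  intro n A B hA hBA
  refine ⟨by simpa using hA.add_posSemidef hBA, ?_⟩
  obtain ⟨C, hC⟩ := TLA12.exists_root hA.posSemidef
  have hd : A.det = Cᴴ.det * C.det := by rw [hC, det_mul]
  have hC0 : IsUnit C.det := by
    refine isUnit_iff_ne_zero.2 fun h => hA.det_pos.ne' ?_
    rw [hd, h, mul_zero]
  have e : B = Cᴴ * (1 + C⁻¹ᴴ * (B - A) * C⁻¹) * C := by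
    have h1 : Cᴴ * C⁻¹ᴴ = 1 := by rw [← conjTranspose_mul, nonsing_inv_mul _ hC0, conjTranspose_one]
    rw [Matrix.mul_add, Matrix.add_mul, Matrix.mul_one, ← hC, ← Matrix.mul_assoc,
      ← Matrix.mul_assoc, h1, Matrix.one_mul, Matrix.mul_assoc, nonsing_inv_mul _ hC0,
      Matrix.mul_one, add_sub_cancel]
  have h1 := TLA12.one_le_det (hBA.conjTranspose_mul_mul_same C⁻¹)
  have h2 : B.det = A.det * (1 + C⁻¹ᴴ * (B - A) * C⁻¹).det := by
    conv_lhs => rw [e]
    rw [det_mul, det_mul, hd]; ring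
  rw [h2]
  exact le_mul_of_one_le_right hA.det_pos.le h1

theorem la2 : LA2 := by
  intro n S hn hS
  have hn' : (0 : ℝ) < n := Nat.cast_pos.2 hn
  have h := Real.geom_mean_le_arith_mean_weighted Finset.univ (fun _ : Fin n => (n : ℝ)⁻¹)
    hS.1.eigenvalues (fun _ _ => by positivity) (by simp [hn.ne'])
    (fun i _ => hS.eigenvalues_nonneg i)
  have h0 : 0 ≤ ∏ i, hS.1.eigenvalues i := Finset.prod_nonneg fun i _ => hS.eigenvalues_nonneg i
  rw [Real.finsetProd_rpow _ _ fun i _ => hS.eigenvalues_nonneg i, ← Finset.mul_sum] at h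
  have h2 := pow_le_pow_left₀ (Real.rpow_nonneg h0 _) h n
  rw [Real.rpow_inv_natCast_pow h0 hn.ne'] at h2
  rw [hS.1.det_eq_prod_eigenvalues, hS.1.trace_eq_sum_eigenvalues, div_eq_inv_mul]
  simpa using h2

end Vale.Agent.P237
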