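import Vale.Agent.P237.Stmts

/-! The determinant bound for the weighted Gram matrix. -/

namespace Vale.Agent.P237

open MeasureTheory Metric Real Set Matrix
open scoped RealInnerProductSpace

namespace TLA3

variable {n : ℕ} {J : Type} [Fintype J]

theorem gram_eq (g : J → ℝ) (q : J → E n) :
    gram g q = ∑ j, g j • vecMulVec (q j).ofLp (q j).ofLp := by
  ext i k
  simp [gram, Matrix.sum_apply, vecMulVec_apply]

theorem conj (B : Matrix (Fin n) (Fin n) ℝ) (g : J → ℝ) (q : J → E n) :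
    B * gram g q * Bᵀ = gram g fun j => mv B (q j) := by
  rw [gram_eq, gram_eq, Matrix.mul_sum, Matrix.sum_mul]
  refine Finset.sum_congr rfl fun j _ => ?_
  rw [Matrix.mul_smul, Matrix.smul_mul, mul_vecMulVec, vecMulVec_mul, vecMul_transpose]
  rfl

theorem trace_gram (g : J → ℝ) (q : J → E n) : (gram g q).trace = ∑ j, g j * ‖q j‖ ^ 2 := by
  simp only [trace, diag, gram, of_apply, EuclideanSpace.real_norm_sq_eq, Finset.mul_sum]
  simp only [pow_two]
  rw [Finset.sum_comm]

theorem form (g : J → ℝ) (q : J → E n) (x : Fin n → ℝ) :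
    x ⬝ᵥ gram g q *ᵥ x = ∑ j, g j * (x ⬝ᵥ (q j).ofLp) ^ 2 := by
  rw [gram_eq, Matrix.sum_mulVec, dotProduct_sum]
  refine Finset.sum_congr rfl fun j _ => ?_
  rw [Matrix.smul_mulVec, vecMulVec_mulVec, dotProduct_smul, op_smul_eq_smul, dotProduct_smul,
    dotProduct_comm (q j).ofLp x]
  simp only [smul_eq_mul]
  ring

end TLA3

open TLA3 in
theorem la3 (h : LA2) : LA3 := by
  intro n m β w hn hG
  have n0 : (0 : ℝ) < n := Nat.cast_pos.2 (by omega)
  have hth : ∀ i, 0 ≤ th n (β.deg i) := fun i =>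
    le_trans (by positivity) (th_ge hn (β.odd i) (β.three i))
  have hA : (lin w).det ≠ 0 := by
    intro h0
    obtain ⟨x, hx, hxA⟩ := Matrix.exists_vecMul_eq_zero_iff.2 h0
    have h1 := hG.dotProduct_mulVec_pos hx
    rw [star_trivial, form, Fintype.sum_sum_type] at h1
    have h2 : ∀ k, x ⬝ᵥ (w (.inl k)).ofLp = 0 := fun k => congrFun hxA k
    have h3 : 0 ≤ ∑ i, th n (β.deg i) * (x ⬝ᵥ (w (.inr i)).ofLp) ^ 2 :=
      Finset.sum_nonneg fun i _ => mul_nonneg (hth i) (sq_nonneg _)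
    simp only [h2, HB.gs, neg_mul, Finset.sum_neg_distrib] at h1
    simp at h1
    linarith
  have hS : ((lin w)⁻¹ * gram β.gs w * (lin w)⁻¹ᵀ).PosSemidef := by
    have := hG.posSemidef.mul_mul_conjTranspose_same (lin w)⁻¹
    rwa [conjTranspose_eq_transpose_of_trivial] at this
  have hcol : ∀ k, ‖mv (lin w)⁻¹ (w (.inl k))‖ ^ 2 = 1 := by
    intro k
    have e : ∀ i, mv (lin w)⁻¹ (w (.inl k)) i = (1 : Matrix (Fin n) (Fin n) ℝ) i k := fun i => by
      rw [← Matrix.nonsing_inv_mul _ (isUnit_iff_ne_zero.2 hA), mv_apply, Matrix.mul_apply]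
      rfl
    simp [EuclideanSpace.real_norm_sq_eq, e, Matrix.one_apply]
  have htr : ((lin w)⁻¹ * gram β.gs w * (lin w)⁻¹ᵀ).trace / n = 1 - β.en w := by
    rw [conj, trace_gram, Fintype.sum_sum_type]
    simp only [hcol, HB.gs, HB.en, HB.En, neg_mul, Finset.sum_neg_distrib, ← Finset.sum_div,
      mul_one, Finset.sum_const, Finset.card_univ, Fintype.card_fin, nsmul_eq_mul]
    field_simp
    ring
  have h1 := h n _ (by omega) hS
  have h2 := div_nonneg hS.trace_nonneg n0.le
  rw [htr] at h1 h2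
  have h3 : 0 ≤ β.en w := by
    unfold HB.en HB.En
    exact Finset.sum_nonneg fun i _ => div_nonneg (mul_nonneg (hth i) (sq_nonneg _)) n0.le
  refine ⟨hA, h3, by linarith, ?_⟩
  rw [det_mul, det_mul, det_transpose, det_nonsing_inv, Ring.inverse_eq_inv'] at h1
  have e : (gram β.gs w).det =
      (lin w).det ^ 2 * ((lin w).det⁻¹ * (gram β.gs w).det * (lin w).det⁻¹) := by
    field_simp
  rw [e]
  exact mul_le_mul_of_nonneg_left h1 (sq_nonneg _)

end Vale.Agent.P237
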