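import Vale.Agent.P237.Stmts

/-! The minimax step: a maximiser of the determinant satisfies the dual bound. -/

namespace Vale.Agent.P237

open scoped RealInnerProductSpace

namespace TMM

variable {n : ℕ} {J : Type} [Fintype J]

theorem zero {H : (J → E n) → ℝ} (h : SubL H) : H 0 = 0 := by
  simpa using h.smul 0 le_rfl 0

theorem line {H : (J → E n) → ℝ} (h : SubL H) (w : J → E n) (c : ℝ) : c * H w ≤ H (c • w) := by
  rcases le_total 0 c with hc | hc
  · rw [h.smul c hc]
  · have h1 := h.add (c • w) ((-c) • w)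
    rw [← add_smul, add_neg_cancel, zero_smul, zero h, h.smul (-c) (by linarith)] at h1
    linarith

theorem exists_lin {H : (J → E n) → ℝ} (h : SubL H) (w : J → E n) :
    ∃ F : (J → E n) →ₗ[ℝ] ℝ, F w = H w ∧ ∀ x, F x ≤ H x := by
  have hz : ∀ c : ℝ, c • w = 0 → (RingHom.id ℝ) c • H w = 0 := by
    intro c hc
    rcases smul_eq_zero.1 hc with rfl | rfl
    · simp
    · simp [zero h]
  obtain ⟨F, h1, h2⟩ := exists_extension_of_le_sublinear (LinearPMap.mkSpanSingleton' w (H w) hz)
    H (fun c hc x => h.smul c hc.le x) h.add (by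
      rintro ⟨x, hx⟩
      obtain ⟨c, rfl⟩ := Submodule.mem_span_singleton.1 hx
      rw [LinearPMap.mkSpanSingleton'_apply]
      simpa using line h w c)
  refine ⟨F, ?_, h2⟩
  exact (h1 ⟨w, Submodule.mem_span_singleton_self w⟩).trans
    (LinearPMap.mkSpanSingleton'_apply_self w (H w) hz _)

theorem exists_pair (F : (J → E n) →ₗ[ℝ] ℝ) : ∃ q : J → E n, ∀ w, pair q w = F w := by
  classical
  refine ⟨fun j => WithLp.toLp 2 fun i => F (Pi.single j (EuclideanSpace.single i 1)), fun w => ?_⟩
  have hw : w = ∑ j, ∑ i, w j i • (Pi.single j (EuclideanSpace.single i 1) : J → E n) := by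
    funext k
    ext l
    simp [Finset.sum_apply, Pi.single_apply, apply_ite, Finset.sum_ite_eq]
  conv_rhs => rw [hw]
  simp [pair, PiLp.inner_apply, map_sum]

theorem pair_comb (q q' w : J → E n) (t : ℝ) :
    pair (q + t • (q' - q)) w = (1 - t) * pair q w + t * pair q' w := by
  simp only [pair, Pi.add_apply, Pi.smul_apply, Pi.sub_apply, inner_add_left, inner_sub_left,
    real_inner_smul_left, Finset.mul_sum, ← Finset.sum_add_distrib]
  exact Finset.sum_congr rfl fun j _ => by ring

end TMM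

theorem mm (h1 : MM1) (h2 : MM2) : MM := by
  intro n J _ g H q0 hH h0 hp
  obtain ⟨q, hq, hqp, hmax⟩ := h1 n J g H q0 hH h0 hp
  refine ⟨q, hq, hqp, ?_⟩
  obtain ⟨F, hF, hFH⟩ := TMM.exists_lin hH (fun j => g j • mv (gram g q)⁻¹ (q j))
  obtain ⟨q', hq'⟩ := TMM.exists_pair F
  rw [← hF, ← hq']
  refine h2 n J g q q' hqp fun t ht0 ht1 hp' => hmax _ (fun w => ?_) hp'
  rw [TMM.pair_comb, hq']
  have := hq w
  have := hFH w
  nlinarith

end Vale.Agent.P237
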