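import Vale.Agent.P237.Stmts

/-! Existence of a maximiser of the determinant. -/

namespace Vale.Agent.P237

open MeasureTheory Metric Real Set Matrix
open scoped RealInnerProductSpace NNReal Topology

namespace TMM1

variable {n : ℕ} {J : Type} [Fintype J]

theorem herm (g : J → ℝ) (q : J → E n) : (gram g q).IsHermitian := by
  ext i k
  simp [gram, mul_comm]

theorem cont_gram (g : J → ℝ) : Continuous fun q : J → E n => gram g q := by
  refine continuous_matrix fun i k => ?_
  simp only [gram, Matrix.of_apply]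
  fun_prop

theorem norm_le {C : ℝ} {q : J → E n} (h : pair q q ≤ C * ‖q‖) : ‖q‖ ≤ |C| := by
  have h1 : ‖q‖ ≤ √(pair q q) := (pi_norm_le_iff_of_nonneg (Real.sqrt_nonneg _)).2 fun j => by
    refine Real.le_sqrt_of_sq_le ?_
    rw [← real_inner_self_eq_norm_sq]
    exact Finset.single_le_sum (f := fun j => ⟪q j, q j⟫) (fun _ _ => real_inner_self_nonneg)
      (Finset.mem_univ j)
  have h0 : 0 ≤ pair q q := Finset.sum_nonneg fun _ _ => real_inner_self_nonneg
  have h2 : ‖q‖ ^ 2 ≤ pair q q := (Real.le_sqrt (norm_nonneg _) h0).1 h1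
  by_contra hc
  have h3 := not_le.1 hc
  nlinarith [le_abs_self C, abs_nonneg C]

end TMM1

theorem mm1 : MM1 := by
  intro n J _ g H q0 hH h0 hp
  classical
  obtain ⟨C, hC⟩ := hH.bdd
  set Q : Set (J → E n) :=
    {q | (∀ w, pair q w ≤ H w) ∧ ∀ x : Fin n → ℝ, 0 ≤ star x ⬝ᵥ gram g q *ᵥ x} with hQ
  have hcl : IsClosed Q := by
    rw [hQ, ofPred_and, ofPred_forall, ofPred_forall]
    refine (isClosed_iInter fun w => isClosed_le ?_ continuous_const).inter
      (isClosed_iInter fun x => isClosed_le continuous_const ?_)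
    · unfold pair
      fun_prop
    · exact continuous_const.dotProduct ((TMM1.cont_gram g).matrix_mulVec continuous_const)
  have hco : IsCompact Q := (isCompact_closedBall (0 : J → E n) |C|).of_isClosed_subset hcl
    fun q hq => mem_closedBall_zero_iff.2 (TMM1.norm_le ((hq.1 q).trans (hC q)))
  have hin : ∀ q, (∀ w, pair q w ≤ H w) → (gram g q).PosDef → q ∈ Q := fun q h1 h2 =>
    ⟨h1, h2.posSemidef.dotProduct_mulVec_nonneg⟩
  obtain ⟨q, hq, hm⟩ := hco.exists_isMaxOn ⟨q0, hin q0 h0 hp⟩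
    (TMM1.cont_gram g).matrix_det.continuousOn
  refine ⟨q, hq.1, ?_, fun q' h1 h2 => hm (hin q' h1 h2)⟩
  exact (PosSemidef.of_dotProduct_mulVec_nonneg (TMM1.herm g q) hq.2).posDef_iff_det_ne_zero.2
    (hp.det_pos.trans_le (hm (hin q0 h0 hp))).ne'

end Vale.Agent.P237
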