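import Vale.Agent.P237.Stmts

/-! The first order condition for the maximal Gram determinant. -/

namespace Vale.Agent.P237

open Metric Set Filter Matrix
open scoped RealInnerProductSpace Topology

namespace TMM2

variable {n : ℕ} {J : Type} [Fintype J]

/-- mixed Gram matrix -/
noncomputable def bil (g : J → ℝ) (a b : J → E n) : Matrix (Fin n) (Fin n) ℝ :=
  Matrix.of fun i k => ∑ j, g j * (a j i * b j k)

theorem trace_bil (B : Matrix (Fin n) (Fin n) ℝ) (g : J → ℝ) (a b : J → E n) :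
    (B * bil g a b).trace = pair b fun j => g j • mv B (a j) := by
  simp only [Matrix.trace, Matrix.diag, Matrix.mul_apply, bil, Matrix.of_apply, pair,
    PiLp.inner_apply, PiLp.smul_apply, mv_apply, Finset.mul_sum, Finset.sum_mul, smul_eq_mul,
    RCLike.inner_apply, conj_trivial]
  rw [Finset.sum_comm]
  refine (Finset.sum_congr rfl fun l _ => Finset.sum_comm).trans ?_
  rw [Finset.sum_comm]
  refine Finset.sum_congr rfl fun j _ => ?_
  rw [Finset.sum_comm]
  refine Finset.sum_congr rfl fun i _ => Finset.sum_congr rfl fun l _ => ?_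
  ring

theorem gram_add (g : J → ℝ) (q d : J → E n) (t : ℝ) :
    gram g (q + t • d) = gram g q + t • (bil g q d + (bil g q d)ᵀ) + t ^ 2 • gram g d := by
  ext i k
  simp only [gram, bil, Matrix.of_apply, Matrix.add_apply, Matrix.smul_apply,
    Matrix.transpose_apply, Pi.add_apply, Pi.smul_apply, PiLp.add_apply, PiLp.smul_apply,
    smul_eq_mul, Finset.mul_sum, ← Finset.sum_add_distrib]
  exact Finset.sum_congr rfl fun j _ => by ring

theorem gram_herm (g : J → ℝ) (q : J → E n) : (gram g q).IsHermitian := by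
  ext i k
  simp only [gram, Matrix.conjTranspose_apply, Matrix.of_apply, star_trivial, mul_comm]

theorem posDef_ev {A : ℝ → Matrix (Fin n) (Fin n) ℝ} (hA : Continuous A)
    (hs : ∀ t, (A t).IsHermitian) (h0 : (A 0).PosDef) : ∀ᶠ t in 𝓝 (0 : ℝ), (A t).PosDef := by
  have hc : Continuous fun z : ℝ × (Fin n → ℝ) => z.2 ⬝ᵥ (A z.1 *ᵥ z.2) :=
    continuous_snd.dotProduct ((hA.comp continuous_fst).matrix_mulVec continuous_snd)
  have h1 := (isCompact_sphere (0 : Fin n → ℝ) 1).eventually_forall_of_forall_eventually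
    (x₀ := (0 : ℝ)) (P := fun t x => 0 < x ⬝ᵥ (A t *ᵥ x)) fun y hy => by
      have hy0 : y ≠ 0 := by
        rintro rfl
        simp at hy
      exact hc.continuousAt.eventually (lt_mem_nhds (h0.dotProduct_mulVec_pos hy0))
  filter_upwards [h1] with t ht
  refine PosDef.of_dotProduct_mulVec_pos (hs t) fun x hx => ?_
  have hn : 0 < ‖x‖ := norm_pos_iff.2 hx
  have h2 := ht (‖x‖⁻¹ • x) (by
    rw [mem_sphere_zero_iff_norm, norm_smul, norm_inv, norm_norm, inv_mul_cancel₀ hn.ne'])
  rw [Matrix.mulVec_smul, smul_dotProduct, dotProduct_smul, smul_eq_mul, smul_eq_mul] at h2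
  exact (mul_pos_iff_of_pos_left (inv_pos.2 hn)).1 ((mul_pos_iff_of_pos_left (inv_pos.2 hn)).1 h2)

theorem hasDeriv (Y Z : Matrix (Fin n) (Fin n) ℝ) :
    HasDerivAt (fun t : ℝ => (1 + t • Y + t ^ 2 • Z).det) Y.trace 0 := by
  have hF : Differentiable ℝ fun z : ℝ × ℝ => (1 + z.1 • Y + z.2 • Z).det := by
    simp only [Matrix.det_apply', Matrix.add_apply, Matrix.smul_apply, smul_eq_mul]
    fun_prop
  have c1 : HasDerivAt (fun t : ℝ => (t, t ^ 2)) ((1 : ℝ), (0 : ℝ)) 0 :=
    (hasDerivAt_id' 0).prodMk (by simpa using hasDerivAt_pow 2 (0 : ℝ))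
  have c2 : HasDerivAt (fun t : ℝ => (t, (0 : ℝ))) ((1 : ℝ), (0 : ℝ)) 0 :=
    (hasDerivAt_id' 0).prodMk (hasDerivAt_const _ _)
  have d1 := (hF (0, 0)).hasFDerivAt.comp_hasDerivAt_of_eq 0 c1 (by simp)
  have d2 := (hF (0, 0)).hasFDerivAt.comp_hasDerivAt_of_eq 0 c2 rfl
  have d3 : HasDerivAt ((fun z : ℝ × ℝ => (1 + z.1 • Y + z.2 • Z).det) ∘
      fun t : ℝ => (t, (0 : ℝ))) Y.trace 0 := by
    have h1 := (((hasDerivAt_id' (0 : ℝ)).const_mul Y.trace).const_add 1).add
      (((1 + (Polynomial.X : Polynomial ℝ) • Y.map Polynomial.C).det.divX.divX.hasDerivAt 0).mul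
        (hasDerivAt_pow 2 (0 : ℝ)))
    refine (h1.congr_of_eventuallyEq (Eventually.of_forall fun t => ?_)).congr_deriv (by simp)
    simp only [Function.comp_apply, zero_smul, add_zero]
    exact Matrix.det_one_add_smul t Y
  rw [d2.unique d3] at d1
  exact d1

end TMM2

open TMM2 in
theorem mm2 : MM2 := by
  intro n J _ g q q' hG h
  set d := q' - q with hd
  set S := bil g q d with hS
  have hdet : 0 < (gram g q).det := hG.det_pos
  have hinv : (gram g q)⁻¹ * gram g q = 1 := Matrix.nonsing_inv_mul _ hdet.ne'.isUnit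
  have hinv' : gram g q * (gram g q)⁻¹ = 1 := Matrix.mul_nonsing_inv _ hdet.ne'.isUnit
  have hc : Continuous fun t : ℝ => gram g (q + t • d) := by
    simp only [gram_add]
    fun_prop
  have h1 := posDef_ev hc (fun t => gram_herm g _) (by simpa using hG)
  have h2 := (hasDeriv ((gram g q)⁻¹ * (S + Sᵀ)) ((gram g q)⁻¹ * gram g d)
    ).tendsto_slope_zero_right
  have h3 : ((gram g q)⁻¹ * (S + Sᵀ)).trace ≤ 0 := by
    refine le_of_tendsto h2 ?_
    filter_upwards [mem_nhdsWithin_of_mem_nhds h1, Ioo_mem_nhdsGT zero_lt_one] with t ht ht'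
    have h4 := h t ht'.1 ht'.2 ht
    have e : gram g (q + t • d) = gram g q *
        (1 + t • ((gram g q)⁻¹ * (S + Sᵀ)) + t ^ 2 • ((gram g q)⁻¹ * gram g d)) := by
      rw [gram_add, mul_add, mul_add, mul_one, Matrix.mul_smul, Matrix.mul_smul, ← mul_assoc,
        ← mul_assoc, hinv', one_mul, one_mul]
    rw [e, Matrix.det_mul, mul_le_iff_le_one_right hdet] at h4
    simp only [zero_add, zero_smul, add_zero, ne_eq, OfNat.ofNat_ne_zero, not_false_eq_true,
      zero_pow, Matrix.det_one, smul_eq_mul]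
    exact mul_nonpos_of_nonneg_of_nonpos (inv_nonneg.2 ht'.1.le) (sub_nonpos.2 h4)
  have hsym : ((gram g q)⁻¹)ᵀ = (gram g q)⁻¹ := hG.inv.isHermitian
  have h5 : ((gram g q)⁻¹ * Sᵀ).trace = ((gram g q)⁻¹ * S).trace := by
    rw [← Matrix.trace_transpose, Matrix.transpose_mul, Matrix.transpose_transpose, hsym,
      Matrix.trace_mul_comm]
  rw [mul_add, Matrix.trace_add, h5, hS, trace_bil] at h3
  have h6 := trace_bil (gram g q)⁻¹ g q q
  have h7 : bil g q q = gram g q := rfl
  rw [h7, hinv, Matrix.trace_one, Fintype.card_fin] at h6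
  have h8 : pair q' (fun j => g j • mv (gram g q)⁻¹ (q j)) =
      pair q (fun j => g j • mv (gram g q)⁻¹ (q j)) +
        pair d (fun j => g j • mv (gram g q)⁻¹ (q j)) := by
    simp only [pair, hd, Pi.sub_apply, inner_sub_left, Finset.sum_sub_distrib, add_sub_cancel]
  linarith

end Vale.Agent.P237
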