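import Vale.Agent.P237.Stmts

/-! Minkowski's first inequality from the first variation bound. -/

namespace Vale.Agent.P237

open MeasureTheory Metric Real Set Filter
open scoped RealInnerProductSpace Topology Pointwise

namespace TMinkH

variable {n : ℕ}

theorem half {K M : Set (E n)} (hK : IsCompact K) (hc : Convex ℝ K) (hM : IsCompact M) {t : ℝ}
    (h1 : t ≤ 1) : vol K * vol (mix t K M) ≤ vol (mix (t / 2) K M) ^ 2 := by
  refine bm_mid hK (mix_compact _ hK hM) (mix_compact _ hK hM) ?_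
  rintro x hx _ ⟨x', hx', y, hy, rfl⟩
  have h2 : 0 < 2 - t := by linarith
  refine ⟨_, hc hx hx' (a := 1 / (2 - t)) (b := (1 - t) / (2 - t)) (by positivity)
    (div_nonneg (by linarith) h2.le) (by field_simp; ring), y, hy, ?_⟩
  have e1 : (1 - t / 2) * (1 / (2 - t)) = 1 / 2 := by field_simp
  have e2 : (1 - t / 2) * ((1 - t) / (2 - t)) = 1 / 2 * (1 - t) := by field_simp
  rw [smul_add (1 - t / 2), smul_smul, smul_smul, e1, e2]
  module

theorem iter {g : ℝ → ℝ} {c C : ℝ} (h0 : ∀ t, 0 ≤ g t)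
    (h1 : ∀ t, 0 ≤ t → t ≤ 1 → g t ≤ g (t / 2) ^ 2)
    (h2 : ∀ t, 0 ≤ t → t ≤ 1 → g t ≤ 1 + t * c + C * t ^ 2) {t : ℝ} (ht : 0 ≤ t) (ht1 : t ≤ 1) :
    g t ≤ exp (t * c) := by
  have key : ∀ k : ℕ, ∀ t, 0 ≤ t → t ≤ 1 → g t ≤ exp (t * c + C * t ^ 2 * (1 / 2) ^ k) := by
    intro k
    induction k with
    | zero =>
      intro t ht ht1
      have := add_one_le_exp (t * c + C * t ^ 2 * (1 / 2) ^ 0)
      have := h2 t ht ht1
      simp only [pow_zero, mul_one] at *
      linarith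
    | succ k ih =>
      intro t ht ht1
      refine (h1 t ht ht1).trans ?_
      refine (pow_le_pow_left₀ (h0 _) (ih (t / 2) (by linarith) (by linarith)) 2).trans ?_
      rw [← exp_nat_mul]
      refine le_of_eq ?_
      congr 1
      push_cast
      ring
  have h3 : Tendsto (fun k : ℕ => exp (t * c + C * t ^ 2 * (1 / 2) ^ k)) atTop
      (𝓝 (exp (t * c + C * t ^ 2 * 0))) :=
    (continuous_exp.tendsto _).comp (tendsto_const_nhds.add
      ((tendsto_pow_atTop_nhds_zero_of_lt_one (by norm_num) (by norm_num)).const_mul _))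
  rw [mul_zero, add_zero] at h3
  exact ge_of_tendsto' h3 fun k => key k t ht ht1

theorem one (h1 : F2) (h3 : Br) {N h : E n → ℝ} {M : Set (E n)} (hn : 0 < n) (hN : Gau N)
    (hM : IsCompact M) (hh : Continuous h) (h0 : ∀ ν, 0 ≤ h ν)
    (hx : ∀ x ∈ M, ∀ ν, ⟪x, ν⟫ ≤ h ν) {t : ℝ} (ht : 0 ≤ t) (ht1 : t ≤ 1) :
    vol (mix t (Kb N) M) ≤ vol (Kb N) * exp (t * (n * (SA N h / VN N - 1))) := by
  obtain ⟨hK, hc, -, hv, hV⟩ := (h3 n hn).2 N hN
  obtain ⟨C, hC⟩ := h1 n N h M hn hN hM hh h0 hx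
  have hk := kappa_pos n
  have hp : 0 < vol (Kb N) := hv ▸ mul_pos hk hV
  rw [← div_le_iff₀' hp]
  refine iter (g := fun t => vol (mix t (Kb N) M) / vol (Kb N)) (C := C / VN N)
    (fun t => div_nonneg (vol_nonneg _) hp.le) (fun t _ ht1 => ?_) (fun t ht ht1 => ?_) ht ht1
  · rw [div_pow, div_le_div_iff₀ hp (by positivity)]
    have := mul_le_mul_of_nonneg_right (half hK hc hM ht1) hp.le
    nlinarith
  · rw [div_le_iff₀ hp, hv]
    refine (hC t ht ht1).trans (le_of_eq ?_)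
    field_simp

end TMinkH

theorem minkH (h1 : F2) (h3 : Br) : MinkH := by
  intro n N h M hn hN hM hh h0 hx
  refine ⟨fun t ht ht1 => TMinkH.one h1 h3 hn hN hM hh h0 hx ht ht1, ?_⟩
  obtain ⟨hK, -, hi, hv, hV⟩ := (h3 n hn).2 N hN
  have hk := kappa_pos n
  have hp : 0 < vol (Kb N) := hv ▸ mul_pos hk hV
  have hS : 0 ≤ SA N h := by
    obtain ⟨c, hc, hl⟩ := hN.low
    exact integral_nonneg fun a => mul_nonneg
      (pow_nonneg (inv_nonneg.2 (le_trans (by positivity) (hl a))) _) (h0 _)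
  rcases (vol_nonneg M).eq_or_lt with hm | hm
  · rw [← hm, zero_div, mul_zero]
    positivity
  set s := (vol (Kb N) / vol M) ^ ((n : ℝ)⁻¹) with hs0
  have hs : 0 < s := by positivity
  have hsn : s ^ n = vol (Kb N) / vol M := rpow_inv_natCast_pow (by positivity) hn.ne'
  have hM' : IsCompact (s • M) := hM.smul s
  have h2 := TMinkH.one h1 h3 (h := fun ν => s * h ν) hn hN hM' (continuous_const.mul hh)
    (fun ν => mul_nonneg hs.le (h0 ν)) (by
      rintro _ ⟨x, hx', rfl⟩ ν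
      simp only [real_inner_smul_left]
      exact mul_le_mul_of_nonneg_left (hx x hx' ν) hs.le) zero_le_one le_rfl
  have h4 : vol (s • M) ≤ vol (mix 1 (Kb N) (s • M)) :=
    vol_mono (fun y hy => ⟨0, interior_subset hi, y, hy, by simp⟩) (mix_compact _ hK hM')
  have h5 : SA N (fun ν => s * h ν) = s * SA N h := by
    rw [SA, SA, ← integral_const_mul]
    exact integral_congr_ae (ae_of_all _ fun a => mul_left_comm _ _ _)
  rw [vol_smul hs.le, hsn, div_mul_cancel₀ _ hm.ne'] at h4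
  rw [h5, one_mul] at h2
  have h6 := one_le_exp_iff.1 ((le_mul_iff_one_le_right hp).1 (h4.trans h2))
  have h7 : VN N ≤ s * SA N h := by
    have := nonneg_of_mul_nonneg_right h6 (show (0 : ℝ) < n by exact_mod_cast hn)
    rwa [sub_nonneg, one_le_div hV] at this
  have h8 := pow_le_pow_left₀ hV.le h7 n
  rw [mul_pow] at h8
  refine le_of_mul_le_mul_left (le_trans (le_of_eq ?_) h8) (pow_pos hs n)
  obtain ⟨k, rfl⟩ : ∃ k, n = k + 1 := ⟨n - 1, by omega⟩
  rw [hsn, hv, Nat.add_sub_cancel]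
  field_simp
  ring

end Vale.Agent.P237
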