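import Vale.Agent.P237.Stmts

/-! Moments of a coordinate on the sphere. -/

namespace Vale.Agent.P237

open MeasureTheory Metric Real Set
open scoped RealInnerProductSpace

namespace TMom

variable {n : ℕ}

theorem fd {φ : ℝ → ℝ} {d : ℝ} {a v : E n} (hv : ‖v‖ = 1) (h : HasDerivAt φ d ⟪a, v⟫) :
    fderiv ℝ (fun x : E n => φ ⟪x, v⟫) a v = d := by
  have h1 : HasFDerivAt (fun x : E n => ⟪x, v⟫) (innerSL ℝ v) a := by
    have e : (fun x : E n => ⟪x, v⟫) = innerSL ℝ v := by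
      funext x
      rw [innerSL_apply_apply, real_inner_comm]
    rw [e]
    exact (innerSL ℝ v).hasFDerivAt
  have h2 : HasFDerivAt (fun x : E n => φ ⟪x, v⟫) (d • innerSL ℝ v) a :=
    HasDerivAt.comp_hasFDerivAt (f := fun x : E n => ⟪x, v⟫) a h h1
  rw [h2.fderiv]
  simp [hv]

theorem dabs (m : ℕ) {t : ℝ} (ht : t ≠ 0) :
    HasDerivAt (fun s : ℝ => s * |s| ^ m) (((m : ℝ) + 1) * |t| ^ m) t := by
  have h := (hasDerivAt_id t).fun_mul ((hasDerivAt_abs ht).fun_pow m)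
  refine h.congr_deriv ?_
  have e : t * (SignType.sign t : ℝ) = |t| := self_mul_sign t
  cases m with
  | zero => simp
  | succ m =>
    simp only [id, Nat.add_sub_cancel]
    push_cast
    rw [pow_succ |t| m]
    linear_combination ((m : ℝ) + 1) * |t| ^ m * e

theorem mom_eq (h1 : IBP) (hn : 2 ≤ n) {v : E n} (hv : ‖v‖ = 1) (m : ℕ) :
    ∫ a, ⟪a, v⟫ ^ m ∂σ n = mom n m := by
  have hn0 : 0 < n := by omega
  have hn2 : (2 : ℝ) ≤ n := by exact_mod_cast hn
  have := σ_prob hn0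
  induction m using Nat.twoStepInduction with
  | zero => simp [mom]
  | one =>
    have h := h1 n 0 (fun _ => 1) v hn0 (LL.const 1) (fun x _ t _ => by simp)
    simp only [fderiv_fun_const, Pi.zero_apply, ContinuousLinearMap.zero_apply, integral_zero,
      mul_one] at h
    rcases mul_eq_zero.1 h.symm with h | h
    · linarith
    · simpa [mom] using h
  | more m ih _ =>
    have h := h1 n ((m + 1 : ℕ) : ℝ) (fun x => ⟪x, v⟫ ^ (m + 1)) v hn0 ((LL.inner v).pow _)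
      (fun x _ t _ => by
        simp only [real_inner_smul_left, mul_pow, Real.rpow_natCast])
    have e1 : ∀ a : E n, fderiv ℝ (fun x : E n => ⟪x, v⟫ ^ (m + 1)) a v =
        ((m : ℝ) + 1) * ⟪a, v⟫ ^ m := fun a =>
      fd (φ := fun s => s ^ (m + 1)) hv (by simpa using hasDerivAt_pow (m + 1) ⟪a, v⟫)
    have e2 : ∀ a : E n, ⟪a, v⟫ * ⟪a, v⟫ ^ (m + 1) = ⟪a, v⟫ ^ (m + 2) := fun a => by ring
    simp only [e1, e2, integral_const_mul, ih] at h
    rw [mom, h, eq_div_iff (by positivity)]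
    push_cast
    ring

theorem amom_eq (h1 : IBP) (h2 : Kap) (hn : 2 ≤ n) {v : E n} (hv : ‖v‖ = 1) (m : ℕ) :
    ∫ a, |⟪a, v⟫| ^ m ∂σ n = amom n m := by
  have hn0 : 0 < n := by omega
  have hn2 : (2 : ℝ) ≤ n := by exact_mod_cast hn
  have := σ_prob hn0
  have hv0 : v ≠ 0 := by
    intro h
    simp [h] at hv
  induction m using Nat.twoStepInduction with
  | zero => simp [amom]
  | one => simpa [amom] using h2 n v hn hv
  | more m ih _ =>
    have h := h1 n ((m + 1 : ℕ) : ℝ) (fun x => ⟪x, v⟫ * |⟪x, v⟫| ^ m) v hn0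
      ((LL.inner v).mul ((LL.inner v).abs.pow _))
      (fun x _ t ht => by
        simp only [real_inner_smul_left, mul_pow, Real.rpow_natCast, abs_mul, abs_of_pos ht]
        ring)
    have e1 : ∫ a, fderiv ℝ (fun x : E n => ⟪x, v⟫ * |⟪x, v⟫| ^ m) a v ∂σ n =
        ∫ a, ((m : ℝ) + 1) * |⟪a, v⟫| ^ m ∂σ n := by
      refine integral_congr_ae ?_
      filter_upwards [σ_ae_inner hn0 hv0] with a ha
      exact fd (φ := fun s => s * |s| ^ m) hv (dabs m ha)
    have e2 : ∀ a : E n, ⟪a, v⟫ * (⟪a, v⟫ * |⟪a, v⟫| ^ m) = |⟪a, v⟫| ^ (m + 2) := fun a => by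
      rw [pow_add, sq_abs]
      ring
    rw [e1] at h
    simp only [e2, integral_const_mul, ih] at h
    rw [amom, h, eq_div_iff (by positivity)]
    push_cast
    ring

theorem amom_pos (hn : 2 ≤ n) (m : ℕ) : 0 < amom n m := by
  have hn2 : (2 : ℝ) ≤ n := by exact_mod_cast hn
  induction m using Nat.twoStepInduction with
  | zero => simp [amom]
  | one =>
    have h1 := kappa_pos (n - 1)
    have h2 := kappa_pos n
    rw [amom, c1]
    positivity
  | more m ih _ =>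
    rw [amom]
    positivity

theorem last {x c : ℝ} (hx : 2 ≤ x)
    (h : (4 * (2 * c / (x + 1)) / (x + 3)) ^ 2 ≤
      (3 * (1 / x) / (x + 2)) * (5 * (3 * (1 / x) / (x + 2)) / (x + 4))) :
    (x * c) ^ 2 ≤ 45 * (x + 1) ^ 2 * (x + 3) ^ 2 / (64 * (x + 2) ^ 2 * (x + 4)) := by
  have h0 : 0 < x := by linarith
  have h1 := mul_le_mul_of_nonneg_left h
    (show 0 ≤ x ^ 2 * (x + 1) ^ 2 * (x + 3) ^ 2 / 64 by positivity)
  have e1 : x ^ 2 * (x + 1) ^ 2 * (x + 3) ^ 2 / 64 * (4 * (2 * c / (x + 1)) / (x + 3)) ^ 2 =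
      (x * c) ^ 2 := by
    field_simp
    norm_num
  have e2 : x ^ 2 * (x + 1) ^ 2 * (x + 3) ^ 2 / 64 *
      ((3 * (1 / x) / (x + 2)) * (5 * (3 * (1 / x) / (x + 2)) / (x + 4))) =
      45 * (x + 1) ^ 2 * (x + 3) ^ 2 / (64 * (x + 2) ^ 2 * (x + 4)) := by
    field_simp
    norm_num
  rwa [e1, e2] at h1

end TMom

theorem mom_ (h1 : IBP) (h2 : Kap) : Mom := by
  intro n hn
  have hn0 : 0 < n := by omega
  have hn2 : (2 : ℝ) ≤ n := by exact_mod_cast hn
  obtain ⟨v, hv⟩ : ∃ v : E n, ‖v‖ = 1 := ⟨EuclideanSpace.single ⟨0, hn0⟩ 1, by simp⟩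
  have hI : ∀ m : ℕ, Integrable (fun a : E n => |⟪a, v⟫| ^ m) (σ n) := fun m =>
    ((LL.inner v).abs.pow m).bm.int
  refine ⟨fun m v hv => TMom.mom_eq h1 hn hv m, fun m v hv => TMom.amom_eq h1 h2 hn hv m,
    fun m => ⟨TMom.amom_pos hn m, ?_, fun hm => ?_⟩, ?_⟩
  · rw [← TMom.amom_eq h1 h2 hn hv, ← TMom.amom_eq h1 h2 hn hv]
    refine integral_mono_ae (hI _) (hI _) ?_
    filter_upwards [σ_ae] with a ha
    have h3 : |⟪a, v⟫| ≤ 1 := by simpa [ha, hv] using abs_real_inner_le_norm a v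
    exact pow_le_pow_of_le_one (abs_nonneg _) h3 (Nat.le_succ m)
  · rw [← TMom.amom_eq h1 h2 hn hv, ← TMom.mom_eq h1 hn hv]
    simp only [hm.pow_abs]
  · have h3 : ∀ l : ℝ, 0 ≤ amom n 4 * (l * l) + (-2 * amom n 5) * l + amom n 6 := by
      intro l
      have e : ∫ a, (l * |⟪a, v⟫| ^ 2 - |⟪a, v⟫| ^ 3) ^ 2 ∂σ n =
          ∫ a, (l * l * |⟪a, v⟫| ^ 4 + -2 * l * |⟪a, v⟫| ^ 5 + |⟪a, v⟫| ^ 6) ∂σ n :=
        integral_congr_ae (ae_of_all _ fun a => by ring)
      have h4 : 0 ≤ ∫ a, (l * |⟪a, v⟫| ^ 2 - |⟪a, v⟫| ^ 3) ^ 2 ∂σ n :=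
        integral_nonneg fun a => sq_nonneg _
      rw [e, integral_add (((hI 4).const_mul _).fun_add ((hI 5).const_mul _)) (hI 6),
        integral_add ((hI 4).const_mul _) ((hI 5).const_mul _), integral_const_mul,
        integral_const_mul, TMom.amom_eq h1 h2 hn hv, TMom.amom_eq h1 h2 hn hv,
        TMom.amom_eq h1 h2 hn hv] at h4
      linarith
    have h4 := discrim_le_zero h3
    have e2 : amom n 2 = 1 / n := by simp [amom]
    have e3 : amom n 3 = 2 * c1 n / (n + 1) := by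
      rw [amom, amom]
      norm_num
    have e4 : amom n 4 = 3 * (1 / n) / (n + 2) := by
      rw [amom, e2]
      norm_num
    have e5 : amom n 5 = 4 * (2 * c1 n / (n + 1)) / (n + 3) := by
      rw [amom, e3]
      norm_num
    have e6 : amom n 6 = 5 * (3 * (1 / n) / (n + 2)) / (n + 4) := by
      rw [amom, e4]
      norm_num
    refine TMom.last hn2 ?_
    rw [← e6, ← e5, ← e4]
    unfold discrim at h4
    nlinarith

end Vale.Agent.P237
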