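import Vale.Agent.P237.Stmts

/-! Orthonormal families of spherical harmonics. -/

namespace Vale.Agent.P237

open MeasureTheory Metric Real Set MvPolynomial Filter
open scoped ENNReal

namespace TONB

variable {n j : ℕ}

/-- the space of harmonics of degree `j` -/
def V (n j : ℕ) : Submodule ℝ (MP n) where
  carrier := {p | HH j p}
  add_mem' := HH.add
  zero_mem' := HH.zero j
  smul_mem' c _ h := HH.smul h c

theorem fin_dim : FiniteDimensional ℝ (V n j) := by
  have : FiniteDimensional ℝ (homogeneousSubmodule (Fin n) ℝ j) :=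
    Module.Finite.iff_fg.2 (homogeneousSubmodule_fg (Fin n) ℝ j)
  exact Submodule.finiteDimensional_of_le (S₂ := homogeneousSubmodule (Fin n) ℝ j)
    fun p hp => hp.1

/-- the form -/
noncomputable def B (n j : ℕ) : LinearMap.BilinForm ℝ (V n j) :=
  LinearMap.mk₂ ℝ (fun p q => ∫ a, ev p.1 a * ev q.1 a ∂σ n)
    (fun p p' q => by
      simp only [Submodule.coe_add, ev_add, add_mul]
      exact integral_add ((ev_bm _).mul (ev_bm _)).int ((ev_bm _).mul (ev_bm _)).int)
    (fun c p q => by
      simp only [Submodule.coe_smul, ev_smul, mul_assoc, integral_const_mul, smul_eq_mul])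
    (fun p q q' => by
      simp only [Submodule.coe_add, ev_add, mul_add]
      exact integral_add ((ev_bm _).mul (ev_bm _)).int ((ev_bm _).mul (ev_bm _)).int)
    (fun c p q => by
      simp only [Submodule.coe_smul, ev_smul, mul_left_comm _ c, integral_const_mul, smul_eq_mul])

theorem eq_zero (hn : 0 < n) {p : MP n} (hp : p.IsHomogeneous j)
    (h : ∫ a, ev p a * ev p a ∂σ n = 0) : p = 0 := by
  have h1 := (integral_eq_zero_iff_of_nonneg (fun a => mul_self_nonneg (ev p a))
    ((ev_bm p).mul (ev_bm p)).int).1 h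
  have hm : Measurable fun x => ‖ev p x‖ₑ := (ev_cont p).measurable.enorm
  have h2 : ∫⁻ x, ‖ev p x‖ₑ = 0 := by
    rw [polar hn hm, lintegral_congr_ae (g := fun _ => 0), lintegral_zero, mul_zero]
    filter_upwards [h1] with a ha
    have h0 : ev p a = 0 := mul_self_eq_zero.1 ha
    simp only [ev_hom hp, h0, mul_zero, enorm_zero, lintegral_zero]
  have h3 : ev p =ᵐ[volume] fun _ => 0 := by
    filter_upwards [(lintegral_eq_zero_iff hm).1 h2] with x hx
    exact enorm_eq_zero.1 hx
  have h4 := (Continuous.ae_eq_iff_eq volume (ev_cont p) continuous_const).1 h3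
  refine MvPolynomial.funext fun x => ?_
  rw [map_zero]
  exact congrFun h4 (WithLp.toLp 2 x)

end TONB

open TONB

theorem onb : ONB := by
  intro n j hn
  have := fin_dim (n := n) (j := j)
  obtain ⟨v, hv⟩ := LinearMap.BilinForm.exists_orthogonal_basis (B := B n j)
    ⟨fun p q => integral_congr_ae (Eventually.of_forall fun a => mul_comm _ _)⟩
  have hn' : (0 : ℝ) < n := by exact_mod_cast hn
  have hpos : ∀ i, 0 < B n j (v i) (v i) := fun i =>
    lt_of_le_of_ne (integral_nonneg fun a => mul_self_nonneg _) fun h =>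
      v.ne_zero i (Subtype.ext (eq_zero hn (v i).2.1 h.symm))
  set c := fun i => √(n * B n j (v i) (v i)) with hc
  have hc0 : ∀ i, 0 < c i := fun i => sqrt_pos.2 (mul_pos hn' (hpos i))
  refine ⟨_, fun i => ((c i)⁻¹ • v i : V n j), fun i => ((c i)⁻¹ • v i : V n j).2,
    fun i k => ?_, fun p hp => ⟨fun i => v.repr ⟨p, hp⟩ i * c i, ?_⟩⟩
  · change B n j ((c i)⁻¹ • v i) ((c k)⁻¹ • v k) = _
    simp only [map_smul, LinearMap.smul_apply, smul_eq_mul]
    split_ifs with h
    · subst h
      have h1 : c i * c i = n * B n j (v i) (v i) := mul_self_sqrt (mul_pos hn' (hpos i)).le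
      have h2 := (hc0 i).ne'
      field_simp
      linarith
    · rw [LinearMap.isOrthoᵢ_def.1 hv i k h, mul_zero, mul_zero]
  · have h1 := congrArg Subtype.val (v.sum_repr ⟨p, hp⟩)
    rw [Submodule.coe_sum] at h1
    refine h1.symm.trans (Finset.sum_congr rfl fun i _ => ?_)
    beta_reduce
    rw [Submodule.coe_smul, Submodule.coe_smul, smul_smul, mul_inv_cancel_right₀ (hc0 i).ne']

end Vale.Agent.P237
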