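import Vale.Agent.P237.Stmts

/-! Projections of balls, cylinders, and elementary properties of the projection body. -/

namespace Vale.Agent.P237

open MeasureTheory Metric Real Set
open scoped RealInnerProductSpace NNReal ENNReal Topology Pointwise

namespace TPB

section
variable {F : Type} [NormedAddCommGroup F] [InnerProductSpace ℝ F] [FiniteDimensional ℝ F]

theorem proj_ball (V : Submodule ℝ F) (r : ℝ) :
    V.orthogonalProjectionOnto '' closedBall 0 r = closedBall 0 r := by
  ext y
  constructor
  · rintro ⟨x, hx, rfl⟩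
    rw [mem_closedBall_zero_iff] at hx ⊢
    exact (V.norm_orthogonalProjectionOnto_apply_le x).trans hx
  · intro hy
    rw [mem_closedBall_zero_iff] at hy
    exact ⟨y, mem_closedBall_zero_iff.2 hy, V.orthogonalProjectionOnto_mem_subspace_eq_self y⟩

variable [MeasurableSpace F] [BorelSpace F]

theorem vol_ball {r : ℝ} (hr : 0 ≤ r) : (volume (closedBall (0 : F) r)).toReal =
    r ^ Module.finrank ℝ F * kappa (Module.finrank ℝ F) := by
  have h := (stdOrthonormalBasis ℝ F).measurePreserving_repr.measure_preimage
    (s := closedBall 0 r) measurableSet_closedBall.nullMeasurableSet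
  rw [LinearIsometryEquiv.preimage_closedBall, map_zero] at h
  rw [h, ← vol_closedBall 0 hr, vol]

end

variable {n : ℕ}

theorem rank {u : E n} (hu : ‖u‖ = 1) : Module.finrank ℝ (ℝ ∙ u)ᗮ = n - 1 := by
  have h := (ℝ ∙ u).finrank_add_finrank_orthogonal
  rw [finrank_span_singleton (norm_ne_zero_iff.1 (hu ▸ one_ne_zero)),
    finrank_euclideanSpace_fin] at h
  omega

theorem projVol_ball {u : E n} (hu : ‖u‖ = 1) {r : ℝ} (hr : 0 ≤ r) :
    projVol (closedBall 0 r) u = r ^ (n - 1) * kappa (n - 1) := by
  rw [projVol, shadow, proj_ball, vol_ball hr, rank hu]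

theorem cyl_closed (u : E n) (a b r : ℝ) : IsClosed (cyl u a b r) := by
  have h1 : Continuous fun x : E n => ⟪x, u⟫ := by fun_prop
  have h2 : Continuous fun x : E n => ‖x - ⟪x, u⟫ • u‖ := by fun_prop
  exact (isClosed_le continuous_const h1).inter
    ((isClosed_le h1 continuous_const).inter (isClosed_le h2 continuous_const))

theorem mem_cyl {u : E n} (hu : ‖u‖ = 1) (a b r : ℝ) (y : (ℝ ∙ u)ᗮ) (t : ℝ) :
    y.1 + t • u ∈ cyl u a b r ↔ y ∈ closedBall 0 r ∧ t ∈ Icc a b := by
  have h : ⟪y.1 + t • u, u⟫ = t := by
    rw [inner_add_left, real_inner_smul_left, real_inner_self_eq_norm_sq, hu,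
      Submodule.mem_orthogonal_singleton_iff_inner_left.1 y.2]
    ring
  simp only [cyl, mem_ofPred_eq, h, add_sub_cancel_right, mem_closedBall_zero_iff, mem_Icc,
    Submodule.coe_norm]
  tauto

end TPB

open TPB in
theorem pb (h : Fub) : PB := by
  intro n u hu
  refine ⟨by rw [projVol_ball hu zero_le_one, one_pow, one_mul], fun a b r hab hr => ⟨?_, ?_, ?_⟩⟩
  · refine (isCompact_closedBall 0 (r + (|a| + |b|))).of_isClosed_subset (cyl_closed u a b r) ?_
    rintro x ⟨h1, h2, h3⟩
    rw [mem_closedBall_zero_iff, ← sub_add_cancel x (⟪x, u⟫ • u)]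
    refine (norm_add_le _ _).trans (add_le_add h3 ?_)
    rw [norm_smul, hu, mul_one, Real.norm_eq_abs, abs_le]
    constructor <;> linarith [neg_abs_le a, le_abs_self b, abs_nonneg a, abs_nonneg b]
  · rintro x ⟨h1, h2, h3⟩ y ⟨k1, k2, k3⟩ s t hs ht hst
    have e : ⟪s • x + t • y, u⟫ = s * ⟪x, u⟫ + t * ⟪y, u⟫ := by
      rw [inner_add_left, real_inner_smul_left, real_inner_smul_left]
    have c : ∀ z : ℝ, s * z + t * z = z := fun z => by rw [← add_mul, hst, one_mul]
    refine ⟨?_, ?_, ?_⟩
    · rw [e, ← c a]; gcongr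
    · rw [e, ← c b]; gcongr
    · have e2 : s • x + t • y - ⟪s • x + t • y, u⟫ • u =
          s • (x - ⟪x, u⟫ • u) + t • (y - ⟪y, u⟫ • u) := by
        rw [e]; module
      rw [e2, ← c r]
      refine (norm_add_le _ _).trans ?_
      rw [norm_smul, norm_smul, Real.norm_of_nonneg hs, Real.norm_of_nonneg ht]
      gcongr
  · have hm := (cyl_closed u a b r).measurableSet
    have e : ∀ y : (ℝ ∙ u)ᗮ, ∫⁻ t : ℝ, (cyl u a b r).indicator 1 (y.1 + t • u) =
        (closedBall 0 r).indicator (fun _ => ENNReal.ofReal (b - a)) y := by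
      intro y
      by_cases hy : y ∈ closedBall 0 r
      · rw [indicator_of_mem hy, ← Real.volume_Icc, ← lintegral_indicator_one measurableSet_Icc]
        refine lintegral_congr fun t => ?_
        by_cases ht : t ∈ Icc a b
        · rw [indicator_of_mem ht, indicator_of_mem ((mem_cyl hu a b r y t).2 ⟨hy, ht⟩)]
          rfl
        · rw [indicator_of_notMem ht,
            indicator_of_notMem fun hc => ht ((mem_cyl hu a b r y t).1 hc).2]
      · rw [indicator_of_notMem hy, ← lintegral_zero]
        exact lintegral_congr fun t =>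
          indicator_of_notMem (fun hc => hy ((mem_cyl hu a b r y t).1 hc).1) _
    rw [vol, ← lintegral_indicator_one hm, h n u _ hu (measurable_one.indicator hm),
      lintegral_congr e, lintegral_indicator_const measurableSet_closedBall, ENNReal.toReal_mul,
      ENNReal.toReal_ofReal (sub_nonneg.2 hab), vol_ball hr, rank hu]

open TPB in
theorem pbf (_h : PB) : PBf := by
  intro n K hK
  refine ⟨?_, ?_, fun x hx u hu => ?_, fun x => ?_⟩
  · obtain ⟨R, hR, hKR⟩ := hK.isBounded.subset_closedBall_lt 0 0
    have hB : ∀ u : E n, ‖u‖ = 1 → projVol K u ≤ R ^ (n - 1) * kappa (n - 1) := fun u hu => by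
      rw [← projVol_ball hu hR.le]
      refine ENNReal.toReal_mono ?_ (measure_mono (image_mono hKR))
      rw [proj_ball]
      exact measure_closedBall_lt_top.ne
    refine (isCompact_closedBall 0 (R ^ (n - 1) * kappa (n - 1))).of_isClosed_subset ?_
      fun x hx => ?_
    · simp only [projBody, ofPred_forall]
      exact isClosed_iInter fun u => isClosed_iInter fun _ =>
        isClosed_le (by fun_prop) continuous_const
    · rw [mem_closedBall_zero_iff]
      rcases eq_or_ne x 0 with rfl | h0
      · rw [norm_zero]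
        exact (mul_pos (pow_pos hR _) (kappa_pos _)).le
      · have h1 := norm_ne_zero_iff.2 h0
        have hu : ‖‖x‖⁻¹ • x‖ = 1 := by rw [norm_smul, norm_inv, norm_norm, inv_mul_cancel₀ h1]
        have h2 := (hx _ hu).trans (hB _ hu)
        rwa [real_inner_smul_right, real_inner_self_eq_norm_sq, sq, inv_mul_cancel_left₀ h1] at h2
  · intro x hx y hy s t hs ht hst u hu
    have h1 := hx u hu
    have h2 := hy u hu
    rw [inner_add_left, real_inner_smul_left, real_inner_smul_left,
      ← one_mul (projVol K u), ← hst, add_mul]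
    gcongr
  · have h1 := hx (-u) (by rw [norm_neg, hu])
    have e : (ℝ ∙ (-u)) = ℝ ∙ u := by rw [← Set.neg_singleton, Submodule.span_neg]
    rw [projVol, e, inner_neg_right] at h1
    rwa [inner_neg_left]
  · have e : ∀ u, projVol ((fun y => x + y) '' K) u = projVol K u := fun u => by
      have : (ℝ ∙ u)ᗮ.orthogonalProjectionOnto '' ((fun y => x + y) '' K) =
          (fun y => (ℝ ∙ u)ᗮ.orthogonalProjectionOnto x + y) ''
            ((ℝ ∙ u)ᗮ.orthogonalProjectionOnto '' K) := by
        simp only [image_image, map_add]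
      rw [projVol, shadow, this, image_add_left, measure_preimage_add, projVol, shadow]
    simp only [projBody, e]

end Vale.Agent.P237
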