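import Vale.Agent.P237.Stmts

/-! Integrals of polynomials over the sphere. -/

namespace Vale.Agent.P237

open MeasureTheory Metric Real Set MvPolynomial
open scoped RealInnerProductSpace

namespace TPI

variable {n : ℕ}

theorem one (h : IBP) (hn : 0 < n) (k : ℕ) (p : MP n) (i : Fin n) (hp : p.IsHomogeneous k) :
    ∫ a, ev (pderiv i p) a ∂σ n = (n + k - 1) * ∫ a, a i * ev p a ∂σ n := by
  have := h n k (ev p) (EuclideanSpace.single i 1) hn (ev_ll p) (ev_Hom hp)
  simpa only [ev_fderiv_single, EuclideanSpace.inner_single_right, conj_trivial, one_mul]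
    using this

theorem green (h : IBP) (hn : 0 < n) {j k : ℕ} {p q : MP n} (hp : p.IsHomogeneous j)
    (hq : HH k q) : ∫ a, ∑ i, ev (pderiv i p) a * ev (pderiv i q) a ∂σ n =
      (n + j + k - 2) * k * ∫ a, ev p a * ev q a ∂σ n := by
  cases k with
  | zero =>
    have h0 : q = C (q.coeff 0) :=
      totalDegree_eq_zero_iff_eq_C.1 (Nat.le_zero.1 hq.1.totalDegree_le)
    have h1 : ∀ i, pderiv i q = 0 := fun i => by rw [h0, pderiv_C]
    simp [h1]
  | succ k =>
    have h1 := fun i => one h hn (j + k) (p * pderiv i q) i (hp.mul (hq.pderiv i).1)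
    have h2 := Finset.sum_congr rfl fun i (_ : i ∈ Finset.univ) => h1 i
    rw [← Finset.mul_sum, ← integral_finsetSum _ fun i _ => (ev_bm _).int,
      ← integral_finsetSum _ fun i _ => ((BM.coord i).mul (ev_bm _)).int] at h2
    have e1 : ∀ a, ∑ i, ev (pderiv i (p * pderiv i q)) a =
        ∑ i, ev (pderiv i p) a * ev (pderiv i q) a := by
      intro a
      have h3 := congrArg (fun r => ev r a) hq.2
      simp only [lap, ev_sum, ev_zero] at h3
      simp only [Derivation.leibniz, smul_eq_mul, ev_add, ev_mul, Finset.sum_add_distrib,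
        ← Finset.mul_sum, h3, mul_zero, zero_add]
      exact Finset.sum_congr rfl fun i _ => mul_comm _ _
    have e2 : ∀ a : E n, ∑ i, a i * ev (p * pderiv i q) a =
        ((k + 1 : ℕ) : ℝ) * (ev p a * ev q a) := by
      intro a
      rw [mul_left_comm, ← ev_euler hq.1 a, Finset.mul_sum]
      exact Finset.sum_congr rfl fun i _ => by rw [ev_mul]; ring
    simp only [e1, e2, integral_const_mul] at h2
    rw [h2]
    push_cast
    ring

end TPI

open TPI

theorem pi_ (h : IBP) : PI := by
  intro n hn
  have hn0 : 0 < n := by omega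
  refine ⟨one h hn0, fun j k p q hp hq hjk => ?_, fun j p q hp hq => ?_, fun u v => ?_⟩
  · have h1 := green h hn0 hp.1 hq
    have h2 := green h hn0 hq.1 hp
    simp only [mul_comm (ev (pderiv _ q) _), mul_comm (ev q _)] at h2
    have h3 : (0 : ℝ) < n + j + k - 2 := by
      have : 2 < n + j + k := by omega
      have : (2 : ℝ) < n + j + k := by exact_mod_cast this
      linarith
    have h4 : (j : ℝ) - k ≠ 0 := sub_ne_zero.2 (by exact_mod_cast hjk)
    have h5 : (n + j + k - 2) * ((j : ℝ) - k) * ∫ a, ev p a * ev q a ∂σ n = 0 := by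
      linear_combination h1 - h2
    exact (mul_eq_zero.1 h5).resolve_left (mul_ne_zero h3.ne' h4)
  · rw [green h hn0 hp.1 hq]
    ring
  · have := σ_prob hn0
    have h1 := h n 1 (fun a => ⟪a, v⟫) u hn0 (LL.inner v) fun x _ t _ => by
      simp only [real_inner_smul_left, rpow_one]
    have e : ∀ a : E n, fderiv ℝ (fun a : E n => ⟪a, v⟫) a u = ⟪u, v⟫ := fun a => by
      simp only [real_inner_comm v]
      exact congrArg (fun L => L u) (innerSL ℝ v).fderiv
    simp only [e, integral_const, probReal_univ, one_smul, add_sub_cancel_right] at h1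
    have h2 : (n : ℝ) ≠ 0 := by positivity
    rw [h1]
    field_simp

end Vale.Agent.P237
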