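import Vale.Agent.P237.Stmts

/-! The first variation of the volume under linear maps. -/

namespace Vale.Agent.P237

open MeasureTheory Metric Real Set Filter
open scoped RealInnerProductSpace NNReal ENNReal Topology

namespace TQ0

variable {n : ℕ} {N : E n → ℝ}

theorem entry (h : IBP) (hn : 0 < n) (hN : Gau N) (i k : Fin n) :
    n * ∫ a, (N a)⁻¹ ^ (n + 1) * (gradient N a i * a k) ∂σ n = if i = k then VN N else 0 := by
  have hk : LL fun x : E n => x k := LL.of_cd fun _ _ => by fun_prop
  have hG : LL fun x : E n => (N x)⁻¹ ^ n * x k :=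
    ((hN.ll.inv fun x hx => (hN.pos hx).ne').pow n).mul hk
  have h1 := h n (1 - n) _ (EuclideanSpace.single i 1) hn hG (fun x hx t ht => by
    simp only [hN.smul t ht.le, PiLp.smul_apply, smul_eq_mul, rpow_sub ht, rpow_one, rpow_natCast,
      mul_inv, mul_pow, inv_pow]
    field_simp)
  rw [show (n : ℝ) + (1 - n) - 1 = 0 by ring, zero_mul] at h1
  have h2 : ∀ᵐ a ∂σ n, fderiv ℝ (fun x : E n => (N x)⁻¹ ^ n * x k) a (EuclideanSpace.single i 1) =
      (if i = k then 1 else 0) * (N a)⁻¹ ^ n -
        n * ((N a)⁻¹ ^ (n + 1) * (gradient N a i * a k)) := by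
    filter_upwards [hN.σ_diff hn, σ_ae] with a hd ha
    have h0 := (hN.pos1 ha).ne'
    have h3 : fderiv ℝ (fun x : E n => (N x)⁻¹ ^ n * x k) a = _ :=
      ((((hasDerivAt_inv h0).pow n).comp_hasFDerivAt a hd.hasFDerivAt).mul
        (EuclideanSpace.proj (𝕜 := ℝ) k).hasFDerivAt).fderiv
    rw [h3]
    have h4 : fderiv ℝ N a (EuclideanSpace.single i 1) = gradient N a i := by
      rw [fderiv_eq_inner, EuclideanSpace.inner_single_right]; simp
    obtain ⟨m, rfl⟩ : ∃ m, n = m + 1 := ⟨n - 1, by omega⟩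
    simp only [add_apply, smul_apply, smul_eq_mul, h4, Function.comp, Pi.pow_apply,
      PiLp.proj_apply, PiLp.single_apply, Nat.add_sub_cancel, eq_comm (a := k), ← inv_pow]
    ring
  have hb : BM fun a => (N a)⁻¹ ^ (n + 1) * (gradient N a i * a k) :=
    (hN.bm_inv.pow _).mul ((hN.bm_grad.comp (g := fun v => v i) (by fun_prop)).mul (BM.coord k))
  rw [integral_congr_ae h2, integral_sub ((hN.bm_inv.pow n).int.const_mul _) (hb.int.const_mul _),
    integral_const_mul, integral_const_mul] at h1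
  rw [← sub_eq_zero.1 h1, VN]
  split_ifs <;> simp

end TQ0

open TQ0 in
theorem q0 (h : IBP) : Q0 := by
  intro n N D hn hN
  have hn' : (n : ℝ) ≠ 0 := by exact_mod_cast hn.ne'
  have hb : ∀ i k, BM fun a => (N a)⁻¹ ^ (n + 1) * (gradient N a i * a k) := fun i k =>
    (hN.bm_inv.pow _).mul ((hN.bm_grad.comp (g := fun v => v i) (by fun_prop)).mul (BM.coord k))
  have e : ∀ a, (N a)⁻¹ ^ (n + 1) * ⟪gradient N a, mv D a⟫ =
      ∑ i, ∑ k, D i k * ((N a)⁻¹ ^ (n + 1) * (gradient N a i * a k)) := fun a => by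
    simp only [inner_eq_sum, mv_apply, Finset.mul_sum]
    exact Finset.sum_congr rfl fun i _ => Finset.sum_congr rfl fun k _ => by ring
  simp only [e]
  rw [integral_finsetSum _ fun i _ =>
    integrable_finsetSum _ fun k _ => (hb i k).int.const_mul (D i k),
    Matrix.trace, Finset.sum_div, Finset.sum_mul]
  refine Finset.sum_congr rfl fun i _ => ?_
  rw [integral_finsetSum _ fun k _ => (hb i k).int.const_mul (D i k)]
  have e2 : ∀ k, ∫ a, D i k * ((N a)⁻¹ ^ (n + 1) * (gradient N a i * a k)) ∂σ n =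
      if i = k then D i k / n * VN N else 0 := fun k => by
    rw [integral_const_mul, (eq_div_iff hn').2 ((mul_comm _ _).trans (entry h hn hN i k))]
    split_ifs
    · ring
    · simp
  simp only [e2]
  simp

end Vale.Agent.P237
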