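import Vale.Agent.P237.Stmts

/-! Volumes through radial functions. -/

namespace Vale.Agent.P237

open MeasureTheory Metric Real Set Filter
open scoped RealInnerProductSpace NNReal ENNReal Topology

namespace TStar

variable {n : ℕ}

theorem one (hn : 0 < n) {R : ℝ} (hR : 0 ≤ R) :
    ∫⁻ r in Ioc (0 : ℝ) R, ENNReal.ofReal (r ^ (n - 1)) = ENNReal.ofReal (R ^ n / n) := by
  rw [← ofReal_integral_eq_lintegral_ofReal
    ((continuous_pow _).integrableOn_Icc.mono_set Ioc_subset_Icc_self)]
  · rw [← intervalIntegral.integral_of_le hR, integral_pow, Nat.sub_add_cancel hn,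
      zero_pow hn.ne', sub_zero, Nat.cast_pred hn, sub_add_cancel]
  · filter_upwards [ae_restrict_mem measurableSet_Ioc] with r hr using pow_nonneg hr.1.le _

theorem two (hn : 0 < n) {R : E n → ℝ} (hR : BM R) (h0 : ∀ a, ‖a‖ = 1 → 0 ≤ R a) :
    ENNReal.ofReal (n * kappa n) * ∫⁻ a, ENNReal.ofReal (R a ^ n / n) ∂σ n =
      ENNReal.ofReal (kappa n * ∫ a, R a ^ n ∂σ n) := by
  rw [← ofReal_integral_eq_lintegral_ofReal ((hR.pow n).div_const n).int
    (σ_ae.mono fun a ha => div_nonneg (pow_nonneg (h0 a ha) _) (Nat.cast_nonneg _)),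
    ← ENNReal.ofReal_mul (nk_pos hn).le, integral_div]
  congr 1
  have : (n : ℝ) ≠ 0 := by exact_mod_cast hn.ne'
  field_simp

end TStar

open TStar in
theorem star : Star := by
  intro n X R hn hX hR h0
  have hm := hX.measurableSet
  have hp := polar hn (f := X.indicator 1) (measurable_one.indicator hm)
  rw [lintegral_indicator_one hm] at hp
  have hI : 0 ≤ kappa n * ∫ a, R a ^ n ∂σ n := mul_nonneg (kappa_pos n).le
    (integral_nonneg_of_ae (σ_ae.mono fun a ha => pow_nonneg (h0 a ha) _))
  constructor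
  · intro h
    refine ENNReal.toReal_le_of_le_ofReal hI ?_
    rw [hp, ← two hn hR h0]
    refine mul_le_mul_right (lintegral_mono_ae ?_) _
    filter_upwards [h, σ_ae] with a ha h1
    rw [← one hn (h0 a h1), ← lintegral_indicator measurableSet_Ioc,
      ← lintegral_indicator measurableSet_Ioi]
    refine lintegral_mono fun r => ?_
    by_cases hr : r ∈ Ioi (0 : ℝ)
    · by_cases hx : r • a ∈ X
      · rw [indicator_of_mem hr, indicator_of_mem hx,
          indicator_of_mem (show r ∈ Ioc 0 (R a) from ⟨hr, ha r hr hx⟩)]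
        simp
      · simp [indicator_of_mem hr, indicator_of_notMem hx]
    · simp [indicator_of_notMem hr]
  · intro h
    refine (ENNReal.ofReal_le_iff_le_toReal hX.measure_lt_top.ne).1 ?_
    rw [hp, ← two hn hR h0]
    refine mul_le_mul_right (lintegral_mono_ae ?_) _
    filter_upwards [h, σ_ae] with a ha h1
    rw [← one hn (h0 a h1), ← restrict_Ioo_eq_restrict_Ioc,
      ← lintegral_indicator measurableSet_Ioo, ← lintegral_indicator measurableSet_Ioi]
    refine lintegral_mono fun r => ?_
    by_cases hr : r ∈ Ioo (0 : ℝ) (R a)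
    · rw [indicator_of_mem hr, indicator_of_mem (show r ∈ Ioi 0 from hr.1),
        indicator_of_mem (ha r hr.1 hr.2)]
      simp
    · simp [indicator_of_notMem hr]

end Vale.Agent.P237
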