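import Vale.Agent.P237.Stmts

/-! Normalising the linear part in the volume bound. -/

namespace Vale.Agent.P237

open MeasureTheory Metric Real Set MvPolynomial Matrix
open scoped RealInnerProductSpace NNReal ENNReal Topology Pointwise

namespace TVD

theorem mv_r {n m : ℕ} (β : HB n m) (A : Matrix (Fin n) (Fin n) ℝ) (y : Fin β.L → E n)
    (a : E n) : mv A (β.r y a) = β.r (fun i => mv A (y i)) a := by
  simp only [HB.r, mv_sum, mv_smul]

end TVD

theorem vd (h : VS) : VD := by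
  intro n m β w M hn hM hc hs hW hd he
  have hcpt : IsCompact (mv (lin w)⁻¹ '' M) := hM.image (mv_cont _)
  have hcvx : Convex ℝ (mv (lin w)⁻¹ '' M) :=
    hc.linear_image ((mvL (lin w)⁻¹ : E n →L[ℝ] E n) : E n →ₗ[ℝ] E n)
  have hsym : ∀ x ∈ mv (lin w)⁻¹ '' M, -x ∈ mv (lin w)⁻¹ '' M := by
    rintro _ ⟨x, hx, rfl⟩
    exact ⟨-x, hs x hx, mv_neg _ _⟩
  have hmem : ∀ a : E n, ‖a‖ = 1 →
      a + β.r (fun i => mv (lin w)⁻¹ (w (.inr i))) a ∈ mv (lin w)⁻¹ '' M := by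
    intro a ha
    refine ⟨_, hW a ha, ?_⟩
    rw [HB.W_eq, mv_add, mv_inv_mv hd, TVD.mv_r]
  have h1 := h n m β _ _ hn hcpt hcvx hsym hmem he
  rw [vol_mv, det_nonsing_inv, Ring.inverse_eq_inv'] at h1
  have h2 : (0 : ℝ) ≤ (lin w).det ^ 2 := sq_nonneg _
  have h3 := mul_le_mul_of_nonneg_left h1 h2
  refine h3.trans (le_of_eq ?_)
  rw [div_pow, div_pow, mul_pow, sq_abs]
  field_simp

end Vale.Agent.P237
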