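import Vale.Agent.P237.Stmts

/-! The volume of a symmetric convex set containing the range of a field. -/

namespace Vale.Agent.P237

open MeasureTheory Metric Real Set
open scoped RealInnerProductSpace Topology Pointwise

namespace TVS
variable {n m : ℕ} (β : HB n m)

theorem r_smul (t : ℝ) (y : Fin β.L → E n) (a : E n) : β.r (t • y) a = t • β.r y a := by
  simp only [HB.r, Pi.smul_apply, Finset.smul_sum]
  exact Finset.sum_congr rfl fun i _ => smul_comm _ _ _

theorem En_smul (t : ℝ) (y : Fin β.L → E n) : β.En (t • y) = t ^ 2 * β.En y := by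
  simp only [HB.En, Pi.smul_apply, norm_smul, mul_pow, Real.norm_eq_abs, sq_abs, Finset.mul_sum]
  exact Finset.sum_congr rfl fun i _ => by ring

theorem En_nonneg (hn : 2 ≤ n) (y : Fin β.L → E n) : 0 ≤ β.En y :=
  Finset.sum_nonneg fun i _ => div_nonneg (mul_nonneg
    (le_trans (by positivity) (th_ge hn (β.odd i) (β.three i))) (sq_nonneg _)) (Nat.cast_nonneg _)

end TVS
open TVS

theorem vs (h1 : NUM) (h2 : VTc) (h3 : VTa) (h4 : Ball) (h5 : Br) (h6 : Mom) : VS := by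
  intro n m β y M hn hc hv hs hM he
  have hn2 : 2 ≤ n := by omega
  have hn0 : 0 < n := by omega
  have hc1 : 0 < (n : ℝ) * c1 n := mul_pos (Nat.cast_pos.2 hn0) (c1_pos hn0)
  have hk := kappa_pos n
  have he0 := En_nonneg β hn2 y
  have hη : 0 ≤ 1 - η * β.En y := by unfold η; linarith
  have hη1 : 1 - η * β.En y ≤ 1 := by unfold η; linarith
  have inter : ∀ (X : Set (E n)) (α : ℝ), 0 < α → (∀ x, n * c1 n * ‖x‖ ≤ α → x ∈ X) →
      (0 : E n) ∈ interior X := fun X α hα h =>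
    mem_interior_iff_mem_nhds.2 (Filter.mem_of_superset (ball_mem_nhds 0 (div_pos hα hc1))
      fun x hx => h x (by
        have := (lt_div_iff₀' hc1).1 (mem_ball_zero_iff.1 hx)
        exact this.le))
  have hb1 := h4 n m β ((-1 : ℝ) • y) M 1 hn2 one_pos hc.isClosed hv hs fun a ha => by
    rw [r_smul, one_smul, neg_smul, one_smul, sub_neg_eq_add]; exact hM a ha
  have hvol : 0 < vol M := IsBody.vol_pos ⟨hc, hv, 0, inter M 1 one_pos hb1⟩
  obtain ⟨lam, hl, hln⟩ : ∃ lam : ℝ, 0 < lam ∧ lam ^ n = vol M / kappa n :=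
    ⟨(vol M / kappa n) ^ (n⁻¹ : ℝ), by positivity,
      Real.rpow_inv_natCast_pow (by positivity) hn0.ne'⟩
  have fin : 1 - η * β.En y ≤ lam ^ 2 := by
    rcases le_total 1 lam with h | h
    · nlinarith
    have hα : 0 < lam⁻¹ := inv_pos.2 hl
    have hα1 : 1 ≤ lam⁻¹ := (one_le_inv₀ hl).2 h
    have hc' : IsCompact (lam⁻¹ • M) := hc.smul _
    have hv' : Convex ℝ (lam⁻¹ • M) := hv.smul _
    have hs' : ∀ x ∈ lam⁻¹ • M, -x ∈ lam⁻¹ • M := by
      rintro _ ⟨x, hx, rfl⟩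
      exact ⟨-x, hs x hx, smul_neg _ _⟩
    have hM' : ∀ a, ‖a‖ = 1 → lam⁻¹ • a - β.r ((-lam⁻¹) • y) a ∈ lam⁻¹ • M := fun a ha => by
      rw [r_smul, neg_smul, sub_neg_eq_add, ← smul_add]
      exact smul_mem_smul_set (hM a ha)
    have hb := h4 n m β _ _ _ hn2 hα hc'.isClosed hv' hs' hM'
    obtain ⟨hG, hK, hsym⟩ := (h5 n hn0).1 _ hc' hv' (inter _ _ hα hb)
    have hV : VN (gauge (lam⁻¹ • M)) = 1 := by
      have h := ((h5 n hn0).2 _ hG).2.2.2.1
      rw [hK, vol_smul hα.le, inv_pow, hln, inv_div, div_mul_cancel₀ _ hvol.ne'] at h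
      exact (mul_left_cancel₀ hk.ne' (h.symm.trans (mul_one _).symm))
    have hle : ∀ x ∈ lam⁻¹ • M, gauge (lam⁻¹ • M) x ≤ 1 := fun x hx => by
      have : x ∈ Kb (gauge (lam⁻¹ • M)) := by rwa [hK]
      exact this
    obtain ⟨T, v, hv1, hvT, hT1, hT2, hT3⟩ := h3 n _ hn0 hG (hsym hs')
    have hT := hT3 hV
    have hαT : lam⁻¹ * T ≤ n * c1 n := by
      have h := hle ((lam⁻¹ / (n * c1 n)) • v) (hb _ (by
        rw [norm_smul, hv1, mul_one, Real.norm_of_nonneg (by positivity),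
          mul_div_cancel₀ _ hc1.ne']))
      rw [hG.smul _ (by positivity), hvT, div_mul_eq_mul_div, div_le_one hc1] at h
      exact h
    have hcert := h1 n lam⁻¹ T hn hα1 hT
      (le_trans (pow_le_pow_left₀ (by positivity) hαT 2) (h6 n hn2).2.2.2)
    have h := h2 n m β _ _ _ T v hn2 hG hV hcert hv1 (by linarith) hT1 hT2 fun a ha =>
      hle _ (hM' a ha)
    rw [En_smul, neg_sq] at h
    have e : lam ^ 2 * lam⁻¹ ^ 2 = 1 := by field_simp
    have h' := mul_le_mul_of_nonneg_left h (sq_nonneg lam)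
    have e2 : lam ^ 2 * (η * (lam⁻¹ ^ 2 * β.En y)) = η * β.En y := by
      rw [mul_left_comm, ← mul_assoc (lam ^ 2), e, one_mul]
    rw [mul_sub, e, e2] at h'
    linarith
  rw [← hln, ← pow_mul, mul_comm n 2, pow_mul]
  exact pow_le_pow_left₀ hη fin n

end Vale.Agent.P237
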