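import Vale.Agent.P237.Stmts

/-! Petty projection conjecture: two integrations by parts on the sphere. -/

namespace Vale.Agent.P237

open MeasureTheory Metric Real Set
open scoped RealInnerProductSpace NNReal Topology

namespace TVTb

variable {n : ℕ} {N : E n → ℝ} {f f' : ℝ → ℝ}

theorem norm_deriv {a : E n} (ha : ‖a‖ = 1) :
    HasFDerivAt (fun x : E n => ‖x‖) (innerSL ℝ a) a := by
  have h1 := (hasStrictFDerivAt_norm_sq a).hasFDerivAt.sqrt (by rw [ha]; norm_num)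
  have e1 : (fun x : E n => √(‖x‖ ^ 2)) = fun x => ‖x‖ :=
    funext fun x => Real.sqrt_sq (norm_nonneg x)
  rw [e1] at h1
  refine h1.congr_fderiv ?_
  ext v
  simp [ha]

theorem ll (hN : Gau N) (hf : CD f f') : LL fun x : E n => f (N x * ‖x‖⁻¹) :=
  (hN.ll.mul (LL.norm.inv fun _ hx => norm_ne_zero_iff.2 hx)).comp_cd hf

theorem hom (hN : Gau N) : Hom 0 fun x : E n => f (N x * ‖x‖⁻¹) := by
  intro x hx t ht
  have h1 : ‖x‖ ≠ 0 := norm_ne_zero_iff.2 hx
  have : N (t • x) * ‖t • x‖⁻¹ = N x * ‖x‖⁻¹ := by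
    rw [hN.smul t ht.le, norm_smul, Real.norm_of_nonneg ht.le]
    field_simp
  simp only [this, rpow_zero, one_mul]

theorem fd (hf : CD f f') {a : E n} (ha : ‖a‖ = 1) (hd : DifferentiableAt ℝ N a) (v : E n) :
    fderiv ℝ (fun x : E n => f (N x * ‖x‖⁻¹)) a v =
      f' (N a) * (⟪gradient N a, v⟫ - N a * ⟪v, a⟫) := by
  have h1 := (hasDerivAt_inv (x := ‖a‖) (by rw [ha]; norm_num)).comp_hasFDerivAt a (norm_deriv ha)
  have h2 := hd.hasFDerivAt.mul h1
  have h3 := (hf.2 (N a * ‖a‖⁻¹)).comp_hasFDerivAt a h2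
  have h4 : fderiv ℝ (fun x : E n => f (N x * ‖x‖⁻¹)) a = _ := h3.fderiv
  rw [h4, ← fderiv_eq_inner]
  simp [ha, real_inner_comm]
  ring

end TVTb

theorem vtb (h1 : IBr) (h2 : CVX) : VTb := by
  intro n N f f' hn hN hf
  refine ⟨fun m β y => ?_, fun h0 => ?_⟩
  · have h := h1 n m β y _ hn (TVTb.ll hN hf) (TVTb.hom hN)
    have e1 : ∫ a, f' (N a) * (⟪gradient N a, β.r y a⟫ - N a * ⟪β.r y a, a⟫) ∂σ n =
        ∫ a, fderiv ℝ (fun x : E n => f (N x * ‖x‖⁻¹)) a (β.r y a) ∂σ n := by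
      refine integral_congr_ae ?_
      filter_upwards [σ_ae, hN.σ_diff hn] with a ha hd
      rw [TVTb.fd hf ha hd]
    have e2 : ∫ a, f (N a) * β.dv y a ∂σ n = ∫ a, f (N a * ‖a‖⁻¹) * β.dv y a ∂σ n := by
      refine integral_congr_ae ?_
      filter_upwards [σ_ae] with a ha
      rw [ha, inv_one, mul_one]
    rw [e1, e2, h]
  · have h := h2 n N _ hn hN (TVTb.ll hN hf) (TVTb.hom hN) fun x hx => by
      have h1 : ‖x‖ ≠ 0 := norm_ne_zero_iff.2 hx
      have := h0 (‖x‖⁻¹ • x) (by rw [norm_smul, norm_inv, norm_norm, inv_mul_cancel₀ h1])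
      rwa [hN.smul _ (by positivity), mul_comm] at this
    have e1 : ∫ a, f' (N a) * (‖gradient N a‖ ^ 2 - N a ^ 2) ∂σ n =
        ∫ a, fderiv ℝ (fun x : E n => f (N x * ‖x‖⁻¹)) a (gradient N a) ∂σ n := by
      refine integral_congr_ae ?_
      filter_upwards [σ_ae, hN.σ_diff hn] with a ha hd
      have ha0 : a ≠ 0 := by rintro rfl; simp at ha
      rw [TVTb.fd hf ha hd, real_inner_self_eq_norm_sq, hN.grad_self ha0 hd, sq (N a)]
    have e2 : ∫ a, N a * f (N a) ∂σ n = ∫ a, f (N a * ‖a‖⁻¹) * N a ∂σ n := by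
      refine integral_congr_ae ?_
      filter_upwards [σ_ae] with a ha
      rw [ha, inv_one, mul_one, mul_comm]
    rw [e1, e2]
    exact h

end Vale.Agent.P237
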