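import Vale.Agent.P237.Stmts

namespace Vale.Agent.P237

open MeasureTheory Metric Real Set
open scoped RealInnerProductSpace

namespace TVTc

theorem integ {X : Type} [MeasurableSpace X] {μ : Measure X} [IsProbabilityMeasure μ]
    {f1 f2 f3 f4 f5 f6 f7 f8 f9 : X → ℝ} {c c4 c5 c7 c8 : ℝ} (h1 : Integrable f1 μ)
    (h2 : Integrable f2 μ) (h3 : Integrable f3 μ) (h4 : Integrable f4 μ) (h5 : Integrable f5 μ)
    (h6 : Integrable f6 μ) (h7 : Integrable f7 μ) (h8 : Integrable f8 μ) (h9 : Integrable f9 μ)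
    (h : ∀ᵐ a ∂μ, c + c8 ≤ 2⁻¹ * f1 a + f2 a + f3 a + c4 * f4 a + c5 * f5 a + f6 a - c7 * f7 a +
      c8 * f8 a - f9 a) :
    c + c8 ≤ 2⁻¹ * ∫ a, f1 a ∂μ + ∫ a, f2 a ∂μ + ∫ a, f3 a ∂μ + c4 * ∫ a, f4 a ∂μ +
      c5 * ∫ a, f5 a ∂μ + ∫ a, f6 a ∂μ - c7 * ∫ a, f7 a ∂μ + c8 * ∫ a, f8 a ∂μ - ∫ a, f9 a ∂μ := by
  have e := integral_mono_ae (integrable_const _) (by fun_prop) h
  simp (disch := fun_prop) only [integral_add, integral_sub, integral_const_mul, integral_const,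
    probReal_univ, one_smul] at e
  exact e

theorem cs {n : ℕ} {a g r : E n} (ha : ‖a‖ = 1) {s : ℝ} (hs : ⟪g, a⟫ = s) (w : ℝ) {b : ℝ}
    (hb : 0 < b) : w * (⟪g, r⟫ - s * ⟪r, a⟫) ≤
      w ^ 2 * (‖g‖ ^ 2 - s ^ 2) / (2 * b) + b * (‖r‖ ^ 2 - ⟪r, a⟫ ^ 2) / 2 := by
  have h := real_inner_self_nonneg (x := w • (g - s • a) - b • (r - ⟪r, a⟫ • a))
  simp only [inner_sub_left, inner_sub_right, real_inner_smul_left, real_inner_smul_right] at h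
  simp only [real_inner_self_eq_norm_sq, ha, hs, real_inner_comm g a, real_inner_comm r a,
    real_inner_comm g r] at h
  rw [← sub_nonneg, show w ^ 2 * (‖g‖ ^ 2 - s ^ 2) / (2 * b) + b * (‖r‖ ^ 2 - ⟪r, a⟫ ^ 2) / 2 -
    w * (⟪g, r⟫ - s * ⟪r, a⟫) = (w ^ 2 * (‖g‖ ^ 2 - s ^ 2) + b ^ 2 * (‖r‖ ^ 2 - ⟪r, a⟫ ^ 2) -
      2 * b * w * (⟪g, r⟫ - s * ⟪r, a⟫)) / (2 * b) by field_simp]
  exact div_nonneg (by linarith) (by positivity)

theorem cd_cont {f f' : ℝ → ℝ} (h : CD f f') : Continuous f := h.contDiff.continuous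

end TVTc

open TVTc in
theorem vtc (h1 : VTb) (h2 : EN) (h3 : XI) (h4 : HBf) (h5 : Zl) : VTc := by
  intro n m β y N α T v hn hN hV hC hv hT hT1 hT2 hα
  obtain ⟨w1, w2, Ψ, χ, φ, k, k', μ, f0, ξ, c11, c12, c22, B1, B2, B3, b, c1, c2, c3, c4, c5, c6,
    c7⟩ := hC
  have hn0 : 0 < n := by omega
  have := σ_prob hn0
  have hs : ∀ a : E n, ‖a‖ = 1 → N a ≤ T := fun a ha => by simpa [ha] using hT1 a
  have hc := fun (a : E n) (ha : ‖a‖ = 1) p h0 h0' => c7 (N a) p (⟪a, v⟫ ^ 2) (hN.pos1 ha) (hs a ha)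
    h0 h0' (sq_nonneg _) ((sq_le_one_iff_abs_le_one _).2 (by
      simpa [ha, hv] using abs_real_inner_le_norm a v)) (by
      rw [← sq_abs ⟪a, v⟫, ← mul_pow]
      exact pow_le_pow_left₀ (by positivity) (hT2 a) 2)
  have br := BM.of_cont (β.r_cont y)
  have bd := BM.of_cont (β.dv_cont y)
  have bρ := br.inner BM.id
  have e1 := h2 n m β y B1 B2 B3 b hn c5
  have e2 := (h1 n N Ψ w1 hn0 hN c1).1 m β y
  have e4 := (h4 n m β y hn).2.2.2.1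
  have e5 := h3 n m β y v hn
  have e6 := (h1 n N φ χ hn0 hN c2).2 fun a ha => (hc a ha 0 le_rfl
    (sub_nonneg.2 (pow_le_pow_left₀ (hN.nonneg a) (hs a ha) 2))).2.1
  have e9 := h5 n k k' v hn0 c3 hv
  have k1 := cd_cont c3
  have k2 := c3.1
  have r1 := β.r_cont y
  have r2 := β.dv_cont y
  have e := integ (μ := σ n) (c := (α ^ 2 - 1) / 2) (c4 := f0) (c5 := ξ) (c7 := n - 1) (c8 := μ)
    (BM.of_cont (f := fun a => qf B1 B2 B3 ⟪β.r y a, a⟫ (β.dv y a) +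
      b * (‖β.r y a‖ ^ 2 - ⟪β.r y a, a⟫ ^ 2)) (by unfold qf; fun_prop)).int
    ((hN.bm.comp c1.1).mul ((hN.bm_grad.inner br).sub (hN.bm.mul bρ))).int
    ((hN.bm.comp (cd_cont c1)).mul bd).int bρ.int
    (BM.of_cont (f := fun a => (n * ⟪a, v⟫ ^ 2 - 1) * (⟪β.r y a, a⟫ - β.dv y a / 2))
      (by fun_prop)).int
    ((hN.bm.comp c2.1).mul ((hN.bm_grad.norm.pow 2).sub (hN.bm.pow 2))).int
    (hN.bm.mul (hN.bm.comp (cd_cont c2))).int (hN.bm_inv.pow n).int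
    (BM.of_cont (f := fun a => Zf n k k' (⟪a, v⟫ ^ 2)) (by unfold Zf; fun_prop)).int ?_
  · rw [VN] at hV
    rw [e2, e4, e5, e9, hV] at e
    linarith
  filter_upwards [σ_ae, hN.σ_diff hn0] with a ha hd
  have g1 := hN.grad_self (by rintro rfl; simp at ha) hd
  have g2 : N a ≤ ‖gradient N a‖ := by
    simpa [ha, g1] using real_inner_le_norm (gradient N a) a
  obtain ⟨d1, -, d3⟩ := hc a ha (‖gradient N a‖ ^ 2 - N a ^ 2)
    (sub_nonneg.2 (pow_le_pow_left₀ (hN.nonneg a) g2 2))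
    (sub_le_sub_right (pow_le_pow_left₀ (norm_nonneg _) (hN.grad_norm hT hT1 a) 2) _)
  have g3 := (hN.grad_le a _).trans (hα a ha)
  rw [inner_sub_right, real_inner_smul_right, g1] at g3
  have g4 := mul_le_mul_of_nonneg_left
    (show α * N a - 1 ≤ ⟪gradient N a, β.r y a⟫ by linarith) d1
  have g5 := cs (r := β.r y a) ha g1 (w2 (N a)) c5.pos
  have g6 := c6 ⟪β.r y a, a⟫ (β.dv y a)
    ((w1 (N a) + w2 (N a)) * N a - f0 - ξ * (n * ⟪a, v⟫ ^ 2 - 1))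
    (-(Ψ (N a) - ξ * (n * ⟪a, v⟫ ^ 2 - 1) / 2))
  linarith

end Vale.Agent.P237
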