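import Vale.Agent.P237.TIBP

/-! A family of zonal functions with mean zero. -/

namespace Vale.Agent.P237

open MeasureTheory Metric Real Set Filter
open scoped RealInnerProductSpace NNReal ENNReal Topology

theorem zl (h : IBP) : Zl := by
  intro n k k' v hn hk hv
  have hkc : Continuous k := hk.contDiff.continuous
  have hkc' := hk.1
  have hg : CD (fun t => t * k (t ^ 2)) fun t => k (t ^ 2) + 2 * t ^ 2 * k' (t ^ 2) := by
    refine ⟨by fun_prop, fun t => ?_⟩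
    refine ((hasDerivAt_id t).mul ((hk.2 (t ^ 2)).comp t (hasDerivAt_pow 2 t))).congr_deriv ?_
    simp
    ring
  have hu : LL fun x : E n => ⟪x, v⟫ * ‖x‖⁻¹ :=
    (LL.inner v).mul (LL.norm.inv fun x hx => norm_ne_zero_iff.2 hx)
  have hG := hu.comp_cd hg
  have hh : ∀ x : E n, x ≠ 0 → ∀ t : ℝ, 0 < t → ⟪t • x, v⟫ * ‖t • x‖⁻¹ = ⟪x, v⟫ * ‖x‖⁻¹ :=
    fun x hx t ht => by
      have : ‖x‖ ≠ 0 := norm_ne_zero_iff.2 hx
      simp only [real_inner_smul_left, norm_smul, Real.norm_eq_abs, abs_of_pos ht]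
      field_simp
  have h1 := h n 0 _ v hn hG fun x hx t ht => by simp only [hh x hx t ht, rpow_zero, one_mul]
  have hB := hG.bm_fderiv (BM.const v)
  have hA := (LL.inner v).bm.mul hG.bm
  rw [← integral_const_mul, ← sub_eq_zero, ← integral_sub hB.int (hA.int.const_mul _)] at h1
  rw [← h1]
  refine integral_congr_ae (σ_ae.mono fun a ha => ?_)
  have ha0 : a ≠ 0 := by rintro rfl; simp at ha
  obtain ⟨L, hL, hLv⟩ := TIBP.norm_fderiv ha0
  have h2 : HasFDerivAt (fun x : E n => ⟪x, v⟫) (innerSL ℝ v) a := by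
    simp only [real_inner_comm v]
    exact (innerSL ℝ v).hasFDerivAt
  have h3 : HasFDerivAt (fun x : E n => ⟪x, v⟫ * ‖x‖⁻¹) _ a :=
    h2.mul ((hasDerivAt_inv (norm_ne_zero_iff.2 ha0)).comp_hasFDerivAt a hL)
  have h5 := (hg.2 (⟪a, v⟫ * ‖a‖⁻¹)).comp_hasFDerivAt a h3
  have h4 : fderiv ℝ (fun x : E n => ⟪x, v⟫ * ‖x‖⁻¹ * k ((⟪x, v⟫ * ‖x‖⁻¹) ^ 2)) a = _ :=
    h5.fderiv
  simp only [h4, Zf, add_apply, smul_apply, smul_eq_mul, hLv, ha,
    innerSL_apply_apply, real_inner_self_eq_norm_sq, hv, inv_one, mul_one]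
  ring

end Vale.Agent.P237
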