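import Vale.Agent.P237.TBall
import Vale.Agent.P237.TBr
import Vale.Agent.P237.TCVX
import Vale.Agent.P237.TCVX0
import Vale.Agent.P237.TCore
import Vale.Agent.P237.TCore0
import Vale.Agent.P237.TCylStr
import Vale.Agent.P237.TEN
import Vale.Agent.P237.TEN1
import Vale.Agent.P237.TEN2
import Vale.Agent.P237.TEll
import Vale.Agent.P237.TEqB
import Vale.Agent.P237.TEqB1
import Vale.Agent.P237.TEqB2Qt
import Vale.Agent.P237.TEqB3
import Vale.Agent.P237.TEqB4
import Vale.Agent.P237.TEqC1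
import Vale.Agent.P237.TEqC2
import Vale.Agent.P237.TEqC3
import Vale.Agent.P237.TEqD
import Vale.Agent.P237.TF1
import Vale.Agent.P237.TF2
import Vale.Agent.P237.TFH1
import Vale.Agent.P237.TFH2
import Vale.Agent.P237.TFHs
import Vale.Agent.P237.TFinal
import Vale.Agent.P237.TFis
import Vale.Agent.P237.TFub
import Vale.Agent.P237.THBex
import Vale.Agent.P237.THBf
import Vale.Agent.P237.THS
import Vale.Agent.P237.THW
import Vale.Agent.P237.TIBP
import Vale.Agent.P237.TIBrXI
import Vale.Agent.P237.TKS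
import Vale.Agent.P237.TKSn
import Vale.Agent.P237.TKap
import Vale.Agent.P237.TLA12
import Vale.Agent.P237.TLA3
import Vale.Agent.P237.TMM
import Vale.Agent.P237.TMM1
import Vale.Agent.P237.TMM2
import Vale.Agent.P237.TMinkH
import Vale.Agent.P237.TMom
import Vale.Agent.P237.TONB
import Vale.Agent.P237.TPB
import Vale.Agent.P237.TPI
import Vale.Agent.P237.TPol
import Vale.Agent.P237.TQ0
import Vale.Agent.P237.TStar
import Vale.Agent.P237.TVD
import Vale.Agent.P237.TVS
import Vale.Agent.P237.TVTa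
import Vale.Agent.P237.TVTb
import Vale.Agent.P237.TVTc
import Vale.Agent.P237.TZl

/-! Assembly of the analytic part. -/

namespace Vale.Agent.P237

theorem main_of_num (hN : NUM) (n : ℕ) (hn : 4 ≤ n) (K : Set (E n)) (hK : IsBody K) :
    kappa (n - 1) ^ n * kappa n ^ (2 - (n : ℤ)) * vol K ^ (n - 1) ≤ vol (projBody K) ∧
      (vol (projBody K) = kappa (n - 1) ^ n * kappa n ^ (2 - (n : ℤ)) * vol K ^ (n - 1) ↔
        IsEllipsoid K) :=
  have hI := ibp pol
  have hP := pi_ hI
  have hB := br star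
  have hK' := kap fub
  have hM := mom_ hI hK'
  have hF := hbf hP
  have hC := cyl_ fub
  have hR := ibr hI
  have hV := vd (vs hN (vtc (vtb hR (cvx pol cvx0)) (en (en2 (en1 hP fis)) hP) (xi hR hF) hF
    (zl hI)) vta (ball_ hP hF hK') hB hM)
  have hL := la3 la2
  have hMi := minkH (f2 star hB) hB
  have hS := ks hP hM (fh1 (fhs hI) hM) (fh2 hI (fhs hI) hK') ksn
  have h1 := core1 (hbex fis onb hP) (hs hw (q0 hI) hF hP hB) (mm mm1 mm2)
    (core0 hS hw (f1 star hC hB)) la1 hL hV (pbf (pb fub)) hB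
  have h2 := core2 hw hL hV hMi hB
  final (mi h1 h2 hL hB) (eqC2 h1 h2 hL (eqC1 hM hF) hw hB) (eqC3 (q0 hI) hB)
    (eqD hMi (eqB (eqB3 (eqB1 hC (str fub) (pb fub)) eqB2 qt) (eqB4 qt)) hB) (ell hC (pb fub)) hB
    (pbf (pb fub)) n hn K hK

end Vale.Agent.P237
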