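import Vale.Agent.P237.Stmts
import Vale.Agent.P237.Chk1

/-! The interface statements of the numerical part. -/

namespace Vale.Agent.P237

/-- the sum of the hinges -/
noncomputable def hin : List (ℕ × ℕ) → ℝ → ℝ
  | [], _ => 0
  | l :: L, y => (l.2 : ℝ) / 1048576 * max 0 (y - l.1 / 20) + hin L y

/-- the values of the functions of the certificate at one point -/
structure St where
  (s w1 w2 Ψ χ φ : ℝ)

namespace Cell

variable (c : Cell)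

/-- the multiplier in the variable `y` -/
noncomputable def Lam (y : ℝ) : ℝ := c.l0 / 1048576 * y - c.ka / 1048576 * y ^ 2 + hin c.lam y

/-- the slack of the certificate -/
noncomputable def Φ (x : St) (α p y : ℝ) : ℝ :=
  (x.w1 + x.w2) * (α * x.s - 1) - (α ^ 2 - 1) / 2 -
    qf (c.c11 / 1048576) (c.c12 / 1048576) (c.c22 / 1048576)
      ((x.w1 + x.w2) * x.s - c.f0 / 1048576 - c.xi / 1048576 * (c.n * y - 1))
      (-(x.Ψ - c.xi / 1048576 * (c.n * y - 1) / 2)) / 2 -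
    x.w2 ^ 2 * p * (c.ib / 1048576) / 2 + x.χ * p - (c.n - 1) * x.s * x.φ +
    c.mu / 1048576 * (x.s⁻¹ ^ c.n - 1) + c.cL / 1048576 - c.Lam y

/-- the slack is at least `e` at both ends of the interval of parameters -/
def Two (x : St) (e p y : ℝ) : Prop :=
  e ≤ c.Φ x (c.a1 / 1048576) p y ∧ e ≤ c.Φ x (c.a2 / 1048576) p y

def Four (x : St) (e p y : ℝ) : Prop := c.Two x e 0 y ∧ c.Two x e p y

/-- what the tests on one piece give -/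
def Raw (x : St) : Prop :=
  0 ≤ x.w1 + x.w2 ∧ 0 ≤ x.φ ∧
  (c.T1 = 0 → ∀ y, c.Four x 0 (c.Tq / 1048576 ^ 2 - c.sg * x.s ^ 2) y) ∧
  (c.T1 ≠ 0 → ∃ y2 y1 p1 : ℝ, x.s ^ 2 ≤ (c.T2 / 1048576) ^ 2 * y2 ∧
    y2 ≤ 7 / 8 + c.dl / 1048576 ∧ y1 ≤ y2 + c.dl / 1048576 ∧
    (∀ e : ℕ, e < 8 → (e : ℝ) / 8 ≤ y2 →
      c.Four x (c.pen / 1048576) (c.Tq / 1048576 ^ 2 - c.sg * x.s ^ 2) (e / 8)) ∧
    c.Four x (c.pen / 1048576) (c.Tq / 1048576 ^ 2 - c.sg * x.s ^ 2) y2 ∧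
    c.Four x (c.pen / 1048576) p1 y1 ∧
    ((x.s ^ 2 ≤ (c.T1 / 1048576) ^ 2 * y1 ∧ p1 = (c.T1 / 1048576) ^ 2 - x.s ^ 2) ∨
      (y1 = 1 ∧ p1 = 0)))

/-- the certificate holds at one point -/
def Good (x : St) : Prop :=
  0 ≤ x.w1 + x.w2 ∧ 0 ≤ x.φ ∧ ∀ α p y : ℝ, c.a1 / 1048576 ≤ α → α ≤ c.a2 / 1048576 → 0 ≤ p →
    p ≤ c.Tq / 1048576 ^ 2 - c.sg * x.s ^ 2 → 0 ≤ y → y ≤ 1 → (p + x.s ^ 2) * y ≤ x.s ^ 2 →
    (c.T1 / 1048576) ^ 2 * y ≤ x.s ^ 2 → 0 ≤ c.Φ x α p y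

end Cell

/-- the state at the relative position `t` of a piece -/
noncomputable def stAt (a : ℕ) (u0 v0 x0 P0 F0 : Z) (N : Node) (t : ℝ) : St where
  s := (a + ((N.s : ℝ) - a) * t) / 1048576
  w1 := (u0.v + (N.u - u0.v) * t) / 1048576
  w2 := (v0.v + (N.v - v0.v) * t) / 1048576
  Ψ := (P0.v + ((N.s : ℝ) - a) * (2 * u0.v * t + (N.u - u0.v) * t ^ 2)) / (2 * 1048576 ^ 2)
  χ := (x0.v + (N.x - x0.v) * t) / 1048576
  φ := (F0.v + ((N.s : ℝ) - a) * (2 * x0.v * t + (N.x - x0.v) * t ^ 2)) / (2 * 1048576 ^ 2)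

def NRaw : Prop := ∀ (c : Cell) (a : ℕ) (u0 v0 x0 P0 F0 : Z) (N : Node), c.hd →
  c.piece a u0 v0 x0 P0 F0 N = true → a < N.s ∧ ∀ t : ℝ, 0 ≤ t → t ≤ 1 →
    0 < (stAt a u0 v0 x0 P0 F0 N t).s → c.Raw (stAt a u0 v0 x0 P0 F0 N t)

def NInt : Prop := ∀ (c : Cell) (x : St), c.hd → 0 < x.s → c.Raw x → c.Good x

/-- gluing of the pieces -/
def NRun : Prop := ∀ (c : Cell) (fin : ℕ → Z → Z → Z → Bool), c.hd → c.run fin = true →
  ∃ (w1 w2 Ψ χ φ : ℝ → ℝ) (a : ℕ) (u v P : Z), CD Ψ w1 ∧ CD φ χ ∧ Continuous w2 ∧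
    fin a u v P = true ∧
    (∀ s : ℝ, 0 < s → s ≤ a / 1048576 → c.Good ⟨s, w1 s, w2 s, Ψ s, χ s, φ s⟩) ∧
    (∀ s : ℝ, a / 1048576 ≤ s → w1 s = u.v / 1048576 ∧ w2 s = v.v / 1048576 ∧
      Ψ s = P.v / (2 * 1048576 ^ 2) + u.v / 1048576 * (s - a / 1048576)) ∧
    (c.x0 = 0 → (∀ N ∈ c.nodes, N.x = 0) → ∀ s, χ s = 0 ∧ φ s = 0)

def NEok : Prop := ∀ (n : ℕ) (B1 B2 B3 b : ℚ), 2 ≤ n → eok (n : ℚ) B1 B2 B3 b →
  EOK n B1 B2 B3 b

def NEokB : Prop := ∀ (n : ℕ) (B3 b : ℝ), 32 ≤ n → 0 ≤ B3 → 0 < b → 4 * B3 + b ≤ 24 / 25 →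
  EOK n (3 * n / 4) 0 B3 (b * n)

/-- lower bounds for the means of the hinges -/
def HT (n : ℕ) (tab : ℕ → ℤ) : Prop := ∀ j : ℕ, ∃ k k' : ℝ → ℝ, CD k k' ∧
  ∀ y : ℝ, 0 ≤ y → y ≤ 1 → tab j / 1048576 + Zf n k k' y ≤ max 0 (y - j / 20)

def NTab : Prop := ∀ (n : ℕ) (L : List Row), rowsOk n L 1 = true → HT n (tabOf (L.map Row.lo))

def Cov (n a1 a2 T1 T2 : ℕ) : Prop := ∀ α T : ℝ, a1 / 1048576 ≤ α → α ≤ a2 / 1048576 →
  T1 / 1048576 ≤ T → T ≤ T2 / 1048576 → (α * T) ^ 2 ≤ t0sq n → Cert n α T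

def NCellA : Prop := ∀ (c : Cell) (tab : ℕ → ℤ), 2 ≤ c.n → HT c.n tab → c.okA tab = true →
  Cov c.n c.a1 c.a2 c.T1 c.T2

def NTree : Prop := ∀ (n : ℕ) (tab : ℕ → ℤ), 2 ≤ n → HT n tab →
  ∀ (t : Tree) (a1 a2 T1 T2 : ℕ), t.ok n tab a1 a2 T1 T2 = true → Cov n a1 a2 T1 T2

def NCellB : Prop := ∀ c : Cell, c.okB = true → ∀ (n : ℕ) (α T : ℝ), 32 ≤ n →
  c.a1 / 1048576 ≤ α → α ≤ c.a2 / 1048576 → (α * T) ^ 2 ≤ t0sq n → Cert n α T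

def NBig : Prop := ∀ (n : ℕ) (α T : ℝ), 32 ≤ n → 21 / 10 ≤ α → (α * T) ^ 2 ≤ t0sq n → Cert n α T

theorem Cov.splitA {n a1 a2 T1 T2 m : ℕ} (h1 : Cov n a1 m T1 T2) (h2 : Cov n m a2 T1 T2) :
    Cov n a1 a2 T1 T2 := fun α T e1 e2 e3 e4 e5 =>
  (le_total α (m / 1048576)).elim (fun h => h1 α T e1 h e3 e4 e5) fun h => h2 α T h e2 e3 e4 e5

theorem Cov.splitT {n a1 a2 T1 T2 m : ℕ} (h1 : Cov n a1 a2 T1 m) (h2 : Cov n a1 a2 m T2) :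
    Cov n a1 a2 T1 T2 := fun α T e1 e2 e3 e4 e5 =>
  (le_total T (m / 1048576)).elim (fun h => h1 α T e1 e2 e3 h e5) fun h => h2 α T e1 e2 h e4 e5

theorem CD.glue {f f' g g' : ℝ → ℝ} (hf : CD f f') (hg : CD g g') (b : ℝ) (h0 : f b = g b)
    (h1 : f' b = g' b) :
    CD (fun s => if s ≤ b then f s else g s) (fun s => if s ≤ b then f' s else g' s) := by
  refine ⟨hf.1.if_le hg.1 continuous_id continuous_const (by rintro _ rfl; exact h1), fun s => ?_⟩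
  rcases lt_trichotomy s b with h | rfl | h
  · simp only [h.le, if_true]
    refine (hf.2 s).congr_of_eventuallyEq ?_
    filter_upwards [gt_mem_nhds h] with t ht using if_pos ht.le
  · simp only [le_refl, if_true]
    have e1 : HasDerivWithinAt (fun t => if t ≤ s then f t else g t) (f' s) (Set.Iic s) s :=
      (hf.2 s).hasDerivWithinAt.congr (fun t ht => if_pos ht) (if_pos le_rfl)
    have e2 : HasDerivWithinAt (fun t => if t ≤ s then f t else g t) (f' s) (Set.Ici s) s := by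
      rw [h1]
      refine (hg.2 s).hasDerivWithinAt.congr (fun t ht => ?_) (by simp [h0])
      rcases eq_or_lt_of_le (show s ≤ t from ht) with rfl | h
      · simp [h0]
      · exact if_neg h.not_ge
    simpa using e1.union e2
  · simp only [h.not_ge, if_false]
    refine (hg.2 s).congr_of_eventuallyEq ?_
    filter_upwards [lt_mem_nhds h] with t ht using if_neg ht.not_ge

end Vale.Agent.P237
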