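import Vale.Agent.P237.Lib4

/-! The interface statements of the analytic part. -/

namespace Vale.Agent.P237

open MeasureTheory Metric Real Set MvPolynomial Matrix
open scoped RealInnerProductSpace NNReal ENNReal Topology Pointwise

/-! ### calculus on the sphere -/

/-- a radial bump function -/
def Pol : Prop := ∀ n : ℕ, 0 < n → ∃ ψ ψ' : ℝ → ℝ, CD ψ ψ' ∧ (∀ r, 0 ≤ ψ r) ∧ ψ 0 = 0 ∧
  (∀ G : E n → ℝ, LL G → (∃ C, LipschitzWith C fun x => ψ ‖x‖ * G x) ∧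
    HasCompactSupport fun x => ψ ‖x‖ * G x) ∧
  ∀ k : ℝ, ∃ c : ℝ, 0 < c ∧ ∀ A B : E n → ℝ, BM A → BM B → Hom k A → Hom (k - 1) B →
    ∫ x, (ψ' ‖x‖ * A x + ψ ‖x‖ * B x) = c * ∫ a, (B a - (n + k - 1) * A a) ∂σ n

/-- integration by parts on the sphere -/
def IBP : Prop := ∀ (n : ℕ) (k : ℝ) (G : E n → ℝ) (v : E n), 0 < n → LL G → Hom k G →
  ∫ a, fderiv ℝ G a v ∂σ n = (n + k - 1) * ∫ a, ⟪a, v⟫ * G a ∂σ n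

/-- the Laplacian of a convex function is nonnegative -/
def CVX0 : Prop := ∀ (n : ℕ) (N g : E n → ℝ) (C : ℝ≥0), Gau N → LipschitzWith C g →
  HasCompactSupport g → (∀ x, 0 ≤ g x) → ∫ x, fderiv ℝ g x (gradient N x) ≤ 0

def CVX : Prop := ∀ (n : ℕ) (N F : E n → ℝ), 0 < n → Gau N → LL F → Hom 0 F →
  (∀ x, x ≠ 0 → 0 ≤ F x) →
  ∫ a, fderiv ℝ F a (gradient N a) ∂σ n ≤ (n - 1) * ∫ a, F a * N a ∂σ n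

/-- volumes through radial functions -/
def Star : Prop := ∀ (n : ℕ) (X : Set (E n)) (R : E n → ℝ), 0 < n → IsCompact X → BM R →
  (∀ a, ‖a‖ = 1 → 0 ≤ R a) →
  ((∀ᵐ a ∂σ n, ∀ r : ℝ, 0 < r → r • a ∈ X → r ≤ R a) →
    vol X ≤ kappa n * ∫ a, R a ^ n ∂σ n) ∧
  ((∀ᵐ a ∂σ n, ∀ r : ℝ, 0 < r → r < R a → r • a ∈ X) →
    kappa n * ∫ a, R a ^ n ∂σ n ≤ vol X)

/-- bodies and gauges -/
def Br : Prop := ∀ n : ℕ, 0 < n →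
  (∀ K : Set (E n), IsCompact K → Convex ℝ K → 0 ∈ interior K →
    Gau (gauge K) ∧ Kb (gauge K) = K ∧ ((∀ x ∈ K, -x ∈ K) → ∀ x, gauge K (-x) = gauge K x)) ∧
  ∀ N : E n → ℝ, Gau N → IsCompact (Kb N) ∧ Convex ℝ (Kb N) ∧ 0 ∈ interior (Kb N) ∧
    vol (Kb N) = kappa n * VN N ∧ 0 < VN N

def Q0 : Prop := ∀ (n : ℕ) (N : E n → ℝ) (D : Matrix (Fin n) (Fin n) ℝ), 0 < n → Gau N →
  ∫ a, (N a)⁻¹ ^ (n + 1) * ⟪gradient N a, mv D a⟫ ∂σ n = D.trace / n * VN N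

def Zl : Prop := ∀ (n : ℕ) (k k' : ℝ → ℝ) (v : E n), 0 < n → CD k k' → ‖v‖ = 1 →
  ∫ a, Zf n k k' (⟪a, v⟫ ^ 2) ∂σ n = 0

/-! ### harmonic polynomials -/

def PI : Prop := ∀ n : ℕ, 2 ≤ n →
  (∀ (k : ℕ) (p : MP n) (i : Fin n), p.IsHomogeneous k →
    ∫ a, ev (pderiv i p) a ∂σ n = (n + k - 1) * ∫ a, a i * ev p a ∂σ n) ∧
  (∀ (j k : ℕ) (p q : MP n), HH j p → HH k q → j ≠ k → ∫ a, ev p a * ev q a ∂σ n = 0) ∧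
  (∀ (j : ℕ) (p q : MP n), HH j p → HH j q →
    ∫ a, ∑ i, ev (pderiv i p) a * ev (pderiv i q) a ∂σ n =
      j * (n + 2 * j - 2) * ∫ a, ev p a * ev q a ∂σ n) ∧
  ∀ u v : E n, ∫ a, ⟪a, u⟫ * ⟪a, v⟫ ∂σ n = ⟪u, v⟫ / n

/-- Fischer decomposition -/
def Fis : Prop := ∀ n : ℕ, 0 < n →
  (∀ (l k : ℕ) (h : MP n), HH l h →
    lap (r2 n ^ (k + 1) * h) = (2 * ((k : ℝ) + 1) * (n + 2 * l + 2 * k)) • (r2 n ^ k * h)) ∧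
  ∀ (m : ℕ) (p : MP n), p.IsHomogeneous m → ∃ h : ℕ → MP n, (∀ k, HH (m - 2 * k) (h k)) ∧
    p = ∑ k ∈ Finset.range (m / 2 + 1), r2 n ^ k * h k

/-- orthonormal families in one degree -/
def ONB : Prop := ∀ n j : ℕ, 0 < n → ∃ (L : ℕ) (P : Fin L → MP n), (∀ i, HH j (P i)) ∧
  (∀ i k, ∫ a, ev (P i) a * ev (P k) a ∂σ n = if i = k then 1 / (n : ℝ) else 0) ∧
  ∀ p, HH j p → ∃ d : Fin L → ℝ, p = ∑ i, d i • P i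

def HBex : Prop := ∀ n m : ℕ, 2 ≤ n → Odd m → Nonempty (HB n m)

def Kap : Prop := ∀ (n : ℕ) (v : E n), 2 ≤ n → ‖v‖ = 1 → ∫ a, |⟪a, v⟫| ∂σ n = c1 n

def Mom : Prop := ∀ n : ℕ, 2 ≤ n →
  (∀ (m : ℕ) (v : E n), ‖v‖ = 1 → ∫ a, ⟪a, v⟫ ^ m ∂σ n = mom n m) ∧
  (∀ (m : ℕ) (v : E n), ‖v‖ = 1 → ∫ a, |⟪a, v⟫| ^ m ∂σ n = amom n m) ∧
  (∀ m : ℕ, 0 < amom n m ∧ amom n (m + 1) ≤ amom n m ∧ (Even m → mom n m = amom n m)) ∧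
  (n * c1 n) ^ 2 ≤ t0sq n

/-- the step of the Funk-Hecke recursions -/
def FHs : Prop := ∀ (n j : ℕ) (k : ℝ) (F : E n → ℝ) (p : MP n), 0 < n → LL F → Hom k F →
  HH j p → (n + k + j - 2) * j * ∫ e, F e * ev p e ∂σ n =
    ∑ i, ∫ e, fderiv ℝ F e (EuclideanSpace.single i 1) * ev (pderiv i p) e ∂σ n

def FH1 : Prop := ∀ (n j m : ℕ) (p : MP n) (a : E n), 2 ≤ n → HH j p → ‖a‖ = 1 →
  ∫ e, ⟪e, a⟫ ^ m * ev p e ∂σ n = mu n (mom n) m j * ev p a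

def FH2 : Prop := ∀ (n j : ℕ) (p : MP n) (a : E n), 2 ≤ n → Odd j → HH j p → ‖a‖ = 1 →
  ∫ e, (SignType.sign ⟪e, a⟫ : ℝ) * ev p e ∂σ n = sj n j * ev p a

def KSn : Prop := ∀ n : ℕ, 4 ≤ n →
  (∀ j : ℕ, Odd j → 3 ≤ j → th n j * |sj n j| ≤ c1 n) ∧
  ∀ m j : ℕ, Odd m → Odd j → |mu n (mom n) m j| ≤ mu n (mom n) m 1

/-- a finite rank approximation of the sign kernel -/
def KS : Prop := ∀ (n m : ℕ) (β : HB n m), 4 ≤ n → Odd m → ∃ (s1 : ℝ) (sg : Fin β.L → ℝ),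
  c1 n * (m / (n + m - 1)) ≤ s1 ∧ (∀ i, th n (β.deg i) * |sg i| ≤ s1) ∧
  ∀ a b : E n, ‖a‖ = 1 → ‖b‖ = 1 →
    |n * (s1 * ⟪a, b⟫ + ∑ i, sg i * (ev (β.P i) a * ev (β.P i) b))| ≤ 1

def HBf : Prop := ∀ (n m : ℕ) (β : HB n m) (y : Fin β.L → E n), 2 ≤ n →
  (∀ u v : E n, ∫ a, ⟪β.r y a, u⟫ * ⟪a, v⟫ ∂σ n = 0) ∧
  (∀ u : E n, ∫ a, ⟪β.r y a, u⟫ ∂σ n = 0) ∧ (∀ u : E n, ∫ a, ⟪a, u⟫ ∂σ n = 0) ∧
  ∫ a, ⟪β.r y a, a⟫ ∂σ n = 0 ∧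
  ∫ a, ‖β.r y a‖ ^ 2 ∂σ n = ∑ i, ‖y i‖ ^ 2 / n ∧ ∫ a, ‖β.r y a‖ ^ 2 ∂σ n ≤ β.En y

/-- Bessel's inequality for a field of harmonics of one degree -/
def EN1 : Prop := ∀ (n l : ℕ) (R : Fin n → MP n), 2 ≤ n → 1 ≤ l → (∀ i, HH (l + 1) (R i)) →
  ∃ U V : MP n, HH (l + 2) U ∧ HH l V ∧
    (∀ a : E n, ‖a‖ = 1 → ∑ i, ev (R i) a * a i = ev U a + ev V a) ∧
    (∀ a : E n, ∑ i, ev (pderiv i (R i)) a = (n + 2 * l) * ev V a) ∧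
    (2 * l + n + 2) / (l + 2) * ∫ a, ev U a ^ 2 ∂σ n +
      (2 * l + n - 2) / (l + n - 2) * ∫ a, ev V a ^ 2 ∂σ n ≤ ∫ a, ∑ i, ev (R i) a ^ 2 ∂σ n

/-- the decomposition of the normal part and of the divergence by degrees `2 k` -/
def EN2 : Prop := ∀ (n m : ℕ) (β : HB n m) (y : Fin β.L → E n), 2 ≤ n →
  ∃ (J : ℕ) (U V : ℕ → MP n) (e : ℕ → ℝ),
    (∀ k, 1 ≤ k → HH (2 * k) (U k) ∧ HH (2 * k) (V k)) ∧ U 1 = 0 ∧ V (J + 1) = 0 ∧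
    (∀ a : E n, ‖a‖ = 1 →
      ⟪β.r y a, a⟫ = ∑ k ∈ Finset.Icc 1 (J + 1), (ev (U k) a + ev (V k) a) ∧
      β.dv y a = ∑ k ∈ Finset.Icc 1 (J + 1),
        (-(((2 * k : ℕ) : ℝ) + n - 2) * ev (U k) a + ((2 * k : ℕ) : ℝ) * ev (V k) a)) ∧
    ∫ a, ‖β.r y a‖ ^ 2 ∂σ n = ∑ k ∈ Finset.Icc 1 J, e k ∧
    β.En y = ∑ k ∈ Finset.Icc 1 J, th n (2 * k + 1) * e k ∧
    ∀ k, 1 ≤ k → (4 * k + n + 2) / (2 * k + 2) * ∫ a, ev (U (k + 1)) a ^ 2 ∂σ n +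
      (4 * k + n - 2) / (2 * k + n - 2) * ∫ a, ev (V k) a ^ 2 ∂σ n ≤ e k

/-- the energy inequality -/
def EN : Prop := ∀ (n m : ℕ) (β : HB n m) (y : Fin β.L → E n) (B1 B2 B3 b : ℝ), 2 ≤ n →
  EOK n B1 B2 B3 b →
  ∫ a, (qf B1 B2 B3 ⟪β.r y a, a⟫ (β.dv y a) + b * (‖β.r y a‖ ^ 2 - ⟪β.r y a, a⟫ ^ 2)) ∂σ n ≤
    η * β.En y

def IBr : Prop := ∀ (n m : ℕ) (β : HB n m) (y : Fin β.L → E n) (F : E n → ℝ), 0 < n → LL F →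
  Hom 0 F → ∫ a, fderiv ℝ F a (β.r y a) ∂σ n = -∫ a, F a * β.dv y a ∂σ n

def XI : Prop := ∀ (n m : ℕ) (β : HB n m) (y : Fin β.L → E n) (v : E n), 2 ≤ n →
  ∫ a, (n * ⟪a, v⟫ ^ 2 - 1) * (⟪β.r y a, a⟫ - β.dv y a / 2) ∂σ n = 0

/-! ### the volume of a convex set containing the range of a field -/

def Ball : Prop := ∀ (n m : ℕ) (β : HB n m) (y : Fin β.L → E n) (M : Set (E n)) (α : ℝ),
  2 ≤ n → 0 < α → IsClosed M → Convex ℝ M → (∀ x ∈ M, -x ∈ M) →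
  (∀ a, ‖a‖ = 1 → α • a - β.r y a ∈ M) → ∀ x, n * c1 n * ‖x‖ ≤ α → x ∈ M

def VTa : Prop := ∀ (n : ℕ) (N : E n → ℝ), 0 < n → Gau N → (∀ x, N (-x) = N x) →
  ∃ (T : ℝ) (v : E n), ‖v‖ = 1 ∧ N v = T ∧ (∀ x, N x ≤ T * ‖x‖) ∧ (∀ x, T * |⟪x, v⟫| ≤ N x) ∧
    (VN N = 1 → 1 ≤ T)

def VTb : Prop := ∀ (n : ℕ) (N : E n → ℝ) (f f' : ℝ → ℝ), 0 < n → Gau N → CD f f' →
  (∀ (m : ℕ) (β : HB n m) (y : Fin β.L → E n),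
    ∫ a, f' (N a) * (⟪gradient N a, β.r y a⟫ - N a * ⟪β.r y a, a⟫) ∂σ n =
      -∫ a, f (N a) * β.dv y a ∂σ n) ∧
  ((∀ a, ‖a‖ = 1 → 0 ≤ f (N a)) →
    ∫ a, f' (N a) * (‖gradient N a‖ ^ 2 - N a ^ 2) ∂σ n ≤ (n - 1) * ∫ a, N a * f (N a) ∂σ n)

/-- integration of a certificate -/
def VTc : Prop := ∀ (n m : ℕ) (β : HB n m) (y : Fin β.L → E n) (N : E n → ℝ) (α T : ℝ)
  (v : E n), 2 ≤ n → Gau N → VN N = 1 → Cert n α T → ‖v‖ = 1 → 0 ≤ T → (∀ x, N x ≤ T * ‖x‖) →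
  (∀ x, T * |⟪x, v⟫| ≤ N x) → (∀ a, ‖a‖ = 1 → N (α • a - β.r y a) ≤ 1) →
  α ^ 2 - 1 ≤ η * β.En y

/-- the numerical certificates -/
def NUM : Prop := ∀ (n : ℕ) (α T : ℝ), 4 ≤ n → 1 ≤ α → 1 ≤ T → (α * T) ^ 2 ≤ t0sq n → Cert n α T

def VS : Prop := ∀ (n m : ℕ) (β : HB n m) (y : Fin β.L → E n) (M : Set (E n)), 4 ≤ n →
  IsCompact M → Convex ℝ M → (∀ x ∈ M, -x ∈ M) → (∀ a, ‖a‖ = 1 → a + β.r y a ∈ M) →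
  β.En y ≤ 1 → (1 - η * β.En y) ^ n ≤ (vol M / kappa n) ^ 2

/-- the energy after normalising the linear part -/
noncomputable def HB.en {n m : ℕ} (β : HB n m) (w : Fin n ⊕ Fin β.L → E n) : ℝ :=
  β.En fun i => mv (lin w)⁻¹ (w (.inr i))

def VD : Prop := ∀ (n m : ℕ) (β : HB n m) (w : Fin n ⊕ Fin β.L → E n) (M : Set (E n)), 4 ≤ n →
  IsCompact M → Convex ℝ M → (∀ x ∈ M, -x ∈ M) → (∀ a, ‖a‖ = 1 → β.W w a ∈ M) →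
  (lin w).det ≠ 0 → β.en w ≤ 1 → (lin w).det ^ 2 * (1 - η * β.en w) ^ n ≤ (vol M / kappa n) ^ 2

/-! ### linear algebra and duality -/

def LA1 : Prop := ∀ (n : ℕ) (A B : Matrix (Fin n) (Fin n) ℝ), A.PosDef → (B - A).PosSemidef →
  B.PosDef ∧ A.det ≤ B.det

def LA2 : Prop := ∀ (n : ℕ) (S : Matrix (Fin n) (Fin n) ℝ), 0 < n → S.PosSemidef →
  S.det ≤ (S.trace / n) ^ n

def LA3 : Prop := ∀ (n m : ℕ) (β : HB n m) (w : Fin n ⊕ Fin β.L → E n), 2 ≤ n →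
  (gram β.gs w).PosDef → (lin w).det ≠ 0 ∧ 0 ≤ β.en w ∧ β.en w ≤ 1 ∧
    (gram β.gs w).det ≤ (lin w).det ^ 2 * (1 - β.en w) ^ n

/-- sublinear and bounded -/
structure SubL {n : ℕ} {J : Type} [Fintype J] (H : (J → E n) → ℝ) : Prop where
  add : ∀ w w', H (w + w') ≤ H w + H w'
  smul : ∀ t : ℝ, 0 ≤ t → ∀ w, H (t • w) = t * H w
  bdd : ∃ C : ℝ, ∀ w, H w ≤ C * ‖w‖

/-- existence of a maximiser of the determinant -/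
def MM1 : Prop := ∀ (n : ℕ) (J : Type) [Fintype J] (g : J → ℝ) (H : (J → E n) → ℝ)
  (q0 : J → E n), SubL H → (∀ w, pair q0 w ≤ H w) → (gram g q0).PosDef →
  ∃ q, (∀ w, pair q w ≤ H w) ∧ (gram g q).PosDef ∧
    ∀ q', (∀ w, pair q' w ≤ H w) → (gram g q').PosDef → (gram g q').det ≤ (gram g q).det

/-- the first order condition -/
def MM2 : Prop := ∀ (n : ℕ) (J : Type) [Fintype J] (g : J → ℝ) (q q' : J → E n),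
  (gram g q).PosDef →
  (∀ t : ℝ, 0 < t → t < 1 → (gram g (q + t • (q' - q))).PosDef →
    (gram g (q + t • (q' - q))).det ≤ (gram g q).det) →
  pair q' (fun j => g j • mv (gram g q)⁻¹ (q j)) ≤ n

def MM : Prop := ∀ (n : ℕ) (J : Type) [Fintype J] (g : J → ℝ) (H : (J → E n) → ℝ)
  (q0 : J → E n), SubL H → (∀ w, pair q0 w ≤ H w) → (gram g q0).PosDef →
  ∃ q, (∀ w, pair q w ≤ H w) ∧ (gram g q).PosDef ∧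
    H (fun j => g j • mv (gram g q)⁻¹ (q j)) ≤ n

/-- the convex set with support function `hW` -/
def HB.MW {n m : ℕ} (β : HB n m) (w : Fin n ⊕ Fin β.L → E n) : Set (E n) :=
  {x | ∀ ν, ⟪x, ν⟫ ≤ β.hW w ν}

structure HWs {n m : ℕ} (β : HB n m) : Prop where
  le : ∀ w b ν, ‖b‖ = 1 → ⟪β.W w b, ν⟫ ≤ β.hW w ν
  lub : ∀ w ν c, (∀ b, ‖b‖ = 1 → ⟪β.W w b, ν⟫ ≤ c) → β.hW w ν ≤ c
  cont : ∀ w, Continuous (β.hW w)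
  nonneg : ∀ w ν, 0 ≤ β.hW w ν
  add : ∀ w w' ν, β.hW (w + w') ν ≤ β.hW w ν + β.hW w' ν
  smul : ∀ (t : ℝ) w ν, 0 ≤ t → β.hW (t • w) ν = t * β.hW w ν
  bdd : ∃ C : ℝ, 0 ≤ C ∧ ∀ w ν, β.hW w ν ≤ C * ‖w‖ * ‖ν‖
  cpt : ∀ w, IsCompact (β.MW w)
  cvx : ∀ w, Convex ℝ (β.MW w)
  symm : ∀ w, ∀ x ∈ β.MW w, -x ∈ β.MW w

def HW : Prop := ∀ (n m : ℕ) (β : HB n m), 0 < n → HWs β

def HS : Prop := ∀ (n m : ℕ) (β : HB n m) (N : E n → ℝ), 2 ≤ n → Gau N →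
  SubL (fun w => SA N (β.hW w)) ∧ ∃ q0 : Fin n ⊕ Fin β.L → E n,
    (∀ w, pair q0 w ≤ SA N (β.hW w)) ∧ (gram (fun j => (β.gs j)⁻¹) q0).PosDef

/-! ### projections -/

def Fub : Prop := ∀ (n : ℕ) (u : E n) (f : E n → ℝ≥0∞), ‖u‖ = 1 → Measurable f →
  ∫⁻ x, f x = ∫⁻ y : (ℝ ∙ u)ᗮ, ∫⁻ t : ℝ, f (y.1 + t • u)

def Cyl : Prop := ∀ (n : ℕ) (K : Set (E n)) (u : E n) (a b : ℝ), ‖u‖ = 1 → IsCompact K →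
  Convex ℝ K → a ≤ b → vol (stretch K u a b) = vol K + (b - a) * projVol K u

def Str : Prop := ∀ (n : ℕ) (K : Set (E n)) (u : E n) (a b : ℝ), ‖u‖ = 1 → IsCompact K →
  a ≤ b → (∀ x ∈ K, a ≤ ⟪x, u⟫ ∧ ⟪x, u⟫ ≤ b) → vol K ≤ (b - a) * projVol K u

def PB : Prop := ∀ (n : ℕ) (u : E n), ‖u‖ = 1 →
  projVol (closedBall 0 1) u = kappa (n - 1) ∧
  ∀ a b r : ℝ, a ≤ b → 0 ≤ r → IsCompact (cyl u a b r) ∧ Convex ℝ (cyl u a b r) ∧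
    vol (cyl u a b r) = (b - a) * (r ^ (n - 1) * kappa (n - 1))

def PBf : Prop := ∀ (n : ℕ) (K : Set (E n)), IsCompact K →
  IsCompact (projBody K) ∧ Convex ℝ (projBody K) ∧ (∀ x ∈ projBody K, -x ∈ projBody K) ∧
  ∀ x : E n, projBody ((fun y => x + y) '' K) = projBody K

def F1 : Prop := ∀ (n : ℕ) (N : E n → ℝ) (u : E n), 0 < n → Gau N → ‖u‖ = 1 →
  SA N (fun ν => |⟪u, ν⟫|) ≤ 2 * projVol (Kb N) u / (n * kappa n)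

def Ell : Prop := ∀ (n : ℕ) (K : Set (E n)), 0 < n → IsEllipsoid K →
  vol (projBody K) = kappa (n - 1) ^ n * (vol K / kappa n) ^ (n - 1) * kappa n

/-! ### Minkowski's inequality -/

def F2 : Prop := ∀ (n : ℕ) (N h : E n → ℝ) (M : Set (E n)), 0 < n → Gau N → IsCompact M →
  Continuous h → (∀ ν, 0 ≤ h ν) → (∀ x ∈ M, ∀ ν, ⟪x, ν⟫ ≤ h ν) →
  ∃ C : ℝ, ∀ t : ℝ, 0 ≤ t → t ≤ 1 →
    vol (mix t (Kb N) M) ≤ kappa n * (VN N + t * (n * (SA N h - VN N)) + C * t ^ 2)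

def MinkH : Prop := ∀ (n : ℕ) (N h : E n → ℝ) (M : Set (E n)), 0 < n → Gau N → IsCompact M →
  Continuous h → (∀ ν, 0 ≤ h ν) → (∀ x ∈ M, ∀ ν, ⟪x, ν⟫ ≤ h ν) →
  (∀ t : ℝ, 0 ≤ t → t ≤ 1 →
    vol (mix t (Kb N) M) ≤ vol (Kb N) * exp (t * (n * (SA N h / VN N - 1)))) ∧
  VN N ^ (n - 1) * (vol M / kappa n) ≤ SA N h ^ n

/-! ### the main chain -/

def Core0 : Prop := ∀ (n m : ℕ) (β : HB n m) (N : E n → ℝ) (q : Fin n ⊕ Fin β.L → E n),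
  4 ≤ n → Odd m → Gau N → (∀ w, pair q w ≤ SA N (β.hW w)) →
  ∃ (c : ℝ) (y : Fin n ⊕ Fin β.L → E n), n * kappa (n - 1) * (m / (n + m - 1)) ≤ c ∧
    (∀ a, ‖a‖ = 1 → β.W y a ∈ projBody (Kb N)) ∧
    (gram β.gs y - c ^ 2 • gram (fun j => (β.gs j)⁻¹) q).PosSemidef

def Core1 : Prop := ∀ (n m : ℕ) (N : E n → ℝ), 4 ≤ n → Odd m → Gau N →
  ∃ (β : HB n m) (w : Fin n ⊕ Fin β.L → E n), (gram β.gs w).PosDef ∧ SA N (β.hW w) ≤ n ∧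
    (n * kappa (n - 1) * (m / (n + m - 1))) ^ (2 * n) ≤
      (gram β.gs w).det * (vol (projBody (Kb N)) / kappa n) ^ 2

def Core2 : Prop := ∀ (n m : ℕ) (β : HB n m) (N : E n → ℝ) (w : Fin n ⊕ Fin β.L → E n),
  4 ≤ n → Gau N → (gram β.gs w).PosDef → SA N (β.hW w) ≤ n →
  VN N ^ (2 * (n - 1)) * ((lin w).det ^ 2 * (1 - η * β.en w) ^ n) ≤ (n : ℝ) ^ (2 * n)

def MI : Prop := ∀ (n : ℕ) (N : E n → ℝ), 4 ≤ n → Gau N →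
  kappa (n - 1) ^ n * VN N ^ (n - 1) * kappa n ≤ vol (projBody (Kb N))

/-! ### the equality case -/

def EqC1 : Prop := ∀ (n : ℕ) (δ : ℝ), 2 ≤ n → 0 < δ → ∃ ε : ℝ, 0 < ε ∧
  ∀ (m : ℕ) (β : HB n m) (y : Fin β.L → E n) (ν : E n) (c : ℝ), β.En y ≤ ε →
    (∀ b, ‖b‖ = 1 → ⟪b + β.r y b, ν⟫ ≤ c) → (1 - δ) * ‖ν‖ ≤ c

def EqC2 : Prop := ∀ (n : ℕ) (N : E n → ℝ) (δ : ℝ), 4 ≤ n → Gau N → 0 < δ →
  vol (projBody (Kb N)) ≤ kappa (n - 1) ^ n * VN N ^ (n - 1) * kappa n →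
  ∃ A : Matrix (Fin n) (Fin n) ℝ, |A.det| = 1 ∧
    SA N (fun ν => ‖mv A ν‖) ^ n ≤ (1 + δ) * VN N ^ (n - 1)

def EqC3 : Prop := ∀ (n : ℕ) (N : E n → ℝ) (c : ℝ), 0 < n → Gau N →
  (∀ δ : ℝ, 0 < δ → ∃ A : Matrix (Fin n) (Fin n) ℝ, |A.det| = 1 ∧
    SA N (fun ν => ‖mv A ν‖) ^ n ≤ (1 + δ) * c) →
  ∃ A : Matrix (Fin n) (Fin n) ℝ, |A.det| = 1 ∧ SA N (fun ν => ‖mv A ν‖) ^ n ≤ c

/-- a strict gain in thin slabs -/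
def EqB1 : Prop := ∀ (n : ℕ) (ρ ρ' θ : ℝ), 0 < ρ' → ρ' < ρ → 0 < θ → θ < 1 → ∃ δ : ℝ, 0 < δ ∧
  ∀ (u : E n) (z1 z2 s : ℝ) (X : Set (E n)), ‖u‖ = 1 → -ρ' ≤ z1 → z1 < z2 → z2 ≤ ρ' →
    z2 - z1 ≤ δ → IsCompact X → Convex ℝ X →
    (∀ x ∈ X, s ≤ ⟪x, u⟫ ∧ ⟪x, u⟫ ≤ s + θ * (z2 - z1)) →
    vol X = vol (slab (closedBall 0 ρ) u z1 z2) →
    vol X < vol (mix (1 / 2) X (slab (closedBall 0 ρ) u z1 z2))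

/-- equality passes to slabs -/
def EqB2 : Prop := ∀ (n : ℕ) (K B : Set (E n)) (u : E n) (g1 g2 z1 z2 : ℝ), ‖u‖ = 1 →
  IsCompact K → IsCompact B → vol K = vol B → vol (mix (1 / 2) K B) ≤ vol K →
  g1 ≤ g2 → z1 ≤ z2 → vol (below K u g1) = vol (below B u z1) →
  vol (below K u g2) = vol (below B u z2) →
  vol (slab K u g1 g2) = vol (slab B u z1 z2) ∧
    vol (mix (1 / 2) (slab K u g1 g2) (slab B u z1 z2)) ≤ vol (slab K u g1 g2)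

/-- distribution functions -/
def Qt : Prop := ∀ (n : ℕ) (u : E n), ‖u‖ = 1 →
  (∀ (K : Set (E n)) (c : ℝ), IsCompact K → 0 ≤ c → c ≤ vol K → ∃ g, vol (below K u g) = c) ∧
  ∀ ρ z1 z2 : ℝ, -ρ < z1 → z1 < z2 → z2 < ρ →
    vol (below (closedBall 0 ρ) u z1) < vol (below (closedBall 0 ρ) u z2)

/-- `K` is at least as spread out as the ball -/
def Spread {n : ℕ} (K : Set (E n)) (ρ : ℝ) : Prop :=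
  ∀ (u : E n) (g1 g2 z1 z2 : ℝ), ‖u‖ = 1 → -ρ < z1 → z1 < z2 → z2 < ρ →
    vol (below K u g1) = vol (below (closedBall 0 ρ) u z1) →
    vol (below K u g2) = vol (below (closedBall 0 ρ) u z2) → z2 - z1 ≤ g2 - g1

def EqB3 : Prop := ∀ (n : ℕ) (K : Set (E n)) (ρ : ℝ), 0 < ρ → IsCompact K → Convex ℝ K →
  vol K = vol (closedBall (0 : E n) ρ) → vol (mix (1 / 2) K (closedBall 0 ρ)) ≤ vol K →
  Spread K ρ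

def EqB4 : Prop := ∀ (n : ℕ) (K : Set (E n)) (ρ : ℝ) (u : E n) (c : ℝ), 0 < ρ → IsCompact K →
  vol K = vol (closedBall (0 : E n) ρ) → Spread K ρ → ‖u‖ = 1 → (∀ x ∈ K, ⟪x, u⟫ ≤ c) →
  ∫ x in K, ⟪x, u⟫ ≤ (c - ρ) * vol K

def EqB : Prop := ∀ (n : ℕ) (K : Set (E n)) (ρ : ℝ), 0 < ρ → IsCompact K → Convex ℝ K →
  vol K = vol (closedBall (0 : E n) ρ) → vol (mix (1 / 2) K (closedBall 0 ρ)) ≤ vol K →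
  ∃ x, K = closedBall x ρ

def EqD : Prop := ∀ (n : ℕ) (N : E n → ℝ) (A : Matrix (Fin n) (Fin n) ℝ), 0 < n → Gau N →
  |A.det| = 1 → SA N (fun ν => ‖mv A ν‖) ^ n ≤ VN N ^ (n - 1) → IsEllipsoid (Kb N)

end Vale.Agent.P237
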