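import Vale.Agent.P237.Stmts

namespace Vale.Agent.P237

open MeasureTheory Metric Real Set
open scoped RealInnerProductSpace

namespace TBall

theorem kap (h3 : Kap) {n : ℕ} (hn : 2 ≤ n) (x : E n) : ∫ a, |⟪a, x⟫| ∂σ n = c1 n * ‖x‖ := by
  rcases eq_or_ne x 0 with rfl | hx
  · simp
  have hx' : 0 < ‖x‖ := norm_pos_iff.2 hx
  have h := h3 n (‖x‖⁻¹ • x) hn (by rw [norm_smul, norm_inv, norm_norm, inv_mul_cancel₀ hx'.ne'])
  simp only [inner_smul_right, abs_mul, abs_inv, abs_norm] at h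
  rw [integral_const_mul] at h
  rw [← h]
  field_simp

theorem r_cont {n m : ℕ} (β : HB n m) (y : Fin β.L → E n) : Continuous (β.r y) := by
  unfold HB.r
  exact continuous_finsetSum _ fun i _ => (ev_cont _).smul continuous_const

end TBall

theorem ball_ (h1 : PI) (h2 : HBf) (h3 : Kap) : Ball := by
  intro n m β y M α hn hα hM hconv hsym hin x hx
  by_contra hxM
  have hn0 : 0 < n := by omega
  have hn' : (0 : ℝ) < n := by exact_mod_cast hn0
  obtain ⟨f, u, hf, hu⟩ := geometric_hahn_banach_closed_point hconv hM hxM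
  obtain ⟨ν, rfl⟩ := (InnerProductSpace.toDual ℝ (E n)).surjective f
  simp only [InnerProductSpace.toDual_apply_apply] at hf hu
  have hab : ∀ b ∈ M, |⟪ν, b⟫| ≤ u := fun b hb => by
    have e1 := hf b hb
    have e2 := hf _ (hsym b hb)
    rw [inner_neg_right] at e2
    exact abs_le.2 ⟨by linarith, e1.le⟩
  have hu0 : 0 ≤ u := by
    have := σ_prob hn0
    obtain ⟨a, ha⟩ := (σ_ae (n := n)).exists
    exact (abs_nonneg _).trans (hab _ (hin a ha))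
  have hr := TBall.r_cont β y
  have i1 : Integrable (fun a : E n => ⟪a, ν⟫ * ⟪a, x⟫) (σ n) := (BM.of_cont (by fun_prop)).int
  have i2 : Integrable (fun a : E n => ⟪β.r y a, ν⟫ * ⟪a, x⟫) (σ n) :=
    (BM.of_cont (by fun_prop)).int
  have i3 : Integrable (fun a : E n => |⟪a, x⟫|) (σ n) := (BM.of_cont (by fun_prop)).int
  have e1 : ∫ a, (α * (⟪a, ν⟫ * ⟪a, x⟫) - ⟪β.r y a, ν⟫ * ⟪a, x⟫) ∂σ n = α * (⟪ν, x⟫ / n) := by
    rw [integral_sub (i1.const_mul α) i2, integral_const_mul, (h1 n hn).2.2.2,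
      (h2 n m β y hn).1, sub_zero]
  have e2 : ∫ a, (α * (⟪a, ν⟫ * ⟪a, x⟫) - ⟪β.r y a, ν⟫ * ⟪a, x⟫) ∂σ n ≤
      ∫ a, u * |⟪a, x⟫| ∂σ n := by
    refine integral_mono_ae ((i1.const_mul α).sub i2) (i3.const_mul u) ?_
    filter_upwards [σ_ae (n := n)] with a ha
    have e3 := hab _ (hin a ha)
    rw [inner_sub_right, inner_smul_right, real_inner_comm, real_inner_comm (β.r y a)] at e3
    calc α * (⟪a, ν⟫ * ⟪a, x⟫) - ⟪β.r y a, ν⟫ * ⟪a, x⟫
        = (α * ⟪a, ν⟫ - ⟪β.r y a, ν⟫) * ⟪a, x⟫ := by ring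
      _ ≤ |(α * ⟪a, ν⟫ - ⟪β.r y a, ν⟫) * ⟪a, x⟫| := le_abs_self _
      _ ≤ u * |⟪a, x⟫| := by rw [abs_mul]; gcongr
  rw [e1, integral_const_mul, TBall.kap h3 hn, ← mul_div_assoc, div_le_iff₀ hn'] at e2
  have e4 : u * (n * c1 n * ‖x‖) ≤ u * α := mul_le_mul_of_nonneg_left hx hu0
  have e5 : α * u < α * ⟪ν, x⟫ := mul_lt_mul_of_pos_left hu hα
  nlinarith

end Vale.Agent.P237
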