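import Vale.Agent.P237.Stmts

/-! The range of a field with small energy is almost the ball. -/

namespace Vale.Agent.P237

open MeasureTheory Metric Real Set
open scoped RealInnerProductSpace

namespace TEqC1

theorem pt {n k : ℕ} {a r v : E n} {s c γ : ℝ} (ha : ‖a‖ = 1) (hv : ‖v‖ = 1) (hs : 0 ≤ s)
    (hγ : 0 < γ) (h : |⟪a + r, s • v⟫| ≤ c) :
    s * (⟪a, v⟫ ^ (2 * k + 2) - γ / 2 - 1 / (2 * γ) * ‖r‖ ^ 2) ≤ c * |⟪a, v⟫| ^ (2 * k + 1) := by
  have h1 : |⟪a, v⟫| ≤ 1 := by simpa [ha, hv] using abs_real_inner_le_norm a v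
  have h2 : |⟪r, v⟫| ≤ ‖r‖ := by simpa [hv] using abs_real_inner_le_norm r v
  have h3 : |⟪a, v⟫ ^ (2 * k + 1) * ⟪r, v⟫| ≤ ‖r‖ := by
    rw [abs_mul, abs_pow]
    exact (mul_le_of_le_one_left (abs_nonneg _) (pow_le_one₀ (abs_nonneg _) h1)).trans h2
  have h4 : ‖r‖ ≤ γ / 2 + 1 / (2 * γ) * ‖r‖ ^ 2 := by
    have : γ / 2 + 1 / (2 * γ) * ‖r‖ ^ 2 - ‖r‖ = (γ - ‖r‖) ^ 2 / (2 * γ) := by
      field_simp; ring
    have h0 : 0 ≤ (γ - ‖r‖) ^ 2 / (2 * γ) := by positivity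
    linarith
  have h5 : ⟪a, v⟫ ^ (2 * k + 1) * ⟪a + r, s • v⟫ ≤ c * |⟪a, v⟫| ^ (2 * k + 1) := by
    refine (le_abs_self _).trans ?_
    rw [abs_mul, abs_pow, mul_comm]
    exact mul_le_mul_of_nonneg_right h (by positivity)
  refine le_trans ?_ h5
  rw [real_inner_smul_right, inner_add_left, mul_left_comm]
  refine mul_le_mul_of_nonneg_left ?_ hs
  rw [pow_succ, mul_add]
  linarith [neg_abs_le (⟪a, v⟫ ^ (2 * k + 1) * ⟪r, v⟫)]

end TEqC1

theorem eqC1 (h1 : Mom) (h2 : HBf) : EqC1 := by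
  intro n δ hn hδ
  obtain ⟨m1, m2, m3, -⟩ := h1 n hn
  have n0 : 0 < n := by omega
  have := σ_prob n0
  have := nontriv n0
  obtain ⟨k, hk⟩ := exists_nat_ge (n / δ)
  rw [div_le_iff₀ hδ] at hk
  have a0 := (m3 (2 * k + 1)).1
  obtain ⟨γ, hγ⟩ : ∃ γ, γ = δ / 2 * amom n (2 * k + 1) := ⟨_, rfl⟩
  have γ0 : 0 < γ := by rw [hγ]; positivity
  have hm : (1 - δ / 2) * amom n (2 * k + 1) ≤ mom n (2 * k + 2) := by
    have n1 : (0 : ℝ) < n := by exact_mod_cast n0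
    rw [mom, (m3 (2 * k)).2.2 (even_two_mul k), le_div_iff₀ (by positivity), mul_right_comm]
    push_cast
    refine mul_le_mul ?_ (m3 (2 * k)).2.1 a0.le (by positivity)
    nlinarith [mul_pos hδ n1]
  refine ⟨γ ^ 2, by positivity, fun m β y ν c hy hc => ?_⟩
  obtain ⟨v, hv, e⟩ : ∃ v : E n, ‖v‖ = 1 ∧ ν = ‖ν‖ • v := by
    rcases eq_or_ne ν 0 with rfl | h0
    · obtain ⟨v, hv⟩ := exists_norm_eq (E n) zero_le_one
      exact ⟨v, hv, by simp⟩
    · exact ⟨‖ν‖⁻¹ • ν, norm_smul_inv_norm h0, by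
        rw [smul_smul, mul_inv_cancel₀ (norm_ne_zero_iff.2 h0), one_smul]⟩
  have hr := β.r_cont y
  have i1 : Integrable (fun a : E n => ⟪a, v⟫ ^ (2 * k + 2)) (σ n) := (BM.of_cont (by fun_prop)).int
  have i2 : Integrable (fun a : E n => ‖β.r y a‖ ^ 2) (σ n) := (BM.of_cont (by fun_prop)).int
  have i3 : Integrable (fun a : E n => |⟪a, v⟫| ^ (2 * k + 1)) (σ n) :=
    (BM.of_cont (by fun_prop)).int
  have key := integral_mono_ae (((i1.sub (integrable_const (γ / 2))).sub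
    (i2.const_mul (1 / (2 * γ)))).const_mul ‖ν‖) (i3.const_mul c)
    (σ_ae.mono fun a ha => TEqC1.pt ha hv (norm_nonneg ν) γ0 (by
      rw [← e]
      have h := hc (-a) (by rwa [norm_neg])
      rw [β.r_neg, ← neg_add, inner_neg_left] at h
      exact abs_le.2 ⟨by linarith, hc a ha⟩))
  rw [integral_const_mul, integral_const_mul, integral_sub' (i1.sub (integrable_const _))
    (i2.const_mul _), integral_sub' i1 (integrable_const _), integral_const_mul, m1 _ v hv,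
    m2 _ v hv, integral_const, probReal_univ, one_smul] at key
  have h3 : 1 / (2 * γ) * ∫ a, ‖β.r y a‖ ^ 2 ∂σ n ≤ γ / 2 :=
    (mul_le_mul_of_nonneg_left ((h2 n m β y hn).2.2.2.2.2.trans hy) (by positivity)).trans
      (le_of_eq (by field_simp))
  refine le_of_mul_le_mul_right (le_trans ?_ key) a0
  rw [mul_right_comm, mul_comm]
  exact mul_le_mul_of_nonneg_left (by linarith) (norm_nonneg ν)

end Vale.Agent.P237
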