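import Vale.Agent.P237.THBf

/-! A finite rank approximation of the sign kernel. -/

namespace Vale.Agent.P237

open MeasureTheory Metric Real Set MvPolynomial
open scoped RealInnerProductSpace

namespace TKS

open THBf

variable {n m : ℕ}

/-- integrate the expansion against a bounded function -/
theorem expand (β : HB n m) {a c : E n} {d : Fin β.L → ℝ}
    (h : ∀ e, ‖e‖ = 1 → ev (lf a ^ m) e = ⟪c, e⟫ + ∑ i, d i * ev (β.P i) e) {g : E n → ℝ}
    (hg : BM g) : ∫ e, ⟪e, a⟫ ^ m * g e ∂σ n =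
      ∫ e, g e * ⟪e, c⟫ ∂σ n + ∑ i, d i * ∫ e, ev (β.P i) e * g e ∂σ n := by
  simp only [← integral_const_mul]
  rw [← integral_finsetSum _ fun i _ => ((ev_bm _).mul hg).int.const_mul _,
    ← integral_add (hg.mul (LL.inner c).bm).int
      (integrable_finsetSum _ fun i _ => ((ev_bm _).mul hg).int.const_mul _)]
  refine integral_congr_ae (σ_ae.mono fun e he => ?_)
  have := h e he
  rw [ev_pow, ev_lf] at this
  simp only [this, add_mul, Finset.sum_mul, mul_assoc, real_inner_comm c e, mul_comm (g e)]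

theorem main (h1 : PI) (h3 : FH1) (h4 : FH2) (β : HB n m) (hn : 2 ≤ n) {a b : E n} (ha : ‖a‖ = 1)
    (hb : ‖b‖ = 1) : ∫ e, ⟪e, a⟫ ^ m * (SignType.sign ⟪e, b⟫ : ℝ) ∂σ n =
      n * (c1 n * mu n (mom n) m 1 * ⟪a, b⟫ + ∑ i, mu n (mom n) m (β.deg i) * sj n (β.deg i) *
        (ev (β.P i) a * ev (β.P i) b)) := by
  have hn' : (n : ℝ) ≠ 0 := by exact_mod_cast (by omega : n ≠ 0)
  obtain ⟨c, d, h⟩ := β.span (lf a ^ m) (by simpa using (lf_hh a).1.pow m)
  have t3 : ∀ i, β.deg i ≠ 1 := fun i => by have := β.three i; omega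
  have hd : ∀ k, d k = n * (mu n (mom n) m (β.deg k) * ev (β.P k) a) := fun k => by
    have e := expand β h (ev_bm (β.P k))
    rw [h3 n _ m _ a hn (β.hh k) ha, orth1 h1 hn (β.hh k) (t3 k)] at e
    simp only [β.orth, mul_ite, mul_zero, Finset.sum_ite_eq', Finset.mem_univ, if_true] at e
    rw [e]; field_simp; ring
  have hc : ⟪b, c⟫ = n * (mu n (mom n) m 1 * ⟪a, b⟫) := by
    have e := expand β h (ev_bm (lf b))
    rw [h3 n _ m _ a hn (lf_hh b) ha] at e
    simp only [ev_lf, (h1 n hn).2.2.2, orth1 h1 hn (β.hh _) (t3 _), mul_zero,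
      Finset.sum_const_zero] at e
    rw [e]; field_simp; ring
  have e := expand β h (BM.sign (LL.inner b).meas)
  have e1 := h4 n 1 _ b hn odd_one (lf_hh c) hb
  simp only [ev_lf] at e1
  have e2 : ∀ i, ∫ e, ev (β.P i) e * (SignType.sign ⟪e, b⟫ : ℝ) ∂σ n =
      sj n (β.deg i) * ev (β.P i) b := fun i => by
    simpa only [mul_comm] using h4 n _ _ b hn (β.odd i) (β.hh i) hb
  rw [e, e1, hc, mul_add, Finset.mul_sum, sj]
  congr 1
  · ring
  · exact Finset.sum_congr rfl fun i _ => by rw [e2, hd]; ring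

end TKS

open TKS in
theorem ks (h1 : PI) (h2 : Mom) (h3 : FH1) (h4 : FH2) (h5 : KSn) : KS := by
  intro n m β hn hm
  have hn2 : 2 ≤ n := by omega
  obtain ⟨-, m2, m3, -⟩ := h2 n hn2
  obtain ⟨k1, k2⟩ := h5 n hn
  have hc := c1_pos (n := n) (by omega)
  have hA := (m3 m).1
  refine ⟨c1 n * mu n (mom n) m 1 / amom n m,
    fun i => mu n (mom n) m (β.deg i) * sj n (β.deg i) / amom n m, ?_, fun i => ?_,
    fun a b ha hb => ?_⟩
  · obtain ⟨k, rfl⟩ := hm
    have h6 := m3 (2 * k)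
    have h7 : (0 : ℝ) < n + (2 * k : ℕ) := by
      have : (0 : ℝ) < n := by exact_mod_cast (by omega : 0 < n)
      positivity
    rw [mul_div_assoc]
    refine mul_le_mul_of_nonneg_left ?_ hc.le
    have h8 : mu n (mom n) (2 * k + 1) 1 =
        ((2 * k : ℕ) + 1) * mom n (2 * k) / (n + (0 : ℕ) + (2 * k : ℕ)) := by simp only [mu]
    rw [le_div_iff₀ hA, h8, h6.2.2 (even_two_mul k)]
    have e : ((n : ℝ) + (2 * k + 1 : ℕ) - 1) = n + (0 : ℕ) + (2 * k : ℕ) := by push_cast; ring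
    rw [e, div_mul_eq_mul_div]
    refine div_le_div_of_nonneg_right ?_ (by simpa using h7.le)
    rw [Nat.cast_add_one]
    exact mul_le_mul_of_nonneg_left h6.2.1 (by positivity)
  · rw [abs_div, abs_of_pos hA, abs_mul, ← mul_div_assoc]
    refine div_le_div_of_nonneg_right ?_ hA.le
    rw [mul_comm |mu n (mom n) m (β.deg i)|, ← mul_assoc]
    exact (mul_le_mul_of_nonneg_right (k1 _ (β.odd i) (β.three i)) (abs_nonneg _)).trans
      (mul_le_mul_of_nonneg_left (k2 m _ hm (β.odd i)) hc.le)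
  · have e := main h1 h3 h4 β hn2 ha hb
    have e2 : (n : ℝ) * (c1 n * mu n (mom n) m 1 / amom n m * ⟪a, b⟫ +
        ∑ i, mu n (mom n) m (β.deg i) * sj n (β.deg i) / amom n m *
          (ev (β.P i) a * ev (β.P i) b)) =
        (∫ e, ⟪e, a⟫ ^ m * (SignType.sign ⟪e, b⟫ : ℝ) ∂σ n) / amom n m := by
      simp only [e, div_mul_eq_mul_div, ← Finset.sum_div]
      ring
    rw [e2, abs_div, abs_of_pos hA, div_le_one hA, ← m2 m a ha]
    refine abs_integral_le_integral_abs.trans (integral_mono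
      (((LL.inner a).bm.pow m).mul (BM.sign (LL.inner b).meas)).abs.int
      ((LL.inner a).bm.abs.pow m).int fun e => ?_)
    simp only [abs_mul, abs_pow]
    refine mul_le_of_le_one_right (by positivity) ?_
    simp only [sign_apply]
    split_ifs <;> simp

end Vale.Agent.P237
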