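import Vale.Agent.P237.NStmts

namespace Vale.Agent.P237

namespace TNCellA

theorem dual {p q r : ℝ} (hp : 0 < p) (hd : 0 < p * r - q ^ 2) (x y u v : ℝ) :
    u * x + v * y ≤ qf (r / (p * r - q ^ 2)) (-q / (p * r - q ^ 2)) (p / (p * r - q ^ 2)) x y / 2 +
      qf p q r u v / 2 := by
  have h : qf (r / (p * r - q ^ 2)) (-q / (p * r - q ^ 2)) (p / (p * r - q ^ 2)) x y / 2 +
      qf p q r u v / 2 - (u * x + v * y) =
      ((p * (y - (q * u + r * v)) - q * (x - (p * u + q * v))) ^ 2 +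
        (p * r - q ^ 2) * (x - (p * u + q * v)) ^ 2) / (2 * p * (p * r - q ^ 2)) := by
    unfold qf
    obtain ⟨d, hd'⟩ : ∃ d, d = p * r - q ^ 2 := ⟨_, rfl⟩
    rw [← hd'] at hd ⊢
    field_simp
    rw [hd']
    ring
  have h2 : 0 ≤ ((p * (y - (q * u + r * v)) - q * (x - (p * u + q * v))) ^ 2 +
      (p * r - q ^ 2) * (x - (p * u + q * v)) ^ 2) / (2 * p * (p * r - q ^ 2)) := by positivity
  linarith

theorem cd_comb {f f' g g' : ℝ → ℝ} (hf : CD f f') (hg : CD g g') (a : ℝ) :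
    CD (fun y => a * f y + g y) (fun y => a * f' y + g' y) :=
  ⟨(continuous_const.mul hf.1).add hg.1, fun s => ((hf.2 s).const_mul a).add (hg.2 s)⟩

theorem cd_lin (a b : ℝ) : CD (fun y => a + b * y) (fun _ => b) :=
  ⟨continuous_const, fun s => by simpa using ((hasDerivAt_id s).const_mul b).const_add a⟩

theorem hinge {n : ℕ} {tab : ℕ → ℤ} (h : HT n tab) : ∀ L : List (ℕ × ℕ), ∃ k k' : ℝ → ℝ,
    CD k k' ∧ ∀ y : ℝ, 0 ≤ y → y ≤ 1 → tsum tab L / 1048576 ^ 2 + Zf n k k' y ≤ hin L y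
  | [] => ⟨_, _, cd_lin 0 0, fun y _ _ => by simp [tsum, hin, Zf]⟩
  | l :: L => by
    obtain ⟨k, k', h1, h2⟩ := hinge h L
    obtain ⟨g, g', h3, h4⟩ := h l.1
    refine ⟨_, _, cd_comb h3 h1 ((l.2 : ℝ) / 1048576), fun y h0 hy => ?_⟩
    have e1 := h2 y h0 hy
    have e2 := mul_le_mul_of_nonneg_left (h4 y h0 hy)
      (show (0 : ℝ) ≤ (l.2 : ℝ) / 1048576 by positivity)
    simp only [tsum, hin, Zf] at e1 e2 ⊢
    push_cast
    linarith

theorem mult (c : Cell) {tab : ℕ → ℤ} (hn : 2 ≤ c.n) (h : HT c.n tab)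
    (hc : c.cL * (c.n * (c.n + 2)) * 1048576 ≤
      (c.l0 * (c.n + 2) - 3 * c.ka) * 1048576 + c.n * (c.n + 2) * tsum tab c.lam) :
    ∃ k k' : ℝ → ℝ, CD k k' ∧
      ∀ y : ℝ, 0 ≤ y → y ≤ 1 → c.cL / 1048576 + Zf c.n k k' y ≤ c.Lam y := by
  obtain ⟨k, k', h1, h2⟩ := hinge h c.lam
  have hn' : (2 : ℝ) ≤ c.n := by exact_mod_cast hn
  have hc' : (c.cL : ℝ) * (c.n * (c.n + 2)) * 1048576 ≤
      (c.l0 * (c.n + 2) - 3 * c.ka) * 1048576 + c.n * (c.n + 2) * tsum tab c.lam := by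
    exact_mod_cast hc
  refine ⟨_, _, cd_comb (cd_lin (-(c.l0 / c.n) + 3 * c.ka / (c.n * (c.n + 2)))
    (c.ka / (c.n + 2))) h1 (1 / 1048576), fun y h0 hy => ?_⟩
  have e1 := h2 y h0 hy
  have e2 : (c.cL : ℝ) / 1048576 ≤ (c.l0 / c.n - 3 * c.ka / (c.n * (c.n + 2))) / 1048576 +
      tsum tab c.lam / 1048576 ^ 2 := by
    have e : ((c.l0 : ℝ) / c.n - 3 * c.ka / (c.n * (c.n + 2))) / 1048576 +
        tsum tab c.lam / 1048576 ^ 2 = ((c.l0 * (c.n + 2) - 3 * c.ka) * 1048576 +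
          c.n * (c.n + 2) * tsum tab c.lam) / (1048576 ^ 2 * (c.n * (c.n + 2))) := by
      field_simp
    rw [e, div_le_div_iff₀ (by positivity) (by positivity)]
    nlinarith
  have e3 : (1 - c.n * y) * (-((c.l0 : ℝ) / c.n) + 3 * c.ka / (c.n * (c.n + 2)) +
      c.ka / (c.n + 2) * y) + 2 * y * (1 - y) * (c.ka / (c.n + 2)) =
      c.l0 * y - c.ka * y ^ 2 - (c.l0 / c.n - 3 * c.ka / (c.n * (c.n + 2))) := by
    field_simp
    ring
  simp only [Zf, Cell.Lam] at e1 ⊢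
  linarith

theorem t0sq_eq (n : ℕ) : t0sq n = tnum n / (tden n * 1048576 ^ 4) := by
  unfold t0sq tnum tden
  push_cast
  field_simp
  norm_num

theorem tden_pos (n : ℕ) : (0 : ℝ) < tden n := by
  unfold tden
  push_cast
  positivity

end TNCellA

open TNCellA

theorem nCellA (h1 : NRun) (h2 : NEok) : NCellA := by
  intro c tab hn hT hok α T ha1 ha2 hT1 hT2 _
  simp only [Cell.okA, Bool.and_eq_true, decide_eq_true_eq] at hok
  obtain ⟨⟨hd, hsg, hTq, hc11, hdet, he, hc⟩, hrun⟩ := hok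
  obtain ⟨w1, w2, Ψ, χ, φ, a, u, v, P, c1, c2, c3, hfin, hgood, -, -⟩ := h1 c _ hd hrun
  obtain ⟨k, k', c4, hk⟩ := mult c hn hT hc
  have hE := h2 _ _ _ _ _ hn he
  have hib : (0 : ℝ) < c.ib := by
    rcases Nat.eq_zero_or_pos c.ib with h | h
    · have := he.1
      rw [h] at this
      simp at this
    · exact_mod_cast h
  have hc11' : (0 : ℝ) < c.c11 := by exact_mod_cast hc11
  have hdet' : (0 : ℝ) < c.c11 * c.c22 - c.c12 ^ 2 := by
    unfold Cell.det at hdet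
    exact_mod_cast hdet
  have ha : (c.T2 : ℝ) ≤ a := by exact_mod_cast Nat.le_of_ble_eq_true hfin
  refine ⟨w1, w2, Ψ, χ, φ, k, k', c.mu / 1048576, c.f0 / 1048576, c.xi / 1048576,
    c.c11 / 1048576, c.c12 / 1048576, c.c22 / 1048576, _, _, _, _, c1, c2, c4, c3, hE,
    fun x y u v => ?_, fun s p y hs hsT hp hpT hy0 hy1 hy => ?_⟩
  · have hD : (c.c11 : ℝ) / 1048576 * (c.c22 / 1048576) - (c.c12 / 1048576) ^ 2 =
        (c.c11 * c.c22 - c.c12 ^ 2) / 1048576 ^ 2 := by ring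
    have := dual (p := c.c11 / 1048576) (q := c.c12 / 1048576) (r := c.c22 / 1048576)
      (by positivity) (by rw [hD]; positivity) x y u v
    rw [hD] at this
    convert this using 3 <;> (unfold Cell.det; push_cast; field_simp)
  · have hT0 : 0 ≤ T := hs.le.trans hsT
    have q1 : T ^ 2 ≤ (c.T2 / 1048576) ^ 2 := by gcongr
    have q2 : ((c.T1 : ℝ) / 1048576) ^ 2 ≤ T ^ 2 := by gcongr
    obtain ⟨g1, g2, g3⟩ := hgood s hs (hsT.trans (hT2.trans (by gcongr)))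
    refine ⟨g1, g2, ?_⟩
    have g4 := g3 α p y ha1 ha2 hp (by rw [hsg, hTq]; push_cast; linarith) hy0 hy1
      (le_trans (mul_le_mul_of_nonneg_right (by dsimp only; linarith) hy0) hy)
      (le_trans (mul_le_mul_of_nonneg_right q2 hy0) hy)
    have g5 := hk y hy0 hy1
    have g6 : w2 s ^ 2 * p / (2 * ((1048576 / c.ib : ℚ) : ℝ)) =
        w2 s ^ 2 * p * (c.ib / 1048576) / 2 := by
      push_cast
      field_simp
    simp only [Cell.Φ] at g4
    rw [g6]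
    linarith

theorem nTree (h : NCellA) : NTree := by
  intro n tab hn hT t
  induction t with
  | leaf c =>
    intro a1 a2 T1 T2 hok α T e1 e2 e3 e4 e5
    simp only [Tree.ok, Bool.and_eq_true, decide_eq_true_eq] at hok
    obtain ⟨⟨rfl, b1, b2, b3, b4⟩, hok⟩ := hok
    exact h c tab hn hT hok α T (le_trans (by gcongr) e1) (e2.trans (by gcongr))
      (le_trans (by gcongr) e3) (e4.trans (by gcongr)) e5
  | top c =>
    intro a1 a2 T1 T2 hok α T e1 e2 e3 e4 e5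
    simp only [Tree.ok, Bool.and_eq_true, decide_eq_true_eq] at hok
    obtain ⟨⟨rfl, b1, b2, b3, b4, b5⟩, hok⟩ := hok
    refine h c tab hn hT hok α T (le_trans (by gcongr) e1) (e2.trans (by gcongr))
      (le_trans (by gcongr) e3) ?_ e5
    by_contra hlt
    rw [not_le] at hlt
    have b4' : (0 : ℝ) < a1 / 1048576 := by positivity
    have b5' : (tnum c.n : ℝ) ≤ tden c.n * (a1 * c.T2) ^ 2 := by exact_mod_cast b5
    have hT2 : (0 : ℝ) ≤ c.T2 / 1048576 := by positivity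
    have q1 : (a1 : ℝ) / 1048576 * (c.T2 / 1048576) < α * T :=
      lt_of_lt_of_le (mul_lt_mul_of_pos_left hlt b4')
        (mul_le_mul_of_nonneg_right e1 (hT2.trans hlt.le))
    have q2 : ((a1 : ℝ) / 1048576 * (c.T2 / 1048576)) ^ 2 < (α * T) ^ 2 := by gcongr
    have q0 : (0 : ℝ) < tden c.n * 1048576 ^ 4 := mul_pos (tden_pos _) (by norm_num)
    rw [t0sq_eq, le_div_iff₀ q0] at e5
    have q3 := mul_lt_mul_of_pos_right q2 q0
    have q4 : ((a1 : ℝ) / 1048576 * (c.T2 / 1048576)) ^ 2 * (tden c.n * 1048576 ^ 4) =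
        tden c.n * (a1 * c.T2) ^ 2 := by ring
    linarith
  | out =>
    intro a1 a2 T1 T2 hok α T e1 e2 e3 e4 e5
    simp only [Tree.ok, decide_eq_true_eq] at hok
    exfalso
    have b5' : (tnum n : ℝ) < tden n * (a1 * T1) ^ 2 := by exact_mod_cast hok
    have hα : 0 ≤ α := le_trans (by positivity) e1
    have q2 : ((a1 : ℝ) / 1048576 * (T1 / 1048576)) ^ 2 ≤ (α * T) ^ 2 := by gcongr
    have q0 : (0 : ℝ) < tden n * 1048576 ^ 4 := mul_pos (tden_pos _) (by norm_num)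
    rw [t0sq_eq, le_div_iff₀ q0] at e5
    have q3 := mul_le_mul_of_nonneg_right q2 q0.le
    have q4 : ((a1 : ℝ) / 1048576 * (T1 / 1048576)) ^ 2 * (tden n * 1048576 ^ 4) =
        tden n * (a1 * T1) ^ 2 := by ring
    linarith
  | A m l r ihl ihr =>
    intro a1 a2 T1 T2 hok
    simp only [Tree.ok, Bool.and_eq_true] at hok
    exact (ihl _ _ _ _ hok.1).splitA (ihr _ _ _ _ hok.2)
  | T m l r ihl ihr =>
    intro a1 a2 T1 T2 hok
    simp only [Tree.ok, Bool.and_eq_true] at hok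
    exact (ihl _ _ _ _ hok.1).splitT (ihr _ _ _ _ hok.2)

end Vale.Agent.P237
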