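import Vale.Agent.P237.NStmts

/-! Cells for all large dimensions. -/

namespace Vale.Agent.P237

namespace TNCellB

theorem t0_le {n : ℕ} (hn : 32 ≤ n) : t0sq n ≤ 71 / 100 * n := by
  have h : (32 : ℝ) ≤ n := by exact_mod_cast hn
  rw [t0sq, div_le_iff₀ (by positivity)]
  obtain ⟨m, hm, e⟩ : ∃ m : ℝ, 0 ≤ m ∧ (n : ℝ) = m + 32 := ⟨n - 32, by linarith, by ring⟩
  rw [e]
  nlinarith [pow_nonneg hm 2, pow_nonneg hm 3, pow_nonneg hm 4]

theorem pow_step {x : ℝ} (hx : 0 < x) (n : ℕ) : (n + 1) * (x ^ n - 1) ≤ n * (x ^ (n + 1) - 1) := by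
  induction n with
  | zero => simp
  | succ n ih =>
    have h2 : 0 ≤ ((n : ℝ) + 1) * (x ^ n * (x - 1) ^ 2) := by positivity
    push_cast
    rw [pow_succ x (n + 1)]
    rw [pow_succ x n] at ih ⊢
    linarith

theorem pow_mono {x : ℝ} (hx : 0 < x) {n : ℕ} (hn : 32 ≤ n) :
    x ^ 32 - 1 ≤ 32 / n * (x ^ n - 1) := by
  induction n, hn using Nat.le_induction with
  | base => norm_num
  | succ n hn ih =>
    have h : (32 : ℝ) ≤ n := by exact_mod_cast hn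
    refine ih.trans ?_
    have := pow_step hx n
    push_cast
    rw [div_mul_eq_mul_div, div_mul_eq_mul_div, div_le_div_iff₀ (by linarith) (by linarith)]
    nlinarith

theorem conc {A B a1 a2 α : ℝ} (h1 : a1 ≤ α) (h2 : α ≤ a2) (e1 : 0 ≤ A + B * a1 - a1 ^ 2 / 2)
    (e2 : 0 ≤ A + B * a2 - a2 ^ 2 / 2) : 0 ≤ A + B * α - α ^ 2 / 2 := by
  rcases eq_or_lt_of_le (h1.trans h2) with h | h
  · rwa [le_antisymm h2 (h ▸ h1)]
  · by_contra hc
    nlinarith [mul_nonneg (sub_nonneg.2 h2) e1, mul_nonneg (sub_nonneg.2 h1) e2,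
      mul_nonneg (mul_nonneg (sub_nonneg.2 h1) (sub_nonneg.2 h2)) (sub_nonneg.2 h.le),
      mul_pos (sub_pos.2 h) (neg_pos.2 (not_le.1 hc))]

theorem tail {n W s a α f ib Tq T p μ C x : ℝ} (hn : 32 ≤ n) (hW : 0 ≤ W) (hs : a ≤ s)
    (hα : 0 ≤ α) (hf : 0 ≤ f) (hf' : f ≤ 2 * W * a) (hib : 4 ≤ 96 * ib)
    (hT : 32 / n * T ^ 2 ≤ Tq) (hp : p ≤ T ^ 2 - s ^ 2) (hμ : 0 ≤ μ) (hx : 0 ≤ x)
    (h : 0 ≤ (-W + 1 / 2 - C / 2 - W ^ 2 * Tq * ib / 2 - μ) + W * a * α - α ^ 2 / 2) :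
    (α ^ 2 - 1) / 2 ≤ W * (α * s - 1) - (4 / (3 * n) * (W * s - f) ^ 2 + C) / 2 -
      W ^ 2 * (32 / n * p) * ib / 2 + μ * (32 / n) * (x - 1) := by
  have g5 : 0 ≤ 32 / n := by positivity
  have hi : 0 ≤ ib := by linarith
  have m5 := mul_le_mul_of_nonneg_left hs (mul_nonneg hW hα)
  have m6 : 4 / (3 * n) ≤ 32 / n * ib := by
    rw [div_mul_eq_mul_div, div_le_div_iff₀ (by positivity) (by positivity)]; nlinarith
  have m7 : (W * s - f) ^ 2 ≤ (W * s) ^ 2 := by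
    have : f ≤ 2 * (W * s) := by nlinarith [mul_le_mul_of_nonneg_left hs hW]
    nlinarith
  have m8 := mul_le_mul m6 m7 (sq_nonneg _) (by positivity)
  have m9 : W ^ 2 * ib * (32 / n * (p + s ^ 2)) ≤ W ^ 2 * ib * Tq :=
    mul_le_mul_of_nonneg_left ((mul_le_mul_of_nonneg_left (by linarith) g5).trans hT)
      (by positivity)
  have m10 : 0 ≤ μ * (32 / n) * x := by positivity
  have m11 := mul_le_mul_of_nonneg_left (div_le_one_of_le₀ hn (by linarith)) hμ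
  linarith

theorem tq {n : ℕ} {a α T q : ℝ} (hn : 32 ≤ n) (ha : 0 < a) (a1 : a / 1048576 ≤ α)
    (hT : (α * T) ^ 2 ≤ t0sq n) (h : 2272 * 1048576 ^ 4 ≤ 100 * q * a ^ 2) :
    32 / n * T ^ 2 ≤ q / 1048576 ^ 2 := by
  have hn' : (32 : ℝ) ≤ n := by exact_mod_cast hn
  have g1 : (a / 1048576) ^ 2 * T ^ 2 ≤ 71 / 100 * n := by
    refine le_trans ?_ (hT.trans (t0_le hn))
    rw [mul_pow]
    gcongr
  rw [div_mul_eq_mul_div, div_le_iff₀ (by linarith)]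
  refine le_of_mul_le_mul_left ?_ (pow_pos ha 2)
  linarith [mul_le_mul_of_nonneg_right h (by linarith : (0 : ℝ) ≤ n)]

theorem dual {n c : ℝ} (hn : 0 < n) (hc : 0 < c) (x y u v : ℝ) : u * x + v * y ≤
    qf (3 * n / 4) 0 (1048576 / c) x y / 2 + qf (4 / (3 * n)) 0 (c / 1048576) u v / 2 := by
  have g1 : 0 ≤ 3 * n / 4 * (x - 4 / (3 * n) * u) ^ 2 := by positivity
  have g2 : 0 ≤ 1048576 / c * (y - c / 1048576 * v) ^ 2 := by positivity
  have g3 : qf (3 * n / 4) 0 (1048576 / c) x y / 2 +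
      qf (4 / (3 * n)) 0 (c / 1048576) u v / 2 - (u * x + v * y) =
      (3 * n / 4 * (x - 4 / (3 * n) * u) ^ 2 + 1048576 / c * (y - c / 1048576 * v) ^ 2) / 2 := by
    unfold qf; field_simp; ring
  linarith

theorem tl {c : Cell} {a A : ℕ} {v P : Z} (h : c.tl a (v.p - v.m) (P.p - P.m) A) :
    0 ≤ (-(v.v / 1048576) + 1 / 2 - c.c22 / 1048576 * (P.v / (2 * 1048576 ^ 2)) ^ 2 / 2 -
      (v.v / 1048576) ^ 2 * (c.Tq / 1048576 ^ 2) * (c.ib / 1048576) / 2 - c.mu / 1048576) +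
      v.v / 1048576 * (a / 1048576) * (A / 1048576) - ((A : ℝ) / 1048576) ^ 2 / 2 := by
  have : (c.c22 : ℝ) * P.v ^ 2 + 4 * c.ib * v.v ^ 2 * c.Tq + 8 * 1048576 ^ 4 * c.mu +
      4 * 1048576 ^ 3 * ((A : ℝ) ^ 2 - 1048576 ^ 2) ≤
      8 * 1048576 ^ 2 * v.v * (A * a - 1048576 ^ 2) := by
    rw [← Z.v_int, ← Z.v_int]; exact_mod_cast h
  linarith

end TNCellB

open TNCellB in
theorem nCellB (h1 : NRun) (h2 : NEokB) : NCellB := by
  intro c hc n α T hn a1 a2 hT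
  rw [Cell.okB, Bool.and_eq_true, decide_eq_true_eq] at hc
  obtain ⟨⟨hd, e1, e2, e3, e4, e5, e6, e7, e8, e9, e10, e11, e12, e13, e14⟩, hr⟩ := hc
  obtain ⟨w1, w2, Ψ, χ, φ, a, u, v, P, k1, -, k3, k4, k5, k6, k7⟩ := h1 c _ hd hr
  rw [decide_eq_true_eq] at k4
  obtain ⟨t1, t2, t3, t4, t5⟩ := k4
  obtain ⟨x1, x2, x3, x4⟩ := hd.2.1 e2
  have hn' : (32 : ℝ) ≤ n := by exact_mod_cast hn
  have f8 : (4194304 : ℝ) ≤ 96 * c.c11 := by exact_mod_cast e8
  have f9 : (4194304 : ℝ) ≤ 96 * c.ib := by exact_mod_cast e9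
  have f10 : (0 : ℝ) < c.c22 := by exact_mod_cast e10
  have f11 : (26214400 : ℝ) * (128 * c.ib + c.c22) ≤ 768 * c.c22 * c.ib := by exact_mod_cast e11
  have f12 : (0 : ℝ) ≤ c.f0 := by exact_mod_cast e12
  have f13 : (0 : ℝ) < c.a1 := by exact_mod_cast e13
  have f14 : (2272 : ℝ) * 1048576 ^ 4 ≤ 100 * c.Tq * c.a1 ^ 2 := by exact_mod_cast e14
  have hib : (0 : ℝ) < c.ib := by linarith
  have hT2 := tq hn f13 a1 hT f14
  have z : CD (fun _ => 0) (fun _ => 0) := ⟨continuous_const, fun s => hasDerivAt_const s 0⟩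
  refine ⟨w1, w2, Ψ, fun _ => 0, fun _ => 0, fun _ => 0, fun _ => 0, c.mu / 1048576 * (32 / n),
    c.f0 / 1048576, 0, 4 / (3 * n), 0, c.c22 / 1048576, 3 * n / 4, 0, 1048576 / c.c22,
    1048576 / (32 * c.ib) * n, k1, z, z, k3, h2 n _ _ hn (by positivity) (by positivity) ?_,
    fun x y u v => ?_, fun s p y s0 sT p0 pT y0 y1 _ => ?_⟩
  · rw [← mul_div_assoc, div_add_div _ _ f10.ne' (by positivity), div_le_iff₀ (by positivity)]
    linarith
  · exact dual (by linarith) f10 x y u v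
  have g4 : ∀ w : ℝ, w ^ 2 * p / (2 * (1048576 / (32 * c.ib) * n)) =
      w ^ 2 * (32 / n * p) * (c.ib / 1048576) / 2 := fun w => by field_simp
  have g5 : 0 ≤ 32 / (n : ℝ) := by positivity
  have g6 : (0 : ℝ) ≤ c.mu / 1048576 := by positivity
  simp only [g4, qf, Zf, le_refl, true_and]
  rcases le_total s (a / 1048576) with hs | hs
  · obtain ⟨m1, -, m3⟩ := k5 s s0 hs
    have m4 := m3 α (32 / n * p) 0 a1 a2 (by positivity) (by
      rw [e3]; nlinarith [mul_nonneg g5 (sq_nonneg s), mul_le_mul_of_nonneg_left pT g5]) le_rfl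
      zero_le_one (by simpa using sq_nonneg s) (by simpa using sq_nonneg s)
    refine ⟨m1, ?_⟩
    simp only [Cell.Φ, Cell.Lam, qf, x1, x2, x3, x4, e1, e4, e5, hin, (k7 e6 e7 s).1,
      (k7 e6 e7 s).2] at m4
    have m5 := mul_le_mul_of_nonneg_left (pow_mono (inv_pos.2 s0) hn) g6
    have m6 : 4 / (3 * (n : ℝ)) ≤ c.c11 / 1048576 := by
      rw [div_le_div_iff₀ (by positivity) (by positivity)]; nlinarith
    have m7 := mul_le_mul_of_nonneg_right m6 (sq_nonneg ((w1 s + w2 s) * s - c.f0 / 1048576))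
    push_cast at m4
    linarith
  · obtain ⟨m1, m2, m3⟩ := k6 s hs
    have u0 : u.v = 0 := by rw [← Z.v_int, t1]; simp
    have v0 : 0 ≤ v.v := by rw [← Z.v_int]; exact_mod_cast t2
    have v1 : c.f0 * 1048576 ≤ 2 * v.v * a := by rw [← Z.v_int]; exact_mod_cast t3
    have m4 := conc a1 a2 (tl t4) (tl t5)
    rw [u0] at m1 m3
    rw [m1, m2, m3]
    have m5 := tail (f := c.f0 / 1048576) (x := s⁻¹ ^ n) hn' (by positivity) hs
      (le_trans (by positivity) a1) (by positivity) (by linarith) (by linarith) hT2 pT g6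
      (by positivity) m4
    exact ⟨by positivity, by linarith⟩

end Vale.Agent.P237
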