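import Vale.Agent.P237.NStmts

/-! The energy conditions from finitely many inequalities. -/

namespace Vale.Agent.P237

namespace TNEok

theorem psd {X Y Z : ℝ} (hX : 0 ≤ X) (hY : 0 ≤ Y) (h : Z ^ 2 ≤ X * Y) (U V : ℝ) :
    0 ≤ X * U ^ 2 + 2 * Z * U * V + Y * V ^ 2 := by
  rcases hX.eq_or_lt with rfl | hX
  · obtain rfl : Z = 0 := by nlinarith
    simpa using mul_nonneg hY (sq_nonneg V)
  · refine le_of_mul_le_mul_left ?_ hX
    nlinarith [sq_nonneg (X * U + Z * V), mul_nonneg (sub_nonneg.2 h) (sq_nonneg V)]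

theorem core {n B1 B2 B3 b k t1 t2 : ℝ} (hk : 0 < k) (hm : 0 < k + n - 2)
    (h1 : 0 ≤ ep1 n B1 B2 B3 b k t1) (h2 : 0 ≤ ep2 n B1 B2 B3 b k t2)
    (h3 : k * (k + n - 2) * ea n B1 B2 B3 b k ^ 2 ≤ ep1 n B1 B2 B3 b k t1 * ep2 n B1 B2 B3 b k t2)
    (U V : ℝ) : qf B1 B2 B3 (U + V) (-(k + n - 2) * U + k * V) ≤
      (t1 - b) * ((2 * k + n - 2) / k) * U ^ 2 +
      (t2 - b) * ((2 * k + n - 2) / (k + n - 2)) * V ^ 2 + b * (U + V) ^ 2 := by
  have := psd (div_nonneg h1 hk.le) (div_nonneg h2 hm.le) (Z := ea n B1 B2 B3 b k) (by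
    rw [div_mul_div_comm, le_div_iff₀ (mul_pos hk hm)]; linarith) U V
  have e1 : ep1 n B1 B2 B3 b k t1 / k = (t1 - b) * ((2 * k + n - 2) / k) +
      (b - B1 + 2 * B2 * (k + n - 2) - B3 * (k + n - 2) ^ 2) := by
    rw [ep1]; field_simp
  have e2 : ep2 n B1 B2 B3 b k t2 / (k + n - 2) = (t2 - b) * ((2 * k + n - 2) / (k + n - 2)) +
      (b - B1 - 2 * B2 * k - B3 * k ^ 2) := by
    rw [ep2]; field_simp
  rw [e1, e2, ea] at this
  rw [qf]
  linarith

theorem newton {f : ℝ → ℝ} (h : newtf f) (i : ℕ)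
    (e : f (6 + i) = f 6 + i * (f 7 - f 6) + i * (i - 1) / 2 * (f 8 - 2 * f 7 + f 6) +
      i * (i - 1) * (i - 2) / 6 * (f 9 - 3 * f 8 + 3 * f 7 - f 6)) : 0 ≤ f (6 + i) := by
  obtain ⟨h0, h1, h2, h3⟩ := h
  have a1 : (0 : ℝ) ≤ i * (i - 1) := by
    rcases i with _ | i
    · simp
    · push_cast; rw [add_sub_cancel_right]; positivity
  have a2 : (0 : ℝ) ≤ i * (i - 1) * (i - 2) := by
    rcases i with _ | _ | i
    · simp
    · simp
    · refine mul_nonneg a1 ?_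
      push_cast; linarith [i.cast_nonneg (α := ℝ)]
  rw [e]
  have b1 := mul_nonneg (i.cast_nonneg (α := ℝ)) (sub_nonneg.2 h1)
  have b2 := mul_nonneg a1 (show 0 ≤ f 8 - 2 * f 7 + f 6 by linarith)
  have b3 := mul_nonneg a2 (show 0 ≤ f 9 - 3 * f 8 + 3 * f 7 - f 6 by linarith)
  linarith

theorem th_eq {n j : ℕ} (hj : j ≠ 3) : η * th n j = eth (n : ℝ) j := by
  rw [th, if_neg hj, η, eth]; ring

theorem real {n : ℕ} {B1 B2 B3 b : ℝ} (hn : 2 ≤ n) (h : eok (n : ℝ) B1 B2 B3 b) :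
    EOK n B1 B2 B3 b := by
  obtain ⟨h1, h2, h3, h4, h5, h6, h7, h8, h9, h10⟩ := h
  have hn' : (2 : ℝ) ≤ n := by exact_mod_cast hn
  refine ⟨h1, h2, by rw [η, qf]; linarith, fun k hk U V => ?_⟩
  rcases hk with rfl | hk
  · have e1 : η * th n (4 - 1) = 1999 / 2000 * (n + 1) := by simp [η, th]
    have e2 : η * th n (4 + 1) = eth (n : ℝ) 5 := by simpa using th_eq (n := n) (j := 5) (by omega)
    rw [e1, e2]
    exact core (k := (4 : ℕ)) (by norm_num) (by push_cast; linarith) (by simpa using h4)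
      (by simpa using h5) (by push_cast; linarith) U V
  · obtain ⟨i, rfl⟩ := Nat.exists_eq_add_of_le hk
    have hi : (0 : ℝ) ≤ i := i.cast_nonneg
    have f1 := newton h7 i (by simp only [ef1, ep1, ea, eth]; ring)
    have f2 := newton h8 i (by simp only [ef1, ep1, ea, eth]; ring)
    have f3 := newton h9 i (by simp only [ef2, ep2, ea, eth]; ring)
    have f4 := newton h10 i (by simp only [ef2, ep2, ea, eth]; ring)
    rw [th_eq (by omega), th_eq (by omega), Nat.cast_pred (by omega)]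
    push_cast
    simp only [ef1, ef2] at f1 f2 f3 f4
    generalize eth (n : ℝ) (6 + i - 1) = t1 at f1 f2 ⊢
    generalize eth (n : ℝ) (6 + i + 1) = t2 at f3 f4 ⊢
    have hk : (0 : ℝ) < 6 + i := by linarith
    have hm : (0 : ℝ) < 6 + i + n - 2 := by linarith
    have g1 : (6 + i) * |ea (n : ℝ) B1 B2 B3 b (6 + i)| ≤ ep1 (n : ℝ) B1 B2 B3 b (6 + i) t1 := by
      rcases abs_cases (ea (n : ℝ) B1 B2 B3 b (6 + i)) with h | h <;> rw [h.1] <;> linarith
    have g2 : (6 + i + n - 2) * |ea (n : ℝ) B1 B2 B3 b (6 + i)| ≤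
        ep2 (n : ℝ) B1 B2 B3 b (6 + i) t2 := by
      rcases abs_cases (ea (n : ℝ) B1 B2 B3 b (6 + i)) with h | h <;> rw [h.1] <;> linarith
    have p1 : 0 ≤ (6 + i) * |ea (n : ℝ) B1 B2 B3 b (6 + i)| := by positivity
    have p2 : 0 ≤ (6 + i + n - 2) * |ea (n : ℝ) B1 B2 B3 b (6 + i)| := by positivity
    refine core hk hm (p1.trans g1) (p2.trans g2) ?_ U V
    refine le_trans (le_of_eq ?_) (mul_le_mul g1 g2 p2 (p1.trans g1))
    rw [← sq_abs]; ring

end TNEok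

open TNEok in
theorem nEok : NEok := by
  intro n B1 B2 B3 b hn h
  refine real hn ?_
  simp only [eok, newtf, newt, ef1, ef2, ep1, ep2, ea, eth, ← Rat.cast_le (K := ℝ),
    ← Rat.cast_lt (K := ℝ)] at h ⊢
  push_cast at h
  exact h

end Vale.Agent.P237
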