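import Vale.Agent.P237.TNEok

/-! The energy conditions in large dimensions and the certificate for large parameters. -/

namespace Vale.Agent.P237

namespace TNEokB

open TNEok

theorem four4 {n B3 b : ℝ} (hn : 32 ≤ n) (h3 : 0 ≤ B3) (hb : 0 < b) (h : 4 * B3 + b ≤ 24 / 25) :
    0 ≤ ep1 n (3 * n / 4) 0 B3 (b * n) 4 (1999 / 2000 * (n + 1)) ∧
    0 ≤ ep2 n (3 * n / 4) 0 B3 (b * n) 4 (eth n 5) ∧
    4 * (4 + n - 2) * ea n (3 * n / 4) 0 B3 (b * n) 4 ^ 2 ≤
      ep1 n (3 * n / 4) 0 B3 (b * n) 4 (1999 / 2000 * (n + 1)) *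
        ep2 n (3 * n / 4) 0 B3 (b * n) 4 (eth n 5) := by
  have a1 : 4 * (98 / 10000 * n ^ 2) ≤
      ep1 n (3 * n / 4) 0 B3 (b * n) 4 (1999 / 2000 * (n + 1)) := by
    have := mul_le_mul_of_nonneg_right h (sq_nonneg (n + 2))
    have := mul_pos hb (show 0 < n + 2 by linarith)
    rw [ep1]
    nlinarith
  have a2 : (4 + n - 2) * (n ^ 2 / 4) ≤ ep2 n (3 * n / 4) 0 B3 (b * n) 4 (eth n 5) := by
    have e1 : b * n ≤ n := by nlinarith
    have e2 : B3 * n ≤ n := by nlinarith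
    have e3 : 0 ≤ n * n * n := by positivity
    rw [ep2, eth]
    nlinarith
  have a3 : ea n (3 * n / 4) 0 B3 (b * n) 4 ^ 2 ≤ n ^ 2 := by
    have e1 := mul_le_mul_of_nonneg_right h (show 0 ≤ n by linarith)
    have e2 : 0 ≤ b * n := by positivity
    have e3 : 0 ≤ B3 * n := by positivity
    rw [ea]
    exact sq_le_sq' (by nlinarith) (by nlinarith)
  have p1 : 0 ≤ 4 * (98 / 10000 * n ^ 2) := by positivity
  have p0 : 0 ≤ 4 + n - 2 := by linarith
  have p2 : 0 ≤ (4 + n - 2) * (n ^ 2 / 4) := by positivity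
  refine ⟨p1.trans a1, p2.trans a2, le_trans ?_ (mul_le_mul a1 a2 p2 (p1.trans a1))⟩
  refine (mul_le_mul_of_nonneg_left a3 (by positivity)).trans ?_
  have : 1 ≤ 98 / 40000 * n ^ 2 := by nlinarith
  nlinarith [mul_le_mul_of_nonneg_left this (show 0 ≤ 4 * (4 + n - 2) * n ^ 2 by positivity)]

theorem six {n B3 b k : ℝ} (hn : 32 ≤ n) (h3 : 0 ≤ B3) (hb : 0 < b) (h : 4 * B3 + b ≤ 24 / 25)
    (hk : 6 ≤ k) :
    0 ≤ ep1 n (3 * n / 4) 0 B3 (b * n) k (eth n (k - 1)) ∧
    0 ≤ ep2 n (3 * n / 4) 0 B3 (b * n) k (eth n (k + 1)) ∧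
    k * (k + n - 2) * ea n (3 * n / 4) 0 B3 (b * n) k ^ 2 ≤
      ep1 n (3 * n / 4) 0 B3 (b * n) k (eth n (k - 1)) *
        ep2 n (3 * n / 4) 0 B3 (b * n) k (eth n (k + 1)) := by
  obtain ⟨m, hm⟩ : ∃ m, m = k + n - 2 := ⟨_, rfl⟩
  have hm1 : 36 ≤ m := by linarith
  have hk0 : 0 < k := by linarith
  have hm0 : 0 < m := by linarith
  have hkm : 0 < k * m := by positivity
  have t1 : 17 / 10 * (k * m) ≤ eth n (k - 1) := by
    have := mul_le_mul (mul_le_mul (show 33 ≤ n + 1 by linarith) (show 5 / 6 * k ≤ k - 1 by linarith)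
      (by positivity) (by linarith)) (show 35 / 36 * m ≤ k - 1 + n - 2 by linarith) (by positivity)
      (mul_nonneg (by linarith) (by linarith))
    rw [eth]
    nlinarith
  have t2 : 2 * (k * m) ≤ eth n (k + 1) := by
    have := mul_le_mul (mul_le_mul (show 33 ≤ n + 1 by linarith) (show k ≤ k + 1 by linarith)
      (by positivity) (by linarith)) (show m ≤ k + 1 + n - 2 by linarith) (by positivity)
      (mul_nonneg (by linarith) (by linarith))
    rw [eth]
    nlinarith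
  have b1 : b * n ≤ m := by nlinarith
  have b2 : B3 ≤ 6 / 25 := by linarith
  have b3 : 6 * m ≤ k * m := by nlinarith
  have b4 : 36 * k ≤ k * m := by nlinarith
  have b0 : 0 ≤ b * n := by positivity
  have a1 : k * m * m ≤ ep1 n (3 * n / 4) 0 B3 (b * n) k (eth n (k - 1)) := by
    have e : ep1 n (3 * n / 4) 0 B3 (b * n) k (eth n (k - 1)) =
        eth n (k - 1) * (k + m) - b * n * m - 3 / 4 * n * k - B3 * (k * m * m) := by
      rw [ep1, hm]; ring
    have c1 := mul_le_mul_of_nonneg_right t1 (show 0 ≤ k + m by positivity)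
    have c2 := mul_le_mul_of_nonneg_right b1 hm0.le
    have c3 := mul_le_mul_of_nonneg_right b2 (show 0 ≤ k * m * m by positivity)
    have c4 := mul_le_mul_of_nonneg_right b3 hm0.le
    have c5 : n * k ≤ m * k := mul_le_mul_of_nonneg_right (by linarith) hk0.le
    have c6 := mul_le_mul_of_nonneg_left hm1 hkm.le
    have c7 : 0 ≤ k * m * k := by positivity
    rw [e]
    nlinarith
  have a2 : k * m * m ≤ ep2 n (3 * n / 4) 0 B3 (b * n) k (eth n (k + 1)) := by
    have e : ep2 n (3 * n / 4) 0 B3 (b * n) k (eth n (k + 1)) =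
        eth n (k + 1) * (k + m) - b * n * k - 3 / 4 * n * m - B3 * (k * m * k) := by
      rw [ep2, hm]; ring
    have c1 := mul_le_mul_of_nonneg_right t2 (show 0 ≤ k + m by positivity)
    have c2 := mul_le_mul_of_nonneg_right b1 hk0.le
    have c3 := mul_le_mul_of_nonneg_right b2 (show 0 ≤ k * m * k by positivity)
    have c4 := mul_le_mul_of_nonneg_right b3 hm0.le
    have c5 : n * m ≤ m * m := mul_le_mul_of_nonneg_right (by linarith) hm0.le
    have c6 := mul_le_mul_of_nonneg_left hm1 hkm.le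
    have c7 : 0 ≤ k * m * k := by positivity
    rw [e]
    nlinarith
  have a3 : ea n (3 * n / 4) 0 B3 (b * n) k ^ 2 ≤ (k * m) ^ 2 := by
    have e : ea n (3 * n / 4) 0 B3 (b * n) k = b * n - 3 / 4 * n + B3 * (k * m) := by
      rw [ea, hm]; ring
    have c3 := mul_le_mul_of_nonneg_right b2 hkm.le
    have c4 : 0 ≤ B3 * (k * m) := by positivity
    rw [e]
    exact sq_le_sq' (by linarith) (by linarith)
  have p1 : 0 ≤ k * m * m := by positivity
  refine ⟨p1.trans a1, p1.trans a2, le_trans ?_ (mul_le_mul a1 a2 p1 (p1.trans a1))⟩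
  rw [← hm]
  refine (mul_le_mul_of_nonneg_left a3 hkm.le).trans ?_
  have : k ≤ m := by linarith
  nlinarith [mul_le_mul_of_nonneg_left this (show 0 ≤ (k * m) ^ 2 * m by positivity)]

theorem t0sq_le {n : ℕ} (hn : 32 ≤ n) : t0sq n ≤ 71 / 100 * n := by
  have h : (32 : ℝ) ≤ n := by exact_mod_cast hn
  rw [t0sq, div_le_iff₀ (by positivity)]
  have e1 : ((n : ℝ) + 1) * (n + 3) ≤ (n + 2) ^ 2 := by nlinarith
  have e2 : 45 * (((n : ℝ) + 1) * (n + 3)) ≤ 71 / 100 * n * 64 * (n + 4) := by nlinarith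
  have := mul_le_mul e1 e2 (by positivity) (by positivity)
  nlinarith

theorem cd0 : CD (fun _ => 0) fun _ => 0 := ⟨continuous_const, fun s => hasDerivAt_const s 0⟩

end TNEokB

open TNEok TNEokB in
theorem nEokB : NEokB := by
  intro n B3 b hn h3 hb h
  have hn' : (32 : ℝ) ≤ n := by exact_mod_cast hn
  have e0 : b * n ≤ 24 / 25 * n := by nlinarith
  refine ⟨by positivity, by rw [η]; linarith, ?_, fun k hk U V => ?_⟩
  · have e1 : B3 * n ≤ n := by nlinarith
    rw [η, qf]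
    nlinarith
  rcases hk with rfl | hk
  · have e1 : η * th n (4 - 1) = 1999 / 2000 * (n + 1) := by simp [η, th]
    have e2 : η * th n (4 + 1) = eth (n : ℝ) 5 := by simpa using th_eq (n := n) (j := 5) (by omega)
    obtain ⟨a1, a2, a3⟩ := four4 hn' h3 hb h
    rw [e1, e2]
    exact core (k := (4 : ℕ)) (by norm_num) (by push_cast; linarith) a1 a2 a3 U V
  · have hk' : (6 : ℝ) ≤ k := by exact_mod_cast hk
    obtain ⟨a1, a2, a3⟩ := six hn' h3 hb h hk'
    rw [th_eq (by omega), th_eq (by omega), Nat.cast_pred (by omega), Nat.cast_add_one]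
    exact core (by linarith) (by linarith) a1 a2 a3 U V

open TNEokB in
theorem nBig (h : NEokB) : NBig := by
  intro n α T hn hα hT
  have hn' : (32 : ℝ) ≤ n := by exact_mod_cast hn
  have hn0 : (0 : ℝ) < n := by linarith
  refine ⟨fun _ => 0, fun _ => α ^ 2, fun _ => 0, fun _ => 0, fun _ => 0, fun _ => 0, fun _ => 0,
    α ^ 2 / 10, 0, 0, 4 / (3 * n), 0, 20, 3 * n / 4, 0, 1 / 20, 3 / 4 * n, cd0, cd0, cd0,
    continuous_const, h n _ _ hn (by norm_num) (by norm_num) (by norm_num), fun x y u v => ?_,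
    fun s p y hs _ _ hp _ _ _ => ⟨by positivity, le_rfl, ?_⟩⟩
  · have e : u * x ≤ 3 * n / 4 * x ^ 2 / 2 + 4 / (3 * n) * u ^ 2 / 2 := by
      have e1 : 3 * n / 4 * x ^ 2 / 2 + 4 / (3 * n) * u ^ 2 / 2 - u * x =
          (3 * n / 4 * x - u) ^ 2 * (2 / (3 * n)) := by
        field_simp; ring
      rw [← sub_nonneg, e1]; positivity
    simp only [qf]
    nlinarith [sq_nonneg (y - 20 * v)]
  · have e1 : α ^ 2 * (s ^ 2 + p) ≤ 71 / 100 * n :=
      (mul_le_mul_of_nonneg_left (by linarith) (sq_nonneg α)).trans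
        ((mul_pow α T 2).symm.le.trans (hT.trans (t0sq_le hn)))
    have e2 : 4 / (3 * n) * (α ^ 2 * s) ^ 2 / 2 + (α ^ 2) ^ 2 * p / (2 * (3 / 4 * n)) ≤
        71 / 150 * α ^ 2 := by
      have : 4 / (3 * n) * (α ^ 2 * s) ^ 2 / 2 + (α ^ 2) ^ 2 * p / (2 * (3 / 4 * n)) =
          α ^ 2 * (s ^ 2 + p) * (2 * α ^ 2) / (3 * n) := by
        field_simp; ring
      rw [this, div_le_iff₀ (by positivity)]
      nlinarith [mul_le_mul_of_nonneg_right e1 (sq_nonneg α)]
    have e3 : 21 / 10 ≤ α * s + s⁻¹ ^ n / 10 := by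
      rcases le_total 1 s with h1 | h1
      · have : 0 ≤ s⁻¹ ^ n := by positivity
        nlinarith
      · have f1 : 1 + (1 - s) ≤ s⁻¹ := by
          rw [← one_div, le_div_iff₀ hs]; nlinarith [sq_nonneg (1 - s)]
        have f2 := (one_add_mul_le_pow (show -2 ≤ 1 - s by linarith) n).trans
          (pow_le_pow_left₀ (by linarith) f1 n)
        nlinarith
    simp only [qf, Zf, zero_add, sub_zero, zero_mul, mul_zero, zero_div, neg_zero, add_zero,
      ne_eq, OfNat.ofNat_ne_zero, not_false_eq_true, zero_pow]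
    nlinarith [mul_le_mul_of_nonneg_left e3 (sq_nonneg α), sq_nonneg α]

end Vale.Agent.P237
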