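import Vale.Agent.P237.NStmts

/-! Interpolation of the certificate between the tested points. -/

namespace Vale.Agent.P237

namespace TNInt

theorem hin_cvx (L : List (ℕ × ℕ)) {t : ℝ} (h0 : 0 ≤ t) (h1 : t ≤ 1) (a b : ℝ) :
    hin L ((1 - t) * a + t * b) ≤ (1 - t) * hin L a + t * hin L b := by
  induction L with
  | nil => simp [hin]
  | cons l L ih =>
    simp only [hin]
    have h2 : max 0 ((1 - t) * a + t * b - l.1 / 20) ≤
        (1 - t) * max 0 (a - l.1 / 20) + t * max 0 (b - l.1 / 20) := by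
      have a0 := le_max_left 0 (a - l.1 / 20)
      have a1 := le_max_right 0 (a - l.1 / 20)
      have b0 := le_max_left 0 (b - l.1 / 20)
      have b1 := le_max_right 0 (b - l.1 / 20)
      have t1 : 0 ≤ 1 - t := by linarith
      refine max_le (by positivity) ?_
      nlinarith [mul_le_mul_of_nonneg_left a1 t1, mul_le_mul_of_nonneg_left b1 h0]
    have h3 := mul_le_mul_of_nonneg_left h2 (show (0 : ℝ) ≤ (l.2 : ℝ) / 1048576 by positivity)
    linarith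

/-- the coefficient of `y ^ 2` -/
noncomputable def kap (c : Cell) : ℝ :=
  c.ka / 1048576 - (c.xi / 1048576) ^ 2 * c.n ^ 2 * (4 * c.c11 - 4 * c.c12 + c.c22) / (8 * 1048576)

theorem phi_mix (c : Cell) (x : St) (α t pa pb ya yb : ℝ) :
    c.Φ x α ((1 - t) * pa + t * pb) ((1 - t) * ya + t * yb) =
      (1 - t) * c.Φ x α pa ya + t * c.Φ x α pb yb - kap c * (t * (1 - t) * (yb - ya) ^ 2) +
        ((1 - t) * hin c.lam ya + t * hin c.lam yb - hin c.lam ((1 - t) * ya + t * yb)) := by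
  simp only [Cell.Φ, Cell.Lam, qf, kap]
  ring

theorem phi_al (c : Cell) (x : St) (t a b p y : ℝ) :
    c.Φ x ((1 - t) * a + t * b) p y =
      (1 - t) * c.Φ x a p y + t * c.Φ x b p y + t * (1 - t) * (b - a) ^ 2 / 2 := by
  simp only [Cell.Φ]
  ring

theorem phi_p (c : Cell) (x : St) (α t P y : ℝ) :
    c.Φ x α (t * P) y = (1 - t) * c.Φ x α 0 y + t * c.Φ x α P y := by
  simp only [Cell.Φ]
  ring

theorem ex_t {a b z : ℝ} (h1 : a ≤ z) (h2 : z ≤ b) :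
    ∃ t : ℝ, 0 ≤ t ∧ t ≤ 1 ∧ z = (1 - t) * a + t * b := by
  rcases eq_or_lt_of_le (h1.trans h2) with h | h
  · exact ⟨0, le_rfl, zero_le_one, by linarith⟩
  · have h3 : 0 < b - a := by linarith
    refine ⟨(z - a) / (b - a), div_nonneg (by linarith) h3.le, (div_le_one h3).2 (by linarith), ?_⟩
    field_simp
    ring

theorem tw {c : Cell} {x : St} {e p y α : ℝ} (h : c.Two x e p y) (h1 : c.a1 / 1048576 ≤ α)
    (h2 : α ≤ c.a2 / 1048576) : e ≤ c.Φ x α p y := by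
  obtain ⟨t, t0, t1, rfl⟩ := ex_t h1 h2
  rw [phi_al]
  have t2 : 0 ≤ 1 - t := by linarith
  have h3 : 0 ≤ t * (1 - t) * ((c.a2 : ℝ) / 1048576 - c.a1 / 1048576) ^ 2 / 2 := by positivity
  nlinarith [mul_le_mul_of_nonneg_left h.1 t2, mul_le_mul_of_nonneg_left h.2 t0]

theorem bw {c : Cell} {x : St} {e p P y α : ℝ} (h0 : e ≤ c.Φ x α 0 y) (hP : e ≤ c.Φ x α P y)
    (h1 : 0 ≤ p) (h2 : p ≤ P) : e ≤ c.Φ x α p y := by
  obtain ⟨t, t0, t1, rfl⟩ := ex_t h1 h2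
  rw [mul_zero, zero_add, phi_p]
  have t2 : 0 ≤ 1 - t := by linarith
  nlinarith [mul_le_mul_of_nonneg_left h0 t2, mul_le_mul_of_nonneg_left hP t0]

theorem interp {c : Cell} {x : St} {e d α t pa pb ya yb : ℝ} (he : 0 ≤ e)
    (hk : kap c * d ^ 2 / 4 ≤ e) (t0 : 0 ≤ t) (t1 : t ≤ 1) (h1 : ya ≤ yb) (h2 : yb - ya ≤ d)
    (ha : e ≤ c.Φ x α pa ya) (hb : e ≤ c.Φ x α pb yb) :
    0 ≤ c.Φ x α ((1 - t) * pa + t * pb) ((1 - t) * ya + t * yb) := by
  rw [phi_mix]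
  have t2 : 0 ≤ 1 - t := by linarith
  have h3 := hin_cvx c.lam t0 t1 ya yb
  have h4 : 0 ≤ t * (1 - t) * (yb - ya) ^ 2 := by positivity
  have h5 : t * (1 - t) * (yb - ya) ^ 2 ≤ d ^ 2 / 4 := by
    have e1 : (yb - ya) ^ 2 ≤ d ^ 2 := pow_le_pow_left₀ (by linarith) h2 2
    have e2 : t * (1 - t) ≤ 1 / 4 := by nlinarith [sq_nonneg (t - 1 / 2)]
    have e3 := mul_le_mul e2 e1 (sq_nonneg _) (by norm_num)
    linarith
  have h6 : kap c * (t * (1 - t) * (yb - ya) ^ 2) ≤ e := by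
    rcases le_total 0 (kap c) with h | h
    · have := mul_le_mul_of_nonneg_left h5 h
      linarith
    · exact (mul_nonpos_of_nonpos_of_nonneg h h4).trans he
  nlinarith [mul_le_mul_of_nonneg_left ha t2, mul_le_mul_of_nonneg_left hb t0]

theorem chord {S U V y1 y2 t : ℝ} (hS : 0 ≤ S) (h1 : 0 < y1) (h2 : 0 < y2) (hU : S ≤ U * y2)
    (hV : S ≤ V * y1) (t0 : 0 ≤ t) (t1 : t ≤ 1) :
    S ≤ ((1 - t) * U + t * V) * ((1 - t) * y2 + t * y1) := by
  have t2 : 0 ≤ 1 - t := by linarith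
  have h3 : 2 * S ≤ U * y1 + V * y2 := by
    refine le_of_mul_le_mul_left ?_ (mul_pos h1 h2)
    nlinarith [mul_le_mul_of_nonneg_left hU (sq_nonneg y1),
      mul_le_mul_of_nonneg_left hV (sq_nonneg y2), mul_nonneg hS (sq_nonneg (y1 - y2))]
  nlinarith [mul_le_mul_of_nonneg_left hU (sq_nonneg (1 - t)),
    mul_le_mul_of_nonneg_left hV (sq_nonneg t), mul_le_mul_of_nonneg_left h3 (mul_nonneg t0 t2)]

theorem nodes {y y2 d : ℝ} (h0 : 0 ≤ y) (hd : 1 / 8 ≤ d) (h3 : y2 ≤ 7 / 8 + d) :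
    ∃ e : ℕ, e < 8 ∧ (e : ℝ) / 8 ≤ y ∧ (y2 - e / 8 ≤ d ∨
      e + 1 < 8 ∧ y ≤ ((e + 1 : ℕ) : ℝ) / 8 ∧ ((e + 1 : ℕ) : ℝ) / 8 ≤ y2) := by
  by_cases h7 : 7 / 8 ≤ y
  · exact ⟨7, by norm_num, by push_cast; linarith, Or.inl (by push_cast; linarith)⟩
  · have f1 := Nat.floor_le (show 0 ≤ 8 * y by linarith)
    have f2 := Nat.lt_floor_add_one (8 * y)
    have f3 : ⌊8 * y⌋₊ < 7 := (Nat.floor_lt (by linarith)).2 (by push_cast; linarith)
    refine ⟨⌊8 * y⌋₊, by omega, by linarith, ?_⟩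
    by_cases h : ((⌊8 * y⌋₊ : ℝ) + 1) / 8 ≤ y2
    · exact Or.inr ⟨by omega, by push_cast; linarith, by push_cast; linarith⟩
    · exact Or.inl (by linarith)

end TNInt

open TNInt

theorem nInt : NInt := by
  intro c x hd hs ⟨hw, hφ, r0, r1⟩
  refine ⟨hw, hφ, fun α p y a1 a2 p0 pP y0 y1' hc hT => ?_⟩
  by_cases h : c.T1 = 0
  · exact bw (tw (r0 h y).1 a1 a2) (tw (r0 h y).2 a1 a2) p0 pP
  obtain ⟨hsg, hTq, hT2, hdl, hk⟩ := hd.2.2 h
  obtain ⟨y2, y1, p1, k1, k2, k3, k4, k5, k6, k7⟩ := r1 h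
  have he : (0 : ℝ) ≤ c.pen / 1048576 := by positivity
  have hd8 : (1 : ℝ) / 8 ≤ c.dl / 1048576 := by
    have : (131072 : ℝ) ≤ c.dl := by exact_mod_cast hdl
    linarith
  have hk' : kap c * ((c.dl : ℝ) / 1048576) ^ 2 / 4 ≤ c.pen / 1048576 := by
    have h1 : (8796093022208 * (c.ka : ℝ) - (c.xi : ℝ) ^ 2 * (4 * c.c11 - 4 * c.c12 + c.c22) *
        (c.n : ℝ) ^ 2) * (c.dl : ℝ) ^ 2 ≤ 38685626227668133590597632 * c.pen := by
      exact_mod_cast hk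
    have h2 : kap c * ((c.dl : ℝ) / 1048576) ^ 2 / 4 = (8796093022208 * (c.ka : ℝ) -
        (c.xi : ℝ) ^ 2 * (4 * c.c11 - 4 * c.c12 + c.c22) * (c.n : ℝ) ^ 2) * (c.dl : ℝ) ^ 2 /
        (38685626227668133590597632 * 1048576) := by
      rw [kap]; ring
    rw [h2]
    linarith
  have f4 : ∀ {z : ℝ}, c.Four x (c.pen / 1048576) (c.Tq / 1048576 ^ 2 - c.sg * x.s ^ 2) z →
      c.pen / 1048576 ≤ c.Φ x α p z := fun hz => bw (tw hz.1 a1 a2) (tw hz.2 a1 a2) p0 pP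
  have ep : ∀ t : ℝ, p = (1 - t) * p + t * p := fun t => by ring
  rcases le_total y y2 with hy | hy
  · obtain ⟨e, e8, e1, e2 | ⟨e2, e3, e4⟩⟩ := nodes y0 hd8 k2
    · obtain ⟨t, t0, t1, ht⟩ := ex_t e1 hy
      rw [ht, ep t]
      exact interp he hk' t0 t1 (e1.trans hy) e2 (f4 (k4 e e8 (e1.trans hy))) (f4 k5)
    · obtain ⟨t, t0, t1, ht⟩ := ex_t e1 e3
      rw [ht, ep t]
      exact interp he hk' t0 t1 (e1.trans e3) (by push_cast; linarith)
        (f4 (k4 e e8 (e1.trans hy))) (f4 (k4 (e + 1) e2 e4))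
  · have s2 : 0 < x.s ^ 2 := by positivity
    have y2p : 0 < y2 := by
      by_contra hn
      have := mul_nonpos_of_nonneg_of_nonpos (sq_nonneg ((c.T2 : ℝ) / 1048576)) (not_lt.1 hn)
      linarith
    have T1p : 0 < ((c.T1 : ℝ) / 1048576) ^ 2 := by
      have : (0 : ℝ) < c.T1 := by exact_mod_cast Nat.pos_of_ne_zero h
      positivity
    have hyy : y ≤ y1 := by
      rcases k7 with k | k
      · exact le_of_mul_le_mul_left (hT.trans k.1) T1p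
      · exact k.1 ▸ y1'
    have hV : x.s ^ 2 ≤ (p1 + x.s ^ 2) * y1 := by
      rcases k7 with k | k
      · rw [k.2, sub_add_cancel]; exact k.1
      · rw [k.1, k.2]; linarith
    have eP : (c.Tq : ℝ) / 1048576 ^ 2 - c.sg * x.s ^ 2 = (c.T2 / 1048576) ^ 2 - x.s ^ 2 := by
      rw [hsg, hTq]; push_cast; ring
    rw [eP] at k5
    obtain ⟨t, t0, t1, ht⟩ := ex_t hy hyy
    have hch := chord s2.le (y2p.trans_le (hy.trans hyy)) y2p k1 hV t0 t1
    rw [← ht] at hch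
    have hp := le_of_mul_le_mul_right (hc.trans hch) (y2p.trans_le hy)
    have i0 := interp he hk' t0 t1 (hy.trans hyy) (by linarith) (tw k5.1 a1 a2) (tw k6.1 a1 a2)
    have i1 := interp he hk' t0 t1 (hy.trans hyy) (by linarith) (tw k5.2 a1 a2) (tw k6.2 a1 a2)
    rw [← ht] at i0 i1
    rw [mul_zero, mul_zero, add_zero] at i0
    exact bw i0 i1 p0 (by linarith)

end Vale.Agent.P237
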