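import Vale.Agent.P237.NStmts

/-! Soundness of the test on one piece. -/

namespace Vale.Agent.P237

namespace TNRaw

variable {t : ℝ}

theorem tay_le (n a h g mu : ℕ) (hg : 0 < g) (hS : (0 : ℝ) < a + h * t) :
    ((46116860184273879040 * mu * g ^ n : ℕ) : ℝ) * (12 * (tay n a h g).ev t) /
      ((256 ^ (n + 3) : ℕ) : ℝ) ≤
      2880 * 1048576 ^ 6 * mu * ((a + h * t) / 1048576)⁻¹ ^ n := by
  have hg' : (0 : ℝ) < g := by exact_mod_cast hg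
  have h1 := taylor_le n (x := g * (a + h * t) / 268435456 - 1) (by
    have : 0 < g * (a + h * t) / 268435456 := by positivity
    linarith)
  set x : ℝ := g * (a + h * t) / 268435456 - 1 with hx
  have h2 : (tay n a h g).ev t = 6 * 268435456 ^ 3 * (1 - n * x + n * (n + 1) / 2 * x ^ 2 -
      n * (n + 1) * (n + 2) / 6 * x ^ 3) := by
    simp [tay, hx]; ring
  have h3 : ((a + h * t) / 1048576)⁻¹ ^ n = (g / 256) ^ n * (1 + x)⁻¹ ^ n := by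
    rw [← mul_pow]; congr 1; rw [hx]; field_simp; ring
  rw [h2, h3]
  push_cast
  rw [div_pow, pow_add]
  have : (0 : ℝ) ≤ 2880 * 1048576 ^ 6 * mu * (g ^ n / 256 ^ n) := by positivity
  refine le_trans (le_of_eq ?_) ((mul_le_mul_of_nonneg_left h1 this).trans_eq (by ring))
  field_simp
  ring

theorem bp_le (c : Cell) (hn : 0 < c.n) (a h g : ℕ) (hg : 0 < g) (w0 w1 : Z) (P F z y1 y2 : P3)
    (h0 : 0 ≤ t) (h1 : t ≤ 1) (hS : (0 : ℝ) < a + h * t) :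
    (c.bp a h g w0 w1 P F z y1 y2).bv t ≤
      12 * (-(30 * 1048576 ^ 2 * (z.ev t * y1.ev t + P.ev t * y2.ev t)) -
        120 * 1048576 ^ 4 * (c.n - 1) * (F.ev t * (a + h * t)) +
        240 * 1048576 ^ 6 * (c.cL - c.mu - (w0.v + w1.v * t) + 524288)) +
      2880 * 1048576 ^ 6 * c.mu * ((a + h * t) / 1048576)⁻¹ ^ c.n := by
  rw [Cell.bp, P5.bv_add]
  refine add_le_add (le_of_eq ?_) ((P5.bv_dv _ (by simp) h0 h1).trans ?_)
  · simp [Nat.cast_pred hn]; ring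
  · simpa using tay_le c.n a h g c.mu hg hS

noncomputable def yval (c : Cell) (L Y H : ℝ) : ℝ :=
  12 * ((L - 30 * c.xi ^ 2 * (4 * c.c11 - 4 * c.c12 + c.c22) * (c.n * Y - 1048576 ^ 2)) *
      (c.n * Y - 1048576 ^ 2) + 240 * 1048576 ^ 2 * c.ka * Y ^ 2 - 240 * 1048576 ^ 4 * c.l0 * Y -
    12 * 1048576 ^ 4 * H - 240 * 1048576 ^ 6 * c.pen)

theorem yv_bv (c : Cell) (L Y : P3) (h0 h1 : Z) :
    (c.yv L Y h0 h1).bv t = yval c (L.ev t) (Y.ev t) (h0.v + h1.v * t) := by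
  simp [Cell.yv, yval, Cell.ce]
  simp only [P3.ev]
  ring

theorem node_bv (c : Cell) (b : P5) (L : P3) (e : ℕ) : (c.node b L.tob e).bv t =
    b.bv t + yval c (L.ev t) (e * 137438953472) (hsum c.lam (e * 137438953472)) := by
  rw [Cell.node, P5.bv_all, Cell.ec, Z.v_nrm, ← P5.bv_zero, yv_bv]
  simp [Cell.eq, yval]
  ring

theorem hsum_cast (L : List (ℕ × ℕ)) (Y : ℕ) :
    (hsum L Y : ℝ) = 20 * 1048576 ^ 3 * hin L (Y / 1048576 ^ 2) := by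
  induction L with
  | nil => simp [hsum, hin]
  | cons l L ih =>
    have : ((20 * Y - l.1 * 1099511627776 : ℕ) : ℝ) =
        20 * 1048576 ^ 2 * max 0 ((Y : ℝ) / 1048576 ^ 2 - l.1 / 20) := by
      rcases le_total (20 * Y) (l.1 * 1099511627776) with h | h
      · have h' : (20 * Y : ℝ) ≤ l.1 * 1099511627776 := by exact_mod_cast h
        rw [Nat.sub_eq_zero_of_le h, max_eq_left (by linarith)]; simp
      · have h' : (l.1 * 1099511627776 : ℝ) ≤ 20 * Y := by exact_mod_cast h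
        rw [Nat.cast_sub h, max_eq_right (by linarith)]; push_cast; ring
    simp only [hsum, hin, Nat.add_eq, Nat.mul_eq, Nat.sub_eq, Nat.cast_add, Nat.cast_mul, this, ih]
    ring

theorem hin_le (L : List (ℕ × ℕ)) {y ya yb : ℝ} (h0 : 0 ≤ t) (h1 : t ≤ 1)
    (h : y ≤ (1 - t) * ya + t * yb) : hin L y ≤ (1 - t) * hin L ya + t * hin L yb := by
  induction L with
  | nil => simp [hin]
  | cons l L ih =>
    have h2 : 0 ≤ 1 - t := by linarith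
    have : max 0 (y - l.1 / 20) ≤ (1 - t) * max 0 (ya - l.1 / 20) + t * max 0 (yb - l.1 / 20) := by
      refine max_le (by positivity) ?_
      nlinarith [mul_le_mul_of_nonneg_left (le_max_right 0 (ya - l.1 / 20)) h2,
        mul_le_mul_of_nonneg_left (le_max_right 0 (yb - l.1 / 20)) h0]
    have h3 : (0 : ℝ) ≤ l.2 / 1048576 := by positivity
    simp only [hin]
    nlinarith [mul_le_mul_of_nonneg_left this h3]

theorem curve_le (c : Cell) (L : P3) (xa xb : ℕ) (h0 : 0 ≤ t) (h1 : t ≤ 1) :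
    ∃ H : ℝ, 20 * 1048576 ^ 3 * hin c.lam ((xa + (xb - xa) * t) ^ 2 / 1048576 ^ 2) ≤ H ∧
      (c.curve L xa xb).bv t = yval c (L.ev t) ((xa + (xb - xa) * t) ^ 2) H := by
  refine ⟨hsum c.lam (xa * xa) + (hsum c.lam (xb * xb) - hsum c.lam (xa * xa)) * t, ?_, ?_⟩
  · have := hin_le c.lam (y := (xa + (xb - xa) * t) ^ 2 / 1048576 ^ 2)
      (ya := ((xa * xa : ℕ) : ℝ) / 1048576 ^ 2) (yb := ((xb * xb : ℕ) : ℝ) / 1048576 ^ 2) h0 h1 (by
        push_cast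
        nlinarith [mul_nonneg (mul_nonneg h0 (sub_nonneg.2 h1)) (sq_nonneg ((xb : ℝ) - xa))])
    rw [hsum_cast, hsum_cast]
    linarith
  · rw [Cell.curve, yv_bv]
    simp [sq]

theorem xr_lt (a : ℕ) {T : ℕ} (hT : 0 < T) : (a : ℝ) * 1048576 ≤ T * xr a T := by
  have := Nat.div_add_mod (a * 1048576) T
  have := Nat.mod_lt (a * 1048576) hT
  have : a * 1048576 ≤ T * xr a T := by
    simp only [xr, Nat.mul_eq, Nat.succ_eq_add_one, Nat.mul_add, mul_one]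
    show a * 1048576 ≤ T * (a * 1048576 / T) + T
    omega
  exact_mod_cast this

theorem xr_mono {a b : ℕ} (h : a ≤ b) (T : ℕ) : (xr a T : ℝ) ≤ xr b T := by
  have : xr a T ≤ xr b T :=
    Nat.succ_le_succ (Nat.div_le_div_right (Nat.mul_le_mul_right _ h))
  exact_mod_cast this

theorem xr_curve {a b T : ℕ} (hab : a ≤ b) (hT : 0 < T) (h0 : 0 ≤ t) (h1 : t ≤ 1) :
    (((a : ℝ) + (b - a) * t) / 1048576) ^ 2 ≤
      ((T : ℝ) / 1048576) ^ 2 * ((xr a T + (xr b T - xr a T) * t) ^ 2 / 1048576 ^ 2) ∧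
    (xr a T : ℝ) ^ 2 ≤ (xr a T + (xr b T - xr a T) * t) ^ 2 ∧
    (xr a T + (xr b T - xr a T) * t : ℝ) ^ 2 ≤ (xr b T : ℝ) ^ 2 := by
  have e1 := xr_lt a hT
  have e2 := xr_lt b hT
  have e3 := xr_mono hab T
  have e4 : (a : ℝ) ≤ b := by exact_mod_cast hab
  have e5 : 0 ≤ ((xr b T : ℝ) - xr a T) * t := mul_nonneg (by linarith) h0
  have e6 : 0 ≤ ((xr b T : ℝ) - xr a T) * (1 - t) := mul_nonneg (by linarith) (by linarith)
  have e7 : (0 : ℝ) ≤ xr a T := Nat.cast_nonneg _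
  refine ⟨?_, pow_le_pow_left₀ e7 (le_add_of_nonneg_right e5) 2,
    pow_le_pow_left₀ (add_nonneg e7 e5) (by linear_combination e6) 2⟩
  rw [← div_pow, ← mul_pow]
  refine pow_le_pow_left₀
    (div_nonneg (add_nonneg a.cast_nonneg (mul_nonneg (sub_nonneg.2 e4) h0)) (by norm_num)) ?_ 2
  nlinarith [mul_le_mul_of_nonneg_left e1 (sub_nonneg.2 h1), mul_le_mul_of_nonneg_left e2 h0]

theorem eNodes_spec (c : Cell) (b Lb A1 A2 PP : P5) (X k : ℕ)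
    (h : c.eNodes b Lb A1 A2 PP X k = true) (e : ℕ) (he : e < k)
    (hX : Nat.mul e 137438953472 ≤ X) : four (c.node b Lb e) A1 A2 PP = true := by
  induction k with
  | zero => exact absurd he (Nat.not_lt_zero _)
  | succ k ih =>
    rw [Cell.eNodes, Bool.and_eq_true, Bool.or_eq_true, Nat.blt_eq] at h
    rcases Nat.lt_succ_iff_lt_or_eq.1 he with h' | rfl
    · exact ih h.2 h'
    · exact h.1.resolve_left (not_lt.2 hX)

/-- the values of the polynomials on one piece, in terms of the state -/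
structure Val (c : Cell) (x : St) (b A1 A2 L Q S2 : ℝ) : Prop where
  s2 : S2 = 1048576 ^ 2 * x.s ^ 2
  key : ∀ p Y H : ℝ, 20 * 1048576 ^ 3 * hin c.lam (Y / 1048576 ^ 2) ≤ H →
    b + yval c L Y H + 12 * (Q * (1048576 ^ 2 * p)) + A1 ≤ 2880 * 1048576 ^ 7 *
      (c.Φ x (c.a1 / 1048576) p (Y / 1048576 ^ 2) - c.pen / 1048576) ∧
    b + yval c L Y H + 12 * (Q * (1048576 ^ 2 * p)) + A2 ≤ 2880 * 1048576 ^ 7 *
      (c.Φ x (c.a2 / 1048576) p (Y / 1048576 ^ 2) - c.pen / 1048576)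

theorem pv_bv (Q S2 : P3) (T sg : ℕ) : (pv Q S2 T sg).bv t = 12 * (Q.ev t * (T - sg * S2.ev t)) := by
  simp only [pv, P5.bv_tob, P3.ev_mul, P3.ev_mk, Z.v_nrm, Z.v_sub, Z.v_mk, Z.v_nm, Z.v_neg]
  simp only [P3.ev]
  push_cast
  ring

theorem Val.two {c : Cell} {x : St} {b A1 A2 L Q S2 : ℝ} (V : Val c x b A1 A2 L Q S2) {p Y H : ℝ}
    (hH : 20 * 1048576 ^ 3 * hin c.lam (Y / 1048576 ^ 2) ≤ H)
    (h : 0 ≤ b + yval c L Y H + 12 * (Q * (1048576 ^ 2 * p)) + A1 ∧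
      0 ≤ b + yval c L Y H + 12 * (Q * (1048576 ^ 2 * p)) + A2) :
    c.Two x (c.pen / 1048576) p (Y / 1048576 ^ 2) := by
  have := V.key p Y H hH
  constructor <;> linarith [this.1, this.2, h.1, h.2]

theorem Val.four {c : Cell} {x : St} {b A1 A2 : P5} {L : ℝ} {Q S2 : P3}
    (V : Val c x (b.bv t) (A1.bv t) (A2.bv t) L (Q.ev t) (S2.ev t)) {b' : P5} {T sg : ℕ} {Y H : ℝ}
    (hH : 20 * 1048576 ^ 3 * hin c.lam (Y / 1048576 ^ 2) ≤ H)
    (hb : b'.bv t = b.bv t + yval c L Y H) (h : four b' A1 A2 (pv Q S2 T sg) = true)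
    (h0 : 0 ≤ t) (h1 : t ≤ 1) :
    c.Four x (c.pen / 1048576) (T / 1048576 ^ 2 - sg * x.s ^ 2) (Y / 1048576 ^ 2) := by
  have := four_bv h h0 h1
  rw [hb, pv_bv, V.s2] at this
  refine ⟨V.two hH (by simpa using this.1), V.two hH ?_⟩
  rw [show 1048576 ^ 2 * ((T : ℝ) / 1048576 ^ 2 - sg * x.s ^ 2) =
    T - sg * (1048576 ^ 2 * x.s ^ 2) by ring]
  exact this.2

theorem ytest_spec {c : Cell} {x : St} {a s : ℕ} {b A1 A2 : P5} {L Q S2 : P3} (has : a ≤ s)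
    (hx : x.s = (a + (s - a) * t) / 1048576) (hT1 : c.T1 ≠ 0) (hT2 : 0 < c.T2)
    (V : Val c x (b.bv t) (A1.bv t) (A2.bv t) (L.ev t) (Q.ev t) (S2.ev t))
    (h : c.ytest a s b A1 A2 (pv Q S2 c.Tq c.sg) L Q S2 = true) (h0 : 0 ≤ t) (h1 : t ≤ 1) :
    ∃ y2 y1 p1 : ℝ, x.s ^ 2 ≤ (c.T2 / 1048576) ^ 2 * y2 ∧
    y2 ≤ 7 / 8 + c.dl / 1048576 ∧ y1 ≤ y2 + c.dl / 1048576 ∧
    (∀ e : ℕ, e < 8 → (e : ℝ) / 8 ≤ y2 →
      c.Four x (c.pen / 1048576) (c.Tq / 1048576 ^ 2 - c.sg * x.s ^ 2) (e / 8)) ∧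
    c.Four x (c.pen / 1048576) (c.Tq / 1048576 ^ 2 - c.sg * x.s ^ 2) y2 ∧
    c.Four x (c.pen / 1048576) p1 y1 ∧
    ((x.s ^ 2 ≤ (c.T1 / 1048576) ^ 2 * y1 ∧ p1 = (c.T1 / 1048576) ^ 2 - x.s ^ 2) ∨
      (y1 = 1 ∧ p1 = 0)) := by
  simp only [Cell.ytest, Bool.and_eq_true, Nat.ble_eq, Nat.mul_eq, Nat.add_eq] at h
  obtain ⟨⟨⟨g1, g2⟩, g3⟩, g4⟩ := h
  obtain ⟨e1, e2, e3⟩ := xr_curve has hT2 h0 h1
  obtain ⟨H, hH, hc⟩ := curve_le c L (xr a c.T2) (xr s c.T2) h0 h1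
  have g1' : (xr s c.T2 : ℝ) * xr s c.T2 ≤ c.dl * 1048576 + 962072674304 := by exact_mod_cast g1
  have hn : ∀ e : ℕ, 20 * 1048576 ^ 3 * hin c.lam ((e : ℝ) * 137438953472 / 1048576 ^ 2) ≤
      hsum c.lam (e * 137438953472) := fun e => by rw [hsum_cast]; push_cast; exact le_rfl
  have he : ∀ e : ℕ, (e : ℝ) * 137438953472 / 1048576 ^ 2 = e / 8 := fun e => by ring
  have k1 : ∀ e : ℕ, e < 8 → (e : ℝ) / 8 ≤
      (xr a c.T2 + (xr s c.T2 - xr a c.T2) * t) ^ 2 / 1048576 ^ 2 →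
      c.Four x (c.pen / 1048576) (c.Tq / 1048576 ^ 2 - c.sg * x.s ^ 2) (e / 8) := fun e h8 hy => by
    have : (e : ℝ) * 137438953472 ≤ xr s c.T2 * xr s c.T2 := by nlinarith
    rw [← he]
    exact V.four (hn e) (node_bv c b L e)
      (eNodes_spec c _ _ _ _ _ _ 8 g2 e h8 (by rw [Nat.mul_eq]; exact_mod_cast this)) h0 h1
  have k2 := V.four hH (by rw [P5.bv_add, hc]) g3 h0 h1
  by_cases hx1 : xr s c.T1 ≤ 1048576
  · rw [Nat.ble_eq_true_of_le hx1, cond_true, Bool.and_eq_true, Nat.ble_eq] at g4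
    obtain ⟨f1, -, f3⟩ := xr_curve has (Nat.pos_of_ne_zero hT1) h0 h1
    obtain ⟨H', hH', hc'⟩ := curve_le c L (xr a c.T1) (xr s c.T1) h0 h1
    have g5 : (xr s c.T1 : ℝ) * xr s c.T1 ≤ c.dl * 1048576 + xr a c.T2 * xr a c.T2 := by
      exact_mod_cast g4.1
    refine ⟨_, _, _, hx ▸ e1, by nlinarith, ?_, k1, k2,
      V.four hH' (by rw [P5.bv_add, hc']) g4.2 h0 h1, Or.inl ⟨hx ▸ f1, by push_cast; ring⟩⟩
    nlinarith
  · have : Nat.ble (xr s c.T1) 1048576 = false := by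
      rw [← Bool.not_eq_true, Nat.ble_eq]; exact hx1
    rw [this, cond_false, Bool.and_eq_true, Nat.ble_eq] at g4
    have g5 : (1099511627776 : ℝ) ≤ c.dl * 1048576 + xr a c.T2 * xr a c.T2 := by
      exact_mod_cast g4.1
    have k3 := two_bv g4.2 h0 h1
    rw [node_bv] at k3
    have k4 := V.two (p := 0) (hn 8) (by simpa using k3)
    rw [he, show ((8 : ℕ) : ℝ) / 8 = 1 by norm_num] at k4
    exact ⟨_, 1, 0, hx ▸ e1, by linarith, by linarith, k1, k2, ⟨k4, k4⟩, Or.inr ⟨rfl, rfl⟩⟩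

theorem zero_spec {c : Cell} {x : St} {b A1 A2 : P5} {Q S2 : P3}
    (V : Val c x (b.bv t) (A1.bv t) (A2.bv t) 0 (Q.ev t) (S2.ev t)) (e1 : c.xi = 0) (e2 : c.l0 = 0)
    (e3 : c.ka = 0) (e4 : c.lam = []) (h : four b A1 A2 (pv Q S2 c.Tq c.sg) = true) (h0 : 0 ≤ t)
    (h1 : t ≤ 1) (y : ℝ) : c.Four x 0 (c.Tq / 1048576 ^ 2 - c.sg * x.s ^ 2) y := by
  have k2 := four_bv h h0 h1
  rw [pv_bv, V.s2] at k2
  have k3 := fun p => V.key p (1048576 ^ 2 * y) 0 (by simp [e4, hin])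
  simp only [yval, e1, e2, e3, show 1048576 ^ 2 * y / 1048576 ^ 2 = y by ring] at k3
  have k5 := k3 0
  have k6 := k3 (c.Tq / 1048576 ^ 2 - c.sg * x.s ^ 2)
  push_cast at k5 k6
  exact ⟨⟨by linarith [k5.1, k2.1.1], by linarith [k5.2, k2.1.2]⟩, by linarith [k6.1, k2.2.1],
    by linarith [k6.2, k2.2.2]⟩

end TNRaw

open TNRaw in
theorem nRaw : NRaw := by
  intro c a u0 v0 x0 P0 F0 N hd h
  simp only [Cell.piece, Bool.and_eq_true, Nat.blt_eq, Z.nn_iff, Nat.sub_eq] at h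
  obtain ⟨⟨⟨⟨⟨g1, g2⟩, g3⟩, g4⟩, g5⟩, g6⟩ := h
  refine ⟨g1, fun t h0 h1 hs => ?_⟩
  have hh : ((N.s - a : ℕ) : ℝ) = N.s - a := Nat.cast_sub g1.le
  have hS : (0 : ℝ) < a + (N.s - a : ℕ) * t := by
    rw [hh]; simp only [stAt] at hs; linarith
  generalize hb : Cell.bp _ _ _ _ _ _ _ _ _ _ _ = b at g6
  have hb' : b.bv t ≤ _ := hb ▸ bp_le c hd.1 _ _ _ g4 _ _ _ _ _ _ _ h0 h1 hS
  generalize hA1 : al _ c.a1 = A1 at g6
  generalize hA2 : al _ c.a2 = A2 at g6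
  generalize hQ : c.qp _ _ _ _ = Q at g6
  generalize hL : P3.sm ((Z.of c.xi).nm 62914560) _ = L at g6
  generalize hS2 : P3.mk ⟨Nat.mul a a, 0⟩ _ _ = S2 at g6
  have V : Val c (stAt a u0 v0 x0 P0 F0 N t) (b.bv t) (A1.bv t) (A2.bv t) (L.ev t) (Q.ev t)
      (S2.ev t) := by
    subst hA1 hA2 hQ hL hS2
    refine ⟨by simp [stAt, hh]; ring, fun p Y H hH => ?_⟩
    simp [prim, hh] at hb'
    simp only [al, Cell.qp, prim, yval, Cell.Φ, Cell.Lam, stAt, qf, P5.bv_all, P3.bv_tob, P3.ev_nm,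
      P3.ev_mk, Z.v_nm, Z.v_nrm, Z.v_add, Z.v_sub, Z.v_of, Z.v_mk, P3.ev_sm, P3.ev_add, P3.ev_nrm,
      Z.v_neg, ev_lin2, Z.v_o, Nat.mul_eq, Nat.cast_mul, hh, Nat.cast_ofNat, Nat.cast_zero, inv_div]
    constructor <;> linarith
  have k1 := bern_bv 3 g5 h0 h1
  simp [prim, hh] at g2 g3 k1
  refine ⟨?_, ?_, fun hT y => ?_, fun hT => ?_⟩
  · simp only [stAt]
    nlinarith [mul_nonneg g3 h0, mul_nonneg g2 (sub_nonneg.2 h1)]
  · simp only [stAt]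
    linarith
  · obtain ⟨e1, e2, e3, e4⟩ := hd.2.1 hT
    rw [hT, Nat.beq_refl, cond_true] at g6
    have k4 : L.ev t = 0 := by rw [← hL]; simp [e1]
    exact zero_spec (k4 ▸ V) e1 e2 e3 e4 g6 h0 h1 y
  · have : Nat.beq c.T1 0 = false := by rw [← Bool.not_eq_true, Nat.beq_eq]; exact hT
    rw [this, cond_false] at g6
    exact ytest_spec g1.le rfl hT (hd.2.2 hT).2.2.1 V g6 h0 h1

end Vale.Agent.P237
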