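import Vale.Agent.P237.NStmts

/-! Gluing of the pieces of a certificate. -/

namespace Vale.Agent.P237

namespace TNRun

theorem cd_piece (P u u1 a h : ℝ) (hh : h ≠ 0) :
    CD (fun s => (P + h * (2 * u * ((1048576 * s - a) / h) +
        (u1 - u) * ((1048576 * s - a) / h) ^ 2)) / (2 * 1048576 ^ 2))
      fun s => (u + (u1 - u) * ((1048576 * s - a) / h)) / 1048576 := by
  refine ⟨by fun_prop, fun s => ?_⟩
  have h1 : HasDerivAt (fun s : ℝ => (1048576 * s - a) / h) (1048576 / h) s := by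
    simpa using (((hasDerivAt_id s).const_mul 1048576).sub_const a).div_const h
  refine (((((h1.const_mul (2 * u)).add ((h1.pow 2).const_mul (u1 - u))).const_mul h).const_add
    P).div_const (2 * 1048576 ^ 2)).congr_deriv ?_
  simp only [Nat.cast_ofNat, Nat.add_one_sub_one, pow_one]
  field_simp

theorem cd_tail (P u a : ℝ) : CD (fun s => P + u * (s - a)) fun _ => u :=
  ⟨continuous_const, fun s => by
    simpa using (((hasDerivAt_id s).sub_const a).const_mul u).const_add P⟩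

theorem ite_ge {f g : ℝ → ℝ} {b s : ℝ} (h : f b = g b) (hs : b ≤ s) :
    (if s ≤ b then f s else g s) = g s := by
  split_ifs with h1
  · obtain rfl := le_antisymm hs h1
    exact h
  · rfl

theorem main (h1 : NRaw) (h2 : NInt) (c : Cell) (fin : ℕ → Z → Z → Z → Bool) (hc : c.hd)
    (L : List Node) : ∀ (a : ℕ) (u0 v0 x0 P0 F0 : Z), c.pieces fin L a u0 v0 x0 P0 F0 = true →
    ∃ (w1 w2 Ψ χ φ : ℝ → ℝ) (a' : ℕ) (u v P : Z), CD Ψ w1 ∧ CD φ χ ∧ Continuous w2 ∧
      fin a' u v P = true ∧ a ≤ a' ∧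
      (w1 (a / 1048576) = u0.v / 1048576 ∧ w2 (a / 1048576) = v0.v / 1048576 ∧
        χ (a / 1048576) = x0.v / 1048576 ∧ Ψ (a / 1048576) = P0.v / (2 * 1048576 ^ 2) ∧
        φ (a / 1048576) = F0.v / (2 * 1048576 ^ 2)) ∧
      (∀ s : ℝ, a / 1048576 < s → s ≤ a' / 1048576 → c.Good ⟨s, w1 s, w2 s, Ψ s, χ s, φ s⟩) ∧
      (∀ s : ℝ, a' / 1048576 ≤ s → w1 s = u.v / 1048576 ∧ w2 s = v.v / 1048576 ∧
        Ψ s = P.v / (2 * 1048576 ^ 2) + u.v / 1048576 * (s - a' / 1048576)) ∧
      (x0.v = 0 → F0.v = 0 → (∀ N ∈ L, N.x = 0) → ∀ s, χ s = 0 ∧ φ s = 0) := by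
  induction L with
  | nil =>
    intro a u0 v0 x0 P0 F0 h
    refine ⟨fun _ => u0.v / 1048576, fun _ => v0.v / 1048576, _, fun _ => x0.v / 1048576, _, a,
      u0, v0, P0, cd_tail (P0.v / (2 * 1048576 ^ 2)) _ (a / 1048576),
      cd_tail (F0.v / (2 * 1048576 ^ 2)) _ (a / 1048576), continuous_const, h, le_rfl,
      ⟨rfl, rfl, rfl, by simp, by simp⟩, fun s h1 h2 => absurd h1 h2.not_gt,
      fun s _ => ⟨rfl, rfl, rfl⟩, fun e1 e2 _ s => by simp [e1, e2]⟩
  | cons N L ih =>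
    intro a u0 v0 x0 P0 F0 h
    rw [Cell.pieces, Bool.and_eq_true] at h
    obtain ⟨haN, hraw⟩ := h1 c a u0 v0 x0 P0 F0 N hc h.1
    obtain ⟨w1, w2, Ψ, χ, φ, a', u, v, P, c1, c2, c3, hf, ha', ⟨s1, s2, s3, s4, s5⟩, hg, ht, hz⟩ :=
      ih _ _ _ _ _ _ h.2
    have haN' : (a : ℝ) < N.s := by exact_mod_cast haN
    have hh : (0 : ℝ) < N.s - a := sub_pos.2 haN'
    simp only [Z.v_nrm, Z.v_add, Z.v_nm, Z.v_of, Nat.sub_eq, Nat.cast_sub haN.le] at s1 s2 s3 s4 s5 hz
    set b : ℝ := N.s / 1048576 with hb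
    set τ : ℝ → ℝ := fun s => (1048576 * s - a) / (N.s - a) with hτ
    have τb : τ b = 1 := by
      simp only [hτ, hb]; field_simp
    have τa : τ (a / 1048576) = 0 := by
      simp only [hτ]; field_simp; ring
    have hab : (a : ℝ) / 1048576 ≤ b := by rw [hb]; gcongr
    set X : ℝ → St := fun s => stAt a u0 v0 x0 P0 F0 N (τ s) with hX
    have d1 : CD (fun s => (X s).Ψ) fun s => (X s).w1 := cd_piece P0.v u0.v N.u a _ hh.ne'
    have d2 : CD (fun s => (X s).φ) fun s => (X s).χ := cd_piece F0.v x0.v N.x a _ hh.ne'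
    have d3 : Continuous fun s => (X s).w2 := by simp only [hX, hτ, stAt]; fun_prop
    have g1 : (X b).w1 = w1 b := by simp only [hX, τb, stAt, s1]; ring
    have g2 : (X b).w2 = w2 b := by simp only [hX, τb, stAt, s2]; ring
    have g3 : (X b).χ = χ b := by simp only [hX, τb, stAt, s3]; ring
    have g4 : (X b).Ψ = Ψ b := by simp only [hX, τb, stAt, s4]; ring
    have g5 : (X b).φ = φ b := by simp only [hX, τb, stAt, s5]; ring
    refine ⟨_, fun s => if s ≤ b then (X s).w2 else w2 s, _, _, _, a', u, v, P,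
      d1.glue c1 b g4 g1, d2.glue c2 b g5 g3,
      d3.if_le c3 continuous_id continuous_const (by rintro _ rfl; exact g2), hf,
      haN.le.trans ha', ?_, fun s e1 e2 => ?_, fun s hs => ?_, fun e1 e2 e3 s => ?_⟩
    · simp only [if_pos hab, hX, τa, stAt]
      simp
    · by_cases hs : s ≤ b
      · simp only [if_pos hs]
        have e3 : (X s).s = s := by
          simp only [hX, hτ, stAt]; field_simp; ring
        have e4 : 0 < (X s).s := by rw [e3]; exact lt_of_le_of_lt (by positivity) e1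
        have := h2 c _ hc e4 (hraw (τ s) (div_nonneg (by linarith) hh.le)
          ((div_le_one hh).2 (by rw [hb] at hs; linarith)) e4)
        exact (congrArg (fun z => c.Good ⟨z, (X s).w1, (X s).w2, (X s).Ψ, (X s).χ, (X s).φ⟩)
          e3).mp this
      · simp only [if_neg hs]
        exact hg s (not_le.1 hs) e2
    · have hbs : b ≤ s := le_trans (by rw [hb]; gcongr) hs
      simp only [ite_ge (f := fun s => (X s).w1) g1 hbs, ite_ge (f := fun s => (X s).w2) g2 hbs,
        ite_ge (f := fun s => (X s).Ψ) g4 hbs]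
      exact ht s hs
    · have e4 : N.x = 0 := e3 N List.mem_cons_self
      have := hz (by simp [e4]) (by simp [e1, e2, e4])
        (fun M hM => e3 M (List.mem_cons_of_mem _ hM)) s
      split_ifs
      · simp [hX, stAt, e1, e2, e4]
      · exact this

end TNRun

open TNRun in
theorem nRun (h1 : NRaw) (h2 : NInt) : NRun := by
  intro c fin hc h
  obtain ⟨w1, w2, Ψ, χ, φ, a, u, v, P, c1, c2, c3, hf, -, -, hg, ht, hz⟩ :=
    main h1 h2 c fin hc _ _ _ _ _ _ _ h
  exact ⟨w1, w2, Ψ, χ, φ, a, u, v, P, c1, c2, c3, hf, fun s hs => hg s (by simpa using hs), ht,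
    fun e => hz (by simp [e]) Z.v_o⟩

end Vale.Agent.P237
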