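import Vale.Agent.P237.NStmts

/-! Lower bounds for the means of the hinges. -/

namespace Vale.Agent.P237

namespace TNTab

theorem cd_piece (K u u1 i : ℝ) :
    CD (fun y => (K + 2 * u * (80 * y - i) + (u1 - u) * (80 * y - i) ^ 2) / (160 * 1048576))
      fun y => (u + (u1 - u) * (80 * y - i)) / 1048576 := by
  refine ⟨by fun_prop, fun s => ?_⟩
  have h1 : HasDerivAt (fun s : ℝ => 80 * s - i) 80 s := by
    simpa using ((hasDerivAt_id s).const_mul 80).sub_const i
  refine ((((h1.const_mul (2 * u)).const_add K).add ((h1.pow 2).const_mul (u1 - u))).div_const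
    (160 * 1048576)).congr_deriv ?_
  simp only [Nat.cast_ofNat, Nat.add_one_sub_one, pow_one]
  ring

theorem piece {n j i : ℕ} {lo K u0 u1 : Z} (h : hpiece n j i lo K u0 u1 = true) {y : ℝ}
    (h0 : (i : ℝ) / 80 ≤ y) (h1 : y ≤ (i + 1) / 80) :
    lo.v / 1048576 + ((1 - n * y) * ((K.v + 2 * u0.v * (80 * y - i) +
        (u1.v - u0.v) * (80 * y - i) ^ 2) / (160 * 1048576)) +
      2 * y * (1 - y) * ((u0.v + (u1.v - u0.v) * (80 * y - i)) / 1048576)) ≤
      max 0 (y - j / 20) := by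
  have := bern_bv 4 (t := 80 * y - i) h (by linarith) (by linarith)
  simp only [P5.bv_tob, P5.ev_add3, P5.ev_add, P3.ev_mul, P3.ev_mk, ev_lin2, Z.v_nrm, Z.v_mk,
    Z.v_nm, Z.v_sub, Z.v_o, Nat.mul_eq, Nat.sub_eq, Nat.cast_mul, Nat.cast_ofNat, Nat.cast_zero,
    Nat.cast_one] at this
  rcases le_or_gt (4 * j) i with hj | hj
  · rw [Nat.ble_eq_true_of_le hj, cond_true, Nat.cast_sub hj] at this
    simp only [Z.v_mk, Nat.cast_mul, Nat.cast_ofNat, Nat.cast_zero] at this
    refine le_trans ?_ (le_max_right _ _)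
    linarith
  · have e : Nat.ble (4 * j) i = false := by
      rw [← Bool.not_eq_true, Nat.ble_eq]; omega
    rw [e, cond_false, Nat.sub_eq_zero_of_le hj.le] at this
    simp only [Z.v_o, Nat.cast_zero] at this
    refine le_trans ?_ (le_max_left _ _)
    linarith

theorem pieces (n j : ℕ) (lo : Z) (L : List ℤ) : ∀ (i : ℕ) (K u0 : Z),
    hpieces n j lo L i K u0 = true → ∃ k k' : ℝ → ℝ, CD k k' ∧
      k (i / 80) = K.v / (160 * 1048576) ∧ k' (i / 80) = u0.v / 1048576 ∧
      ∀ y : ℝ, (i : ℝ) / 80 ≤ y → ((i : ℝ) / 80 < y ∨ i < 80) → y ≤ 1 →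
        lo.v / 1048576 + Zf n k k' y ≤ max 0 (y - j / 20) := by
  induction L with
  | nil =>
    intro i K u0 h
    have hi : 80 ≤ i := Nat.le_of_ble_eq_true h
    have hi' : (80 : ℝ) ≤ i := by exact_mod_cast hi
    refine ⟨_, _, cd_piece K.v u0.v u0.v i, ?_, ?_, fun y _ h1 h2 => ?_⟩
    · ring
    · ring
    · rcases h1 with h1 | h1
      · linarith
      · omega
  | cons u L ih =>
    intro i K u0 h
    rw [hpieces, Bool.and_eq_true] at h
    obtain ⟨k, k', c1, s1, s2, hg⟩ := ih _ _ _ h.2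
    simp only [Z.v_nrm, Z.v_add, Z.v_of, Nat.succ_eq_add_one, Nat.cast_add, Nat.cast_one]
      at s1 s2 hg
    have hi : (i : ℝ) / 80 ≤ (i + 1) / 80 := by linarith
    refine ⟨_, _, (cd_piece K.v u0.v (Z.of u).v i).glue c1 ((i + 1) / 80) ?_ ?_, ?_, ?_,
      fun y h0 _ h2 => ?_⟩
    · rw [s1, Z.v_of]; ring
    · rw [s2, Z.v_of]; ring
    · simp only [if_pos hi]; ring
    · simp only [if_pos hi]; ring
    · by_cases hy : y ≤ (i + 1) / 80
      · simp only [Zf, if_pos hy]
        exact piece h.1 h0 hy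
      · have := hg y (not_le.1 hy).le (Or.inl (not_le.1 hy)) h2
        simpa only [Zf, if_neg hy] using this

theorem rows (n : ℕ) (L : List Row) : ∀ j0 : ℕ, rowsOk n L j0 = true → ∀ j : ℕ,
    ∃ k k' : ℝ → ℝ, CD k k' ∧ ∀ y : ℝ, 0 ≤ y → y ≤ 1 →
      ((L.map Row.lo).getD j 0 : ℤ) / 1048576 + Zf n k k' y ≤ max 0 (y - (j0 + j : ℕ) / 20) := by
  induction L with
  | nil =>
    intro j0 _ j
    exact ⟨fun _ => 0, fun _ => 0, ⟨continuous_const, fun s => hasDerivAt_const s 0⟩,
      fun y _ _ => by simp [Zf]⟩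
  | cons r L ih =>
    intro j0 h j
    rw [rowsOk, Bool.and_eq_true] at h
    cases j with
    | zero =>
      obtain ⟨k, k', c1, -, -, hg⟩ := pieces n j0 _ _ _ _ _ h.1
      refine ⟨k, k', c1, fun y h0 h1 => ?_⟩
      simpa using hg y (by simpa using h0) (Or.inr (by norm_num)) h1
    | succ j =>
      have := ih _ h.2 j
      rw [show j0.succ + j = j0 + (j + 1) by omega] at this
      simpa only [List.map_cons, List.getD_cons_succ] using this

end TNTab

open TNTab in
theorem nTab : NTab := by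
  intro n L h j
  cases j with
  | zero =>
    exact ⟨fun _ => 0, fun _ => 0, ⟨continuous_const, fun s => hasDerivAt_const s 0⟩,
      fun y _ _ => by simp [Zf, tabOf]⟩
  | succ j =>
    have := rows n L 1 h j
    rw [add_comm] at this
    simpa only [tabOf, List.getD_cons_succ] using this

end Vale.Agent.P237
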