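import Vale.Agent.P237.NStmts
import Vale.Agent.P237.DRows
import Vale.Agent.P237.DB
import Vale.Agent.P237.D1
import Vale.Agent.P237.D2
import Vale.Agent.P237.D3
import Vale.Agent.P237.D4
import Vale.Agent.P237.D5
import Vale.Agent.P237.D6
import Vale.Agent.P237.D7
import Vale.Agent.P237.D8
import Vale.Agent.P237.D9
import Vale.Agent.P237.D10
import Vale.Agent.P237.D11
import Vale.Agent.P237.D12

/-! Assembly of the numerical certificates. -/

namespace Vale.Agent.P237

theorem ht0 (n : ℕ) : HT n tab0 := fun j =>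
  ⟨fun _ => 0, fun _ => 0, ⟨continuous_const, fun s => hasDerivAt_const s 0⟩, fun y _ _ => by
    have : tab0 j = 0 := by cases j <;> rfl
    simp [this, Zf]⟩

theorem of_cov {n a : ℕ} (h : Cov n 1048576 a 0 16777216)
    (h1 : tnum n ≤ tden n * (a * 1048576) ^ 2) (h2 : tnum n ≤ tden n * (16777216 * 1048576) ^ 2)
    {α T : ℝ} (hα : 1 ≤ α) (hT : 1 ≤ T) (e : (α * T) ^ 2 ≤ t0sq n) : Cert n α T := by
  have key : ∀ (b : ℕ) (x : ℝ), tnum n ≤ tden n * (b * 1048576) ^ 2 → x ≤ α * T →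
      x ≤ b / 1048576 := by
    intro b x hb hx
    have hb' : (tnum n : ℝ) ≤ tden n * (b * 1048576) ^ 2 := by exact_mod_cast hb
    refine hx.trans (le_of_sq_le_sq (e.trans ?_) (by positivity))
    rw [t0sq, div_le_iff₀ (by positivity)]
    simp only [tnum, tden] at hb'
    push_cast at hb'
    linarith
  exact h α T (by simpa using hα) (key a α h1 (by nlinarith)) (by simp; linarith)
    (key _ T h2 (by nlinarith)) e

theorem cov4 (h1 : NTree) (h2 : NTab) : Cov 4 1048576 1813504 0 16777216 :=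
  have h := h1 4 tab4 (by norm_num) (rows4_tab ▸ h2 4 _ rows4_ok)
  (Cov.splitA (Cov.splitA (Cov.splitA (Cov.splitA (Cov.splitA (h _ _ _ _ _ t4_1)
    (Cov.splitT (h _ _ _ _ _ t4_2)
    (Cov.splitT (Cov.splitT (Cov.splitT (h _ _ _ _ _ t4_3)
    (h _ _ _ _ _ t4_4))
    (h _ _ _ _ _ t4_5))
    (h _ _ _ _ _ t4_6))))
    (Cov.splitA (Cov.splitA (Cov.splitT (h _ _ _ _ _ t4_7)
    (Cov.splitT (h _ _ _ _ _ t4_8)
    (h _ _ _ _ _ t4_9)))
    (Cov.splitT (h _ _ _ _ _ t4_10)
    (Cov.splitT (Cov.splitT (Cov.splitT (h _ _ _ _ _ t4_11)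
    (h _ _ _ _ _ t4_12))
    (h _ _ _ _ _ t4_13))
    (h _ _ _ _ _ t4_14))))
    (Cov.splitT (h _ _ _ _ _ t4_15)
    (Cov.splitT (Cov.splitT (Cov.splitT (Cov.splitA (h _ _ _ _ _ t4_16)
    (h _ _ _ _ _ t4_17))
    (Cov.splitA (h _ _ _ _ _ t4_18)
    (h _ _ _ _ _ t4_19)))
    (h _ _ _ _ _ t4_20))
    (h _ _ _ _ _ t4_21)))))
    (Cov.splitA (Cov.splitA (Cov.splitT (h _ _ _ _ _ t4_22)
    (Cov.splitT (Cov.splitT (h _ _ _ _ _ t4_23)
    (h _ _ _ _ _ t4_24))
    (h _ _ _ _ _ t4_25)))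
    (Cov.splitA (h _ _ _ _ _ t4_26)
    (h _ _ _ _ _ t4_27)))
    (h _ _ _ _ _ t4_28)))
    (h _ _ _ _ _ t4_29))
    (h _ _ _ _ _ t4_30))

theorem cov5 (h1 : NTree) (h2 : NTab) : Cov 5 1048576 2010112 0 16777216 :=
  have h := h1 5 tab5 (by norm_num) (rows5_tab ▸ h2 5 _ rows5_ok)
  (Cov.splitA (Cov.splitA (Cov.splitA (Cov.splitA (h _ _ _ _ _ t5_1)
    (Cov.splitA (h _ _ _ _ _ t5_2)
    (Cov.splitA (h _ _ _ _ _ t5_3)
    (h _ _ _ _ _ t5_4))))
    (h _ _ _ _ _ t5_5))
    (h _ _ _ _ _ t5_6))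
    (h _ _ _ _ _ t5_7))

theorem cov6 (h1 : NTree) (h2 : NTab) : Cov 6 1048576 2190336 0 16777216 :=
  have h := h1 6 tab6 (by norm_num) (rows6_tab ▸ h2 6 _ rows6_ok)
  (h _ _ _ _ _ t6_1)

theorem cov7 (h1 : NTree) (_ : NTab) : Cov 7 1048576 2357248 0 16777216 :=
  have h := h1 7 tab0 (by norm_num) (ht0 7)
  (h _ _ _ _ _ t7_1)

theorem cov8 (h1 : NTree) (_ : NTab) : Cov 8 1048576 2512896 0 16777216 :=
  have h := h1 8 tab0 (by norm_num) (ht0 8)
  (h _ _ _ _ _ t8_1)

theorem cov9 (h1 : NTree) (_ : NTab) : Cov 9 1048576 2660352 0 16777216 :=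
  have h := h1 9 tab0 (by norm_num) (ht0 9)
  (h _ _ _ _ _ t9_1)

theorem cov10 (h1 : NTree) (_ : NTab) : Cov 10 1048576 2800640 0 16777216 :=
  have h := h1 10 tab0 (by norm_num) (ht0 10)
  (h _ _ _ _ _ t10_1)

theorem cov11 (h1 : NTree) (_ : NTab) : Cov 11 1048576 2934784 0 16777216 :=
  have h := h1 11 tab0 (by norm_num) (ht0 11)
  (h _ _ _ _ _ t11_1)

theorem cov12 (h1 : NTree) (_ : NTab) : Cov 12 1048576 3061760 0 16777216 :=
  have h := h1 12 tab0 (by norm_num) (ht0 12)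
  (h _ _ _ _ _ t12_1)

theorem cov13 (h1 : NTree) (_ : NTab) : Cov 13 1048576 3184640 0 16777216 :=
  have h := h1 13 tab0 (by norm_num) (ht0 13)
  (h _ _ _ _ _ t13_1)

theorem cov14 (h1 : NTree) (_ : NTab) : Cov 14 1048576 3303424 0 16777216 :=
  have h := h1 14 tab0 (by norm_num) (ht0 14)
  (h _ _ _ _ _ t14_1)

theorem cov15 (h1 : NTree) (_ : NTab) : Cov 15 1048576 3418112 0 16777216 :=
  have h := h1 15 tab0 (by norm_num) (ht0 15)
  (h _ _ _ _ _ t15_1)

theorem cov16 (h1 : NTree) (_ : NTab) : Cov 16 1048576 3528704 0 16777216 :=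
  have h := h1 16 tab0 (by norm_num) (ht0 16)
  (h _ _ _ _ _ t16_1)

theorem cov17 (h1 : NTree) (_ : NTab) : Cov 17 1048576 3636224 0 16777216 :=
  have h := h1 17 tab0 (by norm_num) (ht0 17)
  (h _ _ _ _ _ t17_1)

theorem cov18 (h1 : NTree) (_ : NTab) : Cov 18 1048576 3740672 0 16777216 :=
  have h := h1 18 tab0 (by norm_num) (ht0 18)
  (h _ _ _ _ _ t18_1)

theorem cov19 (h1 : NTree) (_ : NTab) : Cov 19 1048576 3842048 0 16777216 :=
  have h := h1 19 tab0 (by norm_num) (ht0 19)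
  (h _ _ _ _ _ t19_1)

theorem cov20 (h1 : NTree) (_ : NTab) : Cov 20 1048576 3941376 0 16777216 :=
  have h := h1 20 tab0 (by norm_num) (ht0 20)
  (h _ _ _ _ _ t20_1)

theorem cov21 (h1 : NTree) (_ : NTab) : Cov 21 1048576 4037632 0 16777216 :=
  have h := h1 21 tab0 (by norm_num) (ht0 21)
  (h _ _ _ _ _ t21_1)

theorem cov22 (h1 : NTree) (_ : NTab) : Cov 22 1048576 4131840 0 16777216 :=
  have h := h1 22 tab0 (by norm_num) (ht0 22)
  (h _ _ _ _ _ t22_1)

theorem cov23 (h1 : NTree) (_ : NTab) : Cov 23 1048576 4224000 0 16777216 :=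
  have h := h1 23 tab0 (by norm_num) (ht0 23)
  (h _ _ _ _ _ t23_1)

theorem cov24 (h1 : NTree) (_ : NTab) : Cov 24 1048576 4314112 0 16777216 :=
  have h := h1 24 tab0 (by norm_num) (ht0 24)
  (h _ _ _ _ _ t24_1)

theorem cov25 (h1 : NTree) (_ : NTab) : Cov 25 1048576 4403200 0 16777216 :=
  have h := h1 25 tab0 (by norm_num) (ht0 25)
  (h _ _ _ _ _ t25_1)

theorem cov26 (h1 : NTree) (_ : NTab) : Cov 26 1048576 4489216 0 16777216 :=
  have h := h1 26 tab0 (by norm_num) (ht0 26)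
  (h _ _ _ _ _ t26_1)

theorem cov27 (h1 : NTree) (_ : NTab) : Cov 27 1048576 4575232 0 16777216 :=
  have h := h1 27 tab0 (by norm_num) (ht0 27)
  (h _ _ _ _ _ t27_1)

theorem cov28 (h1 : NTree) (_ : NTab) : Cov 28 1048576 4658176 0 16777216 :=
  have h := h1 28 tab0 (by norm_num) (ht0 28)
  (h _ _ _ _ _ t28_1)

theorem cov29 (h1 : NTree) (_ : NTab) : Cov 29 1048576 4740096 0 16777216 :=
  have h := h1 29 tab0 (by norm_num) (ht0 29)
  (h _ _ _ _ _ t29_1)

theorem cov30 (h1 : NTree) (_ : NTab) : Cov 30 1048576 4820992 0 16777216 :=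
  have h := h1 30 tab0 (by norm_num) (ht0 30)
  (h _ _ _ _ _ t30_1)

theorem cov31 (h1 : NTree) (_ : NTab) : Cov 31 1048576 4900864 0 16777216 :=
  have h := h1 31 tab0 (by norm_num) (ht0 31)
  (h _ _ _ _ _ t31_1)

theorem num (h1 : NTree) (h2 : NTab) (h3 : NCellB) (h4 : NBig) : NUM := by
  intro n α T hn hα hT e
  by_cases h : n < 32
  · interval_cases n
    · exact of_cov (cov4 h1 h2) (by decide) (by decide) hα hT e
    · exact of_cov (cov5 h1 h2) (by decide) (by decide) hα hT e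
    · exact of_cov (cov6 h1 h2) (by decide) (by decide) hα hT e
    · exact of_cov (cov7 h1 h2) (by decide) (by decide) hα hT e
    · exact of_cov (cov8 h1 h2) (by decide) (by decide) hα hT e
    · exact of_cov (cov9 h1 h2) (by decide) (by decide) hα hT e
    · exact of_cov (cov10 h1 h2) (by decide) (by decide) hα hT e
    · exact of_cov (cov11 h1 h2) (by decide) (by decide) hα hT e
    · exact of_cov (cov12 h1 h2) (by decide) (by decide) hα hT e
    · exact of_cov (cov13 h1 h2) (by decide) (by decide) hα hT e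
    · exact of_cov (cov14 h1 h2) (by decide) (by decide) hα hT e
    · exact of_cov (cov15 h1 h2) (by decide) (by decide) hα hT e
    · exact of_cov (cov16 h1 h2) (by decide) (by decide) hα hT e
    · exact of_cov (cov17 h1 h2) (by decide) (by decide) hα hT e
    · exact of_cov (cov18 h1 h2) (by decide) (by decide) hα hT e
    · exact of_cov (cov19 h1 h2) (by decide) (by decide) hα hT e
    · exact of_cov (cov20 h1 h2) (by decide) (by decide) hα hT e
    · exact of_cov (cov21 h1 h2) (by decide) (by decide) hα hT e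
    · exact of_cov (cov22 h1 h2) (by decide) (by decide) hα hT e
    · exact of_cov (cov23 h1 h2) (by decide) (by decide) hα hT e
    · exact of_cov (cov24 h1 h2) (by decide) (by decide) hα hT e
    · exact of_cov (cov25 h1 h2) (by decide) (by decide) hα hT e
    · exact of_cov (cov26 h1 h2) (by decide) (by decide) hα hT e
    · exact of_cov (cov27 h1 h2) (by decide) (by decide) hα hT e
    · exact of_cov (cov28 h1 h2) (by decide) (by decide) hα hT e
    · exact of_cov (cov29 h1 h2) (by decide) (by decide) hα hT e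
    · exact of_cov (cov30 h1 h2) (by decide) (by decide) hα hT e
    · exact of_cov (cov31 h1 h2) (by decide) (by decide) hα hT e
  rw [not_lt] at h
  rcases le_total α (1080033 / 1048576) with c1 | c1
  · exact h3 _ cB1_ok n α T h (by simpa [cB1] using hα) (by simpa [cB1] using c1) e
  rcases le_total α (1205862 / 1048576) with c2 | c2
  · exact h3 _ cB2_ok n α T h (by simpa [cB2] using c1) (by simpa [cB2] using c2) e
  rcases le_total α (1468006 / 1048576) with c3 | c3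
  · exact h3 _ cB3_ok n α T h (by simpa [cB3] using c2) (by simpa [cB3] using c3) e
  rcases le_total α (2212495 / 1048576) with c4 | c4
  · exact h3 _ cB4_ok n α T h (by simpa [cB4] using c3) (by simpa [cB4] using c4) e
  exact h4 n α T h (by linarith) e

end Vale.Agent.P237
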