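import Vale.Agent.P237.Stmts

/-! The maximum of a gauge on the sphere. -/

namespace Vale.Agent.P237

open MeasureTheory Metric Real Set
open scoped RealInnerProductSpace NNReal Topology

namespace TVTa

theorem key {n : ℕ} {N : E n → ℝ} (hN : Gau N) {T : ℝ} {v : E n} (hv : ‖v‖ = 1) (hT : N v = T)
    (h0 : 0 < T) (h : ∀ x, N x ≤ T * ‖x‖) (x : E n) : T * ⟪x, v⟫ ≤ N x := by
  refine le_of_forall_pos_le_add fun δ hδ => ?_
  set e : ℝ := δ / (T * (‖x‖ ^ 2 + 1)) with he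
  have hp : 0 < T * (‖x‖ ^ 2 + 1) := by positivity
  have e0 : 0 < e := div_pos hδ hp
  have e1 : e * (T * (‖x‖ ^ 2 + 1)) = δ := div_mul_cancel₀ _ hp.ne'
  have h1 := hN.add (v - e • x) (e • x)
  rw [sub_add_cancel, hN.smul e e0.le, hT] at h1
  have h2 := h (v - e • x)
  have h3 : ‖v - e • x‖ ^ 2 = 1 - 2 * (e * ⟪x, v⟫) + e ^ 2 * ‖x‖ ^ 2 := by
    rw [norm_sub_sq_real, hv, real_inner_smul_right, norm_smul, Real.norm_of_nonneg e0.le,
      real_inner_comm]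
    ring
  have h4 : ‖v - e • x‖ ≤ 1 - e * ⟪x, v⟫ + e ^ 2 * ‖x‖ ^ 2 / 2 := by
    nlinarith [sq_nonneg (‖v - e • x‖ - 1)]
  have h5 := mul_le_mul_of_nonneg_left h4 h0.le
  refine le_of_mul_le_mul_left ?_ e0
  have h6 : 0 ≤ e ^ 2 * T * ‖x‖ ^ 2 := by positivity
  have h7 : 0 ≤ e ^ 2 * T := by positivity
  rw [← e1]
  nlinarith

end TVTa

theorem vta : VTa := by
  intro n N hn hN hev
  haveI := nontriv hn
  haveI := σ_prob hn
  obtain ⟨v, hv, hmax⟩ := (isCompact_sphere (0 : E n) 1).exists_isMaxOn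
    (NormedSpace.sphere_nonempty.2 zero_le_one) hN.cont.continuousOn
  have hv1 : ‖v‖ = 1 := mem_sphere_zero_iff_norm.1 hv
  have h0 : 0 < N v := hN.pos1 hv1
  have h1 : ∀ x, N x ≤ N v * ‖x‖ := fun x => by
    rcases eq_or_ne x 0 with rfl | hx
    · rw [hN.zero, norm_zero, mul_zero]
    · have hp : 0 < ‖x‖ := norm_pos_iff.2 hx
      have h2 : N (‖x‖⁻¹ • x) ≤ N v := hmax (mem_sphere_zero_iff_norm.2 (by
        rw [norm_smul, norm_inv, norm_norm, inv_mul_cancel₀ hp.ne']))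
      rwa [hN.smul _ (inv_nonneg.2 hp.le), inv_mul_le_iff₀ hp, mul_comm] at h2
  refine ⟨N v, v, hv1, rfl, h1, fun x => ?_, fun hV => ?_⟩
  · rcases le_total 0 ⟪x, v⟫ with h | h
    · rw [abs_of_nonneg h]
      exact TVTa.key hN hv1 rfl h0 h1 x
    · rw [abs_of_nonpos h, ← inner_neg_left, ← hev x]
      exact TVTa.key hN hv1 rfl h0 h1 (-x)
  · by_contra hc
    have h2 : 1 < (N v)⁻¹ ^ n := one_lt_pow₀ ((one_lt_inv₀ h0).2 (not_le.1 hc)) hn.ne'
    have h3 : ∫ _a, (N v)⁻¹ ^ n ∂σ n ≤ ∫ a, (N a)⁻¹ ^ n ∂σ n := by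
      refine integral_mono_ae (integrable_const _) (hN.bm_inv.pow n).int ?_
      filter_upwards [σ_ae] with a ha
      exact pow_le_pow_left₀ (inv_nonneg.2 h0.le)
        (inv_anti₀ (hN.pos1 ha) (hmax (mem_sphere_zero_iff_norm.2 ha))) n
    have h4 : ∫ a, (N a)⁻¹ ^ n ∂σ n = 1 := hV
    rw [h4, integral_const, probReal_univ, one_smul] at h3
    linarith

end Vale.Agent.P237
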